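import Vale.Agent.Lib.P335.Avg

/-!
From a bound on the variance to total variation, for symmetric lazy stochastic matrices.
-/

namespace Vale.Agent.Lib.P335

open Finset Matrix

variable {Ω : Type*} [Fintype Ω] [DecidableEq Ω]

theorem avg_top_apply (f : Ω → ℝ) (x : Ω) :
    avg relTop f x = (∑ y, f y) / (Fintype.card Ω : ℝ) := by
  unfold avg
  have : univ.filter (relTop x) = univ := by
    ext y
    simp [relTop]
  rw [this, Finset.card_univ]

theorem mulVec_apply_sum (R : Matrix Ω Ω ℝ) (g : Ω → ℝ) (x : Ω) :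
    R.mulVec g x = ∑ y, R x y * g y := rfl

/-- Jensen for a symmetric stochastic matrix. -/
theorem contraction (R : Matrix Ω Ω ℝ) (hs : ∀ x y, R x y = R y x) (hn : ∀ x y, 0 ≤ R x y)
    (h1 : ∀ x, ∑ y, R x y = 1) (g : Ω → ℝ) : R.mulVec g ⬝ᵥ R.mulVec g ≤ g ⬝ᵥ g := by
  have hx : ∀ x, R.mulVec g x * R.mulVec g x ≤ ∑ y, R x y * (g y * g y) := by
    intro x
    set m := R.mulVec g x with hm
    have h0 : 0 ≤ ∑ y, R x y * ((g y - m) * (g y - m)) :=
      Finset.sum_nonneg (fun y _ => mul_nonneg (hn x y) (mul_self_nonneg _))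
    have h2 : ∑ y, R x y * ((g y - m) * (g y - m))
        = ∑ y, R x y * (g y * g y) - 2 * m * ∑ y, R x y * g y + m * m * ∑ y, R x y := by
      rw [Finset.mul_sum, Finset.mul_sum, ← Finset.sum_sub_distrib, ← Finset.sum_add_distrib]
      apply Finset.sum_congr rfl
      intro y _
      ring
    have hm' : ∑ y, R x y * g y = m := rfl
    rw [h2, h1 x, hm'] at h0
    linarith
  calc R.mulVec g ⬝ᵥ R.mulVec g ≤ ∑ x, ∑ y, R x y * (g y * g y) :=
        Finset.sum_le_sum (fun x _ => hx x)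
    _ = ∑ y, ∑ x, R x y * (g y * g y) := Finset.sum_comm
    _ = ∑ y, (∑ x, R y x) * (g y * g y) := by
        apply Finset.sum_congr rfl
        intro y _
        rw [Finset.sum_mul]
        apply Finset.sum_congr rfl
        intro x _
        rw [hs x y]
    _ = g ⬝ᵥ g := by
        apply Finset.sum_congr rfl
        intro y _
        rw [h1 y, one_mul]

variable (P : Matrix Ω Ω ℝ) (hs : ∀ x y, P x y = P y x) (h1 : ∀ x, ∑ y, P x y = 1)

include hs h1 in
/-- Symmetric matrices with unit row sums: the form by differences. -/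
theorem dirichlet (g : Ω → ℝ) :
    g ⬝ᵥ g - g ⬝ᵥ P.mulVec g = (1 / 2) * ∑ x, ∑ y, P x y * (g x - g y) ^ 2 := by
  have e1 : ∑ x, ∑ y, P x y * (g x * g x) = g ⬝ᵥ g := by
    apply Finset.sum_congr rfl
    intro x _
    rw [← Finset.sum_mul, h1 x, one_mul]
  have e2 : ∑ x, ∑ y, P x y * (g y * g y) = g ⬝ᵥ g := by
    rw [Finset.sum_comm, ← e1]
    apply Finset.sum_congr rfl
    intro y _
    apply Finset.sum_congr rfl
    intro x _
    rw [hs x y]
  have e3 : ∑ x, ∑ y, P x y * (g x * g y) = g ⬝ᵥ P.mulVec g := by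
    apply Finset.sum_congr rfl
    intro x _
    rw [mulVec_apply_sum, Finset.mul_sum]
    apply Finset.sum_congr rfl
    intro y _
    ring
  have e4 : ∑ x, ∑ y, P x y * (g x - g y) ^ 2
      = ∑ x, ∑ y, P x y * (g x * g x) + ∑ x, ∑ y, P x y * (g y * g y)
        - 2 * ∑ x, ∑ y, P x y * (g x * g y) := by
    rw [Finset.mul_sum, ← Finset.sum_add_distrib, ← Finset.sum_sub_distrib]
    apply Finset.sum_congr rfl
    intro x _
    rw [Finset.mul_sum, ← Finset.sum_add_distrib, ← Finset.sum_sub_distrib]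
    apply Finset.sum_congr rfl
    intro y _
    ring
  rw [e4, e1, e2, e3]
  ring

include hs h1 in
theorem lazy_le (hn : ∀ x y, 0 ≤ P x y) (hl : ∀ x, 1 / 2 ≤ P x x) (g : Ω → ℝ) :
    P.mulVec g ⬝ᵥ P.mulVec g ≤ g ⬝ᵥ P.mulVec g := by
  let R : Matrix Ω Ω ℝ := Matrix.of (fun x y => 2 * P x y - if x = y then 1 else 0)
  have hRe : ∀ x y, R x y = 2 * P x y - if x = y then 1 else 0 := fun _ _ => rfl
  have hRs : ∀ x y, R x y = R y x := by
    intro x y
    rw [hRe, hRe, hs x y]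
    simp only [eq_comm]
  have hRn : ∀ x y, 0 ≤ R x y := by
    intro x y
    rw [hRe]
    by_cases h : x = y
    · subst h
      simp only [if_true]
      linarith [hl x]
    · simp only [h, if_false]
      linarith [hn x y]
  have hR1 : ∀ x, ∑ y, R x y = 1 := by
    intro x
    simp only [hRe]
    rw [Finset.sum_sub_distrib, ← Finset.mul_sum, h1 x]
    simp only [Finset.sum_ite_eq, Finset.mem_univ, if_true]
    norm_num
  have hc := contraction R hRs hRn hR1 g
  have hRv : ∀ x, R.mulVec g x = 2 * P.mulVec g x - g x := by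
    intro x
    rw [mulVec_apply_sum, mulVec_apply_sum]
    simp only [hRe, sub_mul, ite_mul, one_mul, zero_mul]
    rw [Finset.sum_sub_distrib, Finset.mul_sum]
    simp only [Finset.sum_ite_eq, Finset.mem_univ, if_true, mul_assoc]
  have hP : P.mulVec g = (1 / 2 : ℝ) • (g + R.mulVec g) := by
    funext x
    simp only [Pi.smul_apply, Pi.add_apply, smul_eq_mul, hRv]
    ring
  rw [hP]
  simp only [smul_dotProduct, dotProduct_smul, add_dotProduct, dotProduct_add, smul_eq_mul]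
  rw [dotProduct_comm (R.mulVec g) g]
  nlinarith [hc]

include h1 in
theorem mulVec_const (t : ℕ) (c : ℝ) : (P ^ t).mulVec (fun _ => c) = fun _ => c := by
  induction t with
  | zero => simp
  | succ t ih =>
    rw [pow_succ', ← Matrix.mulVec_mulVec, ih]
    funext x
    rw [mulVec_apply_sum, ← Finset.sum_mul, h1 x, one_mul]

include hs h1 in
theorem sum_mulVec (g : Ω → ℝ) : ∑ x, P.mulVec g x = ∑ x, g x := by
  have e : ∑ x, P.mulVec g x = ∑ x, ∑ y, P x y * g y := rfl
  rw [e, Finset.sum_comm]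
  apply Finset.sum_congr rfl
  intro y _
  rw [← Finset.sum_mul]
  have : ∑ x, P x y = 1 := by
    rw [← h1 y]
    apply Finset.sum_congr rfl
    intro x _
    exact hs x y
  rw [this, one_mul]

include hs h1 in
theorem decay (hn : ∀ x y, 0 ≤ P x y) (hl : ∀ x, 1 / 2 ≤ P x x) (γ : ℝ) (hγ1 : γ ≤ 1)
    (hgap : ∀ f : Ω → ℝ, γ * (f ⬝ᵥ f - avg relTop f ⬝ᵥ avg relTop f)
      ≤ (1 / 2) * ∑ x, ∑ y, P x y * (f x - f y) ^ 2)
    (u : Ω → ℝ) (hu : ∑ x, u x = 0) (t : ℕ) :
    (P ^ t).mulVec u ⬝ᵥ (P ^ t).mulVec u ≤ (1 - γ) ^ t * (u ⬝ᵥ u) := by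
  have hstep : ∀ g : Ω → ℝ, ∑ x, g x = 0 →
      P.mulVec g ⬝ᵥ P.mulVec g ≤ (1 - γ) * (g ⬝ᵥ g) := by
    intro g hg
    have h0 : avg relTop g = 0 := by
      funext x
      rw [avg_top_apply, hg]
      simp
    have h2 := hgap g
    rw [h0] at h2
    simp only [dotProduct_zero, sub_zero] at h2
    have h3 := dirichlet P hs h1 g
    have h4 := lazy_le P hs h1 hn hl g
    rw [sub_mul, one_mul]
    linarith
  induction t with
  | zero => simp
  | succ t ih =>
    have hm : ∑ x, (P ^ t).mulVec u x = 0 := by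
      clear ih
      induction t with
      | zero => simpa using hu
      | succ t ih2 =>
        rw [pow_succ', ← Matrix.mulVec_mulVec, sum_mulVec P hs h1]
        exact ih2
    rw [pow_succ', ← Matrix.mulVec_mulVec]
    have h5 := hstep _ hm
    calc _ ≤ (1 - γ) * ((P ^ t).mulVec u ⬝ᵥ (P ^ t).mulVec u) := h5
      _ ≤ (1 - γ) * ((1 - γ) ^ t * (u ⬝ᵥ u)) :=
          mul_le_mul_of_nonneg_left ih (by linarith)
      _ = _ := by ring

/-- Main statement of this file. -/
theorem mixing_of_gap [Nonempty Ω] (hn : ∀ x y, 0 ≤ P x y) (hl : ∀ x, 1 / 2 ≤ P x x) (γ : ℝ)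
    (hs : ∀ x y, P x y = P y x) (h1 : ∀ x, ∑ y, P x y = 1) (hγ1 : γ ≤ 1)
    (hgap : ∀ f : Ω → ℝ, γ * (f ⬝ᵥ f - avg relTop f ⬝ᵥ avg relTop f)
      ≤ (1 / 2) * ∑ x, ∑ y, P x y * (f x - f y) ^ 2)
    (t : ℕ) (ht : (Fintype.card Ω : ℝ) * (1 - γ) ^ t ≤ 1 / 4) (x₀ : Ω) :
    (1 / 2) * ∑ y, |(P ^ t) x₀ y - 1 / (Fintype.card Ω : ℝ)| ≤ 1 / 4 := by
  set N : ℝ := (Fintype.card Ω : ℝ) with hN
  have hNpos : 0 < N := by
    rw [hN]
    exact_mod_cast Fintype.card_pos
  let u : Ω → ℝ := fun y => (if y = x₀ then 1 else 0) - 1 / N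
  have hu : ∑ x, u x = 0 := by
    simp only [u]
    rw [Finset.sum_sub_distrib]
    simp only [Finset.sum_ite_eq', Finset.mem_univ, if_true, Finset.sum_const, Finset.card_univ,
      nsmul_eq_mul]
    rw [← hN]
    field_simp
    ring
  have hdot : u ⬝ᵥ u ≤ 1 := by
    have e : u ⬝ᵥ u = 1 - 1 / N := by
      simp only [dotProduct, u]
      have : ∀ y, ((if y = x₀ then (1 : ℝ) else 0) - 1 / N) * ((if y = x₀ then 1 else 0) - 1 / N)
          = (if y = x₀ then (1 - 2 / N) else 0) + (1 / N) ^ 2 := by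
        intro y
        by_cases h : y = x₀
        · simp only [h, if_true]
          ring
        · simp only [h, if_false]
          ring
      simp only [this]
      rw [Finset.sum_add_distrib]
      simp only [Finset.sum_ite_eq', Finset.mem_univ, if_true, Finset.sum_const, Finset.card_univ,
        nsmul_eq_mul]
      rw [← hN]
      field_simp
      ring
    rw [e]
    have : 0 < 1 / N := by positivity
    linarith
  have hrow : (fun y => (P ^ t) x₀ y - 1 / N) = (P ^ t).mulVec u := by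
    funext y
    have h2 : (P ^ t).mulVec (fun _ => 1 / N) y = 1 / N := by
      rw [mulVec_const P h1 t]
    have hu2 : u = (fun y => if y = x₀ then (1 : ℝ) else 0) - (fun _ => 1 / N) := rfl
    rw [hu2, Matrix.mulVec_sub]
    simp only [Pi.sub_apply]
    rw [h2]
    congr 1
    rw [mulVec_apply_sum]
    simp only [mul_ite, mul_one, mul_zero, Finset.sum_ite_eq', Finset.mem_univ, if_true]
    have hsymm : (P ^ t) = (P ^ t).transpose := by
      have hPs : P.transpose = P := by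
        ext x y
        exact hs y x
      rw [Matrix.transpose_pow, hPs]
    conv_lhs => rw [hsymm]
    rfl
  have hd := decay P hs h1 hn hl γ hγ1 hgap u hu t
  have h3 : (∑ y, |(P ^ t) x₀ y - 1 / N|) ^ 2 ≤ 1 / 4 := by
    have hcs := sq_sum_le_card_mul_sum_sq (s := (univ : Finset Ω))
      (f := fun y => |(P ^ t) x₀ y - 1 / N|)
    have hq : ∑ y, |(P ^ t) x₀ y - 1 / N| ^ 2 = (P ^ t).mulVec u ⬝ᵥ (P ^ t).mulVec u := by
      rw [← hrow]
      apply Finset.sum_congr rfl
      intro y _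
      rw [sq_abs]
      ring
    rw [hq, Finset.card_univ] at hcs
    have h4 : (P ^ t).mulVec u ⬝ᵥ (P ^ t).mulVec u ≤ (1 - γ) ^ t := by
      have h5 : 0 ≤ (1 - γ) ^ t := pow_nonneg (by linarith) t
      calc _ ≤ (1 - γ) ^ t * (u ⬝ᵥ u) := hd
        _ ≤ (1 - γ) ^ t * 1 := mul_le_mul_of_nonneg_left hdot h5
        _ = _ := mul_one _
    calc _ ≤ N * ((P ^ t).mulVec u ⬝ᵥ (P ^ t).mulVec u) := hcs
      _ ≤ N * (1 - γ) ^ t := mul_le_mul_of_nonneg_left h4 hNpos.le
      _ ≤ 1 / 4 := ht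
  have h6 : ∑ y, |(P ^ t) x₀ y - 1 / N| ≤ 1 / 2 := by
    have h7 : 0 ≤ ∑ y, |(P ^ t) x₀ y - 1 / N| := Finset.sum_nonneg (fun _ _ => abs_nonneg _)
    nlinarith
  linarith

end Vale.Agent.Lib.P335
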