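import Vale.Agent.Lib.P335.Interchange

/-!
The radial argument: three integer statistics which are pairwise stochastically
anti-monotone satisfy the variance bound with constant two.
-/

namespace Vale.Agent.Lib.P335

open Finset Matrix

variable {Ω : Type*} [Fintype Ω]

/-- Relation: same value of an integer statistic. -/
def sameVal (b : Ω → ℕ) (x y : Ω) : Prop := b x = b y

instance (b : Ω → ℕ) : DecidableRel (sameVal b) := fun x y => Nat.decEq (b x) (b y)

theorem sameVal_equiv (b : Ω → ℕ) : Equivalence (sameVal b) :=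
  ⟨fun _ => rfl, fun h => h.symm, fun h k => h.trans k⟩

/-- Conditional mean of `g` given the level `y` of `b`. -/
noncomputable def lev (b : Ω → ℕ) (g : Ω → ℝ) (y : ℕ) : ℝ :=
  (∑ x ∈ univ.filter (fun x => y = b x), g x) / ((univ.filter (fun x => y = b x)).card : ℝ)

theorem avg_sameVal (b : Ω → ℕ) (g : Ω → ℝ) (x : Ω) : avg (sameVal b) g x = lev b g (b x) := rfl

/-- Monotone expectations under a likelihood ratio comparison. -/
theorem mlr_sum (V : Finset ℕ) (A B : ℕ → ℝ) (u : ℕ → ℝ) (hu : Monotone u)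
    (h : ∀ v ∈ V, ∀ w ∈ V, v < w → A w * B v ≤ A v * B w) :
    (∑ v ∈ V, A v * u v) * (∑ w ∈ V, B w) ≤ (∑ w ∈ V, B w * u w) * (∑ v ∈ V, A v) := by
  have h1 : (∑ w ∈ V, B w * u w) * (∑ v ∈ V, A v) - (∑ v ∈ V, A v * u v) * (∑ w ∈ V, B w)
      = ∑ v ∈ V, ∑ w ∈ V, A v * B w * (u w - u v) := by
    have e1 : (∑ w ∈ V, B w * u w) * (∑ v ∈ V, A v) = ∑ v ∈ V, ∑ w ∈ V, A v * B w * u w := by
      rw [Finset.sum_mul_sum, Finset.sum_comm]
      apply Finset.sum_congr rfl; intro v _
      apply Finset.sum_congr rfl; intro w _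
      ring
    have e2 : (∑ v ∈ V, A v * u v) * (∑ w ∈ V, B w) = ∑ v ∈ V, ∑ w ∈ V, A v * B w * u v := by
      rw [Finset.sum_mul_sum]
      apply Finset.sum_congr rfl; intro v _
      apply Finset.sum_congr rfl; intro w _
      ring
    rw [e1, e2, ← Finset.sum_sub_distrib]
    apply Finset.sum_congr rfl; intro v _
    rw [← Finset.sum_sub_distrib]
    apply Finset.sum_congr rfl; intro w _
    ring
  have h2 : ∑ v ∈ V, ∑ w ∈ V, A v * B w * (u w - u v)
      = ∑ v ∈ V, ∑ w ∈ V, A w * B v * (u v - u w) := Finset.sum_comm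
  have h3 : 0 ≤ ∑ v ∈ V, ∑ w ∈ V, ((A v * B w * (u w - u v)) + (A w * B v * (u v - u w))) := by
    apply Finset.sum_nonneg; intro v hv
    apply Finset.sum_nonneg; intro w hw
    have e : (A v * B w * (u w - u v)) + (A w * B v * (u v - u w))
        = (A v * B w - A w * B v) * (u w - u v) := by ring
    rw [e]
    rcases lt_trichotomy v w with hlt | heq | hgt
    · have := h v hv w hw hlt
      have h4 : u v ≤ u w := hu hlt.le
      exact mul_nonneg (by linarith) (by linarith)
    · subst heq
      simp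
    · have := h w hw v hv hgt
      have h4 : u w ≤ u v := hu hgt.le
      exact mul_nonneg_of_nonpos_of_nonpos (by linarith) (by linarith)
  have h4 : ∑ v ∈ V, ∑ w ∈ V, ((A v * B w * (u w - u v)) + (A w * B v * (u v - u w)))
      = 2 * ∑ v ∈ V, ∑ w ∈ V, A v * B w * (u w - u v) := by
    simp only [Finset.sum_add_distrib]
    rw [← h2]
    ring
  rw [h4] at h3
  rw [← h1] at h3
  linarith

/-- Chain along adjacent values of a statistic without holes. -/
theorem mono_of_adjacent (b : Ω → ℕ) (W : ℕ → ℝ)
    (hI : ∀ x w, b x < b w → ∃ x₁, b x₁ = b x + 1)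
    (hadj : ∀ y, (∃ x, b x = y) → (∃ x, b x = y + 1) → W y ≤ W (y + 1))
    (x x' : Ω) (h : b x ≤ b x') : W (b x) ≤ W (b x') := by
  induction hd : b x' - b x using Nat.strong_induction_on generalizing x with
  | _ d ih =>
    rcases h.lt_or_eq with hlt | heq
    · obtain ⟨x₁, hx₁⟩ := hI x x' hlt
      have h1 : W (b x) ≤ W (b x + 1) := hadj _ ⟨x, rfl⟩ ⟨x₁, hx₁⟩
      have h2 : b x₁ ≤ b x' := by omega
      have h3 := ih (b x' - b x₁) (by omega) x₁ h2 rfl
      rw [hx₁] at h3
      linarith
    · rw [heq]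

/-- Covariance. -/
noncomputable def cov (f g : Ω → ℝ) : ℝ :=
  f ⬝ᵥ g - (∑ x, f x) * (∑ x, g x) / (Fintype.card Ω : ℝ)

theorem cov_double (hN : 0 < Fintype.card Ω) (f g : Ω → ℝ) :
    ∑ x, ∑ y, (f x - f y) * (g x - g y) = 2 * (Fintype.card Ω : ℝ) * cov f g := by
  have hN' : (Fintype.card Ω : ℝ) ≠ 0 := by positivity
  unfold cov
  have h1 : ∑ x, ∑ y, (f x - f y) * (g x - g y)
      = ∑ x, ∑ y, (f x * g x + f y * g y - f x * g y - f y * g x) := by
    apply Finset.sum_congr rfl; intro x _
    apply Finset.sum_congr rfl; intro y _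
    ring
  have hc : (∑ _x : Ω, (1 : ℝ)) = Fintype.card Ω := by simp
  have h2 : ∑ x, ∑ y, (f x * g x + f y * g y - f x * g y - f y * g x)
      = 2 * (Fintype.card Ω : ℝ) * (f ⬝ᵥ g) - 2 * ((∑ x, f x) * (∑ x, g x)) := by
    simp only [Finset.sum_sub_distrib, Finset.sum_add_distrib, Finset.sum_const, Finset.card_univ,
      nsmul_eq_mul]
    have e1 : ∑ x, ∑ y, f x * g y = (∑ x, f x) * (∑ x, g x) := by
      rw [Finset.sum_mul_sum]
    have e2 : ∑ x, ∑ y, f y * g x = (∑ x, f x) * (∑ x, g x) := by
      rw [Finset.sum_comm, Finset.sum_mul_sum]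
    rw [e1, e2]
    unfold dotProduct
    rw [← Finset.mul_sum]
    ring
  rw [h1, h2]
  field_simp

theorem cov_add_left (f f' g : Ω → ℝ) : cov (f + f') g = cov f g + cov f' g := by
  unfold cov
  rw [add_dotProduct]
  simp only [Pi.add_apply, Finset.sum_add_distrib]
  ring

theorem cov_comm (f g : Ω → ℝ) : cov f g = cov g f := by
  unfold cov
  rw [dotProduct_comm]
  ring

theorem cov_add_right (f g g' : Ω → ℝ) : cov f (g + g') = cov f g + cov f g' := by
  rw [cov_comm, cov_add_left, cov_comm g, cov_comm g']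

theorem cov_smul_right (f g : Ω → ℝ) (c : ℝ) : cov f (c • g) = c * cov f g := by
  unfold cov
  rw [dotProduct_smul, smul_eq_mul]
  simp only [Pi.smul_apply, smul_eq_mul, ← Finset.mul_sum]
  ring

theorem cov_neg_right (f g : Ω → ℝ) : cov f (-g) = - cov f g := by
  have := cov_smul_right f g (-1)
  simpa using this

theorem cov_self_nonneg (hN : 0 < Fintype.card Ω) (f : Ω → ℝ) : 0 ≤ cov f f := by
  have h1 := cov_double hN f f
  have h2 : 0 ≤ ∑ x, ∑ y, (f x - f y) * (f x - f y) :=
    Finset.sum_nonneg (fun x _ => Finset.sum_nonneg (fun y _ => mul_self_nonneg _))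
  rw [h1] at h2
  have h3 : (0 : ℝ) < 2 * (Fintype.card Ω : ℝ) := by positivity
  exact nonneg_of_mul_nonneg_right h2 h3

theorem const_of_cov_self_eq_zero (hN : 0 < Fintype.card Ω) (f : Ω → ℝ) (h : cov f f = 0)
    (x y : Ω) : f x = f y := by
  have h1 := cov_double hN f f
  rw [h, mul_zero] at h1
  have h2 := (Finset.sum_eq_zero_iff_of_nonneg (fun x _ =>
    Finset.sum_nonneg (fun y _ => mul_self_nonneg (f x - f y)))).mp h1 x (Finset.mem_univ x)
  have h3 := (Finset.sum_eq_zero_iff_of_nonneg (fun y _ =>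
    mul_self_nonneg (f x - f y))).mp h2 y (Finset.mem_univ y)
  have := mul_self_eq_zero.mp h3
  linarith

theorem cov_nonneg_of_ordered (hN : 0 < Fintype.card Ω) (f g : Ω → ℝ)
    (h : ∀ x y, 0 ≤ (f x - f y) * (g x - g y)) : 0 ≤ cov f g := by
  have h1 := cov_double hN f g
  have h2 : 0 ≤ ∑ x, ∑ y, (f x - f y) * (g x - g y) :=
    Finset.sum_nonneg (fun x _ => Finset.sum_nonneg (fun y _ => h x y))
  rw [h1] at h2
  have h3 : (0 : ℝ) < 2 * (Fintype.card Ω : ℝ) := by positivity
  exact nonneg_of_mul_nonneg_right h2 h3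

section Radial

variable (a : Fin 3 → Ω → ℕ)

theorem radial_eigen
    (hI : ∀ i x w, a i x < a i w → ∃ x₁, a i x₁ = a i x + 1)
    (hM : ∀ i l, i ≠ l → ∀ y, (∃ x, a i x = y) → (∃ x, a i x = y + 1) → ∀ u : ℕ → ℝ, Monotone u →
      lev (a i) (u ∘ a l) (y + 1) ≤ lev (a i) (u ∘ a l) y)
    (v : Ω → ℝ) (μ : ℝ) (hv : v ≠ 0)
    (hev : ∑ i, avg (sameVal (a i)) v - (3 : ℝ) • avg relTop v = μ • v) : μ ≤ 2 := by
  by_contra hμ
  rw [not_le] at hμ
  have hμ0 : μ ≠ 0 := by linarith
  have hμpos : 0 < μ := by linarith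
  have hN : 0 < Fintype.card Ω := by
    have : Nonempty Ω := by
      by_contra hne
      rw [not_nonempty_iff] at hne
      exact hv (Subsingleton.elim _ _)
    exact Fintype.card_pos
  -- the global mean vanishes
  have hE₀ : avg relTop v = 0 := by
    have h1 := congrArg (avg relTop) hev
    rw [avg_sub, avg_sum, avg_smul, avg_avg relTop_equiv, avg_smul] at h1
    have h2 : ∀ i, avg relTop (avg (sameVal (a i)) v) = avg relTop v := fun i =>
      avg_tower (sameVal_equiv _) relTop_equiv (fun _ _ _ => trivial) v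
    simp only [h2] at h1
    rw [Fin.sum_univ_three] at h1
    have h3 : avg relTop v + avg relTop v + avg relTop v - (3 : ℝ) • avg relTop v = 0 := by
      funext x
      simp only [Pi.add_apply, Pi.sub_apply, Pi.smul_apply, smul_eq_mul, Pi.zero_apply]
      ring
    rw [h3] at h1
    rcases smul_eq_zero.mp h1.symm with h5 | h5
    · exact absurd h5 hμ0
    · exact h5
  have hsum : ∑ i, avg (sameVal (a i)) v = μ • v := by
    rw [hE₀] at hev
    simpa using hev
  -- radial profiles
  let G : Fin 3 → ℕ → ℝ := fun i y => lev (a i) v y / μ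
  have hGdef : ∀ i x, avg (sameVal (a i)) v x = μ * G i (a i x) := by
    intro i x
    rw [avg_sameVal]
    simp only [G]
    field_simp
  have hvG : ∀ x, v x = ∑ i, G i (a i x) := by
    intro x
    have h1 := congrFun hsum x
    simp only [Finset.sum_apply, Pi.smul_apply, smul_eq_mul, hGdef] at h1
    rw [← Finset.mul_sum] at h1
    exact (mul_left_cancel₀ hμ0 h1).symm
  -- total variation profiles
  let H : Fin 3 → ℕ → ℝ := fun i y => ∑ u ∈ Finset.range y, |G i (u + 1) - G i u|
  have hHsucc : ∀ i y, H i (y + 1) - H i y = |G i (y + 1) - G i y| := by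
    intro i y
    simp only [H, Finset.sum_range_succ]
    ring
  have hHmono : ∀ i, Monotone (H i) := by
    intro i
    apply monotone_nat_of_le_succ
    intro y
    have := hHsucc i y
    have h2 := abs_nonneg (G i (y + 1) - G i y)
    linarith
  have hHplus : ∀ i, Monotone (fun y => H i y + G i y) := by
    intro i
    apply monotone_nat_of_le_succ
    intro y
    have := hHsucc i y
    have h2 := neg_abs_le (G i (y + 1) - G i y)
    linarith
  have hHminus : ∀ i, Monotone (fun y => H i y - G i y) := by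
    intro i
    apply monotone_nat_of_le_succ
    intro y
    have := hHsucc i y
    have h2 := le_abs_self (G i (y + 1) - G i y)
    linarith
  -- level equation
  have hlevadd : ∀ (b : Ω → ℕ) (f g : Ω → ℝ) (y : ℕ), lev b (f + g) y = lev b f y + lev b g y := by
    intro b f g y
    simp only [lev, Pi.add_apply, Finset.sum_add_distrib, add_div]
  have hlevsum : ∀ (b : Ω → ℕ) (F : Fin 3 → Ω → ℝ) (y : ℕ),
      lev b (∑ l, F l) y = ∑ l, lev b (F l) y := by
    intro b F y
    simp only [lev, Finset.sum_apply, Fin.sum_univ_three]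
    rw [Finset.sum_add_distrib, Finset.sum_add_distrib, add_div, add_div]
  have hlevself : ∀ i (f : ℕ → ℝ) (y : ℕ), (∃ x, a i x = y) → lev (a i) (f ∘ a i) y = f y := by
    intro i f y ⟨x₀, hx₀⟩
    have hm : Meas (sameVal (a i)) (f ∘ a i) := by
      intro p q hpq
      simp only [Function.comp, show a i p = a i q from hpq]
    have := congrFun (avg_of_meas (sameVal_equiv (a i)) hm) x₀
    rw [avg_sameVal, hx₀] at this
    rw [this]
    simp [hx₀]
  have hlevel : ∀ i y, (∃ x, a i x = y) →
      (μ - 1) * G i y = ∑ l ∈ univ.erase i, lev (a i) (G l ∘ a l) y := by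
    intro i y hy
    have h1 : lev (a i) v y = ∑ l, lev (a i) (G l ∘ a l) y := by
      have : v = ∑ l, (G l ∘ a l) := by
        funext x
        rw [hvG x]
        simp [Finset.sum_apply]
      conv_lhs => rw [this]
      rw [hlevsum]
    rw [← Finset.add_sum_erase univ _ (Finset.mem_univ i), hlevself i (G i) y hy] at h1
    have h2 : lev (a i) v y = μ * G i y := by
      simp only [G]
      field_simp
    rw [h2] at h1
    linarith
  -- the functions
  let h : Fin 3 → Ω → ℝ := fun i => H i ∘ a i
  let J : Fin 3 → ℕ → ℝ := fun i y => - ∑ l ∈ univ.erase i, lev (a i) (h l) y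
  set lam : ℝ := μ - 1 with hlam
  have hlam1 : 1 < lam := by linarith
  have hstep : ∀ i y, (∃ x, a i x = y) → (∃ x, a i x = y + 1) →
      lam * |G i (y + 1) - G i y| ≤ J i (y + 1) - J i y := by
    intro i y hy hy1
    have hE1 := hlevel i y hy
    have hE2 := hlevel i (y + 1) hy1
    have hterm : ∀ l ∈ univ.erase i,
        |lev (a i) (G l ∘ a l) (y + 1) - lev (a i) (G l ∘ a l) y|
          ≤ lev (a i) (h l) y - lev (a i) (h l) (y + 1) := by
      intro l hl
      have hli : i ≠ l := (Finset.ne_of_mem_erase hl).symm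
      have h1 := hM i l hli y hy hy1 _ (hHplus l)
      have h2 := hM i l hli y hy hy1 _ (hHminus l)
      have e1 : ∀ z, lev (a i) ((fun y => H l y + G l y) ∘ a l) z
          = lev (a i) (h l) z + lev (a i) (G l ∘ a l) z := by
        intro z
        rw [← hlevadd]
        rfl
      have e2 : ∀ z, lev (a i) ((fun y => H l y - G l y) ∘ a l) z
          = lev (a i) (h l) z - lev (a i) (G l ∘ a l) z := by
        intro z
        simp only [lev, h, Function.comp, Finset.sum_sub_distrib, sub_div]
      rw [e1, e1] at h1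
      rw [e2, e2] at h2
      rw [abs_le]
      constructor <;> linarith
    have hdiff : lam * (G i (y + 1) - G i y)
        = ∑ l ∈ univ.erase i, (lev (a i) (G l ∘ a l) (y + 1) - lev (a i) (G l ∘ a l) y) := by
      rw [Finset.sum_sub_distrib, ← hE1, ← hE2]
      ring
    have hlam0 : 0 ≤ lam := by linarith
    calc lam * |G i (y + 1) - G i y| = |lam * (G i (y + 1) - G i y)| := by
          rw [abs_mul, abs_of_nonneg hlam0]
      _ ≤ ∑ l ∈ univ.erase i, |lev (a i) (G l ∘ a l) (y + 1) - lev (a i) (G l ∘ a l) y| := by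
          rw [hdiff]
          exact Finset.abs_sum_le_sum_abs _ _
      _ ≤ ∑ l ∈ univ.erase i, (lev (a i) (h l) y - lev (a i) (h l) (y + 1)) :=
          Finset.sum_le_sum hterm
      _ = J i (y + 1) - J i y := by
          simp only [J]
          rw [Finset.sum_sub_distrib]
          ring
  -- covariance inequality at each index
  have hcovi : ∀ i, lam * cov (h i) (h i) ≤ cov (h i) (J i ∘ a i) := by
    intro i
    let W : ℕ → ℝ := fun y => J i y - lam * H i y
    have hWadj : ∀ y, (∃ x, a i x = y) → (∃ x, a i x = y + 1) → W y ≤ W (y + 1) := by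
      intro y hy hy1
      have h1 := hstep i y hy hy1
      have h2 := hHsucc i y
      simp only [W]
      have h3 : lam * (H i (y + 1) - H i y) ≤ J i (y + 1) - J i y := by rw [h2]; exact h1
      nlinarith
    have hWmono := mono_of_adjacent (a i) W (hI i) hWadj
    have hord : ∀ x y, 0 ≤ (h i x - h i y) * ((W ∘ a i) x - (W ∘ a i) y) := by
      intro x y
      simp only [h, Function.comp]
      rcases le_total (a i x) (a i y) with hle | hle
      · have h1 := hHmono i hle
        have h2 := hWmono x y hle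
        exact mul_nonneg_of_nonpos_of_nonpos (by linarith) (by linarith)
      · have h1 := hHmono i hle
        have h2 := hWmono y x hle
        exact mul_nonneg (by linarith) (by linarith)
    have h0 := cov_nonneg_of_ordered hN (h i) (W ∘ a i) hord
    have e : W ∘ a i = (J i ∘ a i) + (-lam) • h i := by
      funext x
      simp only [W, h, Function.comp, Pi.add_apply, Pi.smul_apply, smul_eq_mul]
      ring
    rw [e, cov_add_right, cov_smul_right] at h0
    linarith
  -- J in terms of averages
  have hJcov : ∀ i, cov (h i) (J i ∘ a i) = - ∑ l ∈ univ.erase i, cov (h i) (h l) := by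
    intro i
    have e : J i ∘ a i = - ∑ l ∈ univ.erase i, avg (sameVal (a i)) (h l) := by
      funext x
      simp only [J, Function.comp, Pi.neg_apply, Finset.sum_apply, avg_sameVal]
    rw [e, cov_neg_right]
    congr 1
    have hsumcov : ∀ (s : Finset (Fin 3)) (F : Fin 3 → Ω → ℝ),
        cov (h i) (∑ l ∈ s, F l) = ∑ l ∈ s, cov (h i) (F l) := by
      intro s F
      induction s using Finset.induction_on with
      | empty =>
        simp [cov, dotProduct]
      | insert b s hb ih =>
        rw [Finset.sum_insert hb, Finset.sum_insert hb, cov_add_right, ih]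
    rw [hsumcov]
    apply Finset.sum_congr rfl
    intro l _
    have hm : Meas (sameVal (a i)) (h i) := by
      intro p q hpq
      simp only [h, Function.comp, show a i p = a i q from hpq]
    unfold cov
    rw [sum_avg (sameVal_equiv _)]
    rw [dotProduct_comm, avg_dot_meas (sameVal_equiv _) _ hm, dotProduct_comm]
  -- the total
  have htot : 0 ≤ cov (∑ i, h i) (∑ i, h i) := cov_self_nonneg hN _
  have hexp : cov (∑ i, h i) (∑ i, h i)
      = ∑ i, (cov (h i) (h i) + ∑ l ∈ univ.erase i, cov (h i) (h l)) := by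
    simp only [Fin.sum_univ_three, cov_add_left, cov_add_right]
    have e0 : (univ.erase (0 : Fin 3)) = {1, 2} := by decide
    have e1 : (univ.erase (1 : Fin 3)) = {0, 2} := by decide
    have e2 : (univ.erase (2 : Fin 3)) = {0, 1} := by decide
    rw [e0, e1, e2]
    simp
    ring
  rw [hexp] at htot
  have hself : ∀ i, 0 ≤ cov (h i) (h i) := fun i => cov_self_nonneg hN _
  have hcov0 : ∀ i, cov (h i) (h i) = 0 := by
    have h1 : lam * ∑ i, cov (h i) (h i) ≤ ∑ i, - ∑ l ∈ univ.erase i, cov (h i) (h l) := by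
      rw [Finset.mul_sum]
      apply Finset.sum_le_sum
      intro i _
      rw [← hJcov]
      exact hcovi i
    rw [Finset.sum_add_distrib] at htot
    rw [Finset.sum_neg_distrib] at h1
    have h2 : (lam - 1) * ∑ i, cov (h i) (h i) ≤ 0 := by linarith
    have h3 : ∑ i, cov (h i) (h i) ≤ 0 := by
      by_contra hne
      rw [not_le] at hne
      have : 0 < (lam - 1) * ∑ i, cov (h i) (h i) := mul_pos (by linarith) hne
      linarith
    have h4 : ∑ i, cov (h i) (h i) = 0 :=
      le_antisymm h3 (Finset.sum_nonneg (fun i _ => hself i))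
    intro i
    exact (Finset.sum_eq_zero_iff_of_nonneg (fun i _ => hself i)).mp h4 i (Finset.mem_univ i)
  -- profiles are constant on the support
  have hGconst : ∀ i x y, G i (a i x) = G i (a i y) := by
    intro i
    have hadj : ∀ z, (∃ x, a i x = z) → (∃ x, a i x = z + 1) → G i z = G i (z + 1) := by
      intro z ⟨p, hp⟩ ⟨q, hq⟩
      have h1 := const_of_cov_self_eq_zero hN (h i) (hcov0 i) p q
      simp only [h, Function.comp, hp, hq] at h1
      have h2 := hHsucc i z
      rw [← h1] at h2
      have h3 : |G i (z + 1) - G i z| = 0 := by linarith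
      have := abs_eq_zero.mp h3
      linarith
    have hle : ∀ x y, a i x ≤ a i y → G i (a i x) ≤ G i (a i y) :=
      mono_of_adjacent (a i) (G i) (hI i) (fun z h1 h2 => (hadj z h1 h2).le)
    have hge : ∀ x y, a i x ≤ a i y → -G i (a i x) ≤ -G i (a i y) :=
      mono_of_adjacent (a i) (fun z => - G i z) (hI i) (fun z h1 h2 => by
        have := hadj z h1 h2
        linarith)
    intro x y
    rcases le_total (a i x) (a i y) with hxy | hxy
    · have h1 := hle x y hxy
      have h2 := hge x y hxy
      linarith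
    · have h1 := hle y x hxy
      have h2 := hge y x hxy
      linarith
  -- so v is constant hence zero
  have hvconst : Meas relTop v := by
    intro x y _
    rw [hvG x, hvG y]
    apply Finset.sum_congr rfl
    intro i _
    exact hGconst i x y
  have := avg_of_meas relTop_equiv hvconst
  rw [hE₀] at this
  exact hv this.symm

/-- The radial bound, for functions of mean zero. -/
theorem radial_bound
    (hI : ∀ i x w, a i x < a i w → ∃ x₁, a i x₁ = a i x + 1)
    (hM : ∀ i l, i ≠ l → ∀ y, (∃ x, a i x = y) → (∃ x, a i x = y + 1) → ∀ u : ℕ → ℝ, Monotone u →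
      lev (a i) (u ∘ a l) (y + 1) ≤ lev (a i) (u ∘ a l) y)
    (f : Ω → ℝ) (hf : avg relTop f = 0) :
    ∑ i, avg (sameVal (a i)) f ⬝ᵥ avg (sameVal (a i)) f ≤ 2 * (f ⬝ᵥ f) := by
  let A : (Ω → ℝ) →ₗ[ℝ] (Ω → ℝ) := (3 : ℝ) • avgL relTop - ∑ i, avgL (sameVal (a i))
  have hAapp : ∀ h, A h = (3 : ℝ) • avg relTop h - ∑ i, avg (sameVal (a i)) h := by
    intro h
    simp [A, LinearMap.sum_apply]
  have hAs : ∀ p q, A p ⬝ᵥ q = p ⬝ᵥ A q := by
    intro p q
    rw [hAapp, hAapp, sub_dotProduct, dotProduct_sub, smul_dotProduct, dotProduct_smul,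
      sum_dotProduct, dotProduct_sum, avg_dot relTop_equiv]
    congr 1
    apply Finset.sum_congr rfl
    intro i _
    exact avg_dot (sameVal_equiv _) p q
  have key := form_ge_of_eigen A hAs (-2) (by
    intro v μ hv hev
    rw [hAapp] at hev
    have h2 : ∑ i, avg (sameVal (a i)) v - (3 : ℝ) • avg relTop v = (-μ) • v := by
      rw [neg_smul, ← hev]
      abel
    have := radial_eigen a hI hM v (-μ) hv h2
    linarith) f
  rw [hAapp, hf] at key
  simp only [smul_zero, zero_sub, dotProduct_neg, dotProduct_sum] at key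
  have h3 : ∀ i, f ⬝ᵥ avg (sameVal (a i)) f = avg (sameVal (a i)) f ⬝ᵥ avg (sameVal (a i)) f :=
    fun i => (avg_dot_avg (sameVal_equiv _) f).symm
  simp only [h3] at key
  linarith

end Radial

end Vale.Agent.Lib.P335
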