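import Mathlib

/-!
Averaging over the classes of an equivalence relation on a finite type, with
the usual Euclidean pairing on functions.
-/

namespace Vale.Agent.Lib.P335

open Finset Matrix

variable {Ω : Type*} [Fintype Ω]

/-- Average of `f` over the class of `x` for the relation `r`. -/
noncomputable def avg (r : Ω → Ω → Prop) [DecidableRel r] (f : Ω → ℝ) : Ω → ℝ :=
  fun x => (∑ y ∈ univ.filter (r x), f y) / ((univ.filter (r x)).card : ℝ)

/-- A function is measurable for `r` if it is constant on classes. -/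
def Meas (r : Ω → Ω → Prop) (g : Ω → ℝ) : Prop := ∀ x y, r x y → g x = g y

section
variable {r : Ω → Ω → Prop} [DecidableRel r]

theorem filter_eq_of_rel (hr : Equivalence r) {x y : Ω} (h : r x y) :
    univ.filter (r x) = univ.filter (r y) := by
  ext z
  simp only [mem_filter, mem_univ, true_and]
  exact ⟨fun hz => hr.trans (hr.symm h) hz, fun hz => hr.trans h hz⟩

theorem avg_meas (hr : Equivalence r) (f : Ω → ℝ) : Meas r (avg r f) := by
  intro x y h
  unfold avg
  rw [filter_eq_of_rel hr h]

theorem card_class_pos (hr : Equivalence r) (x : Ω) :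
    (0 : ℝ) < ((univ.filter (r x)).card : ℝ) := by
  have : 0 < (univ.filter (r x)).card :=
    Finset.card_pos.mpr ⟨x, by simp [hr.refl x]⟩
  exact_mod_cast this

theorem avg_of_meas (hr : Equivalence r) {g : Ω → ℝ} (hg : Meas r g) : avg r g = g := by
  funext x
  unfold avg
  have h1 : ∑ y ∈ univ.filter (r x), g y = ∑ _y ∈ univ.filter (r x), g x := by
    apply Finset.sum_congr rfl
    intro y hy
    have : r x y := by simpa using hy
    exact (hg x y this).symm
  rw [h1, Finset.sum_const, nsmul_eq_mul]
  have := card_class_pos hr x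
  field_simp

theorem avg_avg (hr : Equivalence r) (f : Ω → ℝ) : avg r (avg r f) = avg r f :=
  avg_of_meas hr (avg_meas hr f)

theorem avg_add (f g : Ω → ℝ) : avg r (f + g) = avg r f + avg r g := by
  funext x
  simp only [avg, Pi.add_apply, Finset.sum_add_distrib, add_div]

theorem avg_smul (c : ℝ) (f : Ω → ℝ) : avg r (c • f) = c • avg r f := by
  funext x
  simp only [avg, Pi.smul_apply, smul_eq_mul, ← Finset.mul_sum, mul_div_assoc]

theorem avg_sub (f g : Ω → ℝ) : avg r (f - g) = avg r f - avg r g := by
  funext x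
  simp only [avg, Pi.sub_apply, Finset.sum_sub_distrib, sub_div]

theorem avg_zero : avg r (0 : Ω → ℝ) = 0 := by
  funext x
  simp [avg]

theorem avg_sum {α : Type*} (s : Finset α) (f : α → Ω → ℝ) :
    avg r (∑ a ∈ s, f a) = ∑ a ∈ s, avg r (f a) := by
  classical
  induction s using Finset.induction_on with
  | empty => simp [avg_zero]
  | insert a s ha ih => rw [Finset.sum_insert ha, Finset.sum_insert ha, avg_add, ih]

/-- `avg` is self-adjoint. -/
theorem avg_dot (hr : Equivalence r) (f g : Ω → ℝ) : avg r f ⬝ᵥ g = f ⬝ᵥ avg r g := by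
  classical
  have key : ∀ x y : Ω, (if r x y then f y * g x / ((univ.filter (r x)).card : ℝ) else 0)
      = (if r y x then f y * g x / ((univ.filter (r y)).card : ℝ) else 0) := by
    intro x y
    by_cases h : r x y
    · have h' : r y x := hr.symm h
      rw [if_pos h, if_pos h', filter_eq_of_rel hr h]
    · have h' : ¬ r y x := fun h' => h (hr.symm h')
      rw [if_neg h, if_neg h']
  have e1 : avg r f ⬝ᵥ g
      = ∑ x, ∑ y, (if r x y then f y * g x / ((univ.filter (r x)).card : ℝ) else 0) := by
    unfold dotProduct avg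
    apply Finset.sum_congr rfl
    intro x _
    rw [Finset.sum_div, Finset.sum_mul, Finset.sum_filter]
    apply Finset.sum_congr rfl
    intro y _
    by_cases h : r x y
    · simp only [h, if_true]
      ring
    · simp [h]
  have e2 : f ⬝ᵥ avg r g
      = ∑ y, ∑ x, (if r y x then f y * g x / ((univ.filter (r y)).card : ℝ) else 0) := by
    unfold dotProduct avg
    apply Finset.sum_congr rfl
    intro y _
    rw [Finset.sum_div, Finset.mul_sum, Finset.sum_filter]
    apply Finset.sum_congr rfl
    intro x _
    by_cases h : r y x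
    · simp only [h, if_true]
      ring
    · simp [h]
  rw [e1, e2, Finset.sum_comm]
  apply Finset.sum_congr rfl
  intro y _
  apply Finset.sum_congr rfl
  intro x _
  exact key x y

/-- Pairing with a measurable function only sees the average. -/
theorem avg_dot_meas (hr : Equivalence r) (f : Ω → ℝ) {g : Ω → ℝ} (hg : Meas r g) :
    avg r f ⬝ᵥ g = f ⬝ᵥ g := by
  rw [avg_dot hr, avg_of_meas hr hg]

theorem avg_dot_avg (hr : Equivalence r) (f : Ω → ℝ) : avg r f ⬝ᵥ avg r f = f ⬝ᵥ avg r f :=
  avg_dot_meas hr f (avg_meas hr f)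

/-- Tower property: averaging over a finer relation first. -/
theorem avg_tower {s : Ω → Ω → Prop} [DecidableRel s] (hr : Equivalence r) (hs : Equivalence s)
    (hrs : ∀ x y, r x y → s x y) (f : Ω → ℝ) : avg s (avg r f) = avg s f := by
  classical
  funext x
  have h : (∑ y ∈ univ.filter (s x), avg r f y) = ∑ y ∈ univ.filter (s x), f y := by
    have hm : Meas r (fun y => if s x y then (1 : ℝ) else 0) := by
      intro a b hab
      have hab' := hrs a b hab
      by_cases h1 : s x a
      · have h2 : s x b := hs.trans h1 hab'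
        simp [h1, h2]
      · have h2 : ¬ s x b := fun h2 => h1 (hs.trans h2 (hs.symm hab'))
        simp [h1, h2]
    have := avg_dot_meas hr f hm
    unfold dotProduct at this
    simp only [mul_ite, mul_one, mul_zero] at this
    rw [← Finset.sum_filter, ← Finset.sum_filter] at this
    exact this
  unfold avg at h ⊢
  rw [h]

theorem avg_of_coarser {s : Ω → Ω → Prop} [DecidableRel s] (hr : Equivalence r)
    (hs : Equivalence s) (hrs : ∀ x y, r x y → s x y) (f : Ω → ℝ) :
    avg r (avg s f) = avg s f := by
  apply avg_of_meas hr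
  intro x y h
  exact avg_meas hs f x y (hrs x y h)

theorem meas_add {g h : Ω → ℝ} (hg : Meas r g) (hh : Meas r h) : Meas r (g + h) := by
  intro x y hxy
  simp [hg x y hxy, hh x y hxy]

theorem meas_sub {g h : Ω → ℝ} (hg : Meas r g) (hh : Meas r h) : Meas r (g - h) := by
  intro x y hxy
  simp [hg x y hxy, hh x y hxy]

/-- Total mass is unchanged by averaging. -/
theorem sum_avg (hr : Equivalence r) (f : Ω → ℝ) : ∑ x, avg r f x = ∑ x, f x := by
  have := avg_dot_meas hr f (g := fun _ => (1 : ℝ)) (fun _ _ _ => rfl)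
  simpa [dotProduct] using this

/-- The linear map given by `avg`. -/
noncomputable def avgL (r : Ω → Ω → Prop) [DecidableRel r] : (Ω → ℝ) →ₗ[ℝ] (Ω → ℝ) where
  toFun := avg r
  map_add' := avg_add
  map_smul' := fun c f => avg_smul c f

@[simp] theorem avgL_apply (f : Ω → ℝ) : avgL r f = avg r f := rfl

end

/-- Cauchy type inequality with no roots. -/
theorem dot_le_quarter (a b : Ω → ℝ) : a ⬝ᵥ b ≤ (1 / 4) * (a ⬝ᵥ a) + b ⬝ᵥ b := by
  have h : 0 ≤ ((1 / 2 : ℝ) • a - b) ⬝ᵥ ((1 / 2 : ℝ) • a - b) := by
    simp only [dotProduct]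
    exact Finset.sum_nonneg (fun x _ => mul_self_nonneg _)
  simp only [sub_dotProduct, dotProduct_sub, smul_dotProduct, dotProduct_smul, smul_eq_mul] at h
  rw [dotProduct_comm b a] at h
  linarith

theorem dot_self_nonneg (a : Ω → ℝ) : 0 ≤ a ⬝ᵥ a := by
  simp only [dotProduct]
  exact Finset.sum_nonneg (fun x _ => mul_self_nonneg _)

theorem dot_self_eq_zero {a : Ω → ℝ} (h : a ⬝ᵥ a = 0) : a = 0 := by
  have := (Finset.sum_eq_zero_iff_of_nonneg (fun x _ => mul_self_nonneg (a x))).mp h
  funext x
  have h2 := this x (Finset.mem_univ x)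
  simpa using h2

theorem dot_two_mul_le (a b : Ω → ℝ) : 2 * (a ⬝ᵥ b) ≤ a ⬝ᵥ a + b ⬝ᵥ b := by
  have h : 0 ≤ (a - b) ⬝ᵥ (a - b) := dot_self_nonneg _
  simp only [sub_dotProduct, dotProduct_sub] at h
  rw [dotProduct_comm b a] at h
  linarith

/-- The whole-space relation. -/
def relTop (_ _ : Ω) : Prop := True

instance : DecidableRel (relTop : Ω → Ω → Prop) := fun _ _ => isTrue trivial

theorem relTop_equiv : Equivalence (relTop : Ω → Ω → Prop) :=
  ⟨fun _ => trivial, fun _ => trivial, fun _ _ => trivial⟩

/-- Abbreviation for the global mean operator. -/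
noncomputable abbrev mean (f : Ω → ℝ) : Ω → ℝ := avg relTop f

end Vale.Agent.Lib.P335
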