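import Vale.Agent.Lib.P335.Radial

/-!
Binary matrices with prescribed margins, with rows written as finite sets of columns.
-/

namespace Vale.Agent.Lib.P335

open Finset Matrix

variable {ι κ : Type*} [Fintype ι] [DecidableEq ι] [Fintype κ] [DecidableEq κ]

/-- Exchange of the columns `j`, `j'` in a row. -/
def swapSet (j j' : κ) (s : Finset κ) : Finset κ := s.map (Equiv.swap j j').toEmbedding

omit [Fintype κ] in
@[simp] theorem mem_swapSet (j j' k : κ) (s : Finset κ) :
    k ∈ swapSet j j' s ↔ Equiv.swap j j' k ∈ s := by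
  unfold swapSet
  rw [Finset.mem_map_equiv]
  simp

omit [Fintype κ] in
@[simp] theorem card_swapSet (j j' : κ) (s : Finset κ) : (swapSet j j' s).card = s.card := by
  unfold swapSet
  simp

omit [Fintype κ] in
@[simp] theorem swapSet_swapSet (j j' : κ) (s : Finset κ) :
    swapSet j j' (swapSet j j' s) = s := by
  ext k
  simp

omit [Fintype κ] in
theorem swapSet_eq_self {j j' : κ} {s : Finset κ} (h : j ∈ s ↔ j' ∈ s) :
    swapSet j j' s = s := by
  ext k
  rw [mem_swapSet]
  by_cases h1 : k = j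
  · subst h1
    simp [h]
  · by_cases h2 : k = j'
    · subst h2
      simp [h]
    · rw [Equiv.swap_apply_of_ne_of_ne h1 h2]

omit [Fintype κ] in
theorem swapSet_inj {j j' : κ} {s t : Finset κ} : swapSet j j' s = swapSet j j' t ↔ s = t := by
  constructor
  · intro h
    have := congrArg (swapSet j j') h
    simpa using this
  · intro h
    rw [h]

/-- Number of rows containing column `j`. -/
def cnt (x : ι → Finset κ) (j : κ) : ℕ := ∑ i, if j ∈ x i then 1 else 0

/-- Margins condition. -/
def IsBip (r : ι → ℕ) (c : κ → ℕ) (x : ι → Finset κ) : Prop :=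
  (∀ i, (x i).card = r i) ∧ ∀ j, cnt x j = c j

instance (r : ι → ℕ) (c : κ → ℕ) : DecidablePred (IsBip r c) := fun x => by
  unfold IsBip
  infer_instance

/-- Binary matrices with margins `r`, `c`. -/
abbrev Bip (r : ι → ℕ) (c : κ → ℕ) := {x : ι → Finset κ // IsBip r c x}

omit [Fintype κ] in
theorem cnt_eq_card_filter (x : ι → Finset κ) (j : κ) :
    cnt x j = (univ.filter (fun i => j ∈ x i)).card := by
  unfold cnt
  rw [Finset.card_filter]

/-- Swap columns `j`, `j'` in the rows of a set `P`. -/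
def rowSwap (P : Finset ι) (j j' : κ) (x : ι → Finset κ) : ι → Finset κ :=
  fun e => if e ∈ P then swapSet j j' (x e) else x e

omit [Fintype ι] [Fintype κ] in
theorem rowSwap_rowSwap (P : Finset ι) (j j' : κ) (x : ι → Finset κ) :
    rowSwap P j j' (rowSwap P j j' x) = x := by
  funext e
  unfold rowSwap
  by_cases h : e ∈ P <;> simp [h]

/-- Count of a column inside a set of rows. -/
def cntIn (P : Finset ι) (x : ι → Finset κ) (j : κ) : ℕ := ∑ i ∈ P, if j ∈ x i then 1 else 0

omit [Fintype κ] in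
theorem cnt_split (P : Finset ι) (x : ι → Finset κ) (j : κ) :
    cnt x j = cntIn P x j + ∑ i ∈ Pᶜ, if j ∈ x i then 1 else 0 := by
  unfold cnt cntIn
  rw [Finset.sum_add_sum_compl]

omit [Fintype κ] in
theorem cnt_rowSwap (P : Finset ι) (j j' : κ) (x : ι → Finset κ)
    (h : cntIn P x j = cntIn P x j') (k : κ) : cnt (rowSwap P j j' x) k = cnt x k := by
  rw [cnt_split P, cnt_split P x k]
  have h2 : ∑ i ∈ Pᶜ, (if k ∈ rowSwap P j j' x i then 1 else 0)
      = ∑ i ∈ Pᶜ, if k ∈ x i then 1 else 0 := by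
    apply Finset.sum_congr rfl
    intro i hi
    have : i ∉ P := by simpa using hi
    simp [rowSwap, this]
  have h3 : cntIn P (rowSwap P j j' x) k = cntIn P x (Equiv.swap j j' k) := by
    unfold cntIn
    apply Finset.sum_congr rfl
    intro i hi
    simp [rowSwap, hi]
  rw [h2, h3]
  congr 1
  by_cases h1 : k = j
  · subst h1
    simp [h]
  · by_cases h4 : k = j'
    · subst h4
      simp [h]
    · rw [Equiv.swap_apply_of_ne_of_ne h1 h4]

omit [Fintype κ] in
theorem isBip_rowSwap {r : ι → ℕ} {c : κ → ℕ} (P : Finset ι) (j j' : κ) {x : ι → Finset κ}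
    (hx : IsBip r c x) (h : cntIn P x j = cntIn P x j') : IsBip r c (rowSwap P j j' x) := by
  constructor
  · intro i
    unfold rowSwap
    by_cases hi : i ∈ P
    · simp [hi, hx.1 i]
    · simp [hi, hx.1 i]
  · intro k
    rw [cnt_rowSwap P j j' x h, hx.2 k]

/-- A small counting fact: two sets of equal size inside a class. -/
theorem exists_mem_sdiff_of_card_eq {U W : Finset κ} {j : κ} (hcard : U.card = W.card)
    (hj : j ∈ U) (hj' : j ∉ W) : ∃ j' ∈ W, j' ∉ U := by
  by_contra hne
  push Not at hne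
  have hsub : W ⊆ U := hne
  have heq := Finset.eq_of_subset_of_card_le hsub (by omega)
  rw [heq] at hj'
  exact hj' hj

omit [Fintype κ] in
theorem cntIn_rowSwap (P : Finset ι) (j j' k : κ) (x : ι → Finset κ) :
    cntIn P (rowSwap P j j' x) k = cntIn P x (Equiv.swap j j' k) := by
  unfold cntIn
  apply Finset.sum_congr rfl
  intro i hi
  simp [rowSwap, hi]

/-- The move exchanging the columns `j`, `j'` on the rows of `P`, when this is possible. -/
def mv {r : ι → ℕ} {c : κ → ℕ} (P : Finset ι) (j j' : κ) (x : Bip r c) : Bip r c :=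
  if h : cntIn P x.1 j = cntIn P x.1 j' then ⟨rowSwap P j j' x.1, isBip_rowSwap P j j' x.2 h⟩ else x

omit [Fintype κ] in
theorem mv_val_of {r : ι → ℕ} {c : κ → ℕ} {P : Finset ι} {j j' : κ} {x : Bip r c}
    (h : cntIn P x.1 j = cntIn P x.1 j') : (mv P j j' x).1 = rowSwap P j j' x.1 := by
  unfold mv
  rw [dif_pos h]

omit [Fintype κ] in
theorem mv_invol {r : ι → ℕ} {c : κ → ℕ} (P : Finset ι) (j j' : κ) :
    Function.Involutive (mv (r := r) (c := c) P j j') := by
  intro x
  by_cases h : cntIn P x.1 j = cntIn P x.1 j'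
  · have h1 : (mv P j j' x).1 = rowSwap P j j' x.1 := mv_val_of h
    have h2 : cntIn P (mv P j j' x).1 j = cntIn P (mv P j j' x).1 j' := by
      rw [h1, cntIn_rowSwap, cntIn_rowSwap]
      simp [h]
    apply Subtype.ext
    rw [mv_val_of h2, h1, rowSwap_rowSwap]
  · unfold mv
    rw [dif_neg h, dif_neg h]

/-- The move as a permutation. -/
def mvPerm {r : ι → ℕ} {c : κ → ℕ} (P : Finset ι) (j j' : κ) : Equiv.Perm (Bip r c) :=
  (mv_invol P j j').toPerm

omit [Fintype κ] in
@[simp] theorem mvPerm_apply {r : ι → ℕ} {c : κ → ℕ} (P : Finset ι) (j j' : κ) (x : Bip r c) :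
    mvPerm P j j' x = mv P j j' x := rfl

end Vale.Agent.Lib.P335
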