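import Vale.Agent.Lib.P335.Split

/-!
Comparison between the exchanges on matrices and the switches on graphs.
-/

namespace Vale.Agent.Lib.P335

open Finset Matrix

variable {n : ℕ}

section mvcases
variable {ι κ : Type*} [Fintype ι] [DecidableEq ι] [Fintype κ] [DecidableEq κ]
  {r : ι → ℕ} {c : κ → ℕ}

/-- Outside the two patterns, the exchange does nothing. -/
theorem mv_cases {k l : ι} (hkl : k ≠ l) {j j' : κ} (x : Bip r c)
    (h1 : ¬ (j ∈ x.1 k ∧ j' ∉ x.1 k ∧ j ∉ x.1 l ∧ j' ∈ x.1 l))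
    (h2 : ¬ (j' ∈ x.1 k ∧ j ∉ x.1 k ∧ j' ∉ x.1 l ∧ j ∈ x.1 l)) :
    mv {k, l} j j' x = x := by
  by_cases h : cntIn {k, l} x.1 j = cntIn {k, l} x.1 j'
  · apply Subtype.ext
    rw [mv_val_of h]
    funext e
    unfold rowSwap
    by_cases he : e ∈ ({k, l} : Finset ι)
    · rw [if_pos he]
      apply swapSet_eq_self
      unfold cntIn at h
      rw [Finset.sum_pair hkl, Finset.sum_pair hkl] at h
      simp only [mem_insert, mem_singleton] at he
      by_cases a : j ∈ x.1 k <;> by_cases b : j' ∈ x.1 k <;> by_cases d : j ∈ x.1 l <;>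
        by_cases e' : j' ∈ x.1 l <;> simp_all <;> rcases he with rfl | rfl <;> simp_all
    · rw [if_neg he]
  · unfold mv
    rw [dif_neg h]

theorem mv_pair_self (k : ι) (j j' : κ) (x : Bip r c) : mv {k, k} j j' x = x := by
  by_cases h : cntIn {k, k} x.1 j = cntIn {k, k} x.1 j'
  · apply Subtype.ext
    rw [mv_val_of h]
    funext e
    unfold rowSwap
    by_cases he : e ∈ ({k, k} : Finset ι)
    · rw [if_pos he]
      apply swapSet_eq_self
      simp only [Finset.pair_eq_singleton, mem_singleton] at he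
      subst he
      unfold cntIn at h
      simp only [Finset.pair_eq_singleton, Finset.sum_singleton] at h
      by_cases a : j ∈ x.1 e <;> by_cases b : j' ∈ x.1 e <;> simp_all
    · rw [if_neg he]
  · unfold mv
    rw [dif_neg h]

end mvcases

section cross
variable {A : Finset (Fin n)}

theorem cross_ne (k : ↥A) (j : ↥(Aᶜ)) : k.1 ≠ j.1 := by
  intro h
  have := Finset.mem_compl.mp j.2
  exact this (h ▸ k.2)

theorem cross_eq {k k' : ↥A} {j j' : ↥(Aᶜ)} : s(k'.1, j'.1) = s(k.1, j.1) ↔ k' = k ∧ j' = j := by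
  rw [Sym2.eq_iff]
  constructor
  · rintro (⟨h1, h2⟩ | ⟨h1, -⟩)
    · exact ⟨Subtype.ext h1, Subtype.ext h2⟩
    · exact absurd h1 (cross_ne k' j)
  · rintro ⟨rfl, rfl⟩
    exact Or.inl ⟨rfl, rfl⟩

/-- A switch on graphs is a row exchange on matrices. -/
theorem rowVal_switch {G : Finset (Sym2 (Fin n))} {k l : ↥A} (hkl : k ≠ l) {j j' : ↥(Aᶜ)}
    (hjj : j ≠ j') (h2 : s(k.1, j'.1) ∉ G) (h3 : s(l.1, j.1) ∉ G)
    (h1 : s(k.1, j.1) ∈ G) (h4 : s(l.1, j'.1) ∈ G) :
    rowVal A ((G \ {s(k.1, j.1), s(l.1, j'.1)}) ∪ {s(k.1, j'.1), s(l.1, j.1)})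
      = rowSwap {k, l} j j' (rowVal A G) := by
  funext k'
  ext j''
  unfold rowSwap
  simp only [rowVal, mem_filter, mem_univ, true_and, mem_union, mem_sdiff, mem_insert,
    mem_singleton, cross_eq]
  by_cases hk1 : k' = k
  · subst hk1
    simp only [true_or, if_true, mem_swapSet, mem_filter, mem_univ, true_and, true_and,
      hkl, false_and, or_false]
    by_cases hj1 : j'' = j
    · subst hj1
      simp [h2, hjj]
    · by_cases hj2 : j'' = j'
      · subst hj2
        simp [h1]
      · rw [Equiv.swap_apply_of_ne_of_ne hj1 hj2]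
        simp [hj1, hj2]
  · by_cases hk2 : k' = l
    · subst hk2
      simp only [hk1, false_and, false_or, true_and, or_true, if_true, mem_swapSet, mem_filter,
        mem_univ]
      by_cases hj1 : j'' = j
      · subst hj1
        simp [h4]
      · by_cases hj2 : j'' = j'
        · subst hj2
          simp [h3, hjj.symm]
        · rw [Equiv.swap_apply_of_ne_of_ne hj1 hj2]
          simp [hj1, hj2]
    · simp only [hk1, hk2, false_and, or_self, not_false_eq_true, and_true, false_or, if_false]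
      simp [rowVal]

end cross

section main
variable {d : Fin n → ℕ} {A : Finset (Fin n)}
  (hA : ∑ v ∈ A, d v = A.card * (A.card - 1) + ∑ v ∈ Aᶜ, d v)
  (hd : ∀ k ∈ A, A.card - 1 ≤ d k)

/-- The four vertices. -/
def fourSet (k l : ↥A) (j j' : ↥(Aᶜ)) : Finset (Fin n) := {k.1, l.1, j.1, j'.1}

/-- The pair of matchings. -/
def pairOf (k l : ↥A) (j j' : ↥(Aᶜ)) : Finset (Sym2 (Fin n)) × Finset (Sym2 (Fin n)) :=
  ({s(k.1, j.1), s(l.1, j'.1)}, {s(k.1, j'.1), s(l.1, j.1)})

theorem pairOf_mem {k l : ↥A} (hkl : k ≠ l) {j j' : ↥(Aᶜ)} (hjj : j ≠ j') :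
    pairOf k l j j' ∈ orderedPairs (fourSet k l j j') := by
  have hkl' : k.1 ≠ l.1 := fun h => hkl (Subtype.ext h)
  have hjj' : j.1 ≠ j'.1 := fun h => hjj (Subtype.ext h)
  rw [mem_orderedPairs]
  refine ⟨?_, ?_, ?_⟩
  · apply matching_mem (cross_ne k j) hkl' (cross_ne k j') (cross_ne l j).symm hjj' (cross_ne l j')
    intro v
    simp only [fourSet, mem_insert, mem_singleton]
    tauto
  · apply matching_mem (cross_ne k j') hkl' (cross_ne k j) (cross_ne l j').symm hjj'.symm
      (cross_ne l j)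
    intro v
    simp only [fourSet, mem_insert, mem_singleton]
    tauto
  · intro h
    have h1 : s(k.1, j.1) ∈ (pairOf k l j j').2 := by
      rw [← h]
      simp [pairOf]
    simp only [pairOf, mem_insert, mem_singleton, cross_eq] at h1
    rcases h1 with ⟨-, h2⟩ | ⟨h2, -⟩
    · exact hjj h2
    · exact hkl h2

theorem pairOf_swap_mem {k l : ↥A} (hkl : k ≠ l) {j j' : ↥(Aᶜ)} (hjj : j ≠ j') :
    ((pairOf k l j j').2, (pairOf k l j j').1) ∈ orderedPairs (fourSet k l j j') := by
  have := mem_orderedPairs.mp (pairOf_mem hkl hjj)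
  rw [mem_orderedPairs]
  exact ⟨this.2.1, this.1, fun h => this.2.2 h.symm⟩

theorem fourSet_card {k l : ↥A} (hkl : k ≠ l) {j j' : ↥(Aᶜ)} (hjj : j ≠ j') :
    (fourSet k l j j').card = 4 := by
  have hkl' : k.1 ≠ l.1 := fun h => hkl (Subtype.ext h)
  have hjj' : j.1 ≠ j'.1 := fun h => hjj (Subtype.ext h)
  unfold fourSet
  have h1 : l.1 ∉ ({j.1, j'.1} : Finset (Fin n)) := by
    simp only [mem_insert, mem_singleton, not_or]
    exact ⟨cross_ne l j, cross_ne l j'⟩
  have h2 : k.1 ∉ ({l.1, j.1, j'.1} : Finset (Fin n)) := by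
    simp only [mem_insert, mem_singleton, not_or]
    exact ⟨hkl', cross_ne k j, cross_ne k j'⟩
  rw [Finset.card_insert_of_notMem h2, Finset.card_insert_of_notMem h1, Finset.card_pair hjj']

include hA hd in
/-- Term by term comparison of the exchange and the two switches. -/
theorem term_le {k l : ↥A} (hkl : k ≠ l) {j j' : ↥(Aᶜ)} (hjj : j ≠ j') (f : Realizations d → ℝ)
    (G : Realizations d) :
    (f G - f ((splitEquiv hA hd).symm (mv {k, l} j j' (splitEquiv hA hd G)))) ^ 2
      ≤ (f G - f (stepR G (pairOf k l j j'))) ^ 2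
        + (f G - f (stepR G ((pairOf k l j j').2, (pairOf k l j j').1))) ^ 2 := by
  set Φ := splitEquiv hA hd with hΦ
  have hmem : ∀ (k : ↥A) (j : ↥(Aᶜ)), j ∈ (Φ G).1 k ↔ s(k.1, j.1) ∈ G.1 := by
    intro k j
    show j ∈ rowVal A G.1 k ↔ _
    simp [rowVal]
  by_cases h1 : j ∈ (Φ G).1 k ∧ j' ∉ (Φ G).1 k ∧ j ∉ (Φ G).1 l ∧ j' ∈ (Φ G).1 l
  · obtain ⟨a, b, c, e⟩ := h1
    have e1 : Φ.symm (mv {k, l} j j' (Φ G)) = stepR G (pairOf k l j j') := by
      apply Φ.injective
      rw [Equiv.apply_symm_apply]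
      apply Subtype.ext
      have hc : cntIn {k, l} (Φ G).1 j = cntIn {k, l} (Φ G).1 j' := by
        unfold cntIn
        rw [Finset.sum_pair hkl, Finset.sum_pair hkl]
        simp [a, b, c, e]
      rw [mv_val_of hc]
      show _ = rowVal A (stepR G (pairOf k l j j')).1
      rw [stepR_val G (pairOf_mem hkl hjj)]
      unfold switchResult pairOf
      rw [if_pos]
      · symm
        exact rowVal_switch hkl hjj ((hmem _ _).not.mp b) ((hmem _ _).not.mp c) ((hmem _ _).mp a)
          ((hmem _ _).mp e)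
      · constructor
        · intro x hx
          simp only [mem_insert, mem_singleton] at hx
          rcases hx with rfl | rfl
          · exact (hmem _ _).mp a
          · exact (hmem _ _).mp e
        · rw [Finset.disjoint_left]
          intro x hx
          simp only [mem_insert, mem_singleton] at hx
          rcases hx with rfl | rfl
          · exact (hmem _ _).not.mp b
          · exact (hmem _ _).not.mp c
    rw [e1]
    nlinarith [sq_nonneg (f G - f (stepR G ((pairOf k l j j').2, (pairOf k l j j').1)))]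
  · by_cases h2 : j' ∈ (Φ G).1 k ∧ j ∉ (Φ G).1 k ∧ j' ∉ (Φ G).1 l ∧ j ∈ (Φ G).1 l
    · obtain ⟨a, b, c, e⟩ := h2
      have e1 : Φ.symm (mv {k, l} j j' (Φ G))
          = stepR G ((pairOf k l j j').2, (pairOf k l j j').1) := by
        apply Φ.injective
        rw [Equiv.apply_symm_apply]
        apply Subtype.ext
        have hc : cntIn {k, l} (Φ G).1 j = cntIn {k, l} (Φ G).1 j' := by
          unfold cntIn
          rw [Finset.sum_pair hkl, Finset.sum_pair hkl]
          simp [a, b, c, e]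
        rw [mv_val_of hc]
        show _ = rowVal A (stepR G ((pairOf k l j j').2, (pairOf k l j j').1)).1
        rw [stepR_val G (pairOf_swap_mem hkl hjj)]
        unfold switchResult pairOf
        simp only
        rw [if_pos]
        · have := rowVal_switch (G := G.1) hkl hjj.symm ((hmem _ _).not.mp b) ((hmem _ _).not.mp c)
            ((hmem _ _).mp a) ((hmem _ _).mp e)
          rw [this]
          funext i
          unfold rowSwap
          by_cases hi : i ∈ ({k, l} : Finset ↥A)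
          · rw [if_pos hi, if_pos hi, swapSet_comm]
            rfl
          · rw [if_neg hi, if_neg hi]
            rfl
        · constructor
          · intro x hx
            simp only [mem_insert, mem_singleton] at hx
            rcases hx with rfl | rfl
            · exact (hmem _ _).mp a
            · exact (hmem _ _).mp e
          · rw [Finset.disjoint_left]
            intro x hx
            simp only [mem_insert, mem_singleton] at hx
            rcases hx with rfl | rfl
            · exact (hmem _ _).not.mp b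
            · exact (hmem _ _).not.mp c
      rw [e1]
      nlinarith [sq_nonneg (f G - f (stepR G (pairOf k l j j')))]
    · rw [mv_cases hkl _ h1 h2, Equiv.symm_apply_apply, sub_self]
      nlinarith [sq_nonneg (f G - f (stepR G (pairOf k l j j'))),
        sq_nonneg (f G - f (stepR G ((pairOf k l j j').2, (pairOf k l j j').1)))]

/-- Form of the exchange. -/
noncomputable def tForm {r : ↥A → ℕ} {c : ↥(Aᶜ) → ℕ} (h : Bip r c → ℝ) (k l : ↥A) (j j' : ↥(Aᶜ)) : ℝ :=
  ∑ x, (h x - h (mv {k, l} j j' x)) ^ 2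

include hA hd in
theorem tForm_le {k l : ↥A} (hkl : k ≠ l) {j j' : ↥(Aᶜ)} (hjj : j ≠ j') (f : Realizations d → ℝ) :
    tForm (f ∘ (splitEquiv hA hd).symm) k l j j' ≤ wForm f (fourSet k l j j') := by
  set Φ := splitEquiv hA hd with hΦ
  unfold tForm
  rw [← Equiv.sum_comp Φ]
  simp only [Function.comp, Equiv.symm_apply_apply]
  calc _ ≤ ∑ G, ((f G - f (stepR G (pairOf k l j j'))) ^ 2
        + (f G - f (stepR G ((pairOf k l j j').2, (pairOf k l j j').1))) ^ 2) :=
        Finset.sum_le_sum (fun G _ => term_le hA hd hkl hjj f G)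
    _ = ∑ p ∈ {pairOf k l j j', ((pairOf k l j j').2, (pairOf k l j j').1)},
          ∑ G, (f G - f (stepR G p)) ^ 2 := by
        rw [Finset.sum_pair, Finset.sum_add_distrib]
        intro h
        exact (mem_orderedPairs.mp (pairOf_mem hkl hjj)).2.2 (congrArg Prod.fst h)
    _ ≤ wForm f (fourSet k l j j') := by
        unfold wForm
        apply Finset.sum_le_sum_of_subset_of_nonneg
        · intro p hp
          simp only [mem_insert, mem_singleton] at hp
          rcases hp with rfl | rfl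
          · exact pairOf_mem hkl hjj
          · exact pairOf_swap_mem hkl hjj
        · intro p _ _
          exact Finset.sum_nonneg (fun _ _ => sq_nonneg _)

theorem tForm_nonneg {r : ↥A → ℕ} {c : ↥(Aᶜ) → ℕ} (h : Bip r c → ℝ) (k l : ↥A) (j j' : ↥(Aᶜ)) :
    0 ≤ tForm h k l j j' := Finset.sum_nonneg (fun _ _ => sq_nonneg _)

theorem tForm_self_row {r : ↥A → ℕ} {c : ↥(Aᶜ) → ℕ} (h : Bip r c → ℝ) (k : ↥A) (j j' : ↥(Aᶜ)) :
    tForm h k k j j' = 0 := by
  unfold tForm
  apply Finset.sum_eq_zero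
  intro x _
  rw [mv_pair_self, sub_self]
  simp

theorem tForm_self_col {r : ↥A → ℕ} {c : ↥(Aᶜ) → ℕ} (h : Bip r c → ℝ) (k l : ↥A) (j : ↥(Aᶜ)) :
    tForm h k l j j = 0 := by
  unfold tForm
  apply Finset.sum_eq_zero
  intro x _
  rw [mv_self, sub_self]
  simp

/-- The double count of quadruples. -/
theorem sum_quadruples (W : Finset (Fin n) → ℝ) (hW : ∀ S, 0 ≤ W S) :
    ∑ k : ↥A, ∑ l : ↥A, ∑ j : ↥(Aᶜ), ∑ j' : ↥(Aᶜ),
        (if k ≠ l ∧ j ≠ j' then W (fourSet k l j j') else 0)
      ≤ 256 * ∑ S ∈ (univ : Finset (Fin n)).powersetCard 4, W S := by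
  let T := (univ : Finset (↥A × ↥A × ↥(Aᶜ) × ↥(Aᶜ))).filter
    (fun τ => τ.1 ≠ τ.2.1 ∧ τ.2.2.1 ≠ τ.2.2.2)
  have e1 : ∑ k : ↥A, ∑ l : ↥A, ∑ j : ↥(Aᶜ), ∑ j' : ↥(Aᶜ),
        (if k ≠ l ∧ j ≠ j' then W (fourSet k l j j') else 0)
      = ∑ τ ∈ T, W (fourSet τ.1 τ.2.1 τ.2.2.1 τ.2.2.2) := by
    rw [Finset.sum_filter]
    simp only [Fintype.sum_prod_type]
  have hmaps : ∀ τ ∈ T, fourSet τ.1 τ.2.1 τ.2.2.1 τ.2.2.2
      ∈ (univ : Finset (Fin n)).powersetCard 4 := by
    intro τ hτ
    have := (Finset.mem_filter.mp hτ).2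
    rw [Finset.mem_powersetCard]
    exact ⟨Finset.subset_univ _, fourSet_card this.1 this.2⟩
  rw [e1, ← Finset.sum_fiberwise_of_maps_to hmaps, Finset.mul_sum]
  apply Finset.sum_le_sum
  intro S hS
  have e2 : ∀ τ ∈ T.filter (fun τ => fourSet τ.1 τ.2.1 τ.2.2.1 τ.2.2.2 = S),
      W (fourSet τ.1 τ.2.1 τ.2.2.1 τ.2.2.2) = W S := by
    intro τ hτ
    rw [(Finset.mem_filter.mp hτ).2]
  rw [Finset.sum_congr rfl e2, Finset.sum_const, nsmul_eq_mul]
  apply mul_le_mul_of_nonneg_right _ (hW S)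
  have hc : (T.filter (fun τ => fourSet τ.1 τ.2.1 τ.2.2.1 τ.2.2.2 = S)).card ≤ 256 := by
    have hS4 : S.card = 4 := (Finset.mem_powersetCard.mp hS).2
    have hinj : (T.filter (fun τ => fourSet τ.1 τ.2.1 τ.2.2.1 τ.2.2.2 = S)).card
        ≤ (S ×ˢ S ×ˢ S ×ˢ S).card := by
      apply Finset.card_le_card_of_injOn (fun τ => (τ.1.1, τ.2.1.1, τ.2.2.1.1, τ.2.2.2.1))
      · intro τ hτ
        have h2 : fourSet τ.1 τ.2.1 τ.2.2.1 τ.2.2.2 = S := (Finset.mem_filter.mp hτ).2
        simp only [Finset.mem_coe, Finset.mem_product]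
        rw [← h2]
        simp [fourSet]
      · rintro ⟨a1, a2, a3, a4⟩ _ ⟨b1, b2, b3, b4⟩ _ h
        simp only [Prod.mk.injEq] at h
        obtain ⟨h1, h2, h3, h4⟩ := h
        have := Subtype.ext h1
        have := Subtype.ext h2
        have := Subtype.ext h3
        have := Subtype.ext h4
        simp_all
    simp only [Finset.card_product, hS4] at hinj
    omega
  exact_mod_cast hc

end main

end Vale.Agent.Lib.P335
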