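import Vale.Agent.Lib.P335.Defs
import Vale.Agent.Lib.P335.Mixing

/-!
Basic facts on the switch chain, for all degree vectors.
-/

namespace Vale.Agent.Lib.P335

open Finset Matrix

variable {n : ℕ}

theorem mem_matchingsOn {S : Finset (Fin n)} {F : Finset (Sym2 (Fin n))} :
    F ∈ matchingsOn S ↔ F ⊆ S.sym2.filter (fun e => ¬ e.IsDiag) ∧ F.card = 2 ∧
      ∀ v ∈ S, (F.filter (fun e => v ∈ e)).card = 1 := by
  unfold matchingsOn
  rw [Finset.mem_filter, Finset.mem_powersetCard, and_assoc]

theorem mem_orderedPairs {S : Finset (Fin n)} {p : Finset (Sym2 (Fin n)) × Finset (Sym2 (Fin n))} :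
    p ∈ orderedPairs S ↔ p.1 ∈ matchingsOn S ∧ p.2 ∈ matchingsOn S ∧ p.1 ≠ p.2 := by
  unfold orderedPairs
  rw [Finset.mem_filter, Finset.mem_product, and_assoc]

theorem matching_not_diag {S : Finset (Fin n)} {F : Finset (Sym2 (Fin n))} (h : F ∈ matchingsOn S)
    {e : Sym2 (Fin n)} (he : e ∈ F) : ¬ e.IsDiag := by
  have := (mem_matchingsOn.mp h).1 he
  exact (Finset.mem_filter.mp this).2

theorem matching_filter_eq {S : Finset (Fin n)} {F F' : Finset (Sym2 (Fin n))}
    (h : F ∈ matchingsOn S) (h' : F' ∈ matchingsOn S) (v : Fin n) :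
    (F.filter (fun e => v ∈ e)).card = (F'.filter (fun e => v ∈ e)).card := by
  by_cases hv : v ∈ S
  · rw [(mem_matchingsOn.mp h).2.2 v hv, (mem_matchingsOn.mp h').2.2 v hv]
  · have key : ∀ {F : Finset (Sym2 (Fin n))}, F ∈ matchingsOn S →
        F.filter (fun e => v ∈ e) = ∅ := by
      intro F hF
      apply Finset.filter_eq_empty_iff.mpr
      intro e he hve
      have h1 := (mem_matchingsOn.mp hF).1 he
      have h2 := (Finset.mem_filter.mp h1).1
      rw [Finset.mem_sym2_iff] at h2
      exact hv (h2 v hve)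
    rw [key h, key h']

theorem vdeg_eq_sum (G : Finset (Sym2 (Fin n))) (v : Fin n) :
    vdeg G v = ∑ e ∈ G, if v ∈ e then 1 else 0 := by
  unfold vdeg
  rw [Finset.card_filter]

theorem vdeg_switch {G F F' : Finset (Sym2 (Fin n))} (h1 : F ⊆ G) (h2 : Disjoint F' G)
    (h3 : ∀ v, (F.filter (fun e => v ∈ e)).card = (F'.filter (fun e => v ∈ e)).card) (v : Fin n) :
    vdeg ((G \ F) ∪ F') v = vdeg G v := by
  have hd : Disjoint (G \ F) F' := by
    rw [Finset.disjoint_left]
    intro e he he'
    exact (Finset.disjoint_left.mp h2) he' (Finset.mem_sdiff.mp he).1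
  have e1 := Finset.sum_sdiff (f := fun e => if v ∈ e then 1 else 0) h1
  have e2 := Finset.sum_union (f := fun e => if v ∈ e then 1 else 0) hd
  have e3 := h3 v
  rw [Finset.card_filter, Finset.card_filter] at e3
  rw [vdeg_eq_sum, vdeg_eq_sum]
  omega

theorem switch_real {d : Fin n → ℕ} {G : Finset (Sym2 (Fin n))} (hG : IsRealization d G)
    {S : Finset (Fin n)} {p : Finset (Sym2 (Fin n)) × Finset (Sym2 (Fin n))}
    (hp : p ∈ orderedPairs S) : IsRealization d (switchResult G p.1 p.2) := by
  obtain ⟨h1, h2, -⟩ := mem_orderedPairs.mp hp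
  unfold switchResult
  split_ifs with h
  · constructor
    · intro e he
      rcases Finset.mem_union.mp he with he | he
      · exact hG.1 e (Finset.mem_sdiff.mp he).1
      · exact matching_not_diag h2 he
    · intro v
      rw [vdeg_switch h.1 h.2 (matching_filter_eq h1 h2), hG.2]
  · exact hG

/-- The chain step as a map on `Ω_d`. -/
noncomputable def stepR {d : Fin n → ℕ} (G : Realizations d)
    (p : Finset (Sym2 (Fin n)) × Finset (Sym2 (Fin n))) : Realizations d :=
  if h : IsRealization d (switchResult G.1 p.1 p.2) then ⟨_, h⟩ else G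

theorem stepR_val {d : Fin n → ℕ} (G : Realizations d) {S : Finset (Fin n)}
    {p : Finset (Sym2 (Fin n)) × Finset (Sym2 (Fin n))} (hp : p ∈ orderedPairs S) :
    (stepR G p).1 = switchResult G.1 p.1 p.2 := by
  unfold stepR
  rw [dif_pos (switch_real G.2 hp)]

theorem sum_step {d : Fin n → ℕ} (G : Realizations d) {S : Finset (Fin n)}
    {p : Finset (Sym2 (Fin n)) × Finset (Sym2 (Fin n))} (hp : p ∈ orderedPairs S)
    (φ : Realizations d → ℝ) :
    ∑ G', (if switchResult G.1 p.1 p.2 = G'.1 then φ G' else 0) = φ (stepR G p) := by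
  have : ∀ G' : Realizations d, (switchResult G.1 p.1 p.2 = G'.1) ↔ stepR G p = G' := by
    intro G'
    rw [← stepR_val G hp]
    exact Subtype.ext_iff.symm
  simp only [this, Finset.sum_ite_eq, Finset.mem_univ, if_true]

/-- Applying the chain to a function. -/
theorem chain_sum (d : Fin n → ℕ) (G : Realizations d) (φ : Realizations d → ℝ) :
    ∑ G', switchChain d G G' * φ G' = (1 / 2) * φ G + (1 / 2) * ((1 / (n.choose 4 : ℝ)) *
      ∑ S ∈ (univ : Finset (Fin n)).powersetCard 4, (1 / ((orderedPairs S).card : ℝ)) *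
        ∑ p ∈ orderedPairs S, φ (stepR G p)) := by
  have h1 : ∀ G', switchChain d G G' * φ G'
      = (if G = G' then (1 / 2) * φ G' else 0) + (1 / 2) * ((1 / (n.choose 4 : ℝ)) *
      ∑ S ∈ (univ : Finset (Fin n)).powersetCard 4, (1 / ((orderedPairs S).card : ℝ)) *
        ∑ p ∈ orderedPairs S, if switchResult G.1 p.1 p.2 = G'.1 then φ G' else 0) := by
    intro G'
    unfold switchChain
    rw [add_mul]
    congr 1
    · by_cases h : G = G'
      · simp [h]
      · simp [h]
    · rw [mul_assoc, mul_assoc, Finset.sum_mul]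
      congr 2
      apply Finset.sum_congr rfl
      intro S _
      rw [mul_assoc, Finset.sum_mul]
      congr 1
      apply Finset.sum_congr rfl
      intro p _
      by_cases h : switchResult G.1 p.1 p.2 = G'.1
      · simp [h]
      · simp [h]
  simp only [h1]
  rw [Finset.sum_add_distrib]
  simp only [Finset.sum_ite_eq, Finset.mem_univ, if_true]
  congr 1
  rw [← Finset.mul_sum, ← Finset.mul_sum]
  congr 2
  rw [Finset.sum_comm]
  apply Finset.sum_congr rfl
  intro S _
  rw [← Finset.mul_sum]
  congr 1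
  rw [Finset.sum_comm]
  apply Finset.sum_congr rfl
  intro p hp
  exact sum_step G hp φ

theorem exists_four {S : Finset (Fin n)} (h : S.card = 4) : ∃ a b c e : Fin n,
    a ≠ b ∧ a ≠ c ∧ a ≠ e ∧ b ≠ c ∧ b ≠ e ∧ c ≠ e ∧ S = {a, b, c, e} := by
  obtain ⟨a, t, ha, rfl, ht⟩ := Finset.card_eq_succ.mp h
  obtain ⟨b, c, e, hbc, hbe, hce, rfl⟩ := Finset.card_eq_three.mp ht
  simp only [mem_insert, mem_singleton, not_or] at ha
  exact ⟨a, b, c, e, ha.1, ha.2.1, ha.2.2, hbc, hbe, hce, rfl⟩

/-- Two disjoint edges covering the set form a perfect matching. -/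
theorem matching_mem {S : Finset (Fin n)} {a b c e : Fin n} (hab : a ≠ b) (hac : a ≠ c)
    (hae : a ≠ e) (hbc : b ≠ c) (hbe : b ≠ e) (hce : c ≠ e)
    (hS : ∀ v, v ∈ S ↔ v = a ∨ v = b ∨ v = c ∨ v = e) :
    ({s(a, b), s(c, e)} : Finset (Sym2 (Fin n))) ∈ matchingsOn S := by
  rw [mem_matchingsOn]
  refine ⟨?_, ?_, ?_⟩
  · intro x hx
    simp only [mem_insert, mem_singleton] at hx
    rcases hx with rfl | rfl
    · simp [hS, hab]
    · simp [hS, hce]
  · apply Finset.card_pair
    intro h
    rw [Sym2.eq_iff] at h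
    rcases h with ⟨h1, -⟩ | ⟨h1, -⟩
    · exact hac h1
    · exact hae h1
  · intro v hv
    rw [hS] at hv
    rw [Finset.filter_insert, Finset.filter_singleton]
    rcases hv with rfl | rfl | rfl | rfl
    · simp [hab, hac, hae]
    · simp [hab.symm, hbc, hbe]
    · simp [hac.symm, hbc.symm, hce]
    · simp [hae.symm, hbe.symm, hce.symm]

theorem orderedPairs_pos {S : Finset (Fin n)} (h : S.card = 4) : 0 < (orderedPairs S).card := by
  obtain ⟨a, b, c, e, hab, hac, hae, hbc, hbe, hce, rfl⟩ := exists_four h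
  apply Finset.card_pos.mpr
  refine ⟨(({s(a, b), s(c, e)} : Finset (Sym2 (Fin n))), {s(a, c), s(b, e)}), ?_⟩
  rw [mem_orderedPairs]
  refine ⟨matching_mem hab hac hae hbc hbe hce (by simp), ?_, ?_⟩
  · apply matching_mem hac hab hae hbc.symm hce hbe
    simp only [mem_insert, mem_singleton]
    tauto
  · intro h
    have h2 : s(a, b) ∈ ({s(a, c), s(b, e)} : Finset (Sym2 (Fin n))) := by
      have : s(a, b) ∈ ({s(a, b), s(c, e)} : Finset (Sym2 (Fin n))) := by simp
      have h3 : ({s(a, b), s(c, e)} : Finset (Sym2 (Fin n))) = {s(a, c), s(b, e)} := h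
      rwa [h3] at this
    simp only [mem_insert, mem_singleton, Sym2.eq_iff] at h2
    rcases h2 with (⟨-, h3⟩ | ⟨h3, -⟩) | (⟨h3, -⟩ | ⟨h3, -⟩)
    · exact hbc h3
    · exact hac h3
    · exact hab h3
    · exact hae h3

theorem orderedPairs_card_le {S : Finset (Fin n)} (h : S.card = 4) :
    (orderedPairs S).card ≤ 2025 := by
  have h1 : (S.sym2.filter (fun e => ¬ e.IsDiag)).card ≤ 10 := by
    refine (Finset.card_filter_le _ _).trans ?_
    rw [Finset.card_sym2, h]
    decide
  have h2 : (matchingsOn S).card ≤ 45 := by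
    unfold matchingsOn
    refine (Finset.card_filter_le _ _).trans ?_
    rw [Finset.card_powersetCard]
    calc _ ≤ Nat.choose 10 2 := Nat.choose_le_choose 2 h1
      _ = 45 := by decide
  unfold orderedPairs
  refine (Finset.card_filter_le _ _).trans ?_
  rw [Finset.card_product]
  nlinarith

theorem card_four_sets : ((univ : Finset (Fin n)).powersetCard 4).card = n.choose 4 := by
  rw [Finset.card_powersetCard, Finset.card_univ, Fintype.card_fin]

theorem chain_row (hn : 4 ≤ n) (d : Fin n → ℕ) (G : Realizations d) :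
    ∑ G', switchChain d G G' = 1 := by
  have h := chain_sum d G (fun _ => 1)
  simp only [mul_one, Finset.sum_const, nsmul_eq_mul] at h
  rw [h]
  have hC : (0 : ℝ) < (n.choose 4 : ℝ) := by
    exact_mod_cast Nat.choose_pos hn
  have h2 : ∑ S ∈ (univ : Finset (Fin n)).powersetCard 4,
      (1 / ((orderedPairs S).card : ℝ)) * ((orderedPairs S).card : ℝ) = (n.choose 4 : ℝ) := by
    have : ∀ S ∈ (univ : Finset (Fin n)).powersetCard 4,
        (1 / ((orderedPairs S).card : ℝ)) * ((orderedPairs S).card : ℝ) = 1 := by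
      intro S hS
      have hpos : (0 : ℝ) < ((orderedPairs S).card : ℝ) := by
        exact_mod_cast orderedPairs_pos (Finset.mem_powersetCard.mp hS).2
      field_simp
    rw [Finset.sum_congr rfl this, Finset.sum_const, card_four_sets]
    simp
  rw [h2]
  field_simp
  norm_num

theorem chain_nonneg (d : Fin n → ℕ) (G G' : Realizations d) : 0 ≤ switchChain d G G' := by
  unfold switchChain
  apply add_nonneg
  · split_ifs <;> norm_num
  · apply mul_nonneg (by norm_num)
    apply mul_nonneg (by positivity)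
    apply Finset.sum_nonneg
    intro S _
    apply mul_nonneg (by positivity)
    apply Finset.sum_nonneg
    intro p _
    split_ifs <;> norm_num

theorem chain_lazy (d : Fin n → ℕ) (G : Realizations d) : 1 / 2 ≤ switchChain d G G := by
  unfold switchChain
  simp only [if_true]
  have : 0 ≤ (1 / 2 : ℝ) * ((1 / (n.choose 4 : ℝ)) *
    ∑ S ∈ (univ : Finset (Fin n)).powersetCard 4, (1 / ((orderedPairs S).card : ℝ)) *
      ∑ p ∈ orderedPairs S, if switchResult G.1 p.1 p.2 = G.1 then (1 : ℝ) else 0) := by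
    apply mul_nonneg (by norm_num)
    apply mul_nonneg (by positivity)
    apply Finset.sum_nonneg
    intro S _
    apply mul_nonneg (by positivity)
    apply Finset.sum_nonneg
    intro p _
    split_ifs <;> norm_num
  linarith

/-- The reverse of a switch. -/
theorem switch_reverse {G G' F F' : Finset (Sym2 (Fin n))} (hne : G ≠ G')
    (h : switchResult G F F' = G') : switchResult G' F' F = G := by
  unfold switchResult at h
  split_ifs at h with hv
  · obtain ⟨h1, h2⟩ := hv
    have hFF : Disjoint F F' := by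
      rw [Finset.disjoint_left]
      intro e he he'
      exact (Finset.disjoint_left.mp h2) he' (h1 he)
    have h3 : F' ⊆ G' := by
      rw [← h]
      exact Finset.subset_union_right
    have h4 : Disjoint F G' := by
      rw [← h, Finset.disjoint_union_right]
      exact ⟨Finset.disjoint_sdiff, hFF⟩
    unfold switchResult
    rw [if_pos ⟨h3, h4⟩, ← h]
    ext e
    simp only [mem_union, mem_sdiff]
    constructor
    · rintro (⟨⟨h5, h6⟩ | h5, h7⟩ | h5)
      · exact h5
      · exact absurd h5 h7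
      · exact h1 h5
    · intro h5
      by_cases h6 : e ∈ F
      · exact Or.inr h6
      · refine Or.inl ⟨Or.inl ⟨h5, h6⟩, fun h7 => ?_⟩
        exact (Finset.disjoint_left.mp h2) h7 h5
  · exact absurd h hne

theorem chain_symm (d : Fin n → ℕ) (G G' : Realizations d) :
    switchChain d G G' = switchChain d G' G := by
  by_cases hGG : G = G'
  · rw [hGG]
  have hne : G.1 ≠ G'.1 := fun h => hGG (Subtype.ext h)
  unfold switchChain
  simp only [hGG, Ne.symm hGG, if_false]
  congr 3
  apply Finset.sum_congr rfl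
  intro S _
  congr 1
  refine Finset.sum_bij' (fun p _ => (p.2, p.1)) (fun p _ => (p.2, p.1)) ?_ ?_ ?_ ?_ ?_
  · intro p hp
    rw [mem_orderedPairs] at hp ⊢
    exact ⟨hp.2.1, hp.1, fun h => hp.2.2 h.symm⟩
  · intro p hp
    rw [mem_orderedPairs] at hp ⊢
    exact ⟨hp.2.1, hp.1, fun h => hp.2.2 h.symm⟩
  · intro p _
    rfl
  · intro p _
    rfl
  · intro p _
    by_cases h : switchResult G.1 p.1 p.2 = G'.1
    · rw [if_pos h, if_pos (switch_reverse hne h)]
    · rw [if_neg h, if_neg]
      intro h2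
      exact h (switch_reverse hne.symm h2)

/-- The form of the chain. -/
noncomputable def wForm {d : Fin n → ℕ} (f : Realizations d → ℝ) (S : Finset (Fin n)) : ℝ :=
  ∑ p ∈ orderedPairs S, ∑ G, (f G - f (stepR G p)) ^ 2

theorem wForm_nonneg {d : Fin n → ℕ} (f : Realizations d → ℝ) (S : Finset (Fin n)) :
    0 ≤ wForm f S :=
  Finset.sum_nonneg (fun _ _ => Finset.sum_nonneg (fun _ _ => sq_nonneg _))

theorem chain_form (d : Fin n → ℕ) (f : Realizations d → ℝ) :
    (1 / 2) * ∑ G, ∑ G', switchChain d G G' * (f G - f G') ^ 2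
      = (1 / 4) * ((1 / (n.choose 4 : ℝ)) * ∑ S ∈ (univ : Finset (Fin n)).powersetCard 4,
          (1 / ((orderedPairs S).card : ℝ)) * wForm f S) := by
  simp only [chain_sum d, sub_self]
  have : ∀ G : Realizations d, (1 / 2 : ℝ) * (0 : ℝ) ^ 2 + (1 / 2) * ((1 / (n.choose 4 : ℝ)) *
      ∑ S ∈ (univ : Finset (Fin n)).powersetCard 4, (1 / ((orderedPairs S).card : ℝ)) *
        ∑ p ∈ orderedPairs S, (f G - f (stepR G p)) ^ 2)
      = (1 / 2) * ((1 / (n.choose 4 : ℝ)) *
      ∑ S ∈ (univ : Finset (Fin n)).powersetCard 4, (1 / ((orderedPairs S).card : ℝ)) *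
        ∑ p ∈ orderedPairs S, (f G - f (stepR G p)) ^ 2) := by
    intro G
    ring
  simp only [this]
  rw [← Finset.mul_sum, ← Finset.mul_sum, ← mul_assoc]
  congr 1
  · norm_num
  · congr 1
    rw [Finset.sum_comm]
    apply Finset.sum_congr rfl
    intro S _
    rw [← Finset.mul_sum]
    congr 1
    unfold wForm
    rw [Finset.sum_comm]

/-- Lower bound on the form of the chain. -/
theorem chain_form_ge (hn : 4 ≤ n) (d : Fin n → ℕ) (f : Realizations d → ℝ) :
    (1 / (4 * 2025 * (n.choose 4 : ℝ))) * ∑ S ∈ (univ : Finset (Fin n)).powersetCard 4, wForm f S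
      ≤ (1 / 2) * ∑ G, ∑ G', switchChain d G G' * (f G - f G') ^ 2 := by
  rw [chain_form]
  have hC : (0 : ℝ) < (n.choose 4 : ℝ) := by
    exact_mod_cast Nat.choose_pos hn
  have h1 : ∀ S ∈ (univ : Finset (Fin n)).powersetCard 4,
      (1 / 2025 : ℝ) * wForm f S ≤ (1 / ((orderedPairs S).card : ℝ)) * wForm f S := by
    intro S hS
    apply mul_le_mul_of_nonneg_right _ (wForm_nonneg f S)
    have hc := (Finset.mem_powersetCard.mp hS).2
    have hpos : (0 : ℝ) < ((orderedPairs S).card : ℝ) := by
      exact_mod_cast orderedPairs_pos hc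
    have hle : ((orderedPairs S).card : ℝ) ≤ 2025 := by
      exact_mod_cast orderedPairs_card_le hc
    apply one_div_le_one_div_of_le hpos hle
  have h2 := Finset.sum_le_sum h1
  rw [← Finset.mul_sum] at h2
  have h3 : (0 : ℝ) ≤ (1 / 4) * (1 / (n.choose 4 : ℝ)) := by positivity
  have h4 := mul_le_mul_of_nonneg_left h2 h3
  calc _ = (1 / 4) * (1 / (n.choose 4 : ℝ)) * ((1 / 2025) *
        ∑ S ∈ (univ : Finset (Fin n)).powersetCard 4, wForm f S) := by
        field_simp
    _ ≤ _ := h4
    _ = _ := by ring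

end Vale.Agent.Lib.P335
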