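import Vale.Agent.Lib.P335.Bip

/-!
Column states of a binary matrix, and the connectivity of the column exchanges.
-/

namespace Vale.Agent.Lib.P335

open Finset Matrix

variable {ι κ : Type*} [Fintype ι] [DecidableEq ι] [Fintype κ] [DecidableEq κ]

/-- The set of rows containing a column. -/
def col (x : ι → Finset κ) (j : κ) : Finset ι := univ.filter (fun e => j ∈ x e)

omit [DecidableEq ι] [Fintype κ] in
@[simp] theorem mem_col (x : ι → Finset κ) (j : κ) (e : ι) : e ∈ col x j ↔ j ∈ x e := by
  simp [col]

omit [DecidableEq ι] [Fintype κ] in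
theorem card_col {t : κ → ℕ} {r : ι → ℕ} (x : Bip r t) (j : κ) : (col x.1 j).card = t j := by
  classical
  unfold col
  rw [← x.2.2 j]
  unfold cnt
  rw [Finset.card_filter]

/-- Number of columns in a given state. -/
def nC (x : ι → Finset κ) (C : Finset ι) : ℕ := (univ.filter (fun j => col x j = C)).card

/-- Same number of columns in every state. -/
def relA {r : ι → ℕ} {t : κ → ℕ} (x y : Bip r t) : Prop := ∀ C, nC x.1 C = nC y.1 C

instance {r : ι → ℕ} {t : κ → ℕ} : DecidableRel (relA (r := r) (t := t)) := fun x y => by
  unfold relA
  infer_instance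

theorem relA_equiv {r : ι → ℕ} {t : κ → ℕ} : Equivalence (relA (r := r) (t := t)) :=
  ⟨fun _ _ => rfl, fun h C => (h C).symm, fun h k C => (h C).trans (k C)⟩

omit [Fintype κ] in
theorem cntIn_univ (x : ι → Finset κ) (j : κ) : cntIn univ x j = cnt x j := rfl

section
variable {r : ι → ℕ} {t : κ → ℕ}

omit [Fintype κ] in
theorem mvU_val {j j' : κ} (h : t j = t j') (x : Bip r t) :
    (mv univ j j' x).1 = rowSwap univ j j' x.1 := by
  apply mv_val_of
  rw [cntIn_univ, cntIn_univ, x.2.2, x.2.2, h]

omit [Fintype κ] in
theorem mvU_row {j j' : κ} (h : t j = t j') (x : Bip r t) (e : ι) :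
    (mv univ j j' x).1 e = swapSet j j' (x.1 e) := by
  rw [mvU_val h]
  simp [rowSwap]

omit [DecidableEq ι] in
theorem col_swap (x : ι → Finset κ) (j j' k : κ) :
    col (fun e => swapSet j j' (x e)) k = col x (Equiv.swap j j' k) := by
  ext e
  simp

theorem col_mvU {j j' : κ} (h : t j = t j') (x : Bip r t) (k : κ) :
    col (mv univ j j' x).1 k = col x.1 (Equiv.swap j j' k) := by
  ext e
  simp [mvU_row h]

theorem nC_mvU {j j' : κ} (h : t j = t j') (x : Bip r t) (C : Finset ι) :
    nC (mv univ j j' x).1 C = nC x.1 C := by
  unfold nC
  apply Finset.card_equiv (Equiv.swap j j')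
  intro k
  simp only [mem_filter, mem_univ, true_and]
  rw [col_mvU h]

theorem relA_mvU {j j' : κ} (h : t j = t j') (x : Bip r t) : relA (mv univ j j' x) x :=
  fun C => nC_mvU h x C

/-- Exchanges of columns of the same total connect the states with equal column statistics. -/
theorem conn_of_relA (f : Bip r t → ℝ)
    (hf : ∀ (j j' : κ), t j = t j' → ∀ x, f (mv univ j j' x) = f x) :
    ∀ x y : Bip r t, relA x y → f x = f y := by
  intro x y
  induction hd : (univ.filter (fun j => col x.1 j ≠ col y.1 j)).card
    using Nat.strong_induction_on generalizing x with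
  | _ d ih =>
    intro hA
    by_cases hne : ∃ j, col x.1 j ≠ col y.1 j
    · obtain ⟨j, hj⟩ := hne
      have hcard : (univ.filter (fun k => col y.1 k = col y.1 j)).card
          = (univ.filter (fun k => col x.1 k = col y.1 j)).card := (hA (col y.1 j)).symm
      obtain ⟨j', hj'1, hj'2⟩ := exists_mem_sdiff_of_card_eq hcard
        (j := j) (by simp) (by simpa using hj)
      have hj'x : col x.1 j' = col y.1 j := by simpa using hj'1
      have hj'y : col y.1 j' ≠ col y.1 j := by simpa using hj'2
      have ht : t j = t j' := by
        rw [← card_col y j, ← hj'x, card_col x j']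
      set x' := mv univ j j' x with hx'
      have hf' : f x' = f x := hf j j' ht x
      have hA' : relA x' y := fun C => (nC_mvU ht x C).trans (hA C)
      have hsub : (univ.filter (fun k => col x'.1 k ≠ col y.1 k))
          ⊆ (univ.filter (fun k => col x.1 k ≠ col y.1 k)).erase j := by
        intro k hk
        have hk' : col x'.1 k ≠ col y.1 k := by simpa using hk
        rw [hx', col_mvU ht] at hk'
        simp only [mem_erase, mem_filter, mem_univ, true_and]
        by_cases hkj : k = j
        · subst hkj
          rw [Equiv.swap_apply_left] at hk'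
          exact absurd hj'x hk'
        · refine ⟨hkj, ?_⟩
          by_cases hkj' : k = j'
          · subst hkj'
            rw [hj'x]
            exact fun h => hj'y h.symm
          · rwa [Equiv.swap_apply_of_ne_of_ne hkj hkj'] at hk'
      have hlt : (univ.filter (fun k => col x'.1 k ≠ col y.1 k)).card < d := by
        rw [← hd]
        calc _ ≤ ((univ.filter (fun k => col x.1 k ≠ col y.1 k)).erase j).card :=
              Finset.card_le_card hsub
          _ < _ := Finset.card_erase_lt_of_mem (by simpa using hj)
      rw [← hf']
      exact ih _ hlt x' rfl hA'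
    · have hEq : x = y := by
        push Not at hne
        apply Subtype.ext
        funext e
        ext k
        have := hne k
        have h2 : e ∈ col x.1 k ↔ e ∈ col y.1 k := by rw [this]
        simpa using h2
      rw [hEq]

end

end Vale.Agent.Lib.P335
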