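import Vale.Agent.Lib.P335.Chain

/-!
The switch graph on the realizations of a degree vector is connected.
-/

namespace Vale.Agent.Lib.P335

open Finset

variable {n : ℕ} {d : Fin n → ℕ}

/-- One switch between two realizations: the edges `ab`, `ce` are present, the edges `ac`, `be`
are absent, and they are exchanged. -/
def SwitchStep (G G' : Realizations d) : Prop :=
  ∃ a b c e : Fin n, a ≠ b ∧ a ≠ c ∧ a ≠ e ∧ b ≠ c ∧ b ≠ e ∧ c ≠ e ∧
    s(a, b) ∈ G.1 ∧ s(c, e) ∈ G.1 ∧ s(a, c) ∉ G.1 ∧ s(b, e) ∉ G.1 ∧
    G'.1 = switchResult G.1 {s(a, b), s(c, e)} {s(a, c), s(b, e)}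

/-- The pair of matchings of a switch is an admissible pair for the four-set. -/
theorem pairSw_mem {a b c e : Fin n} (hab : a ≠ b) (hac : a ≠ c) (hae : a ≠ e) (hbc : b ≠ c)
    (hbe : b ≠ e) (hce : c ≠ e) :
    (({s(a, b), s(c, e)}, {s(a, c), s(b, e)}) :
      Finset (Sym2 (Fin n)) × Finset (Sym2 (Fin n))) ∈ orderedPairs ({a, b, c, e} : Finset (Fin n)) := by
  rw [mem_orderedPairs]
  refine ⟨?_, ?_, ?_⟩
  · apply matching_mem hab hac hae hbc hbe hce
    intro v
    simp only [mem_insert, mem_singleton]
  · apply matching_mem hac hab hae hbc.symm hce hbe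
    intro v
    simp only [mem_insert, mem_singleton]
    tauto
  · intro h
    have h1 : s(a, b) ∈ ({s(a, c), s(b, e)} : Finset (Sym2 (Fin n))) := by
      have h0 : s(a, b) ∈ ({s(a, b), s(c, e)} : Finset (Sym2 (Fin n))) :=
        Finset.mem_insert_self _ _
      have h9 : ({s(a, b), s(c, e)} : Finset (Sym2 (Fin n))) = {s(a, c), s(b, e)} := h
      rwa [h9] at h0
    simp only [mem_insert, mem_singleton, Sym2.eq_iff] at h1
    rcases h1 with (⟨-, h2⟩ | ⟨h2, -⟩) | (⟨h2, -⟩ | ⟨h2, -⟩)
    · exact hbc h2
    · exact hac h2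
    · exact hab h2
    · exact hae h2

/-- Membership in the result of a switch. -/
theorem mem_switch {G : Finset (Sym2 (Fin n))} {a b c e : Fin n}
    (h1 : s(a, b) ∈ G) (h2 : s(c, e) ∈ G) (h3 : s(a, c) ∉ G) (h4 : s(b, e) ∉ G)
    (x : Sym2 (Fin n)) :
    x ∈ switchResult G {s(a, b), s(c, e)} {s(a, c), s(b, e)} ↔
      (x ∈ G ∧ x ≠ s(a, b) ∧ x ≠ s(c, e)) ∨ x = s(a, c) ∨ x = s(b, e) := by
  unfold switchResult
  rw [if_pos]
  · simp only [mem_union, mem_sdiff, mem_insert, mem_singleton, not_or]
  · constructor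
    · intro y hy
      simp only [mem_insert, mem_singleton] at hy
      rcases hy with rfl | rfl
      · exact h1
      · exact h2
    · rw [Finset.disjoint_left]
      intro y hy
      simp only [mem_insert, mem_singleton] at hy
      rcases hy with rfl | rfl
      · exact h3
      · exact h4

/-- A switch on a realization, as a realization. -/
theorem exists_step (G : Realizations d) {a b c e : Fin n} (hab : a ≠ b) (hac : a ≠ c) (hae : a ≠ e)
    (hbc : b ≠ c) (hbe : b ≠ e) (hce : c ≠ e) (h1 : s(a, b) ∈ G.1) (h2 : s(c, e) ∈ G.1)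
    (h3 : s(a, c) ∉ G.1) (h4 : s(b, e) ∉ G.1) :
    ∃ G' : Realizations d, SwitchStep G G' ∧
      ∀ x, x ∈ G'.1 ↔ (x ∈ G.1 ∧ x ≠ s(a, b) ∧ x ≠ s(c, e)) ∨ x = s(a, c) ∨ x = s(b, e) := by
  have hr := switch_real G.2 (pairSw_mem hab hac hae hbc hbe hce)
  refine ⟨⟨_, hr⟩, ⟨a, b, c, e, hab, hac, hae, hbc, hbe, hce, h1, h2, h3, h4, rfl⟩, ?_⟩
  exact mem_switch h1 h2 h3 h4

/-- Neighbours of `v`. -/
def nbrs (G : Finset (Sym2 (Fin n))) (v : Fin n) : Finset (Fin n) :=
  univ.filter (fun y => s(v, y) ∈ G)

theorem mem_nbrs {G : Finset (Sym2 (Fin n))} {v y : Fin n} : y ∈ nbrs G v ↔ s(v, y) ∈ G := by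
  simp [nbrs]

theorem vdeg_eq_card_nbrs (G : Finset (Sym2 (Fin n))) (v : Fin n) :
    vdeg G v = (nbrs G v).card := by
  unfold vdeg nbrs
  have : G.filter (fun e => v ∈ e) =
      (univ.filter (fun u => s(v, u) ∈ G)).image (fun u => s(v, u)) := by
    ext e
    simp only [mem_filter, mem_image, mem_univ, true_and]
    constructor
    · rintro ⟨he, hv⟩
      obtain ⟨u, rfl⟩ := hv
      exact ⟨u, he, rfl⟩
    · rintro ⟨u, hu, rfl⟩
      exact ⟨hu, Sym2.mem_mk_left _ _⟩
  rw [this, Finset.card_image_of_injective _ (fun a b h => Sym2.congr_right.mp h)]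

theorem no_loop (G : Realizations d) (x : Fin n) : s(x, x) ∉ G.1 := fun h =>
  G.2.1 _ h (Sym2.mk_isDiag_iff.mpr rfl)

/-- Degree outside `W`. -/
def outDeg (G : Finset (Sym2 (Fin n))) (W : Finset (Fin n)) (x : Fin n) : ℕ :=
  (Wᶜ.filter (fun y => s(x, y) ∈ G)).card

theorem outDeg_add (G : Realizations d) (W : Finset (Fin n)) (x : Fin n) :
    outDeg G.1 W x + (W.filter (fun y => s(x, y) ∈ G.1)).card = d x := by
  rw [← G.2.2 x, vdeg_eq_card_nbrs, add_comm]
  unfold outDeg nbrs
  rw [← Finset.card_union_of_disjoint]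
  · congr 1
    ext y
    simp only [mem_union, mem_filter, mem_compl, mem_univ, true_and]
    tauto
  · rw [Finset.disjoint_left]
    intro y hy hy'
    exact (Finset.mem_compl.mp (Finset.mem_filter.mp hy').1) (Finset.mem_filter.mp hy).1

section
variable {W : Finset (Fin n)}

theorem outDeg_eq {G H : Realizations d}
    (hW : ∀ u ∈ W, ∀ x, s(u, x) ∈ G.1 ↔ s(u, x) ∈ H.1) (x : Fin n) :
    outDeg G.1 W x = outDeg H.1 W x := by
  have h1 := outDeg_add G W x
  have h2 := outDeg_add H W x
  have h3 : W.filter (fun y => s(x, y) ∈ G.1) = W.filter (fun y => s(x, y) ∈ H.1) := by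
    apply Finset.filter_congr
    intro y hy
    rw [Sym2.eq_swap (a := x) (b := y)]
    exact hW y hy x
  rw [h3] at h1
  omega

theorem outDeg_lt (G : Realizations d) {v a b : Fin n} (hv : v ∉ W) (hb : b ∉ W) (hvb : v ≠ b)
    (h1 : s(v, a) ∈ G.1) (h3 : s(v, b) ∉ G.1)
    (hG : ∀ w, w ∉ W → w ≠ v → w ≠ a → s(w, b) ∈ G.1 → s(w, a) ∈ G.1) :
    outDeg G.1 W b < outDeg G.1 W a := by
  unfold outDeg
  rw [← Finset.card_image_of_injective _ (Equiv.swap a b).injective]
  apply Finset.card_lt_card
  rw [Finset.ssubset_iff_of_subset]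
  · refine ⟨v, ?_, ?_⟩
    · simp only [mem_filter, mem_compl]
      refine ⟨hv, ?_⟩
      rw [Sym2.eq_swap]
      exact h1
    · intro hvi
      obtain ⟨y, hy, hyv⟩ := Finset.mem_image.mp hvi
      simp only [mem_filter, mem_compl] at hy
      have hy' : y = Equiv.swap a b v := by
        rw [← hyv, Equiv.swap_apply_self]
      have hva : v ≠ a := by
        rintro rfl
        exact no_loop G _ h1
      rw [Equiv.swap_apply_of_ne_of_ne hva hvb] at hy'
      subst hy'
      apply h3
      rw [Sym2.eq_swap]
      exact hy.2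
  · intro z hz
    obtain ⟨y, hy, rfl⟩ := Finset.mem_image.mp hz
    simp only [mem_filter, mem_compl] at hy ⊢
    by_cases hya : y = a
    · subst hya
      rw [Equiv.swap_apply_left]
      refine ⟨hb, ?_⟩
      rw [Sym2.eq_swap]
      exact hy.2
    · by_cases hyb : y = b
      · subst hyb
        exact absurd hy.2 (no_loop G _)
      · rw [Equiv.swap_apply_of_ne_of_ne hya hyb]
        refine ⟨hy.1, ?_⟩
        have hyv : y ≠ v := by
          rintro rfl
          apply h3
          rw [Sym2.eq_swap]
          exact hy.2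
        have h5 : s(y, b) ∈ G.1 := by
          rw [Sym2.eq_swap]
          exact hy.2
        have h6 := hG y hy.1 hyv hya h5
        rw [Sym2.eq_swap]
        exact h6

/-- The key observation: the neighbourhood of `v` can be improved in one of the two graphs. -/
theorem exists_improving {G H : Realizations d}
    (hW : ∀ u ∈ W, ∀ x, s(u, x) ∈ G.1 ↔ s(u, x) ∈ H.1) {v a b : Fin n} (hv : v ∉ W)
    (h1 : s(v, a) ∈ G.1) (h2 : s(v, a) ∉ H.1) (h3 : s(v, b) ∉ G.1) (h4 : s(v, b) ∈ H.1) :
    (∃ w, w ∉ W ∧ w ≠ v ∧ w ≠ a ∧ s(w, b) ∈ G.1 ∧ s(w, a) ∉ G.1) ∨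
      (∃ w, w ∉ W ∧ w ≠ v ∧ w ≠ b ∧ s(w, a) ∈ H.1 ∧ s(w, b) ∉ H.1) := by
  have ha : a ∉ W := by
    intro h
    have := hW a h v
    rw [Sym2.eq_swap (a := a) (b := v)] at this
    exact h2 (this.mp h1)
  have hb : b ∉ W := by
    intro h
    have := hW b h v
    rw [Sym2.eq_swap (a := b) (b := v)] at this
    exact h3 (this.mpr h4)
  by_contra hcon
  push Not at hcon
  obtain ⟨hG, hH⟩ := hcon
  have hva : v ≠ a := by
    rintro rfl
    exact no_loop G _ h1
  have hvb : v ≠ b := by
    rintro rfl
    exact no_loop H _ h4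
  have e1 := outDeg_lt G hv hb hvb h1 h3 hG
  have e2 := outDeg_lt H hv ha hva h4 h2 hH
  rw [outDeg_eq hW a, outDeg_eq hW b] at e1
  omega

end

/-- Two realizations are connected by switches. -/
theorem conn_aux : ∀ (m : ℕ) (W : Finset (Fin n)), Wᶜ.card = m → ∀ G H : Realizations d,
    (∀ u ∈ W, ∀ x, s(u, x) ∈ G.1 ↔ s(u, x) ∈ H.1) → Relation.EqvGen SwitchStep G H := by
  intro m
  induction m with
  | zero =>
    intro W hm G H hW
    have hG : G = H := by
      apply Subtype.ext
      ext e
      induction e using Sym2.ind with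
      | _ x y =>
        apply hW x
        have : x ∉ Wᶜ := by
          rw [Finset.card_eq_zero.mp hm]
          simp
        simpa using this
    rw [hG]
    exact Relation.EqvGen.refl _
  | succ m ih =>
    intro W hm
    obtain ⟨v, hvW⟩ : ∃ v, v ∈ Wᶜ := Finset.card_pos.mp (by omega)
    have hv : v ∉ W := Finset.mem_compl.mp hvW
    have hcard : (insert v W)ᶜ.card = m := by
      have h1 : (insert v W)ᶜ = Wᶜ.erase v := by
        ext y
        simp only [mem_compl, mem_insert, mem_erase, not_or]
      rw [h1, Finset.card_erase_of_mem hvW, hm]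
      rfl
    have key : ∀ (k : ℕ) (G H : Realizations d),
        (∀ u ∈ W, ∀ x, s(u, x) ∈ G.1 ↔ s(u, x) ∈ H.1) → (nbrs G.1 v \ nbrs H.1 v).card = k →
        Relation.EqvGen SwitchStep G H := by
      intro k
      induction k with
      | zero =>
        intro G H hW hk
        have hsub : nbrs G.1 v ⊆ nbrs H.1 v := Finset.sdiff_eq_empty_iff_subset.mp
          (Finset.card_eq_zero.mp hk)
        have hcardN : (nbrs G.1 v).card = (nbrs H.1 v).card := by
          rw [← vdeg_eq_card_nbrs, ← vdeg_eq_card_nbrs, G.2.2, H.2.2]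
        have heq : nbrs G.1 v = nbrs H.1 v := Finset.eq_of_subset_of_card_le hsub hcardN.ge
        apply ih (insert v W) hcard G H
        intro u hu x
        rcases Finset.mem_insert.mp hu with rfl | hu
        · rw [← mem_nbrs (G := G.1), ← mem_nbrs (G := H.1), heq]
        · exact hW u hu x
      | succ k ihk =>
        intro G H hW hk
        have hcardN : (nbrs G.1 v).card = (nbrs H.1 v).card := by
          rw [← vdeg_eq_card_nbrs, ← vdeg_eq_card_nbrs, G.2.2, H.2.2]
        have hk' : (nbrs H.1 v \ nbrs G.1 v).card = k + 1 := by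
          rw [← hk]
          exact (Finset.card_sdiff_comm hcardN).symm
        obtain ⟨a, haN⟩ : ∃ a, a ∈ nbrs G.1 v \ nbrs H.1 v := Finset.card_pos.mp (by omega)
        obtain ⟨b, hbN⟩ : ∃ b, b ∈ nbrs H.1 v \ nbrs G.1 v := Finset.card_pos.mp (by omega)
        rw [Finset.mem_sdiff, mem_nbrs, mem_nbrs] at haN hbN
        obtain ⟨h1, h2⟩ := haN
        obtain ⟨h4, h3⟩ := hbN
        have hva : v ≠ a := by
          rintro rfl
          exact no_loop G _ h1
        have hvb : v ≠ b := by
          rintro rfl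
          exact no_loop H _ h4
        have hab : a ≠ b := by
          rintro rfl
          exact h3 h1
        have haW : a ∉ W := by
          intro h
          have := hW a h v
          rw [Sym2.eq_swap (a := a) (b := v)] at this
          exact h2 (this.mp h1)
        have hbW : b ∉ W := by
          intro h
          have := hW b h v
          rw [Sym2.eq_swap (a := b) (b := v)] at this
          exact h3 (this.mpr h4)
        rcases exists_improving hW hv h1 h2 h3 h4 with ⟨w, hwW, hwv, hwa, hwb1, hwa1⟩ |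
            ⟨w, hwW, hwv, hwb, hwa1, hwb1⟩
        · -- switch in `G`: `v a`, `b w` become `v b`, `a w`
          have hwb' : w ≠ b := by
            rintro rfl
            exact no_loop G _ hwb1
          obtain ⟨G', hstep, hmem⟩ := exists_step G (a := v) (b := a) (c := b) (e := w) hva hvb
            hwv.symm hab hwa.symm hwb'.symm h1 (by rw [Sym2.eq_swap]; exact hwb1) h3
            (by rw [Sym2.eq_swap]; exact hwa1)
          have hW' : ∀ u ∈ W, ∀ x, s(u, x) ∈ G'.1 ↔ s(u, x) ∈ H.1 := by
            intro u hu x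
            rw [← hW u hu x, hmem]
            have huv : u ≠ v := fun h => hv (h ▸ hu)
            have hua : u ≠ a := fun h => haW (h ▸ hu)
            have hub : u ≠ b := fun h => hbW (h ▸ hu)
            have huw : u ≠ w := fun h => hwW (h ▸ hu)
            simp [huv, hua, hub, huw]
          have hG'v : ∀ y, s(v, y) ∈ G'.1 ↔ (s(v, y) ∈ G.1 ∧ y ≠ a) ∨ y = b := by
            intro y
            rw [hmem]
            have e1 : s(v, y) = s(v, a) ↔ y = a := Sym2.congr_right
            have e2 : s(v, y) ≠ s(b, w) := by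
              simp only [ne_eq, Sym2.eq_iff, not_or, not_and]
              exact ⟨fun h => absurd h hvb, fun h => absurd h hwv.symm⟩
            have e3 : s(v, y) = s(v, b) ↔ y = b := Sym2.congr_right
            have e4 : s(v, y) ≠ s(a, w) := by
              simp only [ne_eq, Sym2.eq_iff, not_or, not_and]
              exact ⟨fun h => absurd h hva, fun h => absurd h hwv.symm⟩
            rw [e3, ne_eq, e1]
            tauto
          have hmeas : (nbrs G'.1 v \ nbrs H.1 v).card = k := by
            have : nbrs G'.1 v \ nbrs H.1 v = (nbrs G.1 v \ nbrs H.1 v).erase a := by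
              ext y
              simp only [mem_sdiff, mem_nbrs, mem_erase]
              rw [hG'v]
              constructor
              · rintro ⟨⟨h5, h6⟩ | rfl, h7⟩
                · exact ⟨h6, h5, h7⟩
                · exact absurd h4 h7
              · rintro ⟨h5, h6, h7⟩
                exact ⟨Or.inl ⟨h6, h5⟩, h7⟩
            rw [this, Finset.card_erase_of_mem (by
              rw [Finset.mem_sdiff, mem_nbrs, mem_nbrs]
              exact ⟨h1, h2⟩), hk]
            rfl
          exact Relation.EqvGen.trans _ _ _ (Relation.EqvGen.rel _ _ hstep) (ihk G' H hW' hmeas)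
        · -- switch in `H`: `v b`, `a w` become `v a`, `b w`
          have hwa' : w ≠ a := by
            rintro rfl
            exact no_loop H _ hwa1
          obtain ⟨H', hstep, hmem⟩ := exists_step H (a := v) (b := b) (c := a) (e := w) hvb hva
            hwv.symm hab.symm hwb.symm hwa'.symm h4 (by rw [Sym2.eq_swap]; exact hwa1) h2
            (by rw [Sym2.eq_swap]; exact hwb1)
          have hW' : ∀ u ∈ W, ∀ x, s(u, x) ∈ G.1 ↔ s(u, x) ∈ H'.1 := by
            intro u hu x
            rw [hW u hu x, hmem]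
            have huv : u ≠ v := fun h => hv (h ▸ hu)
            have hua : u ≠ a := fun h => haW (h ▸ hu)
            have hub : u ≠ b := fun h => hbW (h ▸ hu)
            have huw : u ≠ w := fun h => hwW (h ▸ hu)
            simp [huv, hua, hub, huw]
          have hH'v : ∀ y, s(v, y) ∈ H'.1 ↔ (s(v, y) ∈ H.1 ∧ y ≠ b) ∨ y = a := by
            intro y
            rw [hmem]
            have e1 : s(v, y) = s(v, b) ↔ y = b := Sym2.congr_right
            have e2 : s(v, y) ≠ s(a, w) := by
              simp only [ne_eq, Sym2.eq_iff, not_or, not_and]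
              exact ⟨fun h => absurd h hva, fun h => absurd h hwv.symm⟩
            have e3 : s(v, y) = s(v, a) ↔ y = a := Sym2.congr_right
            have e4 : s(v, y) ≠ s(b, w) := by
              simp only [ne_eq, Sym2.eq_iff, not_or, not_and]
              exact ⟨fun h => absurd h hvb, fun h => absurd h hwv.symm⟩
            rw [e3, ne_eq, e1]
            tauto
          have hmeas : (nbrs G.1 v \ nbrs H'.1 v).card = k := by
            have : nbrs G.1 v \ nbrs H'.1 v = (nbrs G.1 v \ nbrs H.1 v).erase a := by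
              ext y
              simp only [mem_sdiff, mem_nbrs, mem_erase]
              rw [hH'v]
              constructor
              · rintro ⟨h5, h6⟩
                refine ⟨fun h7 => h6 (Or.inr h7), h5, fun h7 => h6 (Or.inl ⟨h7, ?_⟩)⟩
                rintro rfl
                exact h3 h5
              · rintro ⟨h5, h6, h7⟩
                refine ⟨h6, ?_⟩
                rintro (⟨h8, -⟩ | h8)
                · exact h7 h8
                · exact h5 h8
            rw [this, Finset.card_erase_of_mem (by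
              rw [Finset.mem_sdiff, mem_nbrs, mem_nbrs]
              exact ⟨h1, h2⟩), hk]
            rfl
          exact (Relation.EqvGen.trans _ _ _ (ihk G H' hW' hmeas)
            (Relation.EqvGen.symm _ _ (Relation.EqvGen.rel _ _ hstep)))
    exact fun G H hW => key _ G H hW rfl

/-- The switch graph on `Ω_d` is connected. -/
theorem switch_connected (G H : Realizations d) : Relation.EqvGen SwitchStep G H :=
  conn_aux _ ∅ rfl G H (by simp)

/-- A function invariant under all switches is constant. -/
theorem eq_of_step_invariant {α : Type*} (f : Realizations d → α)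
    (hf : ∀ G G', SwitchStep G G' → f G = f G') (G H : Realizations d) : f G = f H := by
  induction switch_connected G H with
  | rel x y h => exact hf x y h
  | refl x => rfl
  | symm x y _ ih => exact ih.symm
  | trans x y z _ _ ih1 ih2 => exact ih1.trans ih2

/-- A switch leaves alone all edges that avoid the pair of opposite corners. -/
theorem SwitchStep.exists_pair {G G' : Realizations d} (h : SwitchStep G G') :
    ∃ a e : Fin n, a ≠ e ∧ ∀ x y, x ≠ a → x ≠ e → y ≠ a → y ≠ e →
      (s(x, y) ∈ G.1 ↔ s(x, y) ∈ G'.1) := by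
  obtain ⟨a, b, c, e, hab, hac, hae, hbc, hbe, hce, h1, h2, h3, h4, hG'⟩ := h
  refine ⟨a, e, hae, ?_⟩
  intro x y hxa hxe hya hye
  rw [hG', mem_switch h1 h2 h3 h4]
  have e1 : s(x, y) ≠ s(a, b) := by
    simp only [ne_eq, Sym2.eq_iff, not_or, not_and]
    exact ⟨fun h => absurd h hxa, fun _ h => hya h⟩
  have e2 : s(x, y) ≠ s(c, e) := by
    simp only [ne_eq, Sym2.eq_iff, not_or, not_and]
    exact ⟨fun _ h => hye h, fun h => absurd h hxe⟩
  have e3 : s(x, y) ≠ s(a, c) := by
    simp only [ne_eq, Sym2.eq_iff, not_or, not_and]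
    exact ⟨fun h => absurd h hxa, fun _ h => hya h⟩
  have e4 : s(x, y) ≠ s(b, e) := by
    simp only [ne_eq, Sym2.eq_iff, not_or, not_and]
    exact ⟨fun _ h => hye h, fun h => absurd h hxe⟩
  constructor
  · intro h
    exact Or.inl ⟨h, e1, e2⟩
  · rintro (⟨h, -, -⟩ | h | h)
    · exact h
    · exact absurd h e3
    · exact absurd h e4

/-- A function that only depends on the edges avoiding any given pair of vertices is constant. -/
theorem eq_of_pair_invariant {α : Type*} (f : Realizations d → α)
    (hf : ∀ a e : Fin n, a ≠ e → ∀ G G' : Realizations d,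
      (∀ x y, x ≠ a → x ≠ e → y ≠ a → y ≠ e → (s(x, y) ∈ G.1 ↔ s(x, y) ∈ G'.1)) → f G = f G')
    (G H : Realizations d) : f G = f H := by
  apply eq_of_step_invariant
  intro G G' h
  obtain ⟨a, e, hae, hh⟩ := h.exists_pair
  exact hf a e hae G G' hh

end Vale.Agent.Lib.P335
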