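import Mathlib

/-!
The switch chain on labelled simple graphs with a given degree vector.
-/

namespace Vale.Agent.Lib.P335

open Finset

variable {n : ℕ}

/-- The degree of `v` in a set of edges: the number of edges containing `v`. -/
def vdeg (G : Finset (Sym2 (Fin n))) (v : Fin n) : ℕ := (G.filter (fun e => v ∈ e)).card

/-- `G` is (the edge set of) a simple graph on `Fin n` with degree vector `d`: no loops, and
every vertex `v` lies in exactly `d v` edges. -/
def IsRealization (d : Fin n → ℕ) (G : Finset (Sym2 (Fin n))) : Prop :=
  (∀ e ∈ G, ¬ e.IsDiag) ∧ ∀ v, vdeg G v = d v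

instance (d : Fin n → ℕ) : DecidablePred (IsRealization d) := fun G => by
  unfold IsRealization
  infer_instance

/-- The set `Ω_d` of labelled simple graphs with degree vector `d`. -/
abbrev Realizations (d : Fin n → ℕ) := {G : Finset (Sym2 (Fin n)) // IsRealization d G}

/-- The perfect matchings of the complete graph on the vertex set `S`: sets of two edges of
the complete graph on `S` such that each vertex of `S` lies in exactly one of them. -/
def matchingsOn (S : Finset (Fin n)) : Finset (Finset (Sym2 (Fin n))) :=
  ((S.sym2.filter (fun e => ¬ e.IsDiag)).powersetCard 2).filter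
    (fun F => ∀ v ∈ S, (F.filter (fun e => v ∈ e)).card = 1)

/-- The ordered pairs `(F, F')` of distinct perfect matchings of the complete graph on `S`
(there are six of them when `S` has four elements). -/
def orderedPairs (S : Finset (Fin n)) : Finset (Finset (Sym2 (Fin n)) × Finset (Sym2 (Fin n))) :=
  (matchingsOn S ×ˢ matchingsOn S).filter (fun p => p.1 ≠ p.2)

/-- The switch: if both edges of `F` are present and both edges of `F'` are absent in `G`,
replace `F` by `F'`, otherwise stay put. -/
def switchResult (G F F' : Finset (Sym2 (Fin n))) : Finset (Sym2 (Fin n)) :=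
  if F ⊆ G ∧ Disjoint F' G then (G \ F) ∪ F' else G

/-- The transition matrix of the switch chain on `Ω_d`: with probability `1/2` stay put;
otherwise choose a four element set `S` uniformly and a pair `(F, F')` uniformly among the
ordered pairs of distinct perfect matchings on `S`, and move to the result of the switch. -/
noncomputable def switchChain (d : Fin n → ℕ) : Matrix (Realizations d) (Realizations d) ℝ :=
  fun G G' => (if G = G' then 1 / 2 else 0) + (1 / 2) * ((1 / (n.choose 4 : ℝ)) *
    ∑ S ∈ (univ : Finset (Fin n)).powersetCard 4, (1 / ((orderedPairs S).card : ℝ)) *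
      ∑ p ∈ orderedPairs S, if switchResult G.1 p.1 p.2 = G'.1 then 1 else 0)

/-- After `t` steps the chain is within total variation distance `1/4` of the uniform
distribution on `Ω_d`, from every starting graph; that is, `t_mix(d) ≤ t` holds as soon as
`MixedBy d t`. -/
def MixedBy (d : Fin n → ℕ) (t : ℕ) : Prop :=
  ∀ G : Realizations d, (1 / 2) * ∑ G' : Realizations d,
    |(switchChain d ^ t) G G' - 1 / (Fintype.card (Realizations d) : ℝ)| ≤ 1 / 4

end Vale.Agent.Lib.P335
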