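import Vale.Agent.Lib.P335.Glue

/-!
The bound on the variance for binary matrices by the exchanges on two rows and two columns.
-/

namespace Vale.Agent.Lib.P335

open Finset Matrix

section generic
variable {Ω : Type*} [Fintype Ω]

theorem eq_of_dot_eq {u v : Ω → ℝ} (h : ∀ g, u ⬝ᵥ g = v ⬝ᵥ g) : u = v := by
  have h1 := h (u - v)
  have h2 : (u - v) ⬝ᵥ (u - v) = 0 := by
    rw [sub_dotProduct, h1, sub_self]
  exact sub_eq_zero.mp (dot_self_eq_zero h2)

theorem avg_comm_of_preserve {ρ σ : Ω → Ω → Prop} [DecidableRel ρ] [DecidableRel σ]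
    (hρ : Equivalence ρ) (hσ : Equivalence σ) (h : ∀ g, Meas ρ g → Meas ρ (avg σ g)) (f : Ω → ℝ) :
    avg σ (avg ρ f) = avg ρ (avg σ f) := by
  have key : ∀ u, avg ρ (avg σ (avg ρ u)) = avg σ (avg ρ u) := fun u =>
    avg_of_meas hρ (h _ (avg_meas hρ u))
  apply eq_of_dot_eq
  intro g
  calc avg σ (avg ρ f) ⬝ᵥ g = avg ρ (avg σ (avg ρ f)) ⬝ᵥ g := by rw [key]
    _ = avg σ (avg ρ f) ⬝ᵥ avg ρ g := avg_dot hρ _ _
    _ = avg ρ f ⬝ᵥ avg σ (avg ρ g) := avg_dot hσ _ _
    _ = f ⬝ᵥ avg ρ (avg σ (avg ρ g)) := avg_dot hρ _ _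
    _ = f ⬝ᵥ avg σ (avg ρ g) := by rw [key]
    _ = avg σ f ⬝ᵥ avg ρ g := (avg_dot hσ _ _).symm
    _ = avg ρ (avg σ f) ⬝ᵥ g := (avg_dot hρ _ _).symm

/-- Cross terms are nonnegative given the bound for three relations. -/
theorem cross_of_K3 {ρ1 ρ2 ρ3 ρ : Ω → Ω → Prop} [DecidableRel ρ1] [DecidableRel ρ2]
    [DecidableRel ρ3] [DecidableRel ρ]
    (h1 : Equivalence ρ1) (h2 : Equivalence ρ2) (h3 : Equivalence ρ3) (h : Equivalence ρ)
    (s1 : ∀ x y, ρ1 x y → ρ x y) (s2 : ∀ x y, ρ2 x y → ρ x y) (s3 : ∀ x y, ρ3 x y → ρ x y)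
    (K3 : ∀ f : Ω → ℝ, avg ρ1 f ⬝ᵥ avg ρ1 f + avg ρ2 f ⬝ᵥ avg ρ2 f + avg ρ3 f ⬝ᵥ avg ρ3 f
      ≤ 2 * (f ⬝ᵥ f) + avg ρ f ⬝ᵥ avg ρ f) (f : Ω → ℝ) :
    0 ≤ (f - avg ρ1 f) ⬝ᵥ (f - avg ρ2 f) + (f - avg ρ1 f) ⬝ᵥ (f - avg ρ3 f)
      + (f - avg ρ2 f) ⬝ᵥ (f - avg ρ3 f) := by
  set g := f - avg ρ f with hg
  have hE : ∀ {σ : Ω → Ω → Prop} [DecidableRel σ], Equivalence σ → (∀ x y, σ x y → ρ x y) →
      f - avg σ f = g - avg σ g := by
    intro σ _ hσ hs
    rw [hg, avg_sub, avg_of_coarser hσ h hs]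
    abel
  have hPi : avg ρ g = 0 := by
    rw [hg, avg_sub, avg_avg h, sub_self]
  rw [hE h1 s1, hE h2 s2, hE h3 s3]
  have hK := K3 g
  rw [hPi] at hK
  simp only [dotProduct_zero, add_zero] at hK
  set A := g ⬝ᵥ g with hA
  set e1 := avg ρ1 g with he1
  set e2 := avg ρ2 g with he2
  set e3 := avg ρ3 g with he3
  have d1 : g ⬝ᵥ e1 = e1 ⬝ᵥ e1 := (avg_dot_avg h1 g).symm
  have d2 : g ⬝ᵥ e2 = e2 ⬝ᵥ e2 := (avg_dot_avg h2 g).symm
  have d3 : g ⬝ᵥ e3 = e3 ⬝ᵥ e3 := (avg_dot_avg h3 g).symm
  have hS := dot_self_nonneg ((g - e1) + (g - e2) + (g - e3) - g)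
  have c1 : e1 ⬝ᵥ g = e1 ⬝ᵥ e1 := by rw [dotProduct_comm, d1]
  have c2 : e2 ⬝ᵥ g = e2 ⬝ᵥ e2 := by rw [dotProduct_comm, d2]
  have c3 : e3 ⬝ᵥ g = e3 ⬝ᵥ e3 := by rw [dotProduct_comm, d3]
  have c4 : e2 ⬝ᵥ e1 = e1 ⬝ᵥ e2 := dotProduct_comm _ _
  have c5 : e3 ⬝ᵥ e1 = e1 ⬝ᵥ e3 := dotProduct_comm _ _
  have c6 : e3 ⬝ᵥ e2 = e2 ⬝ᵥ e3 := dotProduct_comm _ _
  simp only [sub_dotProduct, dotProduct_sub, add_dotProduct, dotProduct_add,
    d1, d2, d3, c1, c2, c3, c4, c5, c6] at hS ⊢
  linarith

end generic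

variable {ι κ : Type*} [Fintype ι] [DecidableEq ι] [Fintype κ] [DecidableEq κ]
  {r : ι → ℕ} {c : κ → ℕ}

/-- Counts on `P` agree for two matrices agreeing off `P`. -/
theorem cntIn_eq_of_agree {P : Finset ι} {x y : Bip r c} (h : agree P x y) (j : κ) :
    cntIn P x.1 j = cntIn P y.1 j := by
  have h1 := cnt_split P x.1 j
  have h2 := cnt_split P y.1 j
  rw [x.2.2 j] at h1
  rw [y.2.2 j] at h2
  have h3 : ∑ i ∈ Pᶜ, (if j ∈ x.1 i then 1 else 0) = ∑ i ∈ Pᶜ, if j ∈ y.1 i then 1 else 0 := by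
    apply Finset.sum_congr rfl
    intro i hi
    rw [h i (by simpa using hi)]
  omega

/-- Rows on `P` from `a`, other rows from `b`. -/
def fillVal (P : Finset ι) (a b : ι → Finset κ) : ι → Finset κ := fun i => if i ∈ P then a i else b i

theorem fill_isBip {P : Finset ι} {x y z : Bip r c} (hz : agree P x z)
    (hxy : ∀ i ∈ P, x.1 i = y.1 i) : IsBip r c (fillVal P z.1 y.1) := by
  constructor
  · intro i
    unfold fillVal
    by_cases hi : i ∈ P
    · simp only [hi, if_true]
      exact z.2.1 i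
    · simp only [hi, if_false]
      exact y.2.1 i
  · intro j
    rw [← y.2.2 j, cnt_split P, cnt_split P y.1]
    congr 1
    · have e1 : cntIn P (fillVal P z.1 y.1) j = cntIn P z.1 j := by
        unfold cntIn
        apply Finset.sum_congr rfl
        intro i hi
        simp [fillVal, hi]
      have e2 : cntIn P y.1 j = cntIn P x.1 j := by
        unfold cntIn
        apply Finset.sum_congr rfl
        intro i hi
        rw [hxy i hi]
      rw [e1, e2, cntIn_eq_of_agree hz]
    · apply Finset.sum_congr rfl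
      intro i hi
      have : i ∉ P := by simpa using hi
      simp [fillVal, this]

/-- The class bijection for disjoint row sets. -/
theorem sum_agree_disjoint {P P' : Finset ι} (hd : Disjoint P P') {x y : Bip r c}
    (hxy : agree P x y) (g : Bip r c → ℝ) (hg : Meas (agree P) g) :
    ∑ z ∈ univ.filter (agree P' x), g z = ∑ z ∈ univ.filter (agree P' y), g z := by
  have hon : ∀ i ∈ P', x.1 i = y.1 i := fun i hi =>
    hxy i (fun hP => (Finset.disjoint_left.mp hd) hP hi)
  refine Finset.sum_bij'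
    (fun z hz => (⟨fillVal P' z.1 y.1,
      fill_isBip (x := x) (by simpa using hz) hon⟩ : Bip r c))
    (fun z hz => (⟨fillVal P' z.1 x.1,
      fill_isBip (x := y) (by simpa using hz) (fun i hi => (hon i hi).symm)⟩ : Bip r c))
    ?_ ?_ ?_ ?_ ?_
  · intro z hz
    simp only [mem_filter, mem_univ, true_and]
    intro i hi
    simp [fillVal, hi]
  · intro z hz
    simp only [mem_filter, mem_univ, true_and]
    intro i hi
    simp [fillVal, hi]
  · intro z hz
    apply Subtype.ext
    funext i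
    simp only [mem_filter, mem_univ, true_and] at hz
    by_cases hi : i ∈ P'
    · simp [fillVal, hi]
    · simp only [fillVal, hi, if_false]
      exact hz i hi
  · intro z hz
    apply Subtype.ext
    funext i
    simp only [mem_filter, mem_univ, true_and] at hz
    by_cases hi : i ∈ P'
    · simp [fillVal, hi]
    · simp only [fillVal, hi, if_false]
      exact hz i hi
  · intro z hz
    simp only [mem_filter, mem_univ, true_and] at hz
    apply hg
    intro i hi
    by_cases hi' : i ∈ P'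
    · simp [fillVal, hi']
    · simp only [fillVal, hi', if_false]
      exact (hz i hi').symm.trans (hxy i hi)

theorem card_agree_disjoint {P P' : Finset ι} (hd : Disjoint P P') {x y : Bip r c}
    (hxy : agree P x y) :
    (univ.filter (agree P' x)).card = (univ.filter (agree P' y)).card := by
  have := sum_agree_disjoint hd hxy (fun _ => (1 : ℝ)) (fun _ _ _ => rfl)
  simp only [Finset.sum_const, nsmul_eq_mul, mul_one] at this
  exact_mod_cast this

theorem avg_preserve {P P' : Finset ι} (hd : Disjoint P P') (g : Bip r c → ℝ)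
    (hg : Meas (agree P) g) : Meas (agree P) (avg (agree P') g) := by
  intro x y hxy
  unfold avg
  rw [sum_agree_disjoint hd hxy g hg, card_agree_disjoint hd hxy]

/-- Commutation of averages for disjoint sets of rows. -/
theorem avg_agree_comm {P P' : Finset ι} (hd : Disjoint P P') (f : Bip r c → ℝ) :
    avg (agree P') (avg (agree P) f) = avg (agree P) (avg (agree P') f) :=
  avg_comm_of_preserve (agree_equiv P) (agree_equiv P') (avg_preserve hd) f

/-- Complement of the average. -/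
noncomputable def qA (P : Finset ι) : (Bip r c → ℝ) →ₗ[ℝ] (Bip r c → ℝ) :=
  LinearMap.id - avgL (agree P)

theorem qA_apply (P : Finset ι) (f : Bip r c → ℝ) : qA P f = f - avg (agree P) f := rfl

theorem qA_symm (P : Finset ι) (f g : Bip r c → ℝ) : qA P f ⬝ᵥ g = f ⬝ᵥ qA P g := by
  simp only [qA_apply, sub_dotProduct, dotProduct_sub, avg_dot (agree_equiv P)]

theorem qA_idem (P : Finset ι) (f : Bip r c → ℝ) : qA P (qA P f) = qA P f := by
  simp only [qA_apply, avg_sub, avg_avg (agree_equiv P), sub_self, sub_zero]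

theorem qA_comm {P P' : Finset ι} (hd : Disjoint P P') (f : Bip r c → ℝ) :
    qA P (qA P' f) = qA P' (qA P f) := by
  simp only [qA_apply, avg_sub, avg_agree_comm hd f]
  abel

theorem qA_dot (P : Finset ι) (f : Bip r c → ℝ) :
    qA P f ⬝ᵥ qA P f = f ⬝ᵥ f - avg (agree P) f ⬝ᵥ avg (agree P) f := by
  simp only [qA_apply, sub_dotProduct, dotProduct_sub]
  have := avg_dot_avg (agree_equiv (r := r) (c := c) P) f
  rw [dotProduct_comm (avg (agree P) f) f, this]
  ring

/-- One row may vary alone only trivially. -/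
theorem agree_single {k : ι} {x y : Bip r c} (h : agree {k} x y) : x = y := by
  apply Subtype.ext
  funext i
  by_cases hi : i = k
  · subst hi
    ext j
    have h1 := cntIn_eq_of_agree h j
    unfold cntIn at h1
    simp only [Finset.sum_singleton] at h1
    by_cases hj : j ∈ x.1 i
    · by_cases hj' : j ∈ y.1 i
      · simp [hj, hj']
      · simp [hj, hj'] at h1
    · by_cases hj' : j ∈ y.1 i
      · simp [hj, hj'] at h1
      · simp [hj, hj']
  · exact h i (by simpa using hi)

theorem qA_single (k : ι) (f : Bip r c → ℝ) : qA {k} f = 0 := by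
  rw [qA_apply, avg_of_meas (agree_equiv _), sub_self]
  intro x y h
  rw [agree_single h]

section conn

theorem exists_row_of_cntIn_lt {S : Finset ι} {x : ι → Finset κ} {j j' : κ}
    (h : cntIn S x j < cntIn S x j') : ∃ l ∈ S, j' ∈ x l ∧ j ∉ x l := by
  by_contra hne
  push Not at hne
  have : cntIn S x j' ≤ cntIn S x j := by
    unfold cntIn
    apply Finset.sum_le_sum
    intro i hi
    by_cases h1 : j' ∈ x i
    · simp [h1, hne i hi h1]
    · simp [h1]
  omega

theorem cntIn_erase {T : Finset ι} {k : ι} (hk : k ∈ T) (x : ι → Finset κ) (j : κ) :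
    cntIn T x j = (if j ∈ x k then 1 else 0) + cntIn (T.erase k) x j := by
  unfold cntIn
  rw [Finset.add_sum_erase T (fun i => if j ∈ x i then 1 else 0) hk]

variable (f : Bip r c → ℝ) (hf : ∀ k l, Meas (agree {k, l}) f)
include hf

theorem step_one {T : Finset ι} {k : ι} (hk : k ∈ T) {x y : Bip r c} (hxy : agree T x y)
    {j j' : κ} (h1 : j ∈ x.1 k) (h2 : j ∉ y.1 k) (h3 : j' ∈ y.1 k) (h4 : j' ∉ x.1 k)
    (h5 : cntIn T x.1 j ≤ cntIn T x.1 j') :
    ∃ x' : Bip r c, f x' = f x ∧ agree T x' y ∧ (x'.1 k \ y.1 k).card < (x.1 k \ y.1 k).card := by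
  have e1 := cntIn_erase hk x.1 j
  have e2 := cntIn_erase hk x.1 j'
  rw [if_pos h1] at e1
  rw [if_neg h4] at e2
  obtain ⟨l, hl, hl1, hl2⟩ := exists_row_of_cntIn_lt (S := T.erase k) (x := x.1) (j := j) (j' := j')
    (by omega)
  have hlk : l ≠ k := (Finset.mem_erase.mp hl).1
  have hlT : l ∈ T := (Finset.mem_erase.mp hl).2
  have hcond : cntIn {k, l} x.1 j = cntIn {k, l} x.1 j' := by
    unfold cntIn
    rw [Finset.sum_pair hlk.symm, Finset.sum_pair hlk.symm]
    simp [h1, h4, hl1, hl2]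
  set x' : Bip r c := ⟨rowSwap {k, l} j j' x.1, isBip_rowSwap {k, l} j j' x.2 hcond⟩ with hx'
  have hax : agree {k, l} x x' := by
    intro i hi
    simp [hx', rowSwap, hi]
  refine ⟨x', (hf k l x x' hax).symm, ?_, ?_⟩
  · intro i hi
    have hik : i ∉ ({k, l} : Finset ι) := by
      intro hmem
      simp only [mem_insert, mem_singleton] at hmem
      rcases hmem with rfl | rfl
      · exact hi hk
      · exact hi hlT
    rw [← hax i hik]
    exact hxy i hi
  · have hrow : x'.1 k = swapSet j j' (x.1 k) := by simp [hx', rowSwap]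
    have hne : j ≠ j' := fun h => h2 (h ▸ h3)
    have hsub : x'.1 k \ y.1 k = (x.1 k \ y.1 k).erase j := by
      rw [hrow]
      ext a
      simp only [mem_sdiff, mem_swapSet, mem_erase]
      by_cases ha : a = j
      · subst ha
        simp [h4]
      · by_cases ha' : a = j'
        · subst ha'
          simp [h1, h3]
        · rw [Equiv.swap_apply_of_ne_of_ne ha ha']
          simp [ha]
    rw [hsub]
    exact Finset.card_erase_lt_of_mem (by simp [h1, h2])

theorem reduce_row {T : Finset ι} {k : ι} (hk : k ∈ T) (x y : Bip r c) (hxy : agree T x y) :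
    ∃ x' y' : Bip r c, f x' = f x ∧ f y' = f y ∧ agree (T.erase k) x' y' := by
  induction hn : (x.1 k \ y.1 k).card using Nat.strong_induction_on generalizing x y with
  | _ n ih =>
    by_cases h0 : n = 0
    · subst h0
      refine ⟨x, y, rfl, rfl, ?_⟩
      intro i hi
      by_cases hik : i = k
      · subst hik
        have hsub : x.1 i ⊆ y.1 i := by
          rw [← Finset.sdiff_eq_empty_iff_subset]
          exact Finset.card_eq_zero.mp hn
        apply Finset.eq_of_subset_of_card_le hsub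
        rw [x.2.1, y.2.1]
      · exact hxy i (fun hT => hi (Finset.mem_erase.mpr ⟨hik, hT⟩))
    · have hpos : 0 < (x.1 k \ y.1 k).card := by omega
      obtain ⟨j, hj⟩ := Finset.card_pos.mp hpos
      obtain ⟨h1, h2⟩ := Finset.mem_sdiff.mp hj
      have hcard : (x.1 k).card = (y.1 k).card := by rw [x.2.1, y.2.1]
      obtain ⟨j', h3, h4⟩ := exists_mem_sdiff_of_card_eq hcard h1 h2
      by_cases hc : cntIn T x.1 j ≤ cntIn T x.1 j'
      · obtain ⟨x', hx1, hx2, hx3⟩ := step_one f hf hk hxy h1 h2 h3 h4 hc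
        obtain ⟨u, v, hu, hv, huv⟩ := ih _ (by omega) x' y hx2 rfl
        exact ⟨u, v, hu.trans hx1, hv, huv⟩
      · have hc' : cntIn T y.1 j' ≤ cntIn T y.1 j := by
          rw [← cntIn_eq_of_agree hxy j, ← cntIn_eq_of_agree hxy j']
          omega
        have hyx : agree T y x := (agree_equiv T).symm hxy
        obtain ⟨y', hy1, hy2, hy3⟩ := step_one f hf hk hyx h3 h4 h1 h2 hc'
        have hc2 : (y'.1 k).card = (x.1 k).card := by rw [y'.2.1, x.2.1]
        have hc3 : (y.1 k).card = (x.1 k).card := hcard.symm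
        have e1 : (x.1 k \ y'.1 k).card = (y'.1 k \ x.1 k).card :=
          Finset.card_sdiff_comm hc2.symm
        have e2 : (y.1 k \ x.1 k).card = (x.1 k \ y.1 k).card :=
          Finset.card_sdiff_comm hc3
        obtain ⟨u, v, hu, hv, huv⟩ := ih _ (by omega) x y' ((agree_equiv T).symm hy2) rfl
        exact ⟨u, v, hu, hv.trans hy1, huv⟩

theorem conn_agree (T : Finset ι) (x y : Bip r c) (hxy : agree T x y) : f x = f y := by
  induction T using Finset.strongInduction generalizing x y with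
  | H T ih =>
    by_cases hT : T.Nonempty
    · obtain ⟨k, hk⟩ := hT
      obtain ⟨x', y', h1, h2, h3⟩ := reduce_row f hf hk x y hxy
      rw [← h1, ← h2]
      exact ih _ (Finset.erase_ssubset hk) x' y' h3
    · have hT' : T = ∅ := Finset.not_nonempty_iff_eq_empty.mp hT
      subst hT'
      have : x = y := by
        apply Subtype.ext
        funext i
        exact hxy i (by simp)
      rw [this]

theorem conn_pairs (x y : Bip r c) : f x = f y :=
  conn_agree f hf univ x y (fun _ hi => absurd (Finset.mem_univ _) hi)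

end conn

end Vale.Agent.Lib.P335
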