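import Vale.Agent.Lib.P335.Gap

/-!
The bound on the variance for binary matrices: final assembly.
-/

namespace Vale.Agent.Lib.P335

open Finset Matrix

variable {ι κ : Type*} [Fintype ι] [DecidableEq ι] [Fintype κ] [DecidableEq κ]
  {r : ι → ℕ} {c : κ → ℕ}

/-- The bound for three rows, in the whole space. -/
theorem K3_omega {idx : Fin 3 → ι} (hidx : Function.Injective idx) (f : Bip r c → ℝ) :
    ∑ e, avg (agree ((univ.image idx).erase (idx e))) f ⬝ᵥ
        avg (agree ((univ.image idx).erase (idx e))) f
      ≤ 2 * (f ⬝ᵥ f) + avg (agree (univ.image idx)) f ⬝ᵥ avg (agree (univ.image idx)) f := by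
  set P := univ.image idx with hP
  let F : Bip r c → ℝ := fun x => 2 * (f x * f x)
    + avg (agree P) f x * avg (agree P) f x
    - ∑ e, avg (agree (P.erase (idx e))) f x * avg (agree (P.erase (idx e))) f x
  have hF : 0 ≤ ∑ x, F x := by
    apply sum_nonneg_of_classes (agree_equiv P)
    intro x₀
    rw [sum_class_glue hidx x₀ F]
    set G := glue hidx x₀ with hG
    set h := f ∘ G with hh
    have e1 : ∀ w, avg (agree P) f (G w) = avg relTop h w := avg_glue_top hidx x₀ f
    have e2 : ∀ e w, avg (agree (P.erase (idx e))) f (G w) = avg (rRow e) h w := by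
      intro e w
      apply avg_glue G (glue_inj hidx x₀)
      · intro w w'
        constructor
        · intro hw
          have := hw (idx e) (by simp)
          show w.1 e = w'.1 e
          rw [← glue_idx hidx x₀ w e, ← glue_idx hidx x₀ w' e]
          exact this
        · intro hw i hi
          by_cases hie : i = idx e
          · subst hie
            rw [glue_idx hidx x₀ w e, glue_idx hidx x₀ w' e]
            exact hw
          · have hiP : i ∉ P := fun hmem => hi (Finset.mem_erase.mpr ⟨hie, hmem⟩)
            rw [glue_off hidx x₀ w hiP, glue_off hidx x₀ w' hiP]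
      · intro w y hy
        have h1 : agree P (G w) y := agree_mono (Finset.erase_subset _ _) hy
        exact glue_surj hidx x₀ ((agree_equiv _).trans (agree_glue hidx x₀ w) h1)
    have hb := three_row_bound h
    have e3 : ∑ w, F (G w) = 2 * (h ⬝ᵥ h) + avg relTop h ⬝ᵥ avg relTop h
        - ∑ e, avg (rRow e) h ⬝ᵥ avg (rRow e) h := by
      simp only [F, e1, e2]
      unfold dotProduct
      rw [Finset.sum_sub_distrib, Finset.sum_add_distrib, ← Finset.mul_sum, Finset.sum_comm]
      rfl
    rw [e3]
    linarith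
  have e4 : ∑ x, F x = 2 * (f ⬝ᵥ f) + avg (agree P) f ⬝ᵥ avg (agree P) f
      - ∑ e, avg (agree (P.erase (idx e))) f ⬝ᵥ avg (agree (P.erase (idx e))) f := by
    simp only [F]
    unfold dotProduct
    rw [Finset.sum_sub_distrib, Finset.sum_add_distrib, ← Finset.mul_sum, Finset.sum_comm]
  rw [e4] at hF
  linarith

/-- Three rows `k`, `l`, `x`: the cross terms. -/
theorem qA_cross {k l x : ι} (h1 : k ≠ l) (h2 : k ≠ x) (h3 : l ≠ x) (f : Bip r c → ℝ) :
    0 ≤ qA {k, l} f ⬝ᵥ qA {k, x} f + qA {k, l} f ⬝ᵥ qA {l, x} f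
      + qA {k, x} f ⬝ᵥ qA {l, x} f := by
  let idx : Fin 3 → ι := ![k, l, x]
  have hidx : Function.Injective idx := by
    intro a b hab
    fin_cases a <;> fin_cases b <;> simp_all [idx, eq_comm]
  have himg : univ.image idx = {k, l, x} := by
    ext i
    simp only [mem_image, mem_univ, true_and, mem_insert, mem_singleton]
    constructor
    · rintro ⟨a, rfl⟩
      fin_cases a <;> simp [idx]
    · rintro (rfl | rfl | rfl)
      · exact ⟨0, rfl⟩
      · exact ⟨1, rfl⟩
      · exact ⟨2, rfl⟩
  have he0 : (univ.image idx).erase (idx 0) = {l, x} := by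
    rw [himg]
    ext i
    simp only [idx, Matrix.cons_val_zero, mem_erase, mem_insert, mem_singleton]
    constructor
    · rintro ⟨h, (h' | h' | h')⟩
      · exact absurd h' h
      · exact Or.inl h'
      · exact Or.inr h'
    · rintro (rfl | rfl)
      · exact ⟨Ne.symm h1, Or.inr (Or.inl rfl)⟩
      · exact ⟨Ne.symm h2, Or.inr (Or.inr rfl)⟩
  have he1 : (univ.image idx).erase (idx 1) = {k, x} := by
    rw [himg]
    ext i
    simp only [idx, Matrix.cons_val_one, Matrix.cons_val_zero, mem_erase, mem_insert, mem_singleton]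
    constructor
    · rintro ⟨h, (h' | h' | h')⟩
      · exact Or.inl h'
      · exact absurd h' h
      · exact Or.inr h'
    · rintro (rfl | rfl)
      · exact ⟨h1, Or.inl rfl⟩
      · exact ⟨Ne.symm h3, Or.inr (Or.inr rfl)⟩
  have he2 : (univ.image idx).erase (idx 2) = {k, l} := by
    rw [himg]
    ext i
    have : idx 2 = x := rfl
    rw [this]
    simp only [mem_erase, mem_insert, mem_singleton]
    constructor
    · rintro ⟨h, (h' | h' | h')⟩
      · exact Or.inl h'
      · exact Or.inr h'
      · exact absurd h' h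
    · rintro (rfl | rfl)
      · exact ⟨h2, Or.inl rfl⟩
      · exact ⟨h3, Or.inr (Or.inl rfl)⟩
  have hK := fun f => K3_omega (r := r) (c := c) hidx f
  simp only [Fin.sum_univ_three] at hK
  have hsub : ∀ {a b : ι}, a ∈ ({k, l, x} : Finset ι) → b ∈ ({k, l, x} : Finset ι) →
      ∀ u v : Bip r c, agree {a, b} u v → agree (univ.image idx) u v := by
    intro a b ha hb u v huv
    apply agree_mono _ huv
    rw [himg]
    intro i hi
    simp only [mem_insert, mem_singleton] at hi
    rcases hi with rfl | rfl
    · exact ha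
    · exact hb
  have := cross_of_K3 (agree_equiv (r := r) (c := c) {k, l}) (agree_equiv {k, x}) (agree_equiv {l, x})
    (agree_equiv (univ.image idx))
    (hsub (by simp) (by simp)) (hsub (by simp) (by simp)) (hsub (by simp) (by simp))
    (fun f => by
      have := hK f
      rw [he0, he1, he2] at this
      linarith) f
  simpa only [qA_apply] using this

/-- Two rows `k`, `l`: the bound on the fiber through column exchanges. -/
theorem qA_fiber {k l : ι} (hkl : k ≠ l) (f : Bip r c → ℝ) :
    qA {k, l} f ⬝ᵥ qA {k, l} f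
      ≤ (1 / 8) * ∑ j, ∑ j', ∑ x, (f x - f (mv {k, l} j j' x)) ^ 2 := by
  let idx : Fin 2 → ι := ![k, l]
  have hidx : Function.Injective idx := by
    intro a b hab
    fin_cases a <;> fin_cases b <;> simp_all [idx, eq_comm]
  have himg : univ.image idx = {k, l} := by
    ext i
    simp only [mem_image, mem_univ, true_and, mem_insert, mem_singleton]
    constructor
    · rintro ⟨a, rfl⟩
      fin_cases a <;> simp [idx]
    · rintro (rfl | rfl)
      · exact ⟨0, rfl⟩
      · exact ⟨1, rfl⟩
  rw [← himg, qA_dot]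
  set P := univ.image idx with hP
  let F : Bip r c → ℝ := fun x => (1 / 8) * ∑ j, ∑ j', (f x - f (mv P j j' x)) ^ 2
    - f x * f x + avg (agree P) f x * avg (agree P) f x
  have hF : 0 ≤ ∑ x, F x := by
    apply sum_nonneg_of_classes (agree_equiv P)
    intro x₀
    rw [sum_class_glue hidx x₀ F]
    set G := glue hidx x₀ with hG
    set h := f ∘ G with hh
    have e1 : ∀ w, avg (agree P) f (G w) = avg relTop h w := avg_glue_top hidx x₀ f
    have e2 : ∀ j j' w, f (mv P j j' (G w)) = h (mv univ j j' w) := by
      intro j j' w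
      rw [hP, mv_glue hidx x₀ j j' w]
      rfl
    have hb := johnson_bound h
    have e3 : ∑ w, F (G w) = (1 / 8) * ∑ j, ∑ j', ∑ w, (h w - h (mv univ j j' w)) ^ 2
        - h ⬝ᵥ h + avg relTop h ⬝ᵥ avg relTop h := by
      simp only [F, e1, e2]
      unfold dotProduct
      rw [Finset.sum_add_distrib, Finset.sum_sub_distrib, ← Finset.mul_sum]
      congr 3
      rw [Finset.sum_comm]
      apply Finset.sum_congr rfl
      intro j _
      rw [Finset.sum_comm]
      rfl
    rw [e3]
    linarith
  have e4 : ∑ x, F x = (1 / 8) * ∑ j, ∑ j', ∑ x, (f x - f (mv P j j' x)) ^ 2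
      - f ⬝ᵥ f + avg (agree P) f ⬝ᵥ avg (agree P) f := by
    simp only [F]
    unfold dotProduct
    rw [Finset.sum_add_distrib, Finset.sum_sub_distrib, ← Finset.mul_sum]
    congr 3
    rw [Finset.sum_comm]
    apply Finset.sum_congr rfl
    intro j _
    rw [Finset.sum_comm]
  rw [e4] at hF
  linarith

/-- The main bound: variance by the exchanges on two rows and two columns. -/
theorem bip_gap (f : Bip r c → ℝ) :
    f ⬝ᵥ f - avg relTop f ⬝ᵥ avg relTop f
      ≤ (1 / 16) * ∑ k, ∑ l, ∑ j, ∑ j', ∑ x, (f x - f (mv {k, l} j j' x)) ^ 2 := by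
  have key := abstract_gap (Ω := Bip r c) (ι := ι)
    (fun k l => qA {k, l}) (avgL relTop)
    (fun k l f g => qA_symm _ f g)
    (fun k l f => qA_idem _ f)
    (fun k l => by rw [Finset.pair_comm])
    (fun k => by
      apply LinearMap.ext
      intro f
      simp only [Finset.pair_eq_singleton]
      exact qA_single k f)
    (fun k l m n _ _ h1 h2 h3 h4 f => by
      apply qA_comm
      rw [Finset.disjoint_left]
      intro a ha hb
      simp only [mem_insert, mem_singleton] at ha hb
      rcases ha with rfl | rfl <;> rcases hb with rfl | rfl <;> simp_all)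
    (fun k l x h1 h2 h3 f => qA_cross h1 h2 h3 f)
    (fun f g => avg_dot relTop_equiv f g)
    (fun f => avg_avg relTop_equiv f)
    (fun k l f => by
      rw [qA_apply, avgL_apply, avg_of_meas (agree_equiv _), sub_self]
      intro x y _
      exact avg_meas relTop_equiv f x y trivial)
    (fun f hf => by
      apply avg_of_meas relTop_equiv
      intro x y _
      apply conn_pairs f
      intro k l u v huv
      have h1 := congrFun (hf k l) u
      have h2 := congrFun (hf k l) v
      simp only [qA_apply, Pi.sub_apply, Pi.zero_apply] at h1 h2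
      have h3 := avg_meas (agree_equiv (r := r) (c := c) {k, l}) f u v huv
      linarith)
    f
  simp only [avgL_apply] at key
  have hb : ∀ k l, qA {k, l} f ⬝ᵥ qA {k, l} f
      ≤ (1 / 8) * ∑ j, ∑ j', ∑ x, (f x - f (mv {k, l} j j' x)) ^ 2 := by
    intro k l
    by_cases hkl : k = l
    · subst hkl
      rw [Finset.pair_eq_singleton, qA_single]
      simp only [dotProduct_zero]
      apply mul_nonneg (by norm_num)
      exact Finset.sum_nonneg (fun _ _ => Finset.sum_nonneg (fun _ _ =>
        Finset.sum_nonneg (fun _ _ => sq_nonneg _)))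
    · exact qA_fiber hkl f
  have hsum : ∑ k, ∑ l, qA {k, l} f ⬝ᵥ qA {k, l} f
      ≤ ∑ k, ∑ l, (1 / 8) * ∑ j, ∑ j', ∑ x, (f x - f (mv {k, l} j j' x)) ^ 2 :=
    Finset.sum_le_sum (fun k _ => Finset.sum_le_sum (fun l _ => hb k l))
  have e : ∑ k, ∑ l, (1 / 8 : ℝ) * ∑ j, ∑ j', ∑ x, (f x - f (mv {k, l} j j' x)) ^ 2
      = (1 / 8) * ∑ k, ∑ l, ∑ j, ∑ j', ∑ x, (f x - f (mv {k, l} j j' x)) ^ 2 := by
    simp only [← Finset.mul_sum]
  rw [e] at hsum
  linarith

end Vale.Agent.Lib.P335
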