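import Vale.Agent.Lib.P335.Johnson

/-!
Fibers of the relation that rows outside `P` agree are again spaces of binary matrices.
-/

namespace Vale.Agent.Lib.P335

open Finset Matrix

section generic

theorem sum_nonneg_of_classes {Ω : Type*} [Fintype Ω] {ρ : Ω → Ω → Prop} [DecidableRel ρ]
    (hρ : Equivalence ρ) (F : Ω → ℝ) (h : ∀ x, 0 ≤ ∑ y ∈ univ.filter (ρ x), F y) :
    0 ≤ ∑ x, F x := by
  rw [← sum_avg hρ F]
  apply Finset.sum_nonneg
  intro x _
  unfold avg
  exact div_nonneg (h x) (by positivity)

theorem filter_eq_map {W Ω : Type*} [Fintype W] [Fintype Ω] {ρ : Ω → Ω → Prop} [DecidableRel ρ]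
    {ρ' : W → W → Prop} [DecidableRel ρ'] (G : W → Ω) (hG : Function.Injective G)
    (h1 : ∀ w w', ρ (G w) (G w') ↔ ρ' w w') (h2 : ∀ w y, ρ (G w) y → ∃ w', G w' = y) (w : W) :
    univ.filter (ρ (G w)) = (univ.filter (ρ' w)).map ⟨G, hG⟩ := by
  ext y
  simp only [mem_filter, mem_univ, true_and, mem_map, Function.Embedding.coeFn_mk]
  constructor
  · intro hy
    obtain ⟨w', rfl⟩ := h2 w y hy
    exact ⟨w', (h1 w w').1 hy, rfl⟩
  · rintro ⟨w', hw', rfl⟩
    exact (h1 w w').2 hw'

theorem avg_glue {W Ω : Type*} [Fintype W] [Fintype Ω] {ρ : Ω → Ω → Prop} [DecidableRel ρ]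
    {ρ' : W → W → Prop} [DecidableRel ρ'] (G : W → Ω) (hG : Function.Injective G)
    (h1 : ∀ w w', ρ (G w) (G w') ↔ ρ' w w') (h2 : ∀ w y, ρ (G w) y → ∃ w', G w' = y)
    (f : Ω → ℝ) (w : W) : avg ρ f (G w) = avg ρ' (f ∘ G) w := by
  unfold avg
  rw [filter_eq_map G hG h1 h2 w, Finset.sum_map, Finset.card_map]
  rfl

end generic

variable {ι κ : Type*} [Fintype ι] [DecidableEq ι] [Fintype κ] [DecidableEq κ]
  {r : ι → ℕ} {c : κ → ℕ}

/-- Rows outside `P` agree. -/
def agree (P : Finset ι) (x y : Bip r c) : Prop := ∀ i, i ∉ P → x.1 i = y.1 i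

instance (P : Finset ι) : DecidableRel (agree (r := r) (c := c) P) := fun x y => by
  unfold agree
  infer_instance

theorem agree_equiv (P : Finset ι) : Equivalence (agree (r := r) (c := c) P) :=
  ⟨fun _ _ _ => rfl, fun h i hi => (h i hi).symm, fun h k i hi => (h i hi).trans (k i hi)⟩

theorem agree_mono {P P' : Finset ι} (h : P ⊆ P') {x y : Bip r c} (hxy : agree P x y) :
    agree P' x y := fun i hi => hxy i (fun hP => hi (h hP))

section glue
variable {m : ℕ} (idx : Fin m → ι)

/-- Column totals on the chosen rows. -/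
def margin (x : ι → Finset κ) (j : κ) : ℕ := cnt (fun a => x (idx a)) j

variable {idx}

omit [Fintype ι] [Fintype κ] in
theorem cntIn_image (hidx : Function.Injective idx) (x : ι → Finset κ) (j : κ) :
    cntIn (univ.image idx) x j = margin idx x j := by
  unfold cntIn margin cnt
  rw [Finset.sum_image (fun a _ b _ h => hidx h)]

theorem margin_eq_of_agree (hidx : Function.Injective idx) {x y : Bip r c}
    (h : agree (univ.image idx) x y) (j : κ) : margin idx x.1 j = margin idx y.1 j := by
  have h1 := cnt_split (univ.image idx) x.1 j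
  have h2 := cnt_split (univ.image idx) y.1 j
  rw [x.2.2 j, cntIn_image hidx] at h1
  rw [y.2.2 j, cntIn_image hidx] at h2
  have h3 : ∑ i ∈ (univ.image idx)ᶜ, (if j ∈ x.1 i then 1 else 0)
      = ∑ i ∈ (univ.image idx)ᶜ, if j ∈ y.1 i then 1 else 0 := by
    apply Finset.sum_congr rfl
    intro i hi
    rw [h i (by simpa using hi)]
  omega

variable (idx)

/-- Put rows on the chosen positions, keep the others. -/
noncomputable def gluedVal (x₀ : Bip r c) (w : Fin m → Finset κ) : ι → Finset κ := Function.extend idx w x₀.1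

variable {idx}

theorem gluedVal_idx (hidx : Function.Injective idx) (x₀ : Bip r c) (w : Fin m → Finset κ)
    (a : Fin m) : gluedVal idx x₀ w (idx a) = w a := hidx.extend_apply _ _ _

theorem gluedVal_off (x₀ : Bip r c) (w : Fin m → Finset κ) {i : ι} (hi : i ∉ univ.image idx) :
    gluedVal idx x₀ w i = x₀.1 i := by
  apply Function.extend_apply'
  rintro ⟨a, rfl⟩
  exact hi (by simp)

theorem glue_isBip (hidx : Function.Injective idx) (x₀ : Bip r c)
    (w : Bip (fun a => r (idx a)) (margin idx x₀.1)) : IsBip r c (gluedVal idx x₀ w.1) := by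
  constructor
  · intro i
    by_cases hi : i ∈ univ.image idx
    · obtain ⟨a, -, rfl⟩ := Finset.mem_image.mp hi
      rw [gluedVal_idx hidx]
      exact w.2.1 a
    · rw [gluedVal_off x₀ w.1 hi]
      exact x₀.2.1 i
  · intro j
    rw [cnt_split (univ.image idx), cntIn_image hidx, ← x₀.2.2 j, cnt_split (univ.image idx) x₀.1,
      cntIn_image hidx]
    have h1 : margin idx (gluedVal idx x₀ w.1) j = margin idx x₀.1 j := by
      unfold margin
      have : (fun a => gluedVal idx x₀ w.1 (idx a)) = w.1 := funext (gluedVal_idx hidx x₀ w.1)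
      rw [this]
      exact w.2.2 j
    rw [h1]
    congr 1
    apply Finset.sum_congr rfl
    intro i hi
    rw [gluedVal_off x₀ w.1 (by simpa using hi)]

/-- The fiber map. -/
noncomputable def glue (hidx : Function.Injective idx) (x₀ : Bip r c)
    (w : Bip (fun a => r (idx a)) (margin idx x₀.1)) : Bip r c :=
  ⟨gluedVal idx x₀ w.1, glue_isBip hidx x₀ w⟩

theorem glue_idx (hidx : Function.Injective idx) (x₀ : Bip r c)
    (w : Bip (fun a => r (idx a)) (margin idx x₀.1)) (a : Fin m) :
    (glue hidx x₀ w).1 (idx a) = w.1 a := gluedVal_idx hidx x₀ w.1 a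

theorem glue_off (hidx : Function.Injective idx) (x₀ : Bip r c)
    (w : Bip (fun a => r (idx a)) (margin idx x₀.1)) {i : ι} (hi : i ∉ univ.image idx) :
    (glue hidx x₀ w).1 i = x₀.1 i := gluedVal_off x₀ w.1 hi

theorem glue_inj (hidx : Function.Injective idx) (x₀ : Bip r c) :
    Function.Injective (glue hidx x₀) := by
  intro w w' h
  apply Subtype.ext
  funext a
  rw [← glue_idx hidx x₀ w a, ← glue_idx hidx x₀ w' a, h]

theorem agree_glue (hidx : Function.Injective idx) (x₀ : Bip r c)
    (w : Bip (fun a => r (idx a)) (margin idx x₀.1)) : agree (univ.image idx) x₀ (glue hidx x₀ w) :=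
  fun _ hi => (glue_off hidx x₀ w hi).symm

theorem glue_surj (hidx : Function.Injective idx) (x₀ : Bip r c) {y : Bip r c}
    (h : agree (univ.image idx) x₀ y) : ∃ w, glue hidx x₀ w = y := by
  have hw : IsBip (fun a => r (idx a)) (margin idx x₀.1) (fun a => y.1 (idx a)) := by
    constructor
    · intro a
      exact y.2.1 (idx a)
    · intro j
      rw [margin_eq_of_agree hidx h j]
      rfl
  refine ⟨⟨_, hw⟩, ?_⟩
  apply Subtype.ext
  funext i
  by_cases hi : i ∈ univ.image idx
  · obtain ⟨a, -, rfl⟩ := Finset.mem_image.mp hi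
    exact glue_idx hidx x₀ _ a
  · rw [glue_off hidx x₀ _ hi]
    exact h i hi

/-- Sum over a class as a sum over the fiber space. -/
theorem sum_class_glue (hidx : Function.Injective idx) (x₀ : Bip r c) (F : Bip r c → ℝ) :
    ∑ y ∈ univ.filter (agree (univ.image idx) x₀), F y = ∑ w, F (glue hidx x₀ w) := by
  have : univ.filter (agree (univ.image idx) x₀)
      = univ.map ⟨glue hidx x₀, glue_inj hidx x₀⟩ := by
    ext y
    simp only [mem_filter, mem_univ, true_and, mem_map, Function.Embedding.coeFn_mk]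
    constructor
    · intro hy
      exact glue_surj hidx x₀ hy
    · rintro ⟨w, rfl⟩
      exact agree_glue hidx x₀ w
  rw [this, Finset.sum_map]
  rfl

/-- The fiber map turns the relation of all rows into the whole-space relation. -/
theorem avg_glue_top (hidx : Function.Injective idx) (x₀ : Bip r c) (f : Bip r c → ℝ)
    (w : Bip (fun a => r (idx a)) (margin idx x₀.1)) :
    avg (agree (univ.image idx)) f (glue hidx x₀ w) = avg relTop (f ∘ glue hidx x₀) w := by
  apply avg_glue (glue hidx x₀) (glue_inj hidx x₀)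
  · intro w w'
    simp only [relTop, iff_true]
    exact (agree_equiv _).trans ((agree_equiv _).symm (agree_glue hidx x₀ w)) (agree_glue hidx x₀ w')
  · intro w y hy
    exact glue_surj hidx x₀ ((agree_equiv _).trans (agree_glue hidx x₀ w) hy)

/-- Moves in the fiber space are moves in the total space. -/
theorem mv_glue (hidx : Function.Injective idx) (x₀ : Bip r c) (j j' : κ)
    (w : Bip (fun a => r (idx a)) (margin idx x₀.1)) :
    mv (univ.image idx) j j' (glue hidx x₀ w) = glue hidx x₀ (mv univ j j' w) := by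
  have hc : ∀ k, cntIn (univ.image idx) (glue hidx x₀ w).1 k = cntIn univ w.1 k := by
    intro k
    rw [cntIn_image hidx, cntIn_univ]
    unfold margin
    have : (fun a => (glue hidx x₀ w).1 (idx a)) = w.1 := funext (glue_idx hidx x₀ w)
    rw [this]
  by_cases h : cntIn univ w.1 j = cntIn univ w.1 j'
  · apply Subtype.ext
    have h' : cntIn (univ.image idx) (glue hidx x₀ w).1 j
        = cntIn (univ.image idx) (glue hidx x₀ w).1 j' := by rw [hc, hc, h]
    rw [mv_val_of h']
    funext i
    by_cases hi : i ∈ univ.image idx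
    · obtain ⟨a, -, rfl⟩ := Finset.mem_image.mp hi
      rw [glue_idx hidx x₀ _ a, mv_val_of h]
      simp [rowSwap, glue_idx hidx x₀ w a]
    · rw [glue_off hidx x₀ _ hi]
      simp only [rowSwap, hi, if_false]
      exact glue_off hidx x₀ w hi
  · have h' : ¬ cntIn (univ.image idx) (glue hidx x₀ w).1 j
        = cntIn (univ.image idx) (glue hidx x₀ w).1 j' := by rw [hc, hc]; exact h
    unfold mv
    rw [dif_neg h', dif_neg h]

end glue

end Vale.Agent.Lib.P335
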