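import Vale.Agent.Lib.P335.Spectral

/-!
The interchange argument: if a family of bijections commutes with three averaging
operators and each bijection fixes at least one of the three classes, then the sum of
the three averaging operators is at most two away from the base averages.
-/

namespace Vale.Agent.Lib.P335

open Finset Matrix

variable {Ω : Type*} [Fintype Ω]

/-- From the sum of squares bound to the bound on sums of measurable functions. -/
theorem sform_of_kform (r : Fin 3 → Ω → Ω → Prop) [∀ i, DecidableRel (r i)]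
    (hr : ∀ i, Equivalence (r i)) (g : Fin 3 → Ω → ℝ) (hg : ∀ i, Meas (r i) (g i))
    (hK : ∑ i, avg (r i) (∑ l, g l) ⬝ᵥ avg (r i) (∑ l, g l)
      ≤ 2 * ((∑ l, g l) ⬝ᵥ (∑ l, g l))) :
    (∑ l, g l) ⬝ᵥ (∑ l, g l) ≤ 2 * ∑ i, g i ⬝ᵥ g i := by
  set v := ∑ l, g l with hv
  have h1 : v ⬝ᵥ v = ∑ i, avg (r i) v ⬝ᵥ g i := by
    conv_lhs => rw [hv, sum_dotProduct]
    rw [← hv]
    apply Finset.sum_congr rfl
    intro i _
    rw [dotProduct_comm, avg_dot_meas (hr i) v (hg i), dotProduct_comm]
  have h2 : ∑ i, avg (r i) v ⬝ᵥ g i ≤ ∑ i, ((1 / 4) * (avg (r i) v ⬝ᵥ avg (r i) v) + g i ⬝ᵥ g i) :=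
    Finset.sum_le_sum (fun i _ => dot_le_quarter _ _)
  rw [Finset.sum_add_distrib, ← Finset.mul_sum] at h2
  linarith

section Interchange

variable (r : Fin 3 → Ω → Ω → Prop) [∀ i, DecidableRel (r i)]
  (r₀ : Ω → Ω → Prop) [DecidableRel r₀]
  {T : Type*} [Fintype T] (τ : T → Equiv.Perm Ω)

/-- `avg` commutes with a bijection compatible with the relation. -/
theorem avg_comp_perm {s : Ω → Ω → Prop} [DecidableRel s] (σ : Equiv.Perm Ω)
    (hσ : ∀ x y, s (σ x) (σ y) ↔ s x y) (f : Ω → ℝ) :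
    avg s (f ∘ σ) = (avg s f) ∘ σ := by
  funext x
  simp only [avg, Function.comp]
  have h1 : ∑ y ∈ univ.filter (s x), f (σ y) = ∑ y ∈ univ.filter (s (σ x)), f y := by
    apply Finset.sum_equiv σ
    · intro y
      simp [hσ]
    · intro y _
      rfl
  have h2 : (univ.filter (s x)).card = (univ.filter (s (σ x))).card := by
    apply Finset.card_equiv σ
    intro y
    simp [hσ]
  rw [h1, h2]

/-- Energy pairing along one bijection. -/
noncomputable def energy (σ : Equiv.Perm Ω) (f h : Ω → ℝ) : ℝ := (f ∘ σ - f) ⬝ᵥ (h ∘ σ - h)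

theorem energy_avg {s : Ω → Ω → Prop} [DecidableRel s] (hs : Equivalence s) (σ : Equiv.Perm Ω)
    (hσ : ∀ x y, s (σ x) (σ y) ↔ s x y) (f : Ω → ℝ) :
    energy σ (avg s f) (avg s f) = energy σ (avg s f) f := by
  unfold energy
  have h : avg s f ∘ σ - avg s f = avg s (f ∘ σ - f) := by
    rw [avg_sub, avg_comp_perm σ hσ]
  rw [h, avg_dot_avg hs, dotProduct_comm (f ∘ σ - f) _]

theorem interchange_eigen (hr : ∀ i, Equivalence (r i)) (hr₀ : Equivalence r₀)
    (hrr₀ : ∀ i x y, r i x y → r₀ x y)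
    (hτ : ∀ i t x y, r i (τ t x) (τ t y) ↔ r i x y)
    (hfix : ∀ t x, ∃ i, r i (τ t x) x)
    (hconn : ∀ f : Ω → ℝ, (∀ t x, f (τ t x) = f x) → Meas r₀ f)
    (v : Ω → ℝ) (μ : ℝ) (hv : v ≠ 0)
    (hev : ∑ i, avg (r i) v - (3 : ℝ) • avg r₀ v = μ • v) : μ ≤ 2 := by
  by_contra hμ
  rw [not_le] at hμ
  have hμ0 : μ ≠ 0 := by linarith
  -- the base average of v vanishes
  have hE₀ : avg r₀ v = 0 := by
    have h1 := congrArg (avg r₀) hev
    rw [avg_sub, avg_sum, avg_smul, avg_avg hr₀, avg_smul] at h1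
    have h2 : ∀ i, avg r₀ (avg (r i) v) = avg r₀ v := fun i =>
      avg_tower (hr i) hr₀ (hrr₀ i) v
    simp only [h2] at h1
    rw [Fin.sum_univ_three] at h1
    have h3 : avg r₀ v + avg r₀ v + avg r₀ v - (3 : ℝ) • avg r₀ v = 0 := by
      funext x
      simp only [Pi.add_apply, Pi.sub_apply, Pi.smul_apply, smul_eq_mul, Pi.zero_apply]
      ring
    rw [h3] at h1
    have h4 := h1.symm
    rcases smul_eq_zero.mp h4 with h5 | h5
    · exact absurd h5 hμ0
    · exact h5
  have hsum : ∑ i, avg (r i) v = μ • v := by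
    rw [hE₀] at hev
    simpa using hev
  -- energies
  let g : Fin 3 → Ω → ℝ := fun i => avg (r i) v
  have henergy : ∀ t, μ ^ 2 * energy (τ t) v v ≤ 2 * (μ * energy (τ t) v v) := by
    intro t
    have h1 : ∀ x, μ * (v (τ t x) - v x) = ∑ i, (g i (τ t x) - g i x) := by
      intro x
      have h2 := congrFun hsum (τ t x)
      have h3 := congrFun hsum x
      simp only [Finset.sum_apply, Pi.smul_apply, smul_eq_mul] at h2 h3
      rw [mul_sub, ← h2, ← h3, ← Finset.sum_sub_distrib]
    have h2 : ∀ x, (μ * (v (τ t x) - v x)) ^ 2 ≤ 2 * ∑ i, (g i (τ t x) - g i x) ^ 2 := by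
      intro x
      rw [h1 x]
      obtain ⟨i₀, hi₀⟩ := hfix t x
      have h0 : g i₀ (τ t x) - g i₀ x = 0 := by
        have := avg_meas (hr i₀) v _ _ hi₀
        simp only [g]
        linarith
      simp only [Fin.sum_univ_three] at *
      fin_cases i₀
      · simp only [Fin.zero_eta] at h0
        rw [h0]
        nlinarith [sq_nonneg ((g 1 (τ t x) - g 1 x) - (g 2 (τ t x) - g 2 x))]
      · simp only [Fin.mk_one] at h0
        rw [h0]
        nlinarith [sq_nonneg ((g 0 (τ t x) - g 0 x) - (g 2 (τ t x) - g 2 x))]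
      · simp only [Fin.reduceFinMk] at h0
        rw [h0]
        nlinarith [sq_nonneg ((g 0 (τ t x) - g 0 x) - (g 1 (τ t x) - g 1 x))]
    have h3 : μ ^ 2 * energy (τ t) v v = ∑ x, (μ * (v (τ t x) - v x)) ^ 2 := by
      unfold energy dotProduct
      rw [Finset.mul_sum]
      apply Finset.sum_congr rfl
      intro x _
      simp only [Pi.sub_apply, Function.comp]
      ring
    have h4 : ∑ i, energy (τ t) (g i) (g i) = ∑ x, ∑ i, (g i (τ t x) - g i x) ^ 2 := by
      unfold energy dotProduct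
      rw [Finset.sum_comm]
      apply Finset.sum_congr rfl
      intro i _
      apply Finset.sum_congr rfl
      intro x _
      simp only [Pi.sub_apply, Function.comp]
      ring
    have h5 : ∑ i, energy (τ t) (g i) (g i) = μ * energy (τ t) v v := by
      have h6 : ∀ i, energy (τ t) (g i) (g i) = energy (τ t) (g i) v := fun i =>
        energy_avg (hr i) (τ t) (hτ i t) v
      simp only [h6]
      have h7 : (∑ i, (g i ∘ (τ t) - g i)) = μ • (v ∘ (τ t) - v) := by
        funext x
        have := h1 x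
        simp only [Finset.sum_apply, Pi.sub_apply, Function.comp, Pi.smul_apply, smul_eq_mul]
        exact this.symm
      unfold energy
      rw [← sum_dotProduct, h7, smul_dotProduct, smul_eq_mul]
    calc μ ^ 2 * energy (τ t) v v = ∑ x, (μ * (v (τ t x) - v x)) ^ 2 := h3
      _ ≤ ∑ x, 2 * ∑ i, (g i (τ t x) - g i x) ^ 2 := Finset.sum_le_sum (fun x _ => h2 x)
      _ = 2 * ∑ i, energy (τ t) (g i) (g i) := by rw [h4, Finset.mul_sum]
      _ = 2 * (μ * energy (τ t) v v) := by rw [h5]
  -- each energy vanishes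
  have hzero : ∀ t x, v (τ t x) = v x := by
    intro t
    have h1 := henergy t
    have hnn : 0 ≤ energy (τ t) v v := dot_self_nonneg _
    have h2 : energy (τ t) v v = 0 := by
      by_contra hne
      have hpos : 0 < energy (τ t) v v := lt_of_le_of_ne hnn (Ne.symm hne)
      have : μ * (μ * energy (τ t) v v) ≤ 2 * (μ * energy (τ t) v v) := by nlinarith
      have h3 : μ ≤ 2 := by
        have h4 : 0 < μ * energy (τ t) v v := by positivity
        exact le_of_mul_le_mul_right this h4
      linarith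
    have h3 := dot_self_eq_zero h2
    intro x
    have := congrFun h3 x
    simp only [Pi.sub_apply, Function.comp, Pi.zero_apply] at this
    linarith
  have hm := hconn v hzero
  have := avg_of_meas hr₀ hm
  rw [hE₀] at this
  exact hv this.symm

/-- The interchange bound, for functions with vanishing base average. -/
theorem interchange_bound (hr : ∀ i, Equivalence (r i)) (hr₀ : Equivalence r₀)
    (hrr₀ : ∀ i x y, r i x y → r₀ x y)
    (hτ : ∀ i t x y, r i (τ t x) (τ t y) ↔ r i x y)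
    (hfix : ∀ t x, ∃ i, r i (τ t x) x)
    (hconn : ∀ f : Ω → ℝ, (∀ t x, f (τ t x) = f x) → Meas r₀ f)
    (f : Ω → ℝ) (hf : avg r₀ f = 0) :
    ∑ i, avg (r i) f ⬝ᵥ avg (r i) f ≤ 2 * (f ⬝ᵥ f) := by
  -- the operator
  let A : (Ω → ℝ) →ₗ[ℝ] (Ω → ℝ) := (3 : ℝ) • avgL r₀ - ∑ i, avgL (r i)
  have hAapp : ∀ h, A h = (3 : ℝ) • avg r₀ h - ∑ i, avg (r i) h := by
    intro h
    simp [A, LinearMap.sum_apply]
  have hAs : ∀ a b, A a ⬝ᵥ b = a ⬝ᵥ A b := by
    intro a b
    rw [hAapp, hAapp, sub_dotProduct, dotProduct_sub, smul_dotProduct, dotProduct_smul,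
      sum_dotProduct, dotProduct_sum, avg_dot hr₀]
    congr 1
    apply Finset.sum_congr rfl
    intro i _
    exact avg_dot (hr i) a b
  have key := form_ge_of_eigen A hAs (-2) (by
    intro v μ hv hev
    rw [hAapp] at hev
    have h2 : ∑ i, avg (r i) v - (3 : ℝ) • avg r₀ v = (-μ) • v := by
      rw [neg_smul, ← hev]
      abel
    have := interchange_eigen r r₀ τ hr hr₀ hrr₀ hτ hfix hconn v (-μ) hv h2
    linarith) f
  rw [hAapp, hf] at key
  simp only [smul_zero, zero_sub, dotProduct_neg, dotProduct_sum] at key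
  have h3 : ∀ i, f ⬝ᵥ avg (r i) f = avg (r i) f ⬝ᵥ avg (r i) f := fun i =>
    (avg_dot_avg (hr i) f).symm
  simp only [h3] at key
  linarith

end Interchange

end Vale.Agent.Lib.P335
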