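import Mathlib

/-!
A positivity fact for three involutions with the relations of the symmetric group on
three letters.
-/

namespace Vale.Agent.Lib.P335

open Finset Matrix

variable {W : Type*} [Fintype W]

/-- Sum of products along two maps. -/
def prd (g : W → ℝ) (u v : W → W) : ℝ := ∑ x, g (u x) * g (v x)

theorem prd_comp (g : W → ℝ) (u v : W → W) (s : Equiv.Perm W) :
    prd g (fun x => u (s x)) (fun x => v (s x)) = prd g u v := by
  unfold prd
  exact Equiv.sum_comp s (fun x => g (u x) * g (v x))

theorem s3_nonneg (t1 t2 t3 : W → W)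
    (h1 : Function.Involutive t1) (h2 : Function.Involutive t2) (h3 : Function.Involutive t3)
    (h12 : ∀ x, t1 (t2 x) = t2 (t3 x)) (h23 : ∀ x, t2 (t3 x) = t3 (t1 x)) (g : W → ℝ) :
    0 ≤ (g - g ∘ t1) ⬝ᵥ (g - g ∘ t2) + (g - g ∘ t1) ⬝ᵥ (g - g ∘ t3)
      + (g - g ∘ t2) ⬝ᵥ (g - g ∘ t3) := by
  classical
  let r : W → W := fun x => t1 (t2 x)
  let r' : W → W := fun x => t2 (t1 x)
  have hr2 : ∀ x, r x = t2 (t3 x) := fun x => h12 x
  have hr3 : ∀ x, r x = t3 (t1 x) := fun x => (h12 x).trans (h23 x)
  have hr'2 : ∀ x, r' x = t3 (t2 x) := by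
    intro x
    have e : t1 (t2 (t3 (t2 x))) = x := by rw [h12, h3, h2]
    have e2 := congrArg t1 e
    rw [h1] at e2
    have e3 := congrArg t2 e2
    rw [h2] at e3
    exact e3.symm
  have hr'3 : ∀ x, r' x = t1 (t3 x) := by
    intro x
    have e : t3 (t1 (t1 (t3 x))) = x := by rw [h1, h3]
    have e2 : t1 (t2 (t1 (t3 x))) = x := by
      have := hr3 (t1 (t3 x))
      rw [e] at this
      exact this
    have e3 := congrArg t1 e2
    rw [h1] at e3
    have e4 := congrArg t2 e3
    rw [h2] at e4
    exact e4.symm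
  have hrr' : ∀ x, r (r' x) = x := by
    intro x
    show t1 (t2 (t2 (t1 x))) = x
    rw [h2, h1]
  have hr'r : ∀ x, r' (r x) = x := by
    intro x
    show t2 (t1 (t1 (t2 x))) = x
    rw [h1, h2]
  have hrr : ∀ x, r (r x) = r' x := by
    intro x
    rw [hr'2, hr3]
    show t3 (t1 (t1 (t2 x))) = t3 (t2 x)
    rw [h1]
  have hr'r' : ∀ x, r' (r' x) = r x := by
    intro x
    rw [← hrr (r' x), hrr']
  let sr : Equiv.Perm W := ⟨r, r', hr'r, hrr'⟩
  let sr' : Equiv.Perm W := ⟨r', r, hrr', hr'r⟩
  let s1 : Equiv.Perm W := h1.toPerm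
  let s2 : Equiv.Perm W := h2.toPerm
  let s3 : Equiv.Perm W := h3.toPerm
  set N := prd g id id with hN
  set a1 := prd g id t1 with ha1
  set a2 := prd g id t2 with ha2
  set a3 := prd g id t3 with ha3
  set w := prd g id r with hw
  have p_rr : prd g r r = N := prd_comp g id id sr
  have p_r'r' : prd g r' r' = N := prd_comp g id id sr'
  have p_11 : prd g t1 t1 = N := prd_comp g id id s1
  have p_22 : prd g t2 t2 = N := prd_comp g id id s2
  have p_33 : prd g t3 t3 = N := prd_comp g id id s3
  have p_ir' : prd g id r' = w := by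
    have := prd_comp g id r' sr
    have e : (fun x => r' (sr x)) = id := funext hr'r
    rw [e] at this
    -- prd g (fun x => id (sr x)) id = prd g id r'
    have e2 : prd g (fun x => id (sr x)) id = prd g id r := by
      unfold prd
      apply Finset.sum_congr rfl
      intro x _
      show g (r x) * g x = g x * g (r x)
      ring
    rw [← this, e2]
  have p_rr' : prd g r r' = w := by
    have := prd_comp g r r' sr'
    have e : (fun x => r (sr' x)) = id := funext hrr'
    have e2 : (fun x => r' (sr' x)) = r := funext hr'r'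
    rw [e, e2] at this
    exact this.symm
  have p_12 : prd g t1 t2 = w := by
    have := prd_comp g t1 t2 s1
    have e : (fun x => t1 (s1 x)) = id := funext h1
    rw [e] at this
    rw [← this, ← p_ir']
    rfl
  have p_13 : prd g t1 t3 = w := by
    have := prd_comp g t1 t3 s1
    have e : (fun x => t1 (s1 x)) = id := funext h1
    have e2 : (fun x => t3 (s1 x)) = r := funext (fun x => (hr3 x).symm)
    rw [e, e2] at this
    exact this.symm
  have p_23 : prd g t2 t3 = w := by
    have := prd_comp g t2 t3 s2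
    have e : (fun x => t2 (s2 x)) = id := funext h2
    have e2 : (fun x => t3 (s2 x)) = r' := funext (fun x => (hr'2 x).symm)
    rw [e, e2, p_ir'] at this
    exact this.symm
  have p_r1 : prd g r t1 = a3 := by
    have := prd_comp g r t1 sr'
    have e : (fun x => r (sr' x)) = id := funext hrr'
    have e2 : (fun x => t1 (sr' x)) = t3 := by
      funext x
      show t1 (r' x) = t3 x
      rw [hr'3, h1]
    rw [e, e2] at this
    exact this.symm
  have p_r2 : prd g r t2 = a1 := by
    have := prd_comp g r t2 sr'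
    have e : (fun x => r (sr' x)) = id := funext hrr'
    have e2 : (fun x => t2 (sr' x)) = t1 := by
      funext x
      show t2 (t2 (t1 x)) = t1 x
      rw [h2]
    rw [e, e2] at this
    exact this.symm
  have p_r3 : prd g r t3 = a2 := by
    have := prd_comp g r t3 sr'
    have e : (fun x => r (sr' x)) = id := funext hrr'
    have e2 : (fun x => t3 (sr' x)) = t2 := by
      funext x
      show t3 (r' x) = t2 x
      rw [hr'2, h3]
    rw [e, e2] at this
    exact this.symm
  have p_r'1 : prd g r' t1 = a2 := by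
    have := prd_comp g r' t1 sr
    have e : (fun x => r' (sr x)) = id := funext hr'r
    have e2 : (fun x => t1 (sr x)) = t2 := by
      funext x
      show t1 (t1 (t2 x)) = t2 x
      rw [h1]
    rw [e, e2] at this
    exact this.symm
  have p_r'2 : prd g r' t2 = a3 := by
    have := prd_comp g r' t2 sr
    have e : (fun x => r' (sr x)) = id := funext hr'r
    have e2 : (fun x => t2 (sr x)) = t3 := by
      funext x
      show t2 (r x) = t3 x
      rw [hr2, h2]
    rw [e, e2] at this
    exact this.symm
  have p_r'3 : prd g r' t3 = a1 := by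
    have := prd_comp g r' t3 sr
    have e : (fun x => r' (sr x)) = id := funext hr'r
    have e2 : (fun x => t3 (sr x)) = t1 := by
      funext x
      show t3 (r x) = t1 x
      rw [hr3, h3]
    rw [e, e2] at this
    exact this.symm
  -- the two squares
  have hD : 0 ≤ ∑ x, (g x + g (r x) + g (r' x) - g (t1 x) - g (t2 x) - g (t3 x)) ^ 2 :=
    Finset.sum_nonneg (fun x _ => sq_nonneg _)
  have hD' : ∑ x, (g x + g (r x) + g (r' x) - g (t1 x) - g (t2 x) - g (t3 x)) ^ 2
      = prd g id id + prd g r r + prd g r' r' + prd g t1 t1 + prd g t2 t2 + prd g t3 t3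
        + 2 * (prd g id r + prd g id r' + prd g r r')
        - 2 * (prd g id t1 + prd g id t2 + prd g id t3 + prd g r t1 + prd g r t2 + prd g r t3
          + prd g r' t1 + prd g r' t2 + prd g r' t3)
        + 2 * (prd g t1 t2 + prd g t1 t3 + prd g t2 t3) := by
    unfold prd
    simp only [Finset.mul_sum, ← Finset.sum_add_distrib, ← Finset.sum_sub_distrib]
    apply Finset.sum_congr rfl
    intro x _
    simp only [id]
    ring
  have hU : 0 ≤ ∑ x, (g x - g (r x)) ^ 2 := Finset.sum_nonneg (fun x _ => sq_nonneg _)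
  have hU' : ∑ x, (g x - g (r x)) ^ 2 = prd g id id + prd g r r - 2 * prd g id r := by
    unfold prd
    simp only [Finset.mul_sum, ← Finset.sum_add_distrib, ← Finset.sum_sub_distrib]
    apply Finset.sum_congr rfl
    intro x _
    simp only [id]
    ring
  have hT : (g - g ∘ t1) ⬝ᵥ (g - g ∘ t2) + (g - g ∘ t1) ⬝ᵥ (g - g ∘ t3)
      + (g - g ∘ t2) ⬝ᵥ (g - g ∘ t3)
      = 3 * prd g id id - 2 * (prd g id t1 + prd g id t2 + prd g id t3)
        + (prd g t1 t2 + prd g t1 t3 + prd g t2 t3) := by
    unfold prd dotProduct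
    simp only [Finset.mul_sum, ← Finset.sum_add_distrib, ← Finset.sum_sub_distrib]
    apply Finset.sum_congr rfl
    intro x _
    simp only [id, Pi.sub_apply, Function.comp]
    ring
  rw [hT, p_12, p_13, p_23]
  rw [hD', p_rr, p_r'r', p_11, p_22, p_33, p_ir', p_rr', p_12, p_13, p_23,
    p_r1, p_r2, p_r3, p_r'1, p_r'2, p_r'3] at hD
  rw [hU', p_rr] at hU
  linarith

end Vale.Agent.Lib.P335
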