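import Vale.Agent.Lib.P335.ThreeRowB
import Vale.Agent.Lib.P335.S3

/-!
Two rows: the bound on the variance by the column exchanges.
-/

namespace Vale.Agent.Lib.P335

open Finset Matrix

section q
variable {W : Type*} [Fintype W]

/-- Half difference along a map. -/
noncomputable def qOp (s : W → W) : (W → ℝ) →ₗ[ℝ] (W → ℝ) where
  toFun g := (1 / 2 : ℝ) • (g - g ∘ s)
  map_add' f g := by
    funext x
    simp only [Pi.add_apply, Pi.smul_apply, Pi.sub_apply, Function.comp, smul_eq_mul]
    ring
  map_smul' c f := by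
    funext x
    simp only [Pi.smul_apply, Pi.sub_apply, Function.comp, smul_eq_mul, RingHom.id_apply]
    ring

theorem qOp_apply (s : W → W) (g : W → ℝ) : qOp s g = (1 / 2 : ℝ) • (g - g ∘ s) := rfl

theorem dot_comp_invol {s : W → W} (hs : Function.Involutive s) (f g : W → ℝ) :
    (f ∘ s) ⬝ᵥ g = f ⬝ᵥ (g ∘ s) := by
  unfold dotProduct
  exact Equiv.sum_comp hs.toPerm (fun x => f (s x) * g x) |>.symm.trans
    (Finset.sum_congr rfl (fun x _ => by
      show f (s (s x)) * g (s x) = f x * (g ∘ s) x
      rw [hs x]; rfl))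

theorem qOp_symm {s : W → W} (hs : Function.Involutive s) (f g : W → ℝ) :
    qOp s f ⬝ᵥ g = f ⬝ᵥ qOp s g := by
  simp only [qOp_apply, smul_dotProduct, dotProduct_smul, sub_dotProduct, dotProduct_sub,
    dot_comp_invol hs]

theorem qOp_idem {s : W → W} (hs : Function.Involutive s) (f : W → ℝ) :
    qOp s (qOp s f) = qOp s f := by
  funext x
  simp only [qOp_apply, Pi.smul_apply, Pi.sub_apply, Function.comp, smul_eq_mul, hs x]
  ring

theorem qOp_comm {s s' : W → W} (h : ∀ x, s (s' x) = s' (s x)) (f : W → ℝ) :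
    qOp s (qOp s' f) = qOp s' (qOp s f) := by
  funext x
  simp only [qOp_apply, Pi.smul_apply, Pi.sub_apply, Function.comp, smul_eq_mul, h x]
  ring

theorem qOp_id (f : W → ℝ) : qOp (fun x => x) f = 0 := by
  funext x
  simp [qOp_apply, Function.comp]

theorem qOp_eq_zero {s : W → W} {f : W → ℝ} (h : qOp s f = 0) (x : W) : f (s x) = f x := by
  have := congrFun h x
  simp only [qOp_apply, Pi.smul_apply, Pi.sub_apply, Function.comp, smul_eq_mul, Pi.zero_apply]
    at this
  linarith

theorem qOp_const {s : W → W} {f : W → ℝ} (h : ∀ x y, f x = f y) : qOp s f = 0 := by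
  funext x
  simp only [qOp_apply, Pi.smul_apply, Pi.sub_apply, Function.comp, smul_eq_mul, Pi.zero_apply]
  rw [h (s x) x]
  ring

theorem qOp_dot (s : W → W) (f : W → ℝ) :
    qOp s f ⬝ᵥ qOp s f = (1 / 4) * ∑ x, (f x - f (s x)) ^ 2 := by
  simp only [qOp_apply, smul_dotProduct, dotProduct_smul, smul_eq_mul]
  unfold dotProduct
  simp only [Pi.sub_apply, Function.comp]
  rw [← mul_assoc]
  congr 1
  · norm_num
  · apply Finset.sum_congr rfl
    intro x _
    ring

end q

variable {ι κ : Type*} [Fintype ι] [DecidableEq ι] [Fintype κ] [DecidableEq κ]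

omit [Fintype κ] in
theorem swapSet_comm (j j' : κ) (s : Finset κ) : swapSet j j' s = swapSet j' j s := by
  unfold swapSet
  rw [Equiv.swap_comm]

omit [Fintype κ] in
theorem swapSet_self (j : κ) (s : Finset κ) : swapSet j j s = s := by
  unfold swapSet
  rw [Equiv.swap_self]
  simp

theorem mv_comm {r : ι → ℕ} {c : κ → ℕ} (P : Finset ι) (j j' : κ) (x : Bip r c) :
    mv P j j' x = mv P j' j x := by
  by_cases h : cntIn P x.1 j = cntIn P x.1 j'
  · apply Subtype.ext
    rw [mv_val_of h, mv_val_of h.symm]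
    funext e
    unfold rowSwap
    rw [swapSet_comm]
  · unfold mv
    rw [dif_neg h, dif_neg (fun h2 => h h2.symm)]

theorem mv_self {r : ι → ℕ} {c : κ → ℕ} (P : Finset ι) (j : κ) (x : Bip r c) :
    mv P j j x = x := by
  apply Subtype.ext
  rw [mv_val_of rfl]
  funext e
  unfold rowSwap
  by_cases h : e ∈ P
  · simp [h, swapSet_self]
  · simp [h]

theorem mv_univ_ne {r : ι → ℕ} {t : κ → ℕ} {j j' : κ} (h : t j ≠ t j') (x : Bip r t) :
    mv univ j j' x = x := by
  unfold mv
  rw [dif_neg]
  rw [cntIn_univ, cntIn_univ, x.2.2, x.2.2]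
  exact h

omit [Fintype κ] in
theorem swap_swap_disjoint {a b c d : κ} (h1 : a ≠ c) (h2 : a ≠ d) (h3 : b ≠ c) (h4 : b ≠ d)
    (k : κ) : Equiv.swap c d (Equiv.swap a b k) = Equiv.swap a b (Equiv.swap c d k) := by
  simp only [Equiv.swap_apply_def]
  split_ifs <;> simp_all

omit [Fintype κ] in
theorem swapSet_swapSet_disjoint {a b c d : κ} (h1 : a ≠ c) (h2 : a ≠ d) (h3 : b ≠ c) (h4 : b ≠ d)
    (s : Finset κ) : swapSet a b (swapSet c d s) = swapSet c d (swapSet a b s) := by
  ext k
  simp only [mem_swapSet]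
  rw [swap_swap_disjoint h1 h2 h3 h4]

/-- Exchanges of pairwise disjoint columns commute, for full exchanges. -/
theorem mvU_comm {r : ι → ℕ} {t : κ → ℕ} {a b c d : κ} (h1 : a ≠ c) (h2 : a ≠ d) (h3 : b ≠ c)
    (h4 : b ≠ d) (x : Bip r t) : mv univ a b (mv univ c d x) = mv univ c d (mv univ a b x) := by
  by_cases hab : t a = t b
  · by_cases hcd : t c = t d
    · apply Subtype.ext
      funext e
      rw [mvU_row hab, mvU_row hcd, mvU_row hcd, mvU_row hab, swapSet_swapSet_disjoint h1 h2 h3 h4]
    · rw [mv_univ_ne hcd, mv_univ_ne hcd]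
  · rw [mv_univ_ne hab, mv_univ_ne hab]

omit [Fintype κ] in
theorem swap_mul_triple1 {a b c : κ} (hab : a ≠ b) (hac : a ≠ c) (hbc : b ≠ c) (k : κ) :
    Equiv.swap a c (Equiv.swap a b k) = Equiv.swap b c (Equiv.swap a c k) := by
  simp only [Equiv.swap_apply_def]
  split_ifs <;> simp_all

omit [Fintype κ] in
theorem swap_mul_triple2 {a b c : κ} (hab : a ≠ b) (hac : a ≠ c) (hbc : b ≠ c) (k : κ) :
    Equiv.swap b c (Equiv.swap a c k) = Equiv.swap a b (Equiv.swap b c k) := by
  simp only [Equiv.swap_apply_def]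
  split_ifs <;> simp_all

/-- The relations of the symmetric group on three letters, for full exchanges. -/
theorem mvU_triple1 {r : ι → ℕ} {t : κ → ℕ} {a b c : κ} (hab : a ≠ b) (hac : a ≠ c) (hbc : b ≠ c)
    (h1 : t a = t b) (h2 : t a = t c) (x : Bip r t) :
    mv univ a b (mv univ a c x) = mv univ a c (mv univ b c x) := by
  have h3 : t b = t c := h1.symm.trans h2
  apply Subtype.ext
  funext e
  rw [mvU_row h1, mvU_row h2, mvU_row h2, mvU_row h3]
  ext k
  simp only [mem_swapSet]
  rw [swap_mul_triple1 hab hac hbc]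

theorem mvU_triple2 {r : ι → ℕ} {t : κ → ℕ} {a b c : κ} (hab : a ≠ b) (hac : a ≠ c) (hbc : b ≠ c)
    (h1 : t a = t b) (h2 : t a = t c) (x : Bip r t) :
    mv univ a c (mv univ b c x) = mv univ b c (mv univ a b x) := by
  have h3 : t b = t c := h1.symm.trans h2
  apply Subtype.ext
  funext e
  rw [mvU_row h2, mvU_row h3, mvU_row h3, mvU_row h1]
  ext k
  simp only [mem_swapSet]
  rw [swap_mul_triple2 hab hac hbc]

section two
variable {r : Fin 2 → ℕ} {t : κ → ℕ}

theorem two_cases : ∀ C : Finset (Fin 2), C = ∅ ∨ C = univ ∨ ∃ e, C = {e} := by decide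

theorem two_mem : ∀ (C : Finset (Fin 2)) (e : Fin 2), e ∈ C ↔ (C = {e} ∨ C = univ) := by decide

theorem two_ne : ∀ e : Fin 2, ({e} : Finset (Fin 2)) ≠ univ := by decide

/-- Number of columns of a given total, for arbitrary total. -/
theorem nC_two_empty (x : Bip r t) : nC x.1 ∅ = cT t 0 := by
  unfold nC cT
  congr 1
  ext j
  simp only [mem_filter, mem_univ, true_and]
  rw [← card_col x j, Finset.card_eq_zero]

theorem nC_two_univ (x : Bip r t) : nC x.1 univ = cT t 2 := by
  unfold nC cT
  congr 1
  ext j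
  simp only [mem_filter, mem_univ, true_and]
  rw [← card_col x j]
  have h := Finset.card_eq_iff_eq_univ (col x.1 j)
  simp only [Fintype.card_fin] at h
  exact h.symm

theorem nC_two_single (x : Bip r t) (e : Fin 2) : nC x.1 {e} + cT t 2 = r e := by
  rw [← x.2.1 e, ← nC_two_univ x]
  unfold nC
  rw [← Finset.card_union_of_disjoint]
  · congr 1
    ext j
    simp only [mem_union, mem_filter, mem_univ, true_and]
    rw [← two_mem (col x.1 j) e, mem_col]
  · rw [Finset.disjoint_left]
    intro j hj hj'
    simp only [mem_filter, mem_univ, true_and] at hj hj'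
    exact two_ne e (hj.symm.trans hj')

theorem relA_two (x y : Bip r t) : relA x y := by
  intro C
  rcases two_cases C with h | h | ⟨e, h⟩
  · subst h
    rw [nC_two_empty, nC_two_empty]
  · subst h
    rw [nC_two_univ, nC_two_univ]
  · subst h
    have h1 := nC_two_single x e
    have h2 := nC_two_single y e
    omega

/-- Column exchanges connect everything for two rows. -/
theorem two_conn (f : Bip r t → ℝ)
    (hf : ∀ (j j' : κ), t j = t j' → ∀ x, f (mv univ j j' x) = f x) (x y : Bip r t) : f x = f y :=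
  conn_of_relA f hf x y (relA_two x y)

/-- The gap for two rows. -/
theorem johnson_bound (g : Bip r t → ℝ) :
    g ⬝ᵥ g - avg relTop g ⬝ᵥ avg relTop g
      ≤ (1 / 8) * ∑ j, ∑ j', ∑ w, (g w - g (mv univ j j' w)) ^ 2 := by
  have key := abstract_gap (Ω := Bip r t) (ι := κ)
    (fun j j' => qOp (mv univ j j')) (avgL relTop)
    (fun k l f g => qOp_symm (mv_invol _ _ _) f g)
    (fun k l f => qOp_idem (mv_invol _ _ _) f)
    (fun k l => by
      congr 1
      funext x
      exact mv_comm _ _ _ _)
    (fun k => by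
      apply LinearMap.ext
      intro f
      have : (mv univ k k : Bip r t → Bip r t) = fun x => x := funext (mv_self _ _)
      rw [this, qOp_id]
      rfl)
    (fun k l m n _ _ h1 h2 h3 h4 f => qOp_comm (fun x => mvU_comm h1 h2 h3 h4 x) f)
    (fun k l x h1 h2 h3 f => by
      by_cases h4 : t k = t l
      · by_cases h5 : t k = t x
        · have hs := s3_nonneg (mv univ k l) (mv univ k x) (mv univ l x)
            (mv_invol _ _ _) (mv_invol _ _ _) (mv_invol _ _ _)
            (mvU_triple1 h1 h2 h3 h4 h5) (mvU_triple2 h1 h2 h3 h4 h5) f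
          simp only [qOp_apply, smul_dotProduct, dotProduct_smul, smul_eq_mul]
          nlinarith [hs]
        · have e1 : (mv univ k x : Bip r t → Bip r t) = fun w => w := funext (mv_univ_ne h5)
          have e2 : (mv univ l x : Bip r t → Bip r t) = fun w => w :=
            funext (mv_univ_ne (fun h => h5 (h4.trans h)))
          rw [e1, e2, qOp_id]
          simp
      · have e1 : (mv univ k l : Bip r t → Bip r t) = fun w => w := funext (mv_univ_ne h4)
        by_cases h5 : t k = t x
        · have e2 : (mv univ l x : Bip r t → Bip r t) = fun w => w :=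
            funext (mv_univ_ne (fun h => h4 (h5.trans h.symm)))
          rw [e1, e2, qOp_id]
          simp
        · have e2 : (mv univ k x : Bip r t → Bip r t) = fun w => w := funext (mv_univ_ne h5)
          rw [e1, e2, qOp_id]
          simp)
    (fun f g => avg_dot relTop_equiv f g)
    (fun f => avg_avg relTop_equiv f)
    (fun k l f => qOp_const (fun x y => avg_meas relTop_equiv f x y trivial))
    (fun f hf => by
      apply avg_of_meas relTop_equiv
      intro x y _
      apply two_conn f
      intro j j' _ w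
      exact qOp_eq_zero (hf j j') w)
    g
  simp only [avgL_apply, qOp_dot] at key
  have e : (1 / 2 : ℝ) * ∑ k, ∑ l, (1 / 4) * ∑ x, (g x - g (mv univ k l x)) ^ 2
      = (1 / 8) * ∑ k, ∑ l, ∑ x, (g x - g (mv univ k l x)) ^ 2 := by
    simp only [← Finset.mul_sum]
    ring
  linarith [key, e]

end two

end Vale.Agent.Lib.P335
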