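import Vale.Agent.Lib.P335.Spectral

/-!
The Knabe type gap estimate, with the disjoint cross terms bounded only in total.
-/

namespace Vale.Agent.Lib.P335

open Finset Matrix

variable {Ω : Type*} [Fintype Ω]

section Knabe

variable {ι : Type*} [Fintype ι] [DecidableEq ι]

/-- The algebra behind the Knabe type bound, with the disjoint terms nonnegative in total. -/
theorem knabe_sum2 (R : ι → ι → Ω → ℝ)
    (hsymm : ∀ k l, R k l = R l k) (hdiag : ∀ k, R k k = 0)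
    (H1 : 0 ≤ ∑ k, ∑ l, ∑ m, ∑ n, if k ≠ l ∧ m ≠ n ∧ k ≠ m ∧ k ≠ n ∧ l ≠ m ∧ l ≠ n then
      R k l ⬝ᵥ R m n else 0)
    (H2 : ∀ k l x, k ≠ l → k ≠ x → l ≠ x →
      0 ≤ R k l ⬝ᵥ R k x + R k l ⬝ᵥ R l x + R k x ⬝ᵥ R l x) :
    2 * ∑ k, ∑ l, R k l ⬝ᵥ R k l ≤ (∑ k, ∑ l, R k l) ⬝ᵥ (∑ m, ∑ n, R m n) := by
  classical
  -- the triple sums
  let D : ι → ι → ι → Prop := fun k l x => k ≠ l ∧ k ≠ x ∧ l ≠ x
  let a : ι → ι → ι → ℝ := fun k l x => R k l ⬝ᵥ R k x
  let A : ℝ := ∑ k, ∑ l, ∑ x, if D k l x then a k l x else 0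
  have hB : (∑ k, ∑ l, ∑ x, if D k l x then R k l ⬝ᵥ R l x else 0) = A := by
    have : (∑ k, ∑ l, ∑ x, if D k l x then R k l ⬝ᵥ R l x else 0)
        = ∑ k, ∑ l, ∑ x, if D l k x then a l k x else 0 := by
      apply Finset.sum_congr rfl; intro k _
      apply Finset.sum_congr rfl; intro l _
      apply Finset.sum_congr rfl; intro x _
      by_cases h : D k l x
      · have h' : D l k x := ⟨h.1.symm, h.2.2, h.2.1⟩
        simp only [if_pos h, if_pos h', a]
        rw [hsymm k l]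
      · have h' : ¬ D l k x := fun h' => h ⟨h'.1.symm, h'.2.2, h'.2.1⟩
        simp only [if_neg h, if_neg h']
    rw [this, Finset.sum_comm]
  have hE : (∑ k, ∑ l, ∑ x, if D k l x then R k x ⬝ᵥ R l x else 0) = A := by
    have : (∑ k, ∑ l, ∑ x, if D k l x then R k x ⬝ᵥ R l x else 0)
        = ∑ k, ∑ l, ∑ x, if D x k l then a x k l else 0 := by
      apply Finset.sum_congr rfl; intro k _
      apply Finset.sum_congr rfl; intro l _
      apply Finset.sum_congr rfl; intro x _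
      by_cases h : D k l x
      · have h' : D x k l := ⟨h.2.1.symm, h.2.2.symm, h.1⟩
        simp only [if_pos h, if_pos h', a]
        rw [hsymm k x, hsymm l x]
      · have h' : ¬ D x k l := fun h' => h ⟨h'.2.2, h'.1.symm, h'.2.1.symm⟩
        simp only [if_neg h, if_neg h']
    rw [this]
    -- reorder the sum
    calc ∑ k, ∑ l, ∑ x, (if D x k l then a x k l else 0)
        = ∑ k, ∑ x, ∑ l, (if D x k l then a x k l else 0) := by
          apply Finset.sum_congr rfl; intro k _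
          exact Finset.sum_comm
      _ = ∑ x, ∑ k, ∑ l, (if D x k l then a x k l else 0) := Finset.sum_comm
  have h3A : 0 ≤ 3 * A := by
    have h : 0 ≤ ∑ k, ∑ l, ∑ x, (if D k l x then
        (R k l ⬝ᵥ R k x + R k l ⬝ᵥ R l x + R k x ⬝ᵥ R l x) else 0) := by
      apply Finset.sum_nonneg; intro k _
      apply Finset.sum_nonneg; intro l _
      apply Finset.sum_nonneg; intro x _
      by_cases hD : D k l x
      · rw [if_pos hD]
        exact H2 k l x hD.1 hD.2.1 hD.2.2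
      · rw [if_neg hD]
    have h2 : (∑ k, ∑ l, ∑ x, (if D k l x then
        (R k l ⬝ᵥ R k x + R k l ⬝ᵥ R l x + R k x ⬝ᵥ R l x) else 0))
        = A + (∑ k, ∑ l, ∑ x, if D k l x then R k l ⬝ᵥ R l x else 0)
          + (∑ k, ∑ l, ∑ x, if D k l x then R k x ⬝ᵥ R l x else 0) := by
      simp only [← Finset.sum_add_distrib, A]
      apply Finset.sum_congr rfl; intro k _
      apply Finset.sum_congr rfl; intro l _
      apply Finset.sum_congr rfl; intro x _
      by_cases hD : D k l x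
      · simp only [if_pos hD, a]
      · simp only [if_neg hD]
        ring
    rw [h2, hB, hE] at h
    linarith
  have hA0 : 0 ≤ A := by linarith
  -- the fixed pair estimate
  have hpair : ∀ k l, 2 * (R k l ⬝ᵥ R k l)
      + 2 * (∑ x, ((if D k l x then a k l x else 0)
        + (if D k l x then R k l ⬝ᵥ R l x else 0)))
      + (∑ m, ∑ n, if k ≠ l ∧ m ≠ n ∧ k ≠ m ∧ k ≠ n ∧ l ≠ m ∧ l ≠ n then
          R k l ⬝ᵥ R m n else 0)
      ≤ ∑ m, ∑ n, R k l ⬝ᵥ R m n := by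
    intro k l
    by_cases hkl : k = l
    · subst hkl
      have h0 : ∀ x, ¬ D k k x := fun x h => h.1 rfl
      simp [h0, hdiag]
    · have hsplit1 := sum_split_two (fun m => ∑ n, R k l ⬝ᵥ R m n) hkl
      rw [hsplit1]
      have hsplitk : ∑ n, R k l ⬝ᵥ R k n = R k l ⬝ᵥ R k k + R k l ⬝ᵥ R k l
          + ∑ n, (if n ≠ k ∧ n ≠ l then R k l ⬝ᵥ R k n else 0) :=
        sum_split_two (fun n => R k l ⬝ᵥ R k n) hkl
      have hsplitl : ∑ n, R k l ⬝ᵥ R l n = R k l ⬝ᵥ R l k + R k l ⬝ᵥ R l l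
          + ∑ n, (if n ≠ k ∧ n ≠ l then R k l ⬝ᵥ R l n else 0) :=
        sum_split_two (fun n => R k l ⬝ᵥ R l n) hkl
      rw [hsplitk, hsplitl]
      simp only [hdiag, dotProduct_zero]
      have hll : R k l ⬝ᵥ R l k = R k l ⬝ᵥ R k l := by rw [hsymm l k]
      rw [hll]
      -- the rest
      have hrest : ∀ m, (if m ≠ k ∧ m ≠ l then ∑ n, R k l ⬝ᵥ R m n else 0)
          = (if m ≠ k ∧ m ≠ l then R k l ⬝ᵥ R k m + R k l ⬝ᵥ R l m else 0)
            + ∑ n, (if k ≠ l ∧ m ≠ n ∧ k ≠ m ∧ k ≠ n ∧ l ≠ m ∧ l ≠ n then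
                R k l ⬝ᵥ R m n else 0) := by
        intro m
        by_cases hm : m ≠ k ∧ m ≠ l
        · rw [if_pos hm, if_pos hm]
          have hs : ∑ n, R k l ⬝ᵥ R m n = R k l ⬝ᵥ R m k + R k l ⬝ᵥ R m l
              + ∑ n, (if n ≠ k ∧ n ≠ l then R k l ⬝ᵥ R m n else 0) :=
            sum_split_two (fun n => R k l ⬝ᵥ R m n) hkl
          rw [hs, hsymm m k, hsymm m l]
          have hs2 : ∑ n, (if n ≠ k ∧ n ≠ l then R k l ⬝ᵥ R m n else 0)
              = ∑ n, (if k ≠ l ∧ m ≠ n ∧ k ≠ m ∧ k ≠ n ∧ l ≠ m ∧ l ≠ n then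
                R k l ⬝ᵥ R m n else 0) := by
            apply Finset.sum_congr rfl
            intro n _
            by_cases hn : n ≠ k ∧ n ≠ l
            · by_cases hmn : m = n
              · subst hmn
                simp [hdiag, hm]
              · have h7 : k ≠ l ∧ m ≠ n ∧ k ≠ m ∧ k ≠ n ∧ l ≠ m ∧ l ≠ n :=
                  ⟨hkl, hmn, Ne.symm hm.1, Ne.symm hn.1, Ne.symm hm.2, Ne.symm hn.2⟩
                rw [if_pos hn, if_pos h7]
            · have h7 : ¬ (k ≠ l ∧ m ≠ n ∧ k ≠ m ∧ k ≠ n ∧ l ≠ m ∧ l ≠ n) := fun h =>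
                hn ⟨Ne.symm h.2.2.2.1, Ne.symm h.2.2.2.2.2⟩
              rw [if_neg hn, if_neg h7]
          rw [hs2]
        · rw [if_neg hm, if_neg hm, zero_add]
          symm
          apply Finset.sum_eq_zero
          intro n _
          rw [if_neg]
          intro h
          exact hm ⟨Ne.symm h.2.2.1, Ne.symm h.2.2.2.2.1⟩
      have hsumrest := Finset.sum_congr rfl (fun m (_ : m ∈ univ) => hrest m)
      have hconv1 : (∑ x, ((if D k l x then a k l x else 0)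
          + (if D k l x then R k l ⬝ᵥ R l x else 0)))
          = ∑ x, (if x ≠ k ∧ x ≠ l then R k l ⬝ᵥ R k x + R k l ⬝ᵥ R l x else 0) := by
        apply Finset.sum_congr rfl
        intro x _
        by_cases hx : x ≠ k ∧ x ≠ l
        · have hD : D k l x := ⟨hkl, hx.1.symm, hx.2.symm⟩
          rw [if_pos hD, if_pos hD, if_pos hx]
        · have hD : ¬ D k l x := fun h => hx ⟨h.2.1.symm, h.2.2.symm⟩
          rw [if_neg hD, if_neg hD, if_neg hx]
          simp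
      have hconv2 : (∑ m, (if m ≠ k ∧ m ≠ l then R k l ⬝ᵥ R k m + R k l ⬝ᵥ R l m else 0))
          = (∑ m, (if m ≠ k ∧ m ≠ l then R k l ⬝ᵥ R k m else 0))
            + ∑ m, (if m ≠ k ∧ m ≠ l then R k l ⬝ᵥ R l m else 0) := by
        rw [← Finset.sum_add_distrib]
        apply Finset.sum_congr rfl
        intro m _
        by_cases hm : m ≠ k ∧ m ≠ l
        · simp only [if_pos hm]
        · simp only [if_neg hm]
          simp
      rw [Finset.sum_add_distrib] at hsumrest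
      rw [hconv1]
      rw [hconv2] at hsumrest ⊢
      have hmm : R k l ⬝ᵥ R k l + R k l ⬝ᵥ R k l = 2 * (R k l ⬝ᵥ R k l) := by ring
      linarith
  -- sum over all pairs
  have hexp : (∑ k, ∑ l, R k l) ⬝ᵥ (∑ m, ∑ n, R m n) = ∑ k, ∑ l, ∑ m, ∑ n, R k l ⬝ᵥ R m n := by
    rw [sum_dotProduct]
    apply Finset.sum_congr rfl; intro k _
    rw [sum_dotProduct]
    apply Finset.sum_congr rfl; intro l _
    rw [dotProduct_sum]
    apply Finset.sum_congr rfl; intro m _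
    rw [dotProduct_sum]
  rw [hexp]
  have htot : (∑ k, ∑ l, (2 * (R k l ⬝ᵥ R k l)
      + 2 * (∑ x, ((if D k l x then a k l x else 0)
        + (if D k l x then R k l ⬝ᵥ R l x else 0)))
      + (∑ m, ∑ n, if k ≠ l ∧ m ≠ n ∧ k ≠ m ∧ k ≠ n ∧ l ≠ m ∧ l ≠ n then
          R k l ⬝ᵥ R m n else 0)))
      ≤ ∑ k, ∑ l, ∑ m, ∑ n, R k l ⬝ᵥ R m n := by
    apply Finset.sum_le_sum; intro k _
    apply Finset.sum_le_sum; intro l _
    exact hpair k l
  have hval : (∑ k, ∑ l, (2 * (R k l ⬝ᵥ R k l)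
      + 2 * (∑ x, ((if D k l x then a k l x else 0)
        + (if D k l x then R k l ⬝ᵥ R l x else 0)))
      + (∑ m, ∑ n, if k ≠ l ∧ m ≠ n ∧ k ≠ m ∧ k ≠ n ∧ l ≠ m ∧ l ≠ n then
          R k l ⬝ᵥ R m n else 0)))
      = 2 * (∑ k, ∑ l, R k l ⬝ᵥ R k l) + 2 * (A + A) + (∑ k, ∑ l, ∑ m, ∑ n,
        if k ≠ l ∧ m ≠ n ∧ k ≠ m ∧ k ≠ n ∧ l ≠ m ∧ l ≠ n then R k l ⬝ᵥ R m n else 0) := by
    have h1 : (∑ k, ∑ l, ∑ x, ((if D k l x then a k l x else 0)
        + (if D k l x then R k l ⬝ᵥ R l x else 0))) = A + A := by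
      nth_rewrite 2 [← hB]
      simp only [A, ← Finset.sum_add_distrib]
    rw [← h1]
    simp only [Finset.mul_sum, ← Finset.sum_add_distrib]
  rw [hval] at htot
  linarith

end Knabe

/-- Abstract form of the Knabe type gap estimate, with the disjoint terms nonnegative in total. -/
theorem abstract_gap2 {ι : Type*} [Fintype ι] [DecidableEq ι]
    (Q : ι → ι → (Ω → ℝ) →ₗ[ℝ] (Ω → ℝ)) (P : (Ω → ℝ) →ₗ[ℝ] (Ω → ℝ))
    (hQs : ∀ k l f g, Q k l f ⬝ᵥ g = f ⬝ᵥ Q k l g)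
    (hQi : ∀ k l f, Q k l (Q k l f) = Q k l f)
    (hsymm : ∀ k l, Q k l = Q l k) (hdiag : ∀ k, Q k k = 0)
    (hkey : ∀ f, 0 ≤ ∑ k, ∑ l, ∑ m, ∑ n, if k ≠ l ∧ m ≠ n ∧ k ≠ m ∧ k ≠ n ∧ l ≠ m ∧ l ≠ n then
      Q k l f ⬝ᵥ Q m n f else 0)
    (htriple : ∀ k l x, k ≠ l → k ≠ x → l ≠ x → ∀ f,
      0 ≤ Q k l f ⬝ᵥ Q k x f + Q k l f ⬝ᵥ Q l x f + Q k x f ⬝ᵥ Q l x f)
    (hP : ∀ f g, P f ⬝ᵥ g = f ⬝ᵥ P g) (hPP : ∀ f, P (P f) = P f)
    (hQP : ∀ k l f, Q k l (P f) = 0)
    (hker : ∀ f, (∀ k l, Q k l f = 0) → P f = f) (f : Ω → ℝ) :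
    f ⬝ᵥ f - P f ⬝ᵥ P f ≤ (1 / 2) * ∑ k, ∑ l, Q k l f ⬝ᵥ Q k l f := by
  let A : (Ω → ℝ) →ₗ[ℝ] (Ω → ℝ) := (1 / 2 : ℝ) • ∑ k, ∑ l, Q k l
  have hAapp : ∀ g, A g = (1 / 2 : ℝ) • ∑ k, ∑ l, Q k l g := by
    intro g
    simp [A, LinearMap.sum_apply]
  have hQq : ∀ k l g, g ⬝ᵥ Q k l g = Q k l g ⬝ᵥ Q k l g := by
    intro k l g
    rw [hQs k l g (Q k l g), hQi]
  have hform : ∀ g, g ⬝ᵥ A g = (1 / 2) * ∑ k, ∑ l, Q k l g ⬝ᵥ Q k l g := by
    intro g
    rw [hAapp, dotProduct_smul, smul_eq_mul, dotProduct_sum]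
    congr 1
    apply Finset.sum_congr rfl; intro k _
    rw [dotProduct_sum]
    apply Finset.sum_congr rfl; intro l _
    exact hQq k l g
  have hknabe : ∀ g, 2 * ∑ k, ∑ l, Q k l g ⬝ᵥ Q k l g
      ≤ (∑ k, ∑ l, Q k l g) ⬝ᵥ (∑ m, ∑ n, Q m n g) := by
    intro g
    apply knabe_sum2 (fun k l => Q k l g)
    · intro k l
      simp only [hsymm k l]
    · intro k
      simp only [hdiag k]
      rfl
    · exact hkey g
    · intro k l x h1 h2 h3
      exact htriple k l x h1 h2 h3 g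
  have hkey := gap_of_square A P
    (by
      intro g h
      rw [hAapp, hAapp, smul_dotProduct, dotProduct_smul]
      congr 1
      rw [sum_dotProduct, dotProduct_sum]
      apply Finset.sum_congr rfl; intro k _
      rw [sum_dotProduct, dotProduct_sum]
      apply Finset.sum_congr rfl; intro l _
      exact hQs k l g h)
    hP hPP
    (by
      intro g
      rw [hAapp]
      simp [hQP])
    (by
      intro g
      rw [hform]
      have : 0 ≤ ∑ k, ∑ l, Q k l g ⬝ᵥ Q k l g :=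
        Finset.sum_nonneg (fun k _ => Finset.sum_nonneg (fun l _ => dot_self_nonneg _))
      linarith)
    (by
      intro g
      rw [hform]
      have h1 := hknabe g
      rw [hAapp, smul_dotProduct, dotProduct_smul, smul_eq_mul, smul_eq_mul]
      linarith)
    (by
      intro g hg
      apply hker
      have h1 : g ⬝ᵥ A g = 0 := by rw [hg]; simp
      rw [hform] at h1
      have h2 : ∑ k, ∑ l, Q k l g ⬝ᵥ Q k l g = 0 := by linarith
      intro k l
      have h3 := (Finset.sum_eq_zero_iff_of_nonneg (fun k _ =>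
        Finset.sum_nonneg (fun l _ => dot_self_nonneg (Q k l g)))).mp h2 k (Finset.mem_univ k)
      have h4 := (Finset.sum_eq_zero_iff_of_nonneg (fun l _ =>
        dot_self_nonneg (Q k l g))).mp h3 l (Finset.mem_univ l)
      exact dot_self_eq_zero h4) f
  rw [hform] at hkey
  exact hkey

end Vale.Agent.Lib.P335
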