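import Vale.Agent.Lib.P335.Chain

/-!
Adjacency, agreement relations and toggles of alternating four-cycles on the realizations of a
degree vector.
-/

namespace Vale.Agent.Lib.P335

open Finset Matrix

variable {n : ℕ} {d : Fin n → ℕ}

/-- Adjacency in a realization. -/
def ad (x : Realizations d) (u v : Fin n) : Prop := s(u, v) ∈ x.1

instance (x : Realizations d) (u v : Fin n) : Decidable (ad x u v) := by
  unfold ad
  infer_instance

theorem ad_comm (x : Realizations d) (u v : Fin n) : ad x u v ↔ ad x v u := by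
  unfold ad
  rw [Sym2.eq_swap]

theorem not_ad_self (x : Realizations d) (u : Fin n) : ¬ ad x u u := by
  intro h
  exact x.2.1 _ h (by simp)

theorem ne_of_ad {x : Realizations d} {u v : Fin n} (h : ad x u v) : u ≠ v := by
  rintro rfl
  exact not_ad_self x u h

theorem ext_ad {x y : Realizations d} (h : ∀ u v, ad x u v ↔ ad y u v) : x = y := by
  apply Subtype.ext
  ext e
  induction e using Sym2.ind with
  | _ u v => exact h u v

/-- The neighbours of `v` number `d v`. -/
theorem card_nbr (x : Realizations d) (v : Fin n) :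
    (univ.filter (fun u => ad x v u)).card = d v := by
  rw [← x.2.2 v]
  unfold vdeg
  have h : x.1.filter (fun e => v ∈ e) = (univ.filter (fun u => ad x v u)).image (fun u => s(v, u)) := by
    ext e
    induction e using Sym2.ind with
    | _ p q =>
      simp only [mem_filter, mem_image, mem_univ, true_and, Sym2.mem_iff]
      constructor
      · rintro ⟨h1, rfl | rfl⟩
        · exact ⟨q, h1, rfl⟩
        · refine ⟨p, ?_, Sym2.eq_swap⟩
          rw [ad_comm]
          exact h1
      · rintro ⟨u, h1, h2⟩
        rw [← h2]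
        refine ⟨h1, ?_⟩
        have h3 : v ∈ s(p, q) := by
          rw [← h2]
          exact Sym2.mem_mk_left v u
        exact Sym2.mem_iff.mp h3
  rw [h, Finset.card_image_of_injective]
  intro u u' h1
  exact Sym2.congr_right.mp h1

/-- Agreement on the edges with both ends outside `P`. -/
def rel (P : Finset (Fin n)) (x y : Realizations d) : Prop :=
  ∀ u v, u ∉ P → v ∉ P → (ad x u v ↔ ad y u v)

instance (P : Finset (Fin n)) : DecidableRel (rel (d := d) P) := fun x y => by
  unfold rel
  infer_instance

theorem rel_equiv (P : Finset (Fin n)) : Equivalence (rel (d := d) P) :=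
  ⟨fun _ _ _ _ _ => Iff.rfl, fun h u v hu hv => (h u v hu hv).symm,
    fun h k u v hu hv => (h u v hu hv).trans (k u v hu hv)⟩

theorem rel_mono {P P' : Finset (Fin n)} (h : P ⊆ P') {x y : Realizations d} (hxy : rel P x y) :
    rel P' x y := fun u v hu hv => hxy u v (fun hP => hu (h hP)) (fun hP => hv (h hP))

/-- Four vertices in position for a toggle. -/
def Dist4 (a b c e : Fin n) : Prop := a ≠ b ∧ c ≠ e ∧ a ≠ c ∧ a ≠ e ∧ b ≠ c ∧ b ≠ e

instance (a b c e : Fin n) : Decidable (Dist4 a b c e) := by
  unfold Dist4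
  infer_instance

/-- The alternating pattern: `ac`, `be` present, `ae`, `bc` absent. -/
def altP (x : Realizations d) (a b c e : Fin n) : Prop :=
  Dist4 a b c e ∧ ad x a c ∧ ad x b e ∧ ¬ ad x a e ∧ ¬ ad x b c

instance (x : Realizations d) (a b c e : Fin n) : Decidable (altP x a b c e) := by
  unfold altP
  infer_instance

/-- The toggle is active at `x`. -/
def act (x : Realizations d) (a b c e : Fin n) : Prop := altP x a b c e ∨ altP x a b e c

instance (x : Realizations d) (a b c e : Fin n) : Decidable (act x a b c e) := by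
  unfold act
  infer_instance

/-- The four cells of the cycle. -/
def onC (a b c e u v : Fin n) : Prop :=
  ((u = a ∨ u = b) ∧ (v = c ∨ v = e)) ∨ ((u = c ∨ u = e) ∧ (v = a ∨ v = b))

instance (a b c e u v : Fin n) : Decidable (onC a b c e u v) := by
  unfold onC
  infer_instance

/-- The ordered pair of matchings of a switch. -/
def pairF (a b c e : Fin n) : Finset (Sym2 (Fin n)) × Finset (Sym2 (Fin n)) :=
  ({s(a, c), s(b, e)}, {s(a, e), s(b, c)})

theorem pairF_mem {a b c e : Fin n} (h : Dist4 a b c e) : pairF a b c e ∈ orderedPairs {a, b, c, e} := by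
  obtain ⟨h1, h2, h3, h4, h5, h6⟩ := h
  rw [mem_orderedPairs]
  refine ⟨?_, ?_, ?_⟩
  · apply matching_mem h3 h1 h4 h5.symm h2 h6
    intro v
    simp only [mem_insert, mem_singleton]
    tauto
  · apply matching_mem h4 h1 h3 h6.symm h2.symm h5
    intro v
    simp only [mem_insert, mem_singleton]
    tauto
  · intro h
    have h7 : s(a, c) ∈ (pairF a b c e).2 := by
      rw [← h]
      simp [pairF]
    simp only [pairF, mem_insert, mem_singleton, Sym2.eq_iff] at h7
    rcases h7 with (⟨-, h8⟩ | ⟨h8, -⟩) | (⟨h8, -⟩ | ⟨h8, -⟩)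
    · exact h2 h8
    · exact h4 h8
    · exact h1 h8
    · exact h3 h8

theorem four_comm (a b c e : Fin n) : ({a, b, e, c} : Finset (Fin n)) = {a, b, c, e} := by
  ext v
  simp only [mem_insert, mem_singleton]
  tauto

theorem dist4_swap {a b c e : Fin n} (h : Dist4 a b c e) : Dist4 a b e c := by
  obtain ⟨h1, h2, h3, h4, h5, h6⟩ := h
  exact ⟨h1, h2.symm, h4, h3, h6, h5⟩

/-- Toggle the alternating cycle `a c b e`, if it is alternating at `x`. -/
noncomputable def tg (a b c e : Fin n) (x : Realizations d) : Realizations d :=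
  if altP x a b c e then stepR x (pairF a b c e)
  else if altP x a b e c then stepR x (pairF a b e c) else x

theorem onC_iff (a b c e u v : Fin n) : onC a b c e u v ↔
    s(u, v) = s(a, c) ∨ s(u, v) = s(b, e) ∨ s(u, v) = s(a, e) ∨ s(u, v) = s(b, c) := by
  simp only [onC, Sym2.eq_iff]
  tauto

theorem ad_step {x : Realizations d} {a b c e : Fin n} (h : altP x a b c e) (u v : Fin n) :
    ad (stepR x (pairF a b c e)) u v ↔ if onC a b c e u v then ¬ ad x u v else ad x u v := by
  obtain ⟨hD, h1, h2, h3, h4⟩ := h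
  have hm := pairF_mem hD
  unfold ad
  rw [stepR_val x hm]
  have hif : (pairF a b c e).1 ⊆ x.1 ∧ Disjoint (pairF a b c e).2 x.1 := by
    constructor
    · intro y hy
      simp only [pairF, mem_insert, mem_singleton] at hy
      rcases hy with rfl | rfl
      · exact h1
      · exact h2
    · rw [Finset.disjoint_left]
      intro y hy
      simp only [pairF, mem_insert, mem_singleton] at hy
      rcases hy with rfl | rfl
      · exact h3
      · exact h4
  unfold switchResult
  rw [if_pos hif]
  obtain ⟨d1, d2, d3, d4, d5, d6⟩ := hD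
  unfold ad at h1 h2 h3 h4
  have n13 : s(a, c) ≠ s(a, e) := fun h => d2 (Sym2.congr_right.mp h)
  have n14 : s(a, c) ≠ s(b, c) := fun h => d1 (Sym2.congr_left.mp h)
  have n23 : s(b, e) ≠ s(a, e) := fun h => d1 (Sym2.congr_left.mp h).symm
  have n24 : s(b, e) ≠ s(b, c) := fun h => d2 (Sym2.congr_right.mp h).symm
  simp only [pairF, mem_union, mem_sdiff, mem_insert, mem_singleton]
  by_cases hC : onC a b c e u v
  · rw [if_pos hC]
    rcases (onC_iff a b c e u v).mp hC with h5 | h5 | h5 | h5 <;> rw [h5]
    · simp [h1, n13, n14]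
    · simp [h2, n23, n24]
    · simp [h3]
    · simp [h4]
  · rw [if_neg hC]
    rw [onC_iff] at hC
    push Not at hC
    obtain ⟨c1, c2, c3, c4⟩ := hC
    simp [c1, c2, c3, c4]

theorem onC_swap (a b c e u v : Fin n) : onC a b e c u v ↔ onC a b c e u v := by
  unfold onC
  tauto

/-- Adjacency after a toggle. -/
theorem ad_tg (x : Realizations d) (a b c e u v : Fin n) :
    ad (tg a b c e x) u v ↔ if act x a b c e ∧ onC a b c e u v then ¬ ad x u v else ad x u v := by
  unfold tg
  by_cases h1 : altP x a b c e
  · rw [if_pos h1, ad_step h1]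
    have : act x a b c e := Or.inl h1
    simp [this]
  · rw [if_neg h1]
    by_cases h2 : altP x a b e c
    · rw [if_pos h2, ad_step h2]
      have : act x a b c e := Or.inr h2
      simp [this, onC_swap]
    · rw [if_neg h2]
      have : ¬ act x a b c e := fun h => h.elim h1 h2
      simp [this]

theorem ad_tg_of_not_act {x : Realizations d} {a b c e : Fin n} (h : ¬ act x a b c e) :
    tg a b c e x = x := by
  apply ext_ad
  intro u v
  rw [ad_tg]
  simp [h]

theorem act_dist {x : Realizations d} {a b c e : Fin n} (h : act x a b c e) : Dist4 a b c e := by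
  rcases h with h | h
  · exact h.1
  · exact dist4_swap h.1

theorem onC_self {a b c e : Fin n} : onC a b c e a c ∧ onC a b c e a e ∧ onC a b c e b c ∧ onC a b c e b e
    := by
  unfold onC
  simp

theorem act_tg (x : Realizations d) (a b c e : Fin n) : act (tg a b c e x) a b c e ↔ act x a b c e := by
  by_cases h : act x a b c e
  · have hD := act_dist h
    have e1 : ∀ u v, onC a b c e u v → (ad (tg a b c e x) u v ↔ ¬ ad x u v) := by
      intro u v huv
      rw [ad_tg]
      simp [h, huv]
    have h1 := e1 a c onC_self.1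
    have h2 := e1 a e onC_self.2.1
    have h3 := e1 b c onC_self.2.2.1
    have h4 := e1 b e onC_self.2.2.2
    simp only [h, iff_true]
    unfold act altP
    unfold act altP at h
    rw [h1, h2, h3, h4]
    have hD' := dist4_swap hD
    rcases h with ⟨-, p1, p2, p3, p4⟩ | ⟨-, p1, p2, p3, p4⟩
    · right
      exact ⟨hD', p3, p4, fun h => h p1, fun h => h p2⟩
    · left
      exact ⟨hD, p3, p4, fun h => h p1, fun h => h p2⟩
  · rw [ad_tg_of_not_act h]

theorem tg_invol (a b c e : Fin n) : Function.Involutive (tg (d := d) a b c e) := by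
  intro x
  apply ext_ad
  intro u v
  simp only [ad_tg, act_tg]
  by_cases h : act x a b c e ∧ onC a b c e u v
  · simp [h]
  · simp [h]

/-- A toggle as a permutation. -/
noncomputable def tgPerm (a b c e : Fin n) : Equiv.Perm (Realizations d) :=
  (tg_invol a b c e).toPerm

@[simp] theorem tgPerm_apply (a b c e : Fin n) (x : Realizations d) :
    tgPerm a b c e x = tg a b c e x := rfl

theorem act_symm1 (x : Realizations d) (a b c e : Fin n) : act x b a c e ↔ act x a b c e := by
  unfold act altP Dist4
  constructor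
  · rintro (⟨⟨h1, h2, h3, h4, h5, h6⟩, p1, p2, p3, p4⟩ | ⟨⟨h1, h2, h3, h4, h5, h6⟩, p1, p2, p3, p4⟩)
    · right
      exact ⟨⟨h1.symm, h2.symm, h6, h5, h4, h3⟩, p2, p1, p4, p3⟩
    · left
      exact ⟨⟨h1.symm, h2.symm, h6, h5, h4, h3⟩, p2, p1, p4, p3⟩
  · rintro (⟨⟨h1, h2, h3, h4, h5, h6⟩, p1, p2, p3, p4⟩ | ⟨⟨h1, h2, h3, h4, h5, h6⟩, p1, p2, p3, p4⟩)
    · right
      exact ⟨⟨h1.symm, h2.symm, h6, h5, h4, h3⟩, p2, p1, p4, p3⟩
    · left
      exact ⟨⟨h1.symm, h2.symm, h6, h5, h4, h3⟩, p2, p1, p4, p3⟩

theorem act_symm2 (x : Realizations d) (a b c e : Fin n) : act x a b e c ↔ act x a b c e := by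
  unfold act
  tauto

theorem act_symm3 (x : Realizations d) (a b c e : Fin n) : act x c e a b ↔ act x a b c e := by
  unfold act altP Dist4
  simp only [ad_comm x c a, ad_comm x c b, ad_comm x e a, ad_comm x e b]
  constructor
  · rintro (⟨⟨h1, h2, h3, h4, h5, h6⟩, p1, p2, p3, p4⟩ | ⟨⟨h1, h2, h3, h4, h5, h6⟩, p1, p2, p3, p4⟩)
    · left
      exact ⟨⟨h2, h1, h3.symm, h5.symm, h4.symm, h6.symm⟩, p1, p2, p4, p3⟩
    · right
      exact ⟨⟨h2.symm, h1.symm, h6.symm, h4.symm, h5.symm, h3.symm⟩, p2, p1, p3, p4⟩
  · rintro (⟨⟨h1, h2, h3, h4, h5, h6⟩, p1, p2, p3, p4⟩ | ⟨⟨h1, h2, h3, h4, h5, h6⟩, p1, p2, p3, p4⟩)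
    · left
      exact ⟨⟨h2, h1, h3.symm, h5.symm, h4.symm, h6.symm⟩, p1, p2, p4, p3⟩
    · right
      exact ⟨⟨h2.symm, h1.symm, h6.symm, h4.symm, h5.symm, h3.symm⟩, p2, p1, p3, p4⟩

theorem onC_symm1 (a b c e u v : Fin n) : onC b a c e u v ↔ onC a b c e u v := by
  unfold onC
  tauto

theorem onC_symm3 (a b c e u v : Fin n) : onC c e a b u v ↔ onC a b c e u v := by
  unfold onC
  tauto

theorem tg_symm1 (a b c e : Fin n) (x : Realizations d) : tg b a c e x = tg a b c e x := by
  apply ext_ad
  intro u v
  simp only [ad_tg, act_symm1, onC_symm1]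

theorem tg_symm2 (a b c e : Fin n) (x : Realizations d) : tg a b e c x = tg a b c e x := by
  apply ext_ad
  intro u v
  simp only [ad_tg, act_symm2, onC_swap]

theorem tg_symm3 (a b c e : Fin n) (x : Realizations d) : tg c e a b x = tg a b c e x := by
  apply ext_ad
  intro u v
  simp only [ad_tg, act_symm3, onC_symm3]

theorem rel_tg_of_act {P : Finset (Fin n)} {x y : Realizations d} {a b c e : Fin n}
    (h : rel P x y) (hact : act x a b c e ↔ act y a b c e) :
    rel P (tg a b c e x) (tg a b c e y) := by
  intro u v hu hv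
  simp only [ad_tg, hact]
  have h1 := h u v hu hv
  by_cases h2 : act y a b c e ∧ onC a b c e u v <;> simp [h2, h1]

theorem act_congr {P : Finset (Fin n)} {x y : Realizations d} {a b c e : Fin n}
    (ha : a ∉ P) (hb : b ∉ P) (hc : c ∉ P) (he : e ∉ P) (h : rel P x y) :
    act x a b c e ↔ act y a b c e := by
  unfold act altP
  rw [h a c ha hc, h a e ha he, h b c hb hc, h b e hb he]

theorem rel_tg_congr {P : Finset (Fin n)} {x y : Realizations d} {a b c e : Fin n}
    (ha : a ∉ P) (hb : b ∉ P) (hc : c ∉ P) (he : e ∉ P) (h : rel P x y) :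
    rel P (tg a b c e x) (tg a b c e y) :=
  rel_tg_of_act h (act_congr ha hb hc he h)

/-- A toggle changes only edges with one end in `{a, b}`. -/
theorem rel_tg_left (a b c e : Fin n) (x : Realizations d) : rel {a, b} x (tg a b c e x) := by
  intro u v hu hv
  rw [ad_tg]
  have hC : ¬ onC a b c e u v := by
    simp only [mem_insert, mem_singleton, not_or] at hu hv
    unfold onC
    tauto
  simp [hC]

/-- A toggle changes only edges with one end in `{c, e}`. -/
theorem rel_tg_right (a b c e : Fin n) (x : Realizations d) : rel {c, e} x (tg a b c e x) := by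
  have h := rel_tg_left c e a b x
  rwa [tg_symm3] at h

/-- Energy of a toggle against the two steps of the chain. -/
theorem tg_energy (f : Realizations d → ℝ) (a b c e : Fin n) (x : Realizations d) :
    (f x - f (tg a b c e x)) ^ 2 ≤ (f x - f (stepR x (pairF a b c e))) ^ 2
      + (f x - f (stepR x (pairF a b e c))) ^ 2 := by
  unfold tg
  by_cases h1 : altP x a b c e
  · rw [if_pos h1]
    nlinarith [sq_nonneg (f x - f (stepR x (pairF a b e c)))]
  · rw [if_neg h1]
    by_cases h2 : altP x a b e c
    · rw [if_pos h2]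
      nlinarith [sq_nonneg (f x - f (stepR x (pairF a b c e)))]
    · rw [if_neg h2]
      simp only [sub_self]
      nlinarith [sq_nonneg (f x - f (stepR x (pairF a b c e))),
        sq_nonneg (f x - f (stepR x (pairF a b e c)))]

theorem pairF_ne {a b c e : Fin n} (h : Dist4 a b c e) : pairF a b c e ≠ pairF a b e c := by
  intro h1
  have h2 := (mem_orderedPairs.mp (pairF_mem h)).2.2
  apply h2
  have h3 := congrArg Prod.fst h1
  have e1 : (pairF a b e c).1 = (pairF a b c e).2 := rfl
  rw [e1] at h3
  exact h3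

/-- The form of a toggle is bounded by the form of the chain on the four vertices. -/
theorem tg_wForm (f : Realizations d → ℝ) {a b c e : Fin n} (h : Dist4 a b c e) :
    ∑ x, (f x - f (tg a b c e x)) ^ 2 ≤ wForm f {a, b, c, e} := by
  calc _ ≤ ∑ x, ((f x - f (stepR x (pairF a b c e))) ^ 2
        + (f x - f (stepR x (pairF a b e c))) ^ 2) :=
        Finset.sum_le_sum (fun x _ => tg_energy f a b c e x)
    _ = ∑ p ∈ {pairF a b c e, pairF a b e c}, ∑ x, (f x - f (stepR x p)) ^ 2 := by
        rw [Finset.sum_pair (pairF_ne h), Finset.sum_add_distrib]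
    _ ≤ wForm f {a, b, c, e} := by
        unfold wForm
        apply Finset.sum_le_sum_of_subset_of_nonneg
        · intro p hp
          simp only [mem_insert, mem_singleton] at hp
          rcases hp with rfl | rfl
          · exact pairF_mem h
          · have := pairF_mem (dist4_swap h)
            rwa [four_comm] at this
        · intro p _ _
          exact Finset.sum_nonneg (fun _ _ => sq_nonneg _)

theorem card_four {a b c e : Fin n} (h : Dist4 a b c e) : ({a, b, c, e} : Finset (Fin n)).card = 4 := by
  obtain ⟨h1, h2, h3, h4, h5, h6⟩ := h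
  have e1 : b ∉ ({c, e} : Finset (Fin n)) := by
    simp only [mem_insert, mem_singleton, not_or]
    exact ⟨h5, h6⟩
  have e2 : a ∉ ({b, c, e} : Finset (Fin n)) := by
    simp only [mem_insert, mem_singleton, not_or]
    exact ⟨h1, h3, h4⟩
  rw [Finset.card_insert_of_notMem e2, Finset.card_insert_of_notMem e1, Finset.card_pair h2]

end Vale.Agent.Lib.P335
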