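import Vale.Agent.Lib.P335.KBase
import Vale.Agent.Lib.P335.Conn

/-!
Connectivity in terms of the toggles of the shared base file.
-/

namespace Vale.Agent.Lib.P335

open Finset

variable {n : ℕ} {d : Fin n → ℕ}

/-- A switch step is a toggle. -/
theorem step_eq_tg {G G' : Realizations d} {a b c e : Fin n} (hab : a ≠ b) (hac : a ≠ c)
    (hae : a ≠ e) (hbc : b ≠ c) (hbe : b ≠ e) (hce : c ≠ e)
    (h1 : s(a, b) ∈ G.1) (h2 : s(c, e) ∈ G.1) (h3 : s(a, c) ∉ G.1) (h4 : s(b, e) ∉ G.1)
    (h : G'.1 = switchResult G.1 {s(a, b), s(c, e)} {s(a, c), s(b, e)}) :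
    G' = tg a e b c G := by
  have hact : act G a e b c := by
    left
    refine ⟨⟨hae, hbc, hab, hac, hbe.symm, hce.symm⟩, h1, ?_, h3, ?_⟩
    · unfold ad
      rw [Sym2.eq_swap]
      exact h2
    · unfold ad
      rw [Sym2.eq_swap]
      exact h4
  apply ext_ad
  intro u v
  rw [ad_tg]
  unfold ad
  rw [h, mem_switch h1 h2 h3 h4]
  have e1 : s(e, c) = s(c, e) := Sym2.eq_swap
  have e2 : s(e, b) = s(b, e) := Sym2.eq_swap
  by_cases hC : onC a e b c u v
  · rw [if_pos ⟨hact, hC⟩]
    rcases (onC_iff a e b c u v).mp hC with h5 | h5 | h5 | h5 <;> rw [h5]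
    · have n1 : s(a, b) ≠ s(a, c) := fun h => hbc (Sym2.congr_right.mp h)
      have n2 : s(a, b) ≠ s(b, e) := by
        intro h
        rw [Sym2.eq_iff] at h
        rcases h with ⟨h, -⟩ | ⟨h, -⟩
        · exact hab h
        · exact hae h
      simp [h1, n1, n2]
    · rw [e1]
      have n1 : s(c, e) ≠ s(a, c) := by
        intro h
        rw [Sym2.eq_iff] at h
        rcases h with ⟨h, -⟩ | ⟨-, h⟩
        · exact hac h.symm
        · exact hae h.symm
      have n2 : s(c, e) ≠ s(b, e) := fun h => hbc (Sym2.congr_left.mp h).symm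
      simp [h2, n1, n2]
    · simp [h3]
    · rw [e2]
      simp [h4]
  · rw [if_neg (fun hh => hC hh.2)]
    rw [onC_iff] at hC
    push Not at hC
    obtain ⟨c1, c2, c3, c4⟩ := hC
    rw [e1] at c2
    rw [e2] at c4
    simp [c1, c2, c3, c4]

/-- A function invariant under all toggles is constant. -/
theorem conn_tg (f : Realizations d → ℝ) (hf : ∀ a b c e x, f (tg a b c e x) = f x)
    (x y : Realizations d) : f x = f y := by
  apply eq_of_step_invariant
  rintro G G' ⟨a, b, c, e, hab, hac, hae, hbc, hbe, hce, h1, h2, h3, h4, hG'⟩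
  rw [step_eq_tg hab hac hae hbc hbe hce h1 h2 h3 h4 hG', hf]

end Vale.Agent.Lib.P335
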