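import Vale.Agent.Lib.P335.KBase

/-!
Counting facts on the classes of the relation of agreeing off a pair of vertices, and the
induction that moves one realization to another inside a class.
-/

namespace Vale.Agent.Lib.P335

open Finset Matrix

variable {n : ℕ} {d : Fin n → ℕ}

/-- Indicator of adjacency. -/
def ind (x : Realizations d) (u v : Fin n) : ℕ := if ad x u v then 1 else 0

theorem ind_comm (x : Realizations d) (u v : Fin n) : ind x u v = ind x v u := by
  unfold ind
  simp only [ad_comm x u v]

theorem ind_self (x : Realizations d) (u : Fin n) : ind x u u = 0 := by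
  unfold ind
  simp [not_ad_self]

theorem sum_ind (x : Realizations d) (v : Fin n) : ∑ u, ind x v u = d v := by
  rw [← card_nbr x v, Finset.card_filter]
  rfl

theorem ind_congr {x y : Realizations d} {u v u' v' : Fin n} (h : ad x u v ↔ ad y u' v') :
    ind x u v = ind y u' v' := by
  unfold ind
  simp only [h]

theorem ad_of_ind {x y : Realizations d} {u v u' v' : Fin n} (h : ind x u v = ind y u' v') :
    ad x u v ↔ ad y u' v' := by
  unfold ind at h
  by_cases h1 : ad x u v <;> by_cases h2 : ad y u' v' <;> simp_all

/-- Pick out two points from a sum of naturals. -/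
theorem sum_split_pair (F : Fin n → ℕ) {a b : Fin n} (hab : a ≠ b) :
    ∑ u, F u = F a + F b + ∑ u, (if u ≠ a ∧ u ≠ b then F u else 0) := by
  have h1 : ∀ u, F u = (if u = a then F u else 0) + (if u = b then F u else 0)
      + (if u ≠ a ∧ u ≠ b then F u else 0) := by
    intro u
    by_cases h1 : u = a
    · subst h1
      simp [hab]
    · by_cases h2 : u = b
      · subst h2
        simp [h1]
      · simp [h1, h2]
  conv_lhs => rw [Finset.sum_congr rfl (fun u _ => h1 u)]
  rw [Finset.sum_add_distrib, Finset.sum_add_distrib]
  simp

/-- The number of neighbours of `a` among `c`, `e`. -/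
def cntV (x : Realizations d) (a c e : Fin n) : ℕ := ind x a c + ind x a e

/-- The count of `v` towards a pair is determined off the pair. -/
theorem cnt_fix {a b : Fin n} (hab : a ≠ b) {x y : Realizations d} (h : rel {a, b} x y) {v : Fin n}
    (hv1 : v ≠ a) (hv2 : v ≠ b) : cntV x v a b = cntV y v a b := by
  have hx := sum_ind x v
  have hy := sum_ind y v
  rw [sum_split_pair _ hab] at hx hy
  have e : ∑ u, (if u ≠ a ∧ u ≠ b then ind x v u else 0) = ∑ u, (if u ≠ a ∧ u ≠ b then ind y v u else 0) := by
    apply Finset.sum_congr rfl
    intro u _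
    by_cases hu : u ≠ a ∧ u ≠ b
    · rw [if_pos hu, if_pos hu]
      apply ind_congr
      apply h v u
      · simp [hv1, hv2]
      · simp [hu.1, hu.2]
    · rw [if_neg hu, if_neg hu]
  unfold cntV
  omega

/-- The status of the edge of the pair is determined off the pair. -/
theorem ab_fix {a b : Fin n} (hab : a ≠ b) {x y : Realizations d} (h : rel {a, b} x y) :
    ind x a b = ind y a b := by
  have key : ∀ z : Realizations d, d a + d b = 2 * ind z a b
      + ∑ u, (if u ≠ a ∧ u ≠ b then cntV z u a b else 0) := by
    intro z
    have h1 := sum_ind z a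
    have h2 := sum_ind z b
    rw [sum_split_pair _ hab, ind_self] at h1 h2
    have h3 : ∑ u, (if u ≠ a ∧ u ≠ b then cntV z u a b else 0)
        = ∑ u, (if u ≠ a ∧ u ≠ b then ind z a u else 0)
          + ∑ u, (if u ≠ a ∧ u ≠ b then ind z b u else 0) := by
      rw [← Finset.sum_add_distrib]
      apply Finset.sum_congr rfl
      intro u _
      by_cases hu : u ≠ a ∧ u ≠ b
      · simp only [if_pos hu]
        unfold cntV
        rw [ind_comm z u a, ind_comm z u b]
      · simp only [if_neg hu]
    rw [h3]
    rw [ind_comm z b a] at h2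
    omega
  have h1 := key x
  have h2 := key y
  have e : ∑ u, (if u ≠ a ∧ u ≠ b then cntV x u a b else 0) = ∑ u, (if u ≠ a ∧ u ≠ b then cntV y u a b else 0) := by
    apply Finset.sum_congr rfl
    intro u _
    by_cases hu : u ≠ a ∧ u ≠ b
    · rw [if_pos hu, if_pos hu]
      exact cnt_fix hab h hu.1 hu.2
    · rw [if_neg hu, if_neg hu]
  omega

/-- A realization in a class is determined by the row of `a`. -/
theorem eq_of_rel_row {a b : Fin n} (hab : a ≠ b) {x y : Realizations d} (h : rel {a, b} x y)
    (hr : ∀ v, ad x a v ↔ ad y a v) : x = y := by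
  have hb : ∀ v, ad x b v ↔ ad y b v := by
    intro v
    by_cases h1 : v = a
    · subst h1
      rw [ad_comm x, ad_comm y]
      exact hr b
    · by_cases h2 : v = b
      · subst h2
        simp [not_ad_self]
      · have h3 := cnt_fix hab h h1 h2
        unfold cntV at h3
        have h4 : ind x v a = ind y v a := by
          rw [ind_comm x, ind_comm y]
          exact ind_congr (hr v)
        rw [h4] at h3
        have h5 : ind x v b = ind y v b := by omega
        rw [ind_comm x, ind_comm y] at h5
        exact ad_of_ind h5
  apply ext_ad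
  intro u v
  by_cases h1 : u = a
  · subst h1
    exact hr v
  · by_cases h2 : u = b
    · subst h2
      exact hb v
    · by_cases h3 : v = a
      · subst h3
        rw [ad_comm x, ad_comm y]
        exact hr u
      · by_cases h4 : v = b
        · subst h4
          rw [ad_comm x, ad_comm y]
          exact hb u
        · apply h u v <;> simp [h1, h2, h3, h4]

/-- If `v` leaves the row of `a` from `x` to `y`, it enters the row of `b`. -/
theorem row_change {a b : Fin n} (hab : a ≠ b) {x y : Realizations d} (h : rel {a, b} x y) {v : Fin n}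
    (h1 : ad x a v) (h2 : ¬ ad y a v) : v ≠ a ∧ v ≠ b ∧ ¬ ad x b v ∧ ad y b v := by
  have hva : v ≠ a := (ne_of_ad h1).symm
  have hvb : v ≠ b := by
    rintro rfl
    have h3 := ab_fix hab h
    exact h2 (ad_of_ind h3 |>.mp h1)
  refine ⟨hva, hvb, ?_⟩
  have h3 := cnt_fix hab h hva hvb
  unfold cntV at h3
  rw [ind_comm x v a, ind_comm x v b, ind_comm y v a, ind_comm y v b] at h3
  unfold ind at h3
  simp only [h1, h2, if_true, if_false] at h3
  by_cases h4 : ad x b v <;> by_cases h5 : ad y b v <;> simp_all

/-- The size of the part of the row of `a` in `x`, not in `y`. -/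
def mu (a : Fin n) (x y : Realizations d) : ℕ := (univ.filter (fun v => ad x a v ∧ ¬ ad y a v)).card

/-- Two parts of the difference of the rows have equal size. -/
theorem mu_symm (a : Fin n) (x y : Realizations d) : mu a x y = mu a y x := by
  have h1 := card_nbr x a
  have h2 := card_nbr y a
  have e1 : ∀ z w : Realizations d, (univ.filter (fun u => ad z a u)).card
      = mu a z w + (univ.filter (fun u => ad z a u ∧ ad w a u)).card := by
    intro z w
    unfold mu
    rw [← Finset.card_union_of_disjoint]
    · congr 1
      ext u
      simp only [mem_filter, mem_univ, true_and, mem_union]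
      tauto
    · rw [Finset.disjoint_left]
      intro u hu hu'
      simp only [mem_filter, mem_univ, true_and] at hu hu'
      exact hu.2 hu'.2
  have e2 : (univ.filter (fun u => ad x a u ∧ ad y a u)) = (univ.filter (fun u => ad y a u ∧ ad x a u)) := by
    ext u
    simp only [mem_filter, mem_univ, true_and]
    tauto
  have e3 := e1 x y
  have e4 := e1 y x
  rw [e2] at e3
  omega

theorem mu_pos_of_ne {a b : Fin n} (hab : a ≠ b) {x y : Realizations d} (h : rel {a, b} x y)
    (hne : x ≠ y) : ∃ v, ad x a v ∧ ¬ ad y a v := by
  by_contra hcon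
  push Not at hcon
  have h0 : mu a x y = 0 := by
    unfold mu
    rw [Finset.card_eq_zero, Finset.filter_eq_empty_iff]
    intro v _ h1
    exact h1.2 (hcon v h1.1)
  have h1 := mu_symm a x y
  rw [h0] at h1
  have h2 : ∀ v, ad y a v → ad x a v := by
    intro v hv
    by_contra hv2
    have : v ∈ univ.filter (fun v => ad y a v ∧ ¬ ad x a v) := by simp [hv, hv2]
    have h3 := Finset.card_pos.mpr ⟨v, this⟩
    unfold mu at h1
    omega
  exact hne (eq_of_rel_row hab h (fun v => ⟨hcon v, h2 v⟩))

/-- From `x` we may move towards `y` by a toggle exchanging `v`, `w`. -/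
theorem alt_of_change {a b : Fin n} (hab : a ≠ b) {x y : Realizations d} (h : rel {a, b} x y)
    {v w : Fin n} (h1 : ad x a v) (h2 : ¬ ad y a v) (h3 : ¬ ad x a w) (h4 : ad y a w) :
    altP x a b v w := by
  obtain ⟨hv1, hv2, hv3, hv4⟩ := row_change hab h h1 h2
  obtain ⟨hw1, hw2, hw3, hw4⟩ := row_change hab ((rel_equiv {a, b}).symm h) h4 h3
  have hvw : v ≠ w := by
    rintro rfl
    exact h3 h1
  exact ⟨⟨hab, hvw, hv1.symm, hw1.symm, hv2.symm, hw2.symm⟩, h1, hw4, h3, hv3⟩

/-- The toggle does not change the row of `a` outside the two columns. -/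
theorem ad_row_tg {x : Realizations d} {a b v w u : Fin n} (hab : a ≠ b) (hD : altP x a b v w) :
    ad (tg a b v w x) a u ↔ if u = v then False else if u = w then True else ad x a u := by
  have hact : act x a b v w := Or.inl hD
  obtain ⟨⟨h1, h2, h3, h4, h5, h6⟩, p1, p2, p3, p4⟩ := hD
  rw [ad_tg]
  by_cases hv : u = v
  · subst hv
    simp [onC, hact, p1]
  · by_cases hw : u = w
    · subst hw
      simp [onC, hact, p3, hv]
    · have : ¬ onC a b v w a u := by
        unfold onC
        simp only [true_or, true_and, hv, hw, or_self, false_or, not_and, not_or]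
        intro h7
        rcases h7 with h7 | h7
        · exact absurd h7 h3
        · exact absurd h7 h4
      simp [this, hv, hw]

/-- The toggle decreases the distance of the rows. -/
theorem mu_tg_lt {a b : Fin n} (hab : a ≠ b) {x y : Realizations d} (h : rel {a, b} x y)
    {v w : Fin n} (h1 : ad x a v) (h2 : ¬ ad y a v) (h3 : ¬ ad x a w) (h4 : ad y a w) :
    mu a (tg a b v w x) y < mu a x y := by
  have hA := alt_of_change hab h h1 h2 h3 h4
  unfold mu
  apply Finset.card_lt_card
  rw [Finset.ssubset_iff_of_subset]
  · refine ⟨v, by simp [h1, h2], ?_⟩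
    simp only [mem_filter, mem_univ, true_and, not_and, not_not]
    intro h5
    have := (ad_row_tg hab hA).mp h5
    simp at this
  · intro u hu
    simp only [mem_filter, mem_univ, true_and] at hu ⊢
    obtain ⟨h5, h6⟩ := hu
    refine ⟨?_, h6⟩
    have := (ad_row_tg hab hA).mp h5
    by_cases hv : u = v
    · simp [hv] at this
    · by_cases hw : u = w
      · subst hw
        exact absurd h4 h6
      · simpa [hv, hw] using this

/-- The induction on the distance of the rows. -/
theorem row_induct {a b : Fin n} (hab : a ≠ b) (P : Realizations d → Realizations d → Prop)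
    (φ : Realizations d → ℝ) (hP : ∀ x y, P x y → rel {a, b} x y)
    (step : ∀ x y, P x y → x ≠ y → ∃ x', P x' y ∧ φ x' = φ x ∧ mu a x' y < mu a x y) :
    ∀ x y, P x y → φ x = φ y := by
  intro x y
  induction hm : mu a x y using Nat.strong_induction_on generalizing x with
  | _ m ih =>
    intro hxy
    by_cases hne : x = y
    · rw [hne]
    · obtain ⟨x', h1, h2, h3⟩ := step x y hxy hne
      rw [← h2]
      exact ih (mu a x' y) (by omega) x' rfl h1

/-- The relation of agreeing off a pair with the count on a second pair also equal. -/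
def relV (a b c e : Fin n) (x y : Realizations d) : Prop :=
  rel {a, b} x y ∧ cntV x a c e = cntV y a c e

instance (a b c e : Fin n) : DecidableRel (relV (d := d) a b c e) := fun x y => by
  unfold relV
  infer_instance

theorem relV_equiv (a b c e : Fin n) : Equivalence (relV (d := d) a b c e) :=
  ⟨fun x => ⟨(rel_equiv _).refl x, rfl⟩, fun h => ⟨(rel_equiv _).symm h.1, h.2.symm⟩,
    fun h k => ⟨(rel_equiv _).trans h.1 k.1, h.2.trans k.2⟩⟩

end Vale.Agent.Lib.P335
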