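import Vale.Agent.Lib.P335.Bridge

/-!
Polynomial mixing of the switch chain for split degree vectors.
-/

namespace Vale.Agent.Lib.P335

open Finset Matrix

variable {n : ℕ}

theorem avg_top_equiv {α β : Type*} [Fintype α] [Fintype β] (e : α ≃ β) (f : α → ℝ) :
    avg relTop (f ∘ e.symm) ⬝ᵥ avg relTop (f ∘ e.symm) = avg relTop f ⬝ᵥ avg relTop f := by
  classical
  have h1 : ∑ y, (f ∘ e.symm) y = ∑ x, f x := Equiv.sum_comp e.symm f
  have h2 : Fintype.card β = Fintype.card α := (Fintype.card_congr e).symm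
  unfold dotProduct
  simp only [avg_top_apply, h1, h2, Finset.sum_const, Finset.card_univ, nsmul_eq_mul]

theorem dot_equiv {α β : Type*} [Fintype α] [Fintype β] (e : α ≃ β) (f : α → ℝ) :
    (f ∘ e.symm) ⬝ᵥ (f ∘ e.symm) = f ⬝ᵥ f := by
  unfold dotProduct
  exact Equiv.sum_comp e.symm (fun x => f x * f x)

section
variable {d : Fin n → ℕ} {A : Finset (Fin n)}
  (hA : ∑ v ∈ A, d v = A.card * (A.card - 1) + ∑ v ∈ Aᶜ, d v)
  (hd : ∀ k ∈ A, A.card - 1 ≤ d k)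
include hA hd

/-- The variance bound in terms of the switches. -/
theorem split_var (f : Realizations d → ℝ) :
    f ⬝ᵥ f - avg relTop f ⬝ᵥ avg relTop f
      ≤ 16 * ∑ S ∈ (univ : Finset (Fin n)).powersetCard 4, wForm f S := by
  set Φ := splitEquiv hA hd with hΦ
  have h := bip_gap (f ∘ Φ.symm)
  rw [dot_equiv, avg_top_equiv] at h
  have hT : ∀ k l : ↥A, ∀ j j' : ↥(Aᶜ), tForm (f ∘ Φ.symm) k l j j'
      ≤ if k ≠ l ∧ j ≠ j' then wForm f (fourSet k l j j') else 0 := by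
    intro k l j j'
    by_cases h1 : k = l
    · subst h1
      simp [tForm_self_row]
    · by_cases h2 : j = j'
      · subst h2
        simp [tForm_self_col]
      · rw [if_pos ⟨h1, h2⟩]
        exact tForm_le hA hd h1 h2 f
  have hs : ∑ k, ∑ l, ∑ j, ∑ j', ∑ x, ((f ∘ Φ.symm) x - (f ∘ Φ.symm) (mv {k, l} j j' x)) ^ 2
      ≤ 256 * ∑ S ∈ (univ : Finset (Fin n)).powersetCard 4, wForm f S := by
    refine le_trans ?_ (sum_quadruples (A := A) (wForm f) (wForm_nonneg f))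
    exact Finset.sum_le_sum (fun k _ => Finset.sum_le_sum (fun l _ =>
      Finset.sum_le_sum (fun j _ => Finset.sum_le_sum (fun j' _ => hT k l j j'))))
  linarith

/-- The spectral gap of the chain. -/
theorem split_gap (hn : 4 ≤ n) (f : Realizations d → ℝ) :
    (1 / (5400 * (n : ℝ) ^ 4)) * (f ⬝ᵥ f - avg relTop f ⬝ᵥ avg relTop f)
      ≤ (1 / 2) * ∑ G, ∑ G', switchChain d G G' * (f G - f G') ^ 2 := by
  have h1 := split_var hA hd f
  have h2 := chain_form_ge hn d f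
  have hW : 0 ≤ ∑ S ∈ (univ : Finset (Fin n)).powersetCard 4, wForm f S :=
    Finset.sum_nonneg (fun S _ => wForm_nonneg f S)
  have hC : (0 : ℝ) < (n.choose 4 : ℝ) := by
    exact_mod_cast Nat.choose_pos hn
  have hn0 : (0 : ℝ) < (n : ℝ) := by
    have : 0 < n := by omega
    exact_mod_cast this
  have hchoose : (n.choose 4 : ℝ) ≤ (n : ℝ) ^ 4 / 24 := by
    have := Nat.choose_le_pow_div (α := ℝ) 4 n
    simpa [Nat.factorial] using this
  have h3 : (1 / (5400 * (n : ℝ) ^ 4)) * 16 ≤ 1 / (4 * 2025 * (n.choose 4 : ℝ)) := by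
    rw [one_div_mul_eq_div, div_le_div_iff₀ (by positivity) (by positivity)]
    nlinarith
  calc _ ≤ (1 / (5400 * (n : ℝ) ^ 4)) * (16 * ∑ S ∈ (univ : Finset (Fin n)).powersetCard 4, wForm f S) :=
        mul_le_mul_of_nonneg_left h1 (by positivity)
    _ = ((1 / (5400 * (n : ℝ) ^ 4)) * 16) * ∑ S ∈ (univ : Finset (Fin n)).powersetCard 4, wForm f S := by
        ring
    _ ≤ (1 / (4 * 2025 * (n.choose 4 : ℝ))) * ∑ S ∈ (univ : Finset (Fin n)).powersetCard 4, wForm f S :=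
        mul_le_mul_of_nonneg_right h3 hW
    _ ≤ _ := h2

end

theorem pow_half_bound {K : ℕ} (hK : 0 < K) : (1 - 1 / (K : ℝ)) ^ K ≤ 1 / 2 := by
  have h1 : (1 : ℝ) ≤ K := by exact_mod_cast hK
  have h2 := Real.one_sub_div_pow_le_exp_neg (n := K) (t := 1) h1
  have h3 : Real.exp (-1) ≤ 1 / 2 := by
    rw [Real.exp_neg, one_div]
    have h4 := Real.add_one_le_exp (1 : ℝ)
    apply inv_anti₀ (by norm_num)
    linarith
  linarith

theorem card_real_le (d : Fin n → ℕ) :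
    Fintype.card (Realizations d) ≤ 2 ^ (n + 1).choose 2 := by
  calc _ ≤ Fintype.card (Finset (Sym2 (Fin n))) := Fintype.card_subtype_le _
    _ = 2 ^ Fintype.card (Sym2 (Fin n)) := Fintype.card_finset
    _ = _ := by rw [Sym2.card, Fintype.card_fin]

theorem choose_add_two_le (hn : 4 ≤ n) : (n + 1).choose 2 + 2 ≤ n ^ 2 := by
  rw [Nat.choose_two_right]
  have h1 : (n + 1) * (n + 1 - 1) / 2 ≤ (n + 1) * n / 2 := by simp
  have h2 : (n + 1) * n / 2 + 2 ≤ n ^ 2 := by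
    have h3 : (n + 1) * n + 4 ≤ 2 * n ^ 2 := by nlinarith
    omega
  omega

/-- The main theorem. -/
theorem split_mixing (hn : 4 ≤ n) (d : Fin n → ℕ) (hne : Nonempty (Realizations d))
    (A : Finset (Fin n)) (hA : ∑ v ∈ A, d v = A.card * (A.card - 1) + ∑ v ∈ Aᶜ, d v) :
    ∃ t, t ≤ 5400 * n ^ 6 ∧ MixedBy d t := by
  obtain ⟨G₀⟩ := hne
  have hd : ∀ k ∈ A, A.card - 1 ≤ d k := by
    intro k hk
    rw [← G₀.2.2 k, vdeg_split A, row_adj hA G₀.2 hk]
    omega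
  have hn0 : (0 : ℝ) < (n : ℝ) := by
    have : 0 < n := by omega
    exact_mod_cast this
  have hn1 : (1 : ℝ) ≤ (n : ℝ) := by
    have : 1 ≤ n := by omega
    exact_mod_cast this
  refine ⟨5400 * n ^ 4 * n ^ 2, by
    have : 5400 * n ^ 4 * n ^ 2 = 5400 * n ^ 6 := by ring
    omega, ?_⟩
  intro G
  haveI : Nonempty (Realizations d) := ⟨G₀⟩
  set K : ℕ := 5400 * n ^ 4 with hK
  have hKpos : 0 < K := by
    rw [hK]
    positivity
  have hKcast : (K : ℝ) = 5400 * (n : ℝ) ^ 4 := by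
    rw [hK]
    push_cast
    ring
  have hγ1 : 1 / (5400 * (n : ℝ) ^ 4) ≤ 1 := by
    rw [div_le_one (by positivity)]
    have : (1 : ℝ) ≤ (n : ℝ) ^ 4 := one_le_pow₀ hn1
    linarith
  have hmain := mixing_of_gap (switchChain d) (chain_nonneg d) (chain_lazy d)
    (1 / (5400 * (n : ℝ) ^ 4)) (chain_symm d) (chain_row hn d) hγ1
    (fun f => split_gap hA hd hn f) (K * n ^ 2) ?_ G
  · exact hmain
  · have h1 : (1 - 1 / (5400 * (n : ℝ) ^ 4)) ^ K ≤ 1 / 2 := by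
      rw [← hKcast]
      exact pow_half_bound hKpos
    have h0 : 0 ≤ 1 - 1 / (5400 * (n : ℝ) ^ 4) := by linarith
    have h2 : (1 - 1 / (5400 * (n : ℝ) ^ 4)) ^ (K * n ^ 2) ≤ (1 / 2) ^ (n ^ 2) := by
      rw [pow_mul]
      exact pow_le_pow_left₀ (pow_nonneg h0 _) h1 _
    have h3 : (Fintype.card (Realizations d) : ℝ) ≤ 2 ^ (n + 1).choose 2 := by
      exact_mod_cast card_real_le d
    have h4 : (2 : ℝ) ^ (n + 1).choose 2 * (1 / 2) ^ (n ^ 2) ≤ 1 / 4 := by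
      have h5 := choose_add_two_le hn
      obtain ⟨m, hm⟩ := Nat.exists_eq_add_of_le h5
      rw [hm, pow_add, pow_add]
      have e : (2 : ℝ) ^ (n + 1).choose 2 * (1 / 2) ^ (n + 1).choose 2 = 1 := by
        rw [← mul_pow]
        norm_num
      have h7 : ((1 : ℝ) / 2) ^ m ≤ 1 := pow_le_one₀ (by norm_num) (by norm_num)
      have h10 : (0 : ℝ) ≤ (1 / 2) ^ m := by positivity
      calc (2 : ℝ) ^ (n + 1).choose 2 * ((1 / 2) ^ (n + 1).choose 2 * (1 / 2) ^ 2 * (1 / 2) ^ m)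
          = ((2 : ℝ) ^ (n + 1).choose 2 * (1 / 2) ^ (n + 1).choose 2) * ((1 / 2) ^ 2 * (1 / 2) ^ m) := by
            ring
        _ = (1 / 2) ^ 2 * (1 / 2) ^ m := by rw [e, one_mul]
        _ ≤ 1 / 4 := by nlinarith
    calc _ ≤ (2 : ℝ) ^ (n + 1).choose 2 * (1 - 1 / (5400 * (n : ℝ) ^ 4)) ^ (K * n ^ 2) :=
          mul_le_mul_of_nonneg_right h3 (pow_nonneg h0 _)
      _ ≤ (2 : ℝ) ^ (n + 1).choose 2 * (1 / 2) ^ (n ^ 2) :=
          mul_le_mul_of_nonneg_left h2 (by positivity)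
      _ ≤ 1 / 4 := h4

end Vale.Agent.Lib.P335
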