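import Vale.Agent.Lib.P335.KGap
import Vale.Agent.Lib.P335.KAbs
import Vale.Agent.Lib.P335.SplitMain

/-!
Final assembly: the gap and the mixing time of the switch chain, given that the cross terms of
disjoint pairs are nonnegative in total.
-/

namespace Vale.Agent.Lib.P335

open Finset Matrix

variable {n : ℕ} {d : Fin n → ℕ}

/-- The complementary projection of the average given the edges off `P`. -/
noncomputable def qR (P : Finset (Fin n)) : (Realizations d → ℝ) →ₗ[ℝ] (Realizations d → ℝ) :=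
  LinearMap.id - avgL (rel P)

theorem qR_apply (P : Finset (Fin n)) (f : Realizations d → ℝ) : qR P f = f - avg (rel P) f := rfl

theorem qR_symm (P : Finset (Fin n)) (f g : Realizations d → ℝ) :
    qR P f ⬝ᵥ g = f ⬝ᵥ qR P g := by
  simp only [qR_apply, sub_dotProduct, dotProduct_sub]
  rw [avg_dot (rel_equiv P) f g]

theorem qR_idem (P : Finset (Fin n)) (f : Realizations d → ℝ) : qR P (qR P f) = qR P f := by
  simp only [qR_apply, avg_sub, avg_avg (rel_equiv P), sub_self, sub_zero]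

/-- The statement that the cross terms of disjoint pairs are nonnegative in total. -/
def KeyDisjoint (f : Realizations d → ℝ) : Prop :=
  0 ≤ ∑ k, ∑ l, ∑ m, ∑ e, if k ≠ l ∧ m ≠ e ∧ k ≠ m ∧ k ≠ e ∧ l ≠ m ∧ l ≠ e then
    (f - avg (rel {k, l}) f) ⬝ᵥ (f - avg (rel {m, e}) f) else 0

/-- Given the edges off a single vertex, the graph is known. -/
theorem rel_singleton {k : Fin n} {x y : Realizations d} (h : rel {k} x y) : x = y := by
  have hT : relOff {k} x y := h
  have key : ∀ v, v ≠ k → (ad x v k ↔ ad y v k) := by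
    intro v hv
    have hv' : v ∉ ({k} : Finset (Fin n)) := by simpa using hv
    have h1 := vdeg_split_out x.1 {k} v
    have h2 := vdeg_split_out y.1 {k} v
    rw [x.2.2 v] at h1
    rw [y.2.2 v] at h2
    rw [outDeg_congr hT hv'] at h1
    have h3 : (({k} : Finset (Fin n)).filter (fun u => s(v, u) ∈ x.1)).card
        = (({k} : Finset (Fin n)).filter (fun u => s(v, u) ∈ y.1)).card := by omega
    rw [Finset.filter_singleton, Finset.filter_singleton] at h3
    unfold ad
    by_cases h4 : s(v, k) ∈ x.1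
    · by_cases h5 : s(v, k) ∈ y.1
      · simp [h4, h5]
      · simp [h4, h5] at h3
    · by_cases h5 : s(v, k) ∈ y.1
      · simp [h4, h5] at h3
      · simp [h4, h5]
  apply ext_ad
  intro u v
  by_cases hu : u = k
  · subst hu
    by_cases hv : v = u
    · subst hv
      simp only [not_ad_self]
    · rw [ad_comm x, ad_comm y]
      exact key v hv
  · by_cases hv : v = k
    · subst hv
      exact key u hu
    · exact h u v (by simpa using hu) (by simpa using hv)

theorem qR_single (k : Fin n) : (qR {k} : (Realizations d → ℝ) →ₗ[ℝ] (Realizations d → ℝ)) = 0 := by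
  apply LinearMap.ext
  intro f
  rw [qR_apply, avg_of_meas (rel_equiv _)]
  · simp
  · intro x y h
    rw [rel_singleton h]

/-- The variance bound, given the disjoint cross terms. -/
theorem var_of_key (hkey : ∀ f : Realizations d → ℝ, KeyDisjoint f) (f : Realizations d → ℝ) :
    f ⬝ᵥ f - avg relTop f ⬝ᵥ avg relTop f
      ≤ (1 / 2) * ∑ k, ∑ l, (f - avg (rel {k, l}) f) ⬝ᵥ (f - avg (rel {k, l}) f) := by
  have key := abstract_gap2 (Ω := Realizations d) (ι := Fin n)
    (fun k l => qR {k, l}) (avgL relTop)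
    (fun k l f g => qR_symm _ f g)
    (fun k l f => qR_idem _ f)
    (fun k l => by rw [Finset.pair_comm])
    (fun k => by
      simp only [Finset.pair_eq_singleton]
      exact qR_single k)
    (fun f => hkey f)
    (fun k l x h1 h2 h3 f => triple_cross h1 h2 h3 f)
    (fun f g => avg_dot relTop_equiv f g)
    (fun f => avg_avg relTop_equiv f)
    (fun k l f => by
      rw [qR_apply, avgL_apply, avg_of_meas (rel_equiv _), sub_self]
      intro x y _
      exact avg_meas relTop_equiv f x y trivial)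
    (fun f hf => by
      apply avg_of_meas relTop_equiv
      intro x y _
      apply conn_tg f
      intro a b c e x
      have h1 := hf a b
      have hm : f = avg (rel {a, b}) f := by
        have := h1
        rw [qR_apply] at this
        exact sub_eq_zero.mp this
      have h2 : rel {a, b} x (tg a b c e x) := rel_tg_left a b c e x
      rw [hm]
      exact (avg_meas (rel_equiv _) f _ _ h2).symm)
    f
  simpa only [avgL_apply, qR_apply] using key

/-- The double count of quadruples. -/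
theorem sum_quadruples_all (W : Finset (Fin n) → ℝ) (hW : ∀ S, 0 ≤ W S) :
    ∑ a : Fin n, ∑ b : Fin n, ∑ c : Fin n, ∑ e : Fin n,
        (if Dist4 a b c e then W {a, b, c, e} else 0)
      ≤ 256 * ∑ S ∈ (univ : Finset (Fin n)).powersetCard 4, W S := by
  let T := (univ : Finset (Fin n × Fin n × Fin n × Fin n)).filter
    (fun τ => Dist4 τ.1 τ.2.1 τ.2.2.1 τ.2.2.2)
  have e1 : ∑ a : Fin n, ∑ b : Fin n, ∑ c : Fin n, ∑ e : Fin n,
        (if Dist4 a b c e then W {a, b, c, e} else 0)
      = ∑ τ ∈ T, W {τ.1, τ.2.1, τ.2.2.1, τ.2.2.2} := by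
    rw [Finset.sum_filter]
    simp only [Fintype.sum_prod_type]
  have hmaps : ∀ τ ∈ T, ({τ.1, τ.2.1, τ.2.2.1, τ.2.2.2} : Finset (Fin n))
      ∈ (univ : Finset (Fin n)).powersetCard 4 := by
    intro τ hτ
    have := (Finset.mem_filter.mp hτ).2
    rw [Finset.mem_powersetCard]
    exact ⟨Finset.subset_univ _, card_four this⟩
  rw [e1, ← Finset.sum_fiberwise_of_maps_to hmaps, Finset.mul_sum]
  apply Finset.sum_le_sum
  intro S hS
  have e2 : ∀ τ ∈ T.filter (fun τ => ({τ.1, τ.2.1, τ.2.2.1, τ.2.2.2} : Finset (Fin n)) = S),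
      W {τ.1, τ.2.1, τ.2.2.1, τ.2.2.2} = W S := by
    intro τ hτ
    rw [(Finset.mem_filter.mp hτ).2]
  rw [Finset.sum_congr rfl e2, Finset.sum_const, nsmul_eq_mul]
  apply mul_le_mul_of_nonneg_right _ (hW S)
  have hc : (T.filter (fun τ => ({τ.1, τ.2.1, τ.2.2.1, τ.2.2.2} : Finset (Fin n)) = S)).card
      ≤ 256 := by
    have hS4 : S.card = 4 := (Finset.mem_powersetCard.mp hS).2
    have hinj : (T.filter (fun τ => ({τ.1, τ.2.1, τ.2.2.1, τ.2.2.2} : Finset (Fin n)) = S)).card
        ≤ (S ×ˢ S ×ˢ S ×ˢ S).card := by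
      apply Finset.card_le_card_of_injOn (fun τ => τ)
      · intro τ hτ
        have h2 : ({τ.1, τ.2.1, τ.2.2.1, τ.2.2.2} : Finset (Fin n)) = S :=
          (Finset.mem_filter.mp hτ).2
        simp only [Finset.mem_coe, Finset.mem_product]
        rw [← h2]
        simp
      · intro a _ b _ h
        exact h
    simp only [Finset.card_product, hS4] at hinj
    omega
  exact_mod_cast hc

/-- The toggle sum of the pair gaps is bounded by the form of the chain. -/
theorem sum_toggle_le (f : Realizations d → ℝ) :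
    ∑ k : Fin n, ∑ l : Fin n, ∑ c : Fin n, ∑ e : Fin n, ∑ x, (f x - f (tg k l c e x)) ^ 2
      ≤ 256 * ∑ S ∈ (univ : Finset (Fin n)).powersetCard 4, wForm f S := by
  refine le_trans ?_ (sum_quadruples_all (wForm f) (wForm_nonneg f))
  apply Finset.sum_le_sum; intro k _
  apply Finset.sum_le_sum; intro l _
  apply Finset.sum_le_sum; intro c _
  apply Finset.sum_le_sum; intro e _
  by_cases h : Dist4 k l c e
  · rw [if_pos h]
    exact tg_wForm f h
  · rw [if_neg h]
    apply le_of_eq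
    apply Finset.sum_eq_zero
    intro x _
    have hna : ¬ act x k l c e := fun ha => h (act_dist ha)
    rw [ad_tg_of_not_act hna]
    simp

/-- The variance bound in terms of the chain. -/
theorem var_chain (hkey : ∀ f : Realizations d → ℝ, KeyDisjoint f) (f : Realizations d → ℝ) :
    f ⬝ᵥ f - avg relTop f ⬝ᵥ avg relTop f
      ≤ 16 * ∑ S ∈ (univ : Finset (Fin n)).powersetCard 4, wForm f S := by
  have h1 := var_of_key hkey f
  have hb : ∀ k l : Fin n, (f - avg (rel {k, l}) f) ⬝ᵥ (f - avg (rel {k, l}) f)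
      ≤ (1 / 8) * ∑ c, ∑ e, ∑ x, (f x - f (tg k l c e x)) ^ 2 := by
    intro k l
    by_cases hkl : k = l
    · subst hkl
      have h0 := congrArg (fun T : (Realizations d → ℝ) →ₗ[ℝ] (Realizations d → ℝ) => T f)
        (qR_single (d := d) k)
      simp only [LinearMap.zero_apply, qR_apply] at h0
      rw [Finset.pair_eq_singleton, h0]
      simp only [dotProduct_zero]
      apply mul_nonneg (by norm_num)
      exact Finset.sum_nonneg (fun _ _ => Finset.sum_nonneg (fun _ _ =>
        Finset.sum_nonneg (fun _ _ => sq_nonneg _)))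
    · exact pair_gap hkl f
  have hsum : ∑ k, ∑ l, (f - avg (rel {k, l}) f) ⬝ᵥ (f - avg (rel {k, l}) f)
      ≤ ∑ k, ∑ l, (1 / 8) * ∑ c, ∑ e, ∑ x, (f x - f (tg k l c e x)) ^ 2 :=
    Finset.sum_le_sum (fun k _ => Finset.sum_le_sum (fun l _ => hb k l))
  have e : ∑ k, ∑ l, (1 / 8 : ℝ) * ∑ c, ∑ e, ∑ x, (f x - f (tg k l c e x)) ^ 2
      = (1 / 8) * ∑ k, ∑ l, ∑ c, ∑ e, ∑ x, (f x - f (tg k l c e x)) ^ 2 := by
    simp only [← Finset.mul_sum]
  rw [e] at hsum
  have h2 := sum_toggle_le f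
  linarith

/-- The spectral gap of the chain from the variance bound. -/
theorem chain_gap_of_var (hn : 4 ≤ n)
    (hvar : ∀ f : Realizations d → ℝ, f ⬝ᵥ f - avg relTop f ⬝ᵥ avg relTop f
      ≤ 16 * ∑ S ∈ (univ : Finset (Fin n)).powersetCard 4, wForm f S)
    (f : Realizations d → ℝ) :
    (1 / (5400 * (n : ℝ) ^ 4)) * (f ⬝ᵥ f - avg relTop f ⬝ᵥ avg relTop f)
      ≤ (1 / 2) * ∑ G, ∑ G', switchChain d G G' * (f G - f G') ^ 2 := by
  have h1 := hvar f
  have h2 := chain_form_ge hn d f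
  have hW : 0 ≤ ∑ S ∈ (univ : Finset (Fin n)).powersetCard 4, wForm f S :=
    Finset.sum_nonneg (fun S _ => wForm_nonneg f S)
  have hC : (0 : ℝ) < (n.choose 4 : ℝ) := by
    exact_mod_cast Nat.choose_pos hn
  have hn0 : (0 : ℝ) < (n : ℝ) := by
    have : 0 < n := by omega
    exact_mod_cast this
  have hchoose : (n.choose 4 : ℝ) ≤ (n : ℝ) ^ 4 / 24 := by
    have := Nat.choose_le_pow_div (α := ℝ) 4 n
    simpa [Nat.factorial] using this
  have h3 : (1 / (5400 * (n : ℝ) ^ 4)) * 16 ≤ 1 / (4 * 2025 * (n.choose 4 : ℝ)) := by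
    rw [one_div_mul_eq_div, div_le_div_iff₀ (by positivity) (by positivity)]
    nlinarith
  calc _ ≤ (1 / (5400 * (n : ℝ) ^ 4)) * (16 * ∑ S ∈ (univ : Finset (Fin n)).powersetCard 4, wForm f S) :=
        mul_le_mul_of_nonneg_left h1 (by positivity)
    _ = ((1 / (5400 * (n : ℝ) ^ 4)) * 16) * ∑ S ∈ (univ : Finset (Fin n)).powersetCard 4, wForm f S := by
        ring
    _ ≤ (1 / (4 * 2025 * (n.choose 4 : ℝ))) * ∑ S ∈ (univ : Finset (Fin n)).powersetCard 4, wForm f S :=
        mul_le_mul_of_nonneg_right h3 hW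
    _ ≤ _ := h2

/-- Polynomial mixing from the variance bound. -/
theorem mixing_of_var (hn : 4 ≤ n) (hne : Nonempty (Realizations d))
    (hvar : ∀ f : Realizations d → ℝ, f ⬝ᵥ f - avg relTop f ⬝ᵥ avg relTop f
      ≤ 16 * ∑ S ∈ (univ : Finset (Fin n)).powersetCard 4, wForm f S) :
    ∃ t, t ≤ 5400 * n ^ 6 ∧ MixedBy d t := by
  have hn0 : (0 : ℝ) < (n : ℝ) := by
    have : 0 < n := by omega
    exact_mod_cast this
  have hn1 : (1 : ℝ) ≤ (n : ℝ) := by
    have : 1 ≤ n := by omega
    exact_mod_cast this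
  refine ⟨5400 * n ^ 4 * n ^ 2, by
    have : 5400 * n ^ 4 * n ^ 2 = 5400 * n ^ 6 := by ring
    omega, ?_⟩
  intro G
  have : Nonempty (Realizations d) := hne
  set K : ℕ := 5400 * n ^ 4 with hK
  have hKpos : 0 < K := by
    rw [hK]
    positivity
  have hKcast : (K : ℝ) = 5400 * (n : ℝ) ^ 4 := by
    rw [hK]
    push_cast
    ring
  have hγ1 : 1 / (5400 * (n : ℝ) ^ 4) ≤ 1 := by
    rw [div_le_one (by positivity)]
    have : (1 : ℝ) ≤ (n : ℝ) ^ 4 := one_le_pow₀ hn1
    linarith
  have hmain := mixing_of_gap (switchChain d) (chain_nonneg d) (chain_lazy d)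
    (1 / (5400 * (n : ℝ) ^ 4)) (chain_symm d) (chain_row hn d) hγ1
    (fun f => chain_gap_of_var hn hvar f) (K * n ^ 2) ?_ G
  · exact hmain
  · have h1 : (1 - 1 / (5400 * (n : ℝ) ^ 4)) ^ K ≤ 1 / 2 := by
      rw [← hKcast]
      exact pow_half_bound hKpos
    have h0 : 0 ≤ 1 - 1 / (5400 * (n : ℝ) ^ 4) := by linarith
    have h2 : (1 - 1 / (5400 * (n : ℝ) ^ 4)) ^ (K * n ^ 2) ≤ (1 / 2) ^ (n ^ 2) := by
      rw [pow_mul]
      exact pow_le_pow_left₀ (pow_nonneg h0 _) h1 _
    have h3 : (Fintype.card (Realizations d) : ℝ) ≤ 2 ^ (n + 1).choose 2 := by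
      exact_mod_cast card_real_le d
    have h4 : (2 : ℝ) ^ (n + 1).choose 2 * (1 / 2) ^ (n ^ 2) ≤ 1 / 4 := by
      have h5 := choose_add_two_le hn
      obtain ⟨m, hm⟩ := Nat.exists_eq_add_of_le h5
      rw [hm, pow_add, pow_add]
      have e : (2 : ℝ) ^ (n + 1).choose 2 * (1 / 2) ^ (n + 1).choose 2 = 1 := by
        rw [← mul_pow]
        norm_num
      have h7 : ((1 : ℝ) / 2) ^ m ≤ 1 := pow_le_one₀ (by norm_num) (by norm_num)
      have h10 : (0 : ℝ) ≤ (1 / 2) ^ m := by positivity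
      calc (2 : ℝ) ^ (n + 1).choose 2 * ((1 / 2) ^ (n + 1).choose 2 * (1 / 2) ^ 2 * (1 / 2) ^ m)
          = ((2 : ℝ) ^ (n + 1).choose 2 * (1 / 2) ^ (n + 1).choose 2) * ((1 / 2) ^ 2 * (1 / 2) ^ m) := by
            ring
        _ = (1 / 2) ^ 2 * (1 / 2) ^ m := by rw [e, one_mul]
        _ ≤ 1 / 4 := by nlinarith
    calc _ ≤ (2 : ℝ) ^ (n + 1).choose 2 * (1 - 1 / (5400 * (n : ℝ) ^ 4)) ^ (K * n ^ 2) :=
          mul_le_mul_of_nonneg_right h3 (pow_nonneg h0 _)
      _ ≤ (2 : ℝ) ^ (n + 1).choose 2 * (1 / 2) ^ (n ^ 2) :=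
          mul_le_mul_of_nonneg_left h2 (by positivity)
      _ ≤ 1 / 4 := h4

/-- The conclusion: rapid mixing follows from the disjoint cross terms. -/
theorem mixing_of_key (hn : 4 ≤ n) (hne : Nonempty (Realizations d))
    (hkey : ∀ f : Realizations d → ℝ, KeyDisjoint f) :
    ∃ t, t ≤ 5400 * n ^ 6 ∧ MixedBy d t :=
  mixing_of_var hn hne (var_chain hkey)

end Vale.Agent.Lib.P335
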