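import Vale.Agent.Lib.P335.KTriple
import Vale.Agent.Lib.P335.KConn

/-!
Two vertices: given the edges not touching a pair of vertices, the realizations are binary
matrices with two rows and the toggles are the column exchanges.
-/

namespace Vale.Agent.Lib.P335

open Finset Matrix

variable {n : ℕ} {d : Fin n → ℕ}

section pair

variable {idx : Fin 2 → Fin n}

/-- The pair of vertices. -/
def twn (idx : Fin 2 → Fin n) : Finset (Fin n) := univ.image idx

theorem mem_twn {v : Fin n} : v ∈ twn idx ↔ ∃ e, idx e = v := by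
  simp [twn]

theorem idx_mem_twn (e : Fin 2) : idx e ∈ twn idx := mem_twn.mpr ⟨e, rfl⟩

/-- Row `e` of a graph: the neighbours of `idx e` outside the pair. -/
def rowP (idx : Fin 2 → Fin n) (G : Finset (Sym2 (Fin n))) (e : Fin 2) : Finset (Fin n) :=
  (twn idx)ᶜ.filter (fun v => s(idx e, v) ∈ G)

theorem mem_rowP {G : Finset (Sym2 (Fin n))} {e : Fin 2} {v : Fin n} :
    v ∈ rowP idx G e ↔ v ∉ twn idx ∧ s(idx e, v) ∈ G := by
  simp [rowP]

/-- Indicator of the inner edge. -/
def aP (idx : Fin 2 → Fin n) (G : Finset (Sym2 (Fin n))) : ℕ :=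
  if s(idx 0, idx 1) ∈ G then 1 else 0

/-- Number of vertices of the pair adjacent to `v`. -/
def colP (idx : Fin 2 → Fin n) (G : Finset (Sym2 (Fin n))) (v : Fin n) : ℕ :=
  (univ.filter (fun e => s(idx e, v) ∈ G)).card

section inj
variable (hidx : Function.Injective idx)
include hidx

theorem inner_outP (G : Finset (Sym2 (Fin n))) (v : Fin n) :
    ((twn idx).filter (fun y => s(v, y) ∈ G)).card = colP idx G v := by
  have : (twn idx).filter (fun y => s(v, y) ∈ G) =
      (univ.filter (fun e => s(idx e, v) ∈ G)).image idx := by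
    ext y
    simp only [mem_filter, mem_image, mem_univ, true_and, mem_twn]
    constructor
    · rintro ⟨⟨e, rfl⟩, h⟩
      refine ⟨e, ?_, rfl⟩
      rw [Sym2.eq_swap]
      exact h
    · rintro ⟨e, h, rfl⟩
      refine ⟨⟨e, rfl⟩, ?_⟩
      rw [Sym2.eq_swap]
      exact h
  rw [this, Finset.card_image_of_injective _ hidx]
  rfl

theorem vdeg_outP (G : Finset (Sym2 (Fin n))) (v : Fin n) :
    vdeg G v = outDeg G (twn idx) v + colP idx G v := by
  rw [vdeg_split_out G (twn idx), inner_outP hidx]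

omit hidx in
theorem colP_in {G : Finset (Sym2 (Fin n))} (e : Fin 2) (hl : s(idx e, idx e) ∉ G) :
    colP idx G (idx e) = aP idx G := by
  revert e
  rw [Fin.forall_fin_two]
  constructor
  · intro hl
    unfold colP aP
    rw [Finset.card_filter, Fin.sum_univ_two]
    simp only [hl, if_false, zero_add]
    rw [Sym2.eq_swap]
  · intro hl
    unfold colP aP
    rw [Finset.card_filter, Fin.sum_univ_two]
    simp only [hl, if_false, add_zero]

theorem vdeg_idxP {G : Finset (Sym2 (Fin n))} (e : Fin 2) (hl : s(idx e, idx e) ∉ G) :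
    vdeg G (idx e) = (rowP idx G e).card + aP idx G := by
  rw [vdeg_outP hidx G, colP_in e hl]
  rfl

end inj

theorem cnt_rowP_out (G : Finset (Sym2 (Fin n))) {v : Fin n} (hv : v ∉ twn idx) :
    cnt (rowP idx G) v = colP idx G v := by
  rw [cnt_eq_card_filter]
  unfold colP
  congr 1
  ext e
  simp only [mem_filter, mem_univ, true_and, mem_rowP, hv, not_false_eq_true]

theorem cnt_rowP_in (G : Finset (Sym2 (Fin n))) {v : Fin n} (hv : v ∈ twn idx) :
    cnt (rowP idx G) v = 0 := by
  unfold cnt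
  apply Finset.sum_eq_zero
  intro e _
  rw [if_neg]
  rw [mem_rowP]
  exact fun h => h.1 hv

theorem sum_row_eq (G : Finset (Sym2 (Fin n))) :
    ∑ e, (rowP idx G e).card = ∑ v ∈ (twn idx)ᶜ, colP idx G v := by
  unfold rowP colP
  simp only [Finset.card_filter]
  rw [Finset.sum_comm]

section inj
variable (hidx : Function.Injective idx)
include hidx

theorem colP_congr {G G' : Realizations d} (h : relOff (twn idx) G G') {v : Fin n}
    (hv : v ∉ twn idx) : colP idx G.1 v = colP idx G'.1 v := by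
  have h1 := vdeg_outP hidx G.1 v
  have h2 := vdeg_outP hidx G'.1 v
  rw [G.2.2 v] at h1
  rw [G'.2.2 v] at h2
  rw [outDeg_congr h hv] at h1
  omega

theorem aP_congr {G G' : Realizations d} (h : relOff (twn idx) G G') :
    aP idx G.1 = aP idx G'.1 := by
  have key : ∀ H : Realizations d, ∑ e, d (idx e)
      = ∑ e, (rowP idx H.1 e).card + 2 * aP idx H.1 := by
    intro H
    have h1 : ∀ e, d (idx e) = (rowP idx H.1 e).card + aP idx H.1 := by
      intro e
      rw [← H.2.2 (idx e)]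
      exact vdeg_idxP hidx e (no_loop H _)
    simp only [h1]
    rw [Finset.sum_add_distrib]
    simp
  have k1 := key G
  have k2 := key G'
  have k3 : ∑ e, (rowP idx G.1 e).card = ∑ e, (rowP idx G'.1 e).card := by
    rw [sum_row_eq, sum_row_eq]
    apply Finset.sum_congr rfl
    intro v hv
    exact colP_congr hidx h (Finset.mem_compl.mp hv)
  omega

theorem isBip_rowP {x₀ G : Realizations d} (h : relOff (twn idx) x₀ G) :
    IsBip (fun e => (rowP idx x₀.1 e).card) (cnt (rowP idx x₀.1)) (rowP idx G.1) := by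
  constructor
  · intro e
    show (rowP idx G.1 e).card = (rowP idx x₀.1 e).card
    have h1 := vdeg_idxP hidx (G := x₀.1) e (no_loop x₀ _)
    have h2 := vdeg_idxP hidx (G := G.1) e (no_loop G _)
    rw [x₀.2.2] at h1
    rw [G.2.2] at h2
    have h3 := aP_congr hidx h
    omega
  · intro v
    by_cases hv : v ∈ twn idx
    · rw [cnt_rowP_in _ hv, cnt_rowP_in _ hv]
    · rw [cnt_rowP_out _ hv, cnt_rowP_out _ hv]
      exact (colP_congr hidx h hv).symm

end inj

/-- The graph with the outer part and the inner edge from `x₀` and the rows `x`. -/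
def graphP (idx : Fin 2 → Fin n) (x₀ : Finset (Sym2 (Fin n))) (x : Fin 2 → Finset (Fin n)) :
    Finset (Sym2 (Fin n)) :=
  x₀.filter (fun e => (∀ v ∈ e, v ∉ twn idx) ∨ e = s(idx 0, idx 1)) ∪
    (univ.biUnion fun e => ((x e).filter (fun v => v ∉ twn idx)).image (fun v => s(idx e, v)))

theorem mem_graphP {x₀ : Finset (Sym2 (Fin n))} {x : Fin 2 → Finset (Fin n)} {z : Sym2 (Fin n)} :
    z ∈ graphP idx x₀ x ↔ (z ∈ x₀ ∧ ((∀ v ∈ z, v ∉ twn idx) ∨ z = s(idx 0, idx 1))) ∨
      (∃ e v, v ∈ x e ∧ v ∉ twn idx ∧ s(idx e, v) = z) := by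
  unfold graphP
  simp only [mem_union, mem_filter, mem_biUnion, mem_image, mem_univ, true_and, and_assoc]

section inj
variable (hidx : Function.Injective idx)
include hidx

omit hidx in
theorem adjP_out {x₀ : Finset (Sym2 (Fin n))} {x : Fin 2 → Finset (Fin n)} {u v : Fin n}
    (hu : u ∉ twn idx) (hv : v ∉ twn idx) : s(u, v) ∈ graphP idx x₀ x ↔ s(u, v) ∈ x₀ := by
  rw [mem_graphP]
  constructor
  · rintro (⟨h, -⟩ | ⟨e, w, -, -, h⟩)
    · exact h
    · exfalso
      have : idx e ∈ s(u, v) := by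
        rw [← h]
        exact Sym2.mem_mk_left _ _
      rcases Sym2.mem_iff.mp this with h2 | h2
      · exact hu (h2 ▸ idx_mem_twn e)
      · exact hv (h2 ▸ idx_mem_twn e)
  · intro h
    refine Or.inl ⟨h, Or.inl ?_⟩
    intro w hw
    rcases Sym2.mem_iff.mp hw with rfl | rfl
    · exact hu
    · exact hv

theorem adjP_mid {x₀ : Finset (Sym2 (Fin n))} {x : Fin 2 → Finset (Fin n)} {v : Fin n}
    (hv : v ∉ twn idx) (e : Fin 2) : s(idx e, v) ∈ graphP idx x₀ x ↔ v ∈ x e := by
  rw [mem_graphP]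
  constructor
  · rintro (⟨-, h | h⟩ | ⟨e', w, hw, hw2, h⟩)
    · exact absurd (idx_mem_twn e) (h _ (Sym2.mem_mk_left _ _))
    · rw [Sym2.eq_iff] at h
      rcases h with ⟨-, h2⟩ | ⟨-, h2⟩
      · exact absurd (h2 ▸ idx_mem_twn _) hv
      · exact absurd (h2 ▸ idx_mem_twn _) hv
    · rw [Sym2.eq_iff] at h
      rcases h with ⟨h1, rfl⟩ | ⟨h1, -⟩
      · rw [← hidx h1]
        exact hw
      · exact absurd (h1 ▸ idx_mem_twn e') hv
  · intro h
    exact Or.inr ⟨e, v, h, hv, rfl⟩

omit hidx in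
theorem adjP_in {x₀ : Finset (Sym2 (Fin n))} {x : Fin 2 → Finset (Fin n)} :
    s(idx 0, idx 1) ∈ graphP idx x₀ x ↔ s(idx 0, idx 1) ∈ x₀ := by
  rw [mem_graphP]
  constructor
  · rintro (⟨h, -⟩ | ⟨e', w, hw, hw2, h⟩)
    · exact h
    · exfalso
      rw [Sym2.eq_iff] at h
      rcases h with ⟨-, h2⟩ | ⟨-, h2⟩
      · exact hw2 (h2 ▸ idx_mem_twn _)
      · exact hw2 (h2 ▸ idx_mem_twn _)
  · intro h
    exact Or.inl ⟨h, Or.inr rfl⟩

theorem adjP_loop {x₀ : Finset (Sym2 (Fin n))} {x : Fin 2 → Finset (Fin n)} (e : Fin 2) :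
    s(idx e, idx e) ∉ graphP idx x₀ x := by
  rw [mem_graphP]
  rintro (⟨-, h | h⟩ | ⟨e', w, hw, hw2, h⟩)
  · exact absurd (idx_mem_twn e) (h _ (Sym2.mem_mk_left _ _))
  · rw [Sym2.eq_iff] at h
    have h0 : (0 : Fin 2) = 1 := by
      rcases h with ⟨h1, h2⟩ | ⟨h1, h2⟩
      · exact hidx (h1.symm.trans h2)
      · exact hidx (h2.symm.trans h1)
    exact absurd h0 (by decide)
  · rw [Sym2.eq_iff] at h
    rcases h with ⟨-, h2⟩ | ⟨-, h2⟩
    · exact hw2 (h2 ▸ idx_mem_twn _)
    · exact hw2 (h2 ▸ idx_mem_twn _)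

omit hidx in
theorem pair_classify (e e' : Fin 2) (hee : e ≠ e') : s(idx e, idx e') = s(idx 0, idx 1) := by
  fin_cases e <;> fin_cases e'
  · exact absurd rfl hee
  · rfl
  · exact Sym2.eq_swap
  · exact absurd rfl hee

omit hidx in
/-- Two graphs without loops are equal if they have the same outer part, rows and inner edge. -/
theorem graph_extP {G G' : Finset (Sym2 (Fin n))}
    (hl : ∀ z ∈ G, ¬ z.IsDiag) (hl' : ∀ z ∈ G', ¬ z.IsDiag)
    (h1 : ∀ u v, u ∉ twn idx → v ∉ twn idx → (s(u, v) ∈ G ↔ s(u, v) ∈ G'))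
    (h2 : ∀ e v, v ∉ twn idx → (s(idx e, v) ∈ G ↔ s(idx e, v) ∈ G'))
    (h3 : s(idx 0, idx 1) ∈ G ↔ s(idx 0, idx 1) ∈ G') : G = G' := by
  ext z
  induction z using Sym2.ind with
  | _ u v =>
    by_cases hu : u ∈ twn idx
    · obtain ⟨e, rfl⟩ := mem_twn.mp hu
      by_cases hv : v ∈ twn idx
      · obtain ⟨e', rfl⟩ := mem_twn.mp hv
        by_cases hee : e = e'
        · subst hee
          constructor
          · intro h
            exact absurd (Sym2.mk_isDiag_iff.mpr rfl) (hl _ h)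
          · intro h
            exact absurd (Sym2.mk_isDiag_iff.mpr rfl) (hl' _ h)
        · rw [pair_classify e e' hee]
          exact h3
      · exact h2 e v hv
    · by_cases hv : v ∈ twn idx
      · obtain ⟨e', rfl⟩ := mem_twn.mp hv
        rw [Sym2.eq_swap]
        exact h2 e' u hu
      · exact h1 u v hu hv

end inj

section glue
variable (hidx : Function.Injective idx) (x₀ : Realizations d)

/-- The row margins of the base point. -/
abbrev rP (idx : Fin 2 → Fin n) (x₀ : Realizations d) : Fin 2 → ℕ := fun e => (rowP idx x₀.1 e).card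

/-- The column margins of the base point. -/
abbrev cP (idx : Fin 2 → Fin n) (x₀ : Realizations d) : Fin n → ℕ := cnt (rowP idx x₀.1)

theorem bip_dead (x : Bip (rP idx x₀) (cP idx x₀)) {v : Fin n} (hv : v ∈ twn idx) (e : Fin 2) :
    v ∉ x.1 e := by
  have h0 : cnt x.1 v = 0 := by
    rw [x.2.2 v]
    exact cnt_rowP_in _ hv
  intro h
  unfold cnt at h0
  have := (Finset.sum_eq_zero_iff.mp h0) e (Finset.mem_univ _)
  rw [if_pos h] at this
  omega

include hidx

theorem rowP_graphP (x : Bip (rP idx x₀) (cP idx x₀)) :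
    rowP idx (graphP idx x₀.1 x.1) = x.1 := by
  funext e
  ext v
  rw [mem_rowP]
  by_cases hv : v ∈ twn idx
  · simp only [hv, not_true_eq_false, false_and, bip_dead x₀ x hv e]
  · rw [adjP_mid hidx hv]
    simp [hv]

theorem graphP_realization (x : Bip (rP idx x₀) (cP idx x₀)) :
    IsRealization d (graphP idx x₀.1 x.1) := by
  set G := graphP idx x₀.1 x.1 with hG
  have hrow := rowP_graphP hidx x₀ x
  have hsame : ∀ v, v ∉ twn idx → outDeg G (twn idx) v = outDeg x₀.1 (twn idx) v := by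
    intro v hv
    unfold outDeg
    congr 1
    apply Finset.filter_congr
    intro y hy
    exact adjP_out hv (Finset.mem_compl.mp hy)
  constructor
  · intro z
    induction z using Sym2.ind with
    | _ u v =>
      intro hz hd
      have huv : u = v := Sym2.mk_isDiag_iff.mp hd
      subst huv
      by_cases hu : u ∈ twn idx
      · obtain ⟨e, rfl⟩ := mem_twn.mp hu
        exact adjP_loop hidx e hz
      · exact no_loop x₀ u ((adjP_out hu hu).mp hz)
  · intro v
    by_cases hv : v ∈ twn idx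
    · obtain ⟨e, rfl⟩ := mem_twn.mp hv
      have h1 := vdeg_idxP hidx (G := G) e (adjP_loop hidx e)
      have h2 := vdeg_idxP hidx (G := x₀.1) e (no_loop x₀ _)
      rw [x₀.2.2] at h2
      have h3 : (rowP idx G e).card = (rowP idx x₀.1 e).card := by
        rw [hrow]
        exact x.2.1 e
      have h4 : aP idx G = aP idx x₀.1 := by
        unfold aP
        simp only [hG, adjP_in]
      rw [h1, h3, h4, ← h2]
    · have h1 := vdeg_outP hidx G v
      have h2 := vdeg_outP hidx x₀.1 v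
      rw [x₀.2.2] at h2
      have h3 : cnt (rowP idx x₀.1) v = colP idx G v := by
        have h30 := cnt_rowP_out (idx := idx) G hv
        rw [hrow, x.2.2] at h30
        exact h30
      have h4 := cnt_rowP_out (idx := idx) x₀.1 hv
      rw [h1, hsame v hv]
      omega

/-- The fibre map. -/
def glP (x : Bip (rP idx x₀) (cP idx x₀)) : Realizations d := ⟨_, graphP_realization hidx x₀ x⟩

theorem glP_val (x : Bip (rP idx x₀) (cP idx x₀)) : (glP hidx x₀ x).1 = graphP idx x₀.1 x.1 := rfl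

theorem glP_row (x : Bip (rP idx x₀) (cP idx x₀)) : rowP idx (glP hidx x₀ x).1 = x.1 :=
  rowP_graphP hidx x₀ x

theorem glP_inj : Function.Injective (glP hidx x₀) := by
  intro x y h
  apply Subtype.ext
  rw [← glP_row hidx x₀ x, ← glP_row hidx x₀ y, h]

theorem rel_glP (x : Bip (rP idx x₀) (cP idx x₀)) : relOff (twn idx) x₀ (glP hidx x₀ x) := by
  intro u v hu hv
  exact (adjP_out hu hv).symm

theorem glP_surj {y : Realizations d} (h : relOff (twn idx) x₀ y) :
    ∃ x, glP hidx x₀ x = y := by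
  refine ⟨⟨rowP idx y.1, isBip_rowP hidx h⟩, ?_⟩
  apply Subtype.ext
  apply graph_extP (glP hidx x₀ _).2.1 y.2.1
  · intro u v hu hv
    rw [glP_val, adjP_out hu hv]
    exact h u v hu hv
  · intro e v hv
    rw [glP_val, adjP_mid hidx hv]
    simp [mem_rowP, hv]
  · rw [glP_val, adjP_in]
    have h3 := aP_congr hidx h
    unfold aP at h3
    by_cases h4 : s(idx 0, idx 1) ∈ x₀.1
    · rw [if_pos h4] at h3
      have h5 : s(idx 0, idx 1) ∈ y.1 := by
        by_contra h5
        rw [if_neg h5] at h3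
        omega
      simp [h4, h5]
    · rw [if_neg h4] at h3
      have h5 : s(idx 0, idx 1) ∉ y.1 := by
        intro h5
        rw [if_pos h5] at h3
        omega
      simp [h4, h5]

theorem sum_class_glP (F : Realizations d → ℝ) :
    ∑ y ∈ univ.filter (relOff (twn idx) x₀), F y = ∑ w, F (glP hidx x₀ w) := by
  have : univ.filter (relOff (twn idx) x₀) = univ.map ⟨glP hidx x₀, glP_inj hidx x₀⟩ := by
    ext y
    simp only [mem_filter, mem_univ, true_and, mem_map, Function.Embedding.coeFn_mk]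
    constructor
    · intro hy
      exact glP_surj hidx x₀ hy
    · rintro ⟨w, rfl⟩
      exact rel_glP hidx x₀ w
  rw [this, Finset.sum_map]
  rfl

theorem avg_glP_top (f : Realizations d → ℝ) (w : Bip (rP idx x₀) (cP idx x₀)) :
    avg (relOff (twn idx)) f (glP hidx x₀ w) = avg relTop (f ∘ glP hidx x₀) w := by
  apply avg_glue (glP hidx x₀) (glP_inj hidx x₀)
  · intro w w'
    simp only [relTop, iff_true]
    exact (relOff_equiv _).trans ((relOff_equiv _).symm (rel_glP hidx x₀ w)) (rel_glP hidx x₀ w')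
  · intro w y hy
    exact glP_surj hidx x₀ ((relOff_equiv _).trans (rel_glP hidx x₀ w) hy)

/-- Adjacency in the glued graph. -/
theorem ad_glP_mid (w : Bip (rP idx x₀) (cP idx x₀)) {v : Fin n} (hv : v ∉ twn idx) (e : Fin 2) :
    ad (glP hidx x₀ w) (idx e) v ↔ v ∈ w.1 e :=
  adjP_mid hidx hv e

omit hidx x₀ in
theorem not_twn_iff {v : Fin n} : v ∉ twn idx ↔ v ≠ idx 0 ∧ v ≠ idx 1 := by
  rw [mem_twn, not_exists, Fin.forall_fin_two]
  exact ⟨fun h => ⟨fun h1 => h.1 h1.symm, fun h1 => h.2 h1.symm⟩,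
    fun h => ⟨fun h1 => h.1 h1.symm, fun h1 => h.2 h1.symm⟩⟩

omit hidx x₀ in
theorem onC_comm (a b c e u v : Fin n) : onC a b c e u v ↔ onC a b c e v u := by
  unfold onC
  tauto

/-- The alternating pattern of two columns. -/
def patt {r : Fin 2 → ℕ} {c : Fin n → ℕ} (w : Bip r c) (j j' : Fin n) : Prop :=
  j ∈ w.1 0 ∧ j' ∈ w.1 1 ∧ j' ∉ w.1 0 ∧ j ∉ w.1 1

theorem altP_glP (j j' : Fin n) (w : Bip (rP idx x₀) (cP idx x₀)) :
    altP (glP hidx x₀ w) (idx 0) (idx 1) j j' ↔ patt w j j' := by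
  have hne01 : idx 0 ≠ idx 1 := fun h => absurd (hidx h) (by decide)
  unfold altP Dist4 patt
  constructor
  · rintro ⟨⟨-, h2, h3, h4, h5, h6⟩, p1, p2, p3, p4⟩
    have hj : j ∉ twn idx := not_twn_iff.mpr ⟨h3.symm, h5.symm⟩
    have hj' : j' ∉ twn idx := not_twn_iff.mpr ⟨h4.symm, h6.symm⟩
    exact ⟨(ad_glP_mid hidx x₀ w hj 0).mp p1, (ad_glP_mid hidx x₀ w hj' 1).mp p2,
      fun h => p3 ((ad_glP_mid hidx x₀ w hj' 0).mpr h),
      fun h => p4 ((ad_glP_mid hidx x₀ w hj 1).mpr h)⟩
  · rintro ⟨p1, p2, p3, p4⟩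
    have hj : j ∉ twn idx := fun h => bip_dead x₀ w h 0 p1
    have hj' : j' ∉ twn idx := fun h => bip_dead x₀ w h 1 p2
    have h5 := not_twn_iff.mp hj
    have h6 := not_twn_iff.mp hj'
    have hjj : j ≠ j' := by
      rintro rfl
      exact p3 p1
    refine ⟨⟨hne01, hjj, h5.1.symm, h6.1.symm, h5.2.symm, h6.2.symm⟩, ?_, ?_, ?_, ?_⟩
    · exact (ad_glP_mid hidx x₀ w hj 0).mpr p1
    · exact (ad_glP_mid hidx x₀ w hj' 1).mpr p2
    · exact fun h => p3 ((ad_glP_mid hidx x₀ w hj' 0).mp h)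
    · exact fun h => p4 ((ad_glP_mid hidx x₀ w hj 1).mp h)

theorem act_glP (j j' : Fin n) (w : Bip (rP idx x₀) (cP idx x₀)) :
    act (glP hidx x₀ w) (idx 0) (idx 1) j j' ↔ patt w j j' ∨ patt w j' j := by
  unfold act
  rw [altP_glP, altP_glP]

omit hidx x₀ in
theorem pattern_same (A0 A1 B0 B1 : Prop) [Decidable A0] [Decidable A1] [Decidable B0] [Decidable B1]
    (htt : (if A0 then 1 else 0) + (if A1 then 1 else 0)
      = (if B0 then 1 else 0) + (if B1 then (1 : ℕ) else 0))
    (h1 : ¬ (A0 ∧ B1 ∧ ¬ B0 ∧ ¬ A1)) (h2 : ¬ (B0 ∧ A1 ∧ ¬ A0 ∧ ¬ B1)) :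
    (A0 ↔ B0) ∧ (A1 ↔ B1) := by
  by_cases a0 : A0 <;> by_cases a1 : A1 <;> by_cases b0 : B0 <;> by_cases b1 : B1 <;>
    simp_all

omit hidx in
theorem cnt_two {r : Fin 2 → ℕ} {c : Fin n → ℕ} (w : Bip r c) (v : Fin n) :
    cnt w.1 v = (if v ∈ w.1 0 then 1 else 0) + (if v ∈ w.1 1 then 1 else 0) := by
  unfold cnt
  rw [Fin.sum_univ_two]

/-- Column exchanges in the fibre are toggles. -/
theorem glP_mv (j j' : Fin n) (w : Bip (rP idx x₀) (cP idx x₀)) :
    glP hidx x₀ (mv univ j j' w) = tg (idx 0) (idx 1) j j' (glP hidx x₀ w) := by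
  have hact := act_glP hidx x₀ j j' w
  have hadj : ∀ (e : Fin 2) (v : Fin n), v ∉ twn idx →
      (ad (glP hidx x₀ w) (idx e) v ↔ v ∈ w.1 e) := fun e v hv => ad_glP_mid hidx x₀ w hv e
  have houtx : ∀ u v, u ∉ twn idx → v ∉ twn idx →
      (ad (glP hidx x₀ w) u v ↔ s(u, v) ∈ x₀.1) := fun u v hu hv => adjP_out hu hv
  have hinx : ad (glP hidx x₀ w) (idx 0) (idx 1) ↔ s(idx 0, idx 1) ∈ x₀.1 := adjP_in
  obtain ⟨x, hx⟩ : ∃ x, x = glP hidx x₀ w := ⟨_, rfl⟩
  rw [← hx] at hact hadj houtx hinx ⊢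
  by_cases htt : cntIn univ w.1 j = cntIn univ w.1 j'
  · -- the exchange is allowed
    have hval : (mv univ j j' w).1 = rowSwap univ j j' w.1 := mv_val_of htt
    rw [cntIn_univ, cntIn_univ, cnt_two, cnt_two] at htt
    have hm : ∀ v e, v ∈ (mv univ j j' w).1 e ↔ Equiv.swap j j' v ∈ w.1 e := by
      intro v e
      rw [hval]
      simp [rowSwap]
    have hymid : ∀ (e : Fin 2) (v : Fin n), v ∉ twn idx →
        (ad (glP hidx x₀ (mv univ j j' w)) (idx e) v ↔ Equiv.swap j j' v ∈ w.1 e) := by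
      intro e v hv
      rw [ad_glP_mid hidx x₀ _ hv, hm]
    have houty : ∀ u v, u ∉ twn idx → v ∉ twn idx →
        (ad (glP hidx x₀ (mv univ j j' w)) u v ↔ s(u, v) ∈ x₀.1) := fun u v hu hv => adjP_out hu hv
    have hiny : ad (glP hidx x₀ (mv univ j j' w)) (idx 0) (idx 1) ↔ s(idx 0, idx 1) ∈ x₀.1 := adjP_in
    generalize glP hidx x₀ (mv univ j j' w) = y at hymid houty hiny ⊢
    apply ext_ad
    intro u v
    rw [ad_tg]
    -- the middle cells
    have hmid : ∀ (e : Fin 2) (v : Fin n), v ∉ twn idx →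
        (ad y (idx e) v ↔
          if act x (idx 0) (idx 1) j j' ∧ onC (idx 0) (idx 1) j j' (idx e) v then ¬ ad x (idx e) v
          else ad x (idx e) v) := by
      intro e v hv
      rw [hymid e v hv]
      have hv2 := not_twn_iff.mp hv
      have hee : idx e = idx 0 ∨ idx e = idx 1 := by
        revert e
        rw [Fin.forall_fin_two]
        exact ⟨by simp, by simp⟩
      have hon : onC (idx 0) (idx 1) j j' (idx e) v ↔ v = j ∨ v = j' := by
        constructor
        · rintro (⟨-, h⟩ | ⟨-, h | h⟩)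
          · exact h
          · exact absurd h hv2.1
          · exact absurd h hv2.2
        · intro h
          exact Or.inl ⟨hee, h⟩
      rw [hadj e v hv]
      by_cases ha : act x (idx 0) (idx 1) j j'
      · have hflip : ∀ e : Fin 2, j' ∈ w.1 e ↔ ¬ j ∈ w.1 e := by
          rw [Fin.forall_fin_two]
          rcases hact.mp ha with ⟨p1, p2, p3, p4⟩ | ⟨p1, p2, p3, p4⟩
          · simp [p1, p2, p3, p4]
          · simp [p1, p2, p3, p4]
        by_cases hvj : v = j
        · subst hvj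
          rw [if_pos ⟨ha, hon.mpr (Or.inl rfl)⟩, Equiv.swap_apply_left]
          exact hflip e
        · by_cases hvj' : v = j'
          · subst hvj'
            rw [if_pos ⟨ha, hon.mpr (Or.inr rfl)⟩, Equiv.swap_apply_right]
            have := hflip e
            tauto
          · rw [if_neg (fun h => (hon.mp h.2).elim hvj hvj'), Equiv.swap_apply_of_ne_of_ne hvj hvj']
      · rw [if_neg (fun h => ha h.1)]
        have hsame : ∀ e : Fin 2, j ∈ w.1 e ↔ j' ∈ w.1 e := by
          rw [Fin.forall_fin_two]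
          exact pattern_same _ _ _ _ htt (fun h => ha (hact.mpr (Or.inl h)))
            (fun h => ha (hact.mpr (Or.inr h)))
        by_cases hvj : v = j
        · subst hvj
          rw [Equiv.swap_apply_left]
          exact (hsame e).symm
        · by_cases hvj' : v = j'
          · subst hvj'
            rw [Equiv.swap_apply_right]
            exact hsame e
          · rw [Equiv.swap_apply_of_ne_of_ne hvj hvj']
    have hjj : act x (idx 0) (idx 1) j j' → j ∉ twn idx ∧ j' ∉ twn idx := by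
      intro ha
      have hD := act_dist ha
      obtain ⟨-, -, h3, h4, h5, h6⟩ := hD
      exact ⟨not_twn_iff.mpr ⟨h3.symm, h5.symm⟩, not_twn_iff.mpr ⟨h4.symm, h6.symm⟩⟩
    by_cases hu : u ∈ twn idx
    · obtain ⟨e, rfl⟩ := mem_twn.mp hu
      by_cases hv : v ∈ twn idx
      · obtain ⟨e', rfl⟩ := mem_twn.mp hv
        have hoff : ¬ (act x (idx 0) (idx 1) j j' ∧ onC (idx 0) (idx 1) j j' (idx e) (idx e')) := by
          rintro ⟨ha, hon⟩
          obtain ⟨hj, hj'⟩ := hjj ha
          rcases hon with ⟨-, h1 | h1⟩ | ⟨h1 | h1, -⟩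
          · exact hj (by rw [← h1]; exact idx_mem_twn e')
          · exact hj' (by rw [← h1]; exact idx_mem_twn e')
          · exact hj (by rw [← h1]; exact idx_mem_twn e)
          · exact hj' (by rw [← h1]; exact idx_mem_twn e)
        rw [if_neg hoff]
        by_cases hee : e = e'
        · subst hee
          simp only [not_ad_self]
        · unfold ad at hiny hinx ⊢
          rw [pair_classify e e' hee, hiny, hinx]
      · exact hmid e v hv
    · by_cases hv : v ∈ twn idx
      · obtain ⟨e', rfl⟩ := mem_twn.mp hv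
        rw [ad_comm y u (idx e'), hmid e' u hu, ad_comm x u (idx e')]
        by_cases h : act x (idx 0) (idx 1) j j' ∧ onC (idx 0) (idx 1) j j' (idx e') u
        · rw [if_pos h, if_pos ⟨h.1, (onC_comm _ _ _ _ _ _).mp h.2⟩]
        · rw [if_neg h, if_neg (fun h' => h ⟨h'.1, (onC_comm _ _ _ _ _ _).mp h'.2⟩)]
      · have hoff : ¬ (act x (idx 0) (idx 1) j j' ∧ onC (idx 0) (idx 1) j j' u v) := by
          rintro ⟨-, hon⟩
          rcases hon with ⟨h1 | h1, -⟩ | ⟨-, h1 | h1⟩
          · exact hu (by rw [h1]; exact idx_mem_twn 0)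
          · exact hu (by rw [h1]; exact idx_mem_twn 1)
          · exact hv (by rw [h1]; exact idx_mem_twn 0)
          · exact hv (by rw [h1]; exact idx_mem_twn 1)
        rw [if_neg hoff, houty u v hu hv, houtx u v hu hv]
  · -- the exchange is not allowed and the toggle is not active
    have hval : mv univ j j' w = w := by
      unfold mv
      rw [dif_neg htt]
    have hna : ¬ act x (idx 0) (idx 1) j j' := by
      intro ha
      apply htt
      rw [cntIn_univ, cntIn_univ, cnt_two, cnt_two]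
      rcases hact.mp ha with ⟨p1, p2, p3, p4⟩ | ⟨p1, p2, p3, p4⟩
      · simp [p1, p2, p3, p4]
      · simp [p1, p2, p3, p4]
    rw [ad_tg_of_not_act hna, hval, hx]

end glue

/-- The bound for a pair, through toggles. -/
theorem pair_gap_idx (hidx : Function.Injective idx) (f : Realizations d → ℝ) :
    (f - avg (relOff (twn idx)) f) ⬝ᵥ (f - avg (relOff (twn idx)) f)
      ≤ (1 / 8) * ∑ j, ∑ j', ∑ x, (f x - f (tg (idx 0) (idx 1) j j' x)) ^ 2 := by
  have hd : (f - avg (relOff (twn idx)) f) ⬝ᵥ (f - avg (relOff (twn idx)) f)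
      = f ⬝ᵥ f - avg (relOff (twn idx)) f ⬝ᵥ avg (relOff (twn idx)) f := by
    have h0 := pyth_avg (relOff_equiv (twn idx)) f
    linarith
  rw [hd]
  let F : Realizations d → ℝ := fun x => (1 / 8) * ∑ j, ∑ j', (f x - f (tg (idx 0) (idx 1) j j' x)) ^ 2
    - f x * f x + avg (relOff (twn idx)) f x * avg (relOff (twn idx)) f x
  have hF : 0 ≤ ∑ x, F x := by
    apply sum_nonneg_of_classes (relOff_equiv (twn idx))
    intro x₀
    rw [sum_class_glP hidx x₀ F]
    set h := f ∘ glP hidx x₀ with hh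
    have hb := johnson_bound h
    have e2 : ∀ j j' w, f (tg (idx 0) (idx 1) j j' (glP hidx x₀ w)) = h (mv univ j j' w) := by
      intro j j' w
      rw [← glP_mv hidx x₀ j j' w]
      rfl
    have e3 : ∑ w, F (glP hidx x₀ w) = (1 / 8) * ∑ j, ∑ j', ∑ w, (h w - h (mv univ j j' w)) ^ 2
        - h ⬝ᵥ h + avg relTop h ⬝ᵥ avg relTop h := by
      simp only [F, avg_glP_top hidx x₀, e2]
      unfold dotProduct
      rw [Finset.sum_add_distrib, Finset.sum_sub_distrib, ← Finset.mul_sum]
      congr 3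
      rw [Finset.sum_comm]
      apply Finset.sum_congr rfl
      intro j _
      rw [Finset.sum_comm]
      rfl
    rw [e3]
    linarith
  have e4 : ∑ x, F x = (1 / 8) * ∑ j, ∑ j', ∑ x, (f x - f (tg (idx 0) (idx 1) j j' x)) ^ 2
      - f ⬝ᵥ f + avg (relOff (twn idx)) f ⬝ᵥ avg (relOff (twn idx)) f := by
    simp only [F]
    unfold dotProduct
    rw [Finset.sum_add_distrib, Finset.sum_sub_distrib, ← Finset.mul_sum]
    congr 3
    rw [Finset.sum_comm]
    apply Finset.sum_congr rfl
    intro j _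
    rw [Finset.sum_comm]
  rw [e4] at hF
  linarith

end pair

/-- The bound for a pair of distinct vertices, through toggles. -/
theorem pair_gap {a b : Fin n} (hab : a ≠ b) (f : Realizations d → ℝ) :
    (f - avg (rel {a, b}) f) ⬝ᵥ (f - avg (rel {a, b}) f)
      ≤ (1 / 8) * ∑ j, ∑ j', ∑ x, (f x - f (tg a b j j' x)) ^ 2 := by
  let idx : Fin 2 → Fin n := ![a, b]
  have hidx : Function.Injective idx := by
    intro i j h
    fin_cases i <;> fin_cases j <;> simp_all [idx]
  have ht : twn idx = {a, b} := by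
    ext v
    simp only [mem_twn, mem_insert, mem_singleton]
    constructor
    · rintro ⟨e, rfl⟩
      fin_cases e
      · exact Or.inl rfl
      · exact Or.inr rfl
    · rintro (rfl | rfl)
      · exact ⟨0, rfl⟩
      · exact ⟨1, rfl⟩
  have h := pair_gap_idx hidx f
  rw [ht] at h
  rw [avg_rel_eq]
  exact h

end Vale.Agent.Lib.P335
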