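import Mathlib

/-!
A two level Cauchy-Schwarz inequality on Johnson type systems: abstract form.
-/

namespace Vale.Agent.Lib.P335

open Finset

set_option linter.unusedSectionVars false

variable {W X : Type*} [Fintype W] [Fintype X] [DecidableEq X]

/-- Abstract Johnson system: indicator functions `I c` on `W` of total mass `k`, and involutions
`τ d e` exchanging the indicator functions. -/
structure JAx (I : X → W → ℝ) (τ : X → X → W → W) (k : ℝ) : Prop where
  idem : ∀ c x, I c x * I c x = I c x
  sum : ∀ x, ∑ c, I c x = k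
  invol : ∀ d e, Function.Involutive (τ d e)
  symm : ∀ d e, τ d e = τ e d
  act : ∀ d e f x, d ≠ e → I f (τ d e x) = I (Equiv.swap d e f) x

/-- Count of points with `c` present and `d` absent. -/
def Mm (I : X → W → ℝ) (c d : X) : ℝ := ∑ x, I c x * (1 - I d x)

/-- Sum of `g` over points with `c` present and `d` absent. -/
def be (I : X → W → ℝ) (g : W → ℝ) (c d : X) : ℝ := ∑ x, I c x * (1 - I d x) * g x

/-- Sum of `g` over points with `c` present. -/
def aa (I : X → W → ℝ) (g : W → ℝ) (c : X) : ℝ := ∑ x, I c x * g x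

/-- Energy of the exchange of `c`, `d`, on points with `c` present and `d` absent. -/
def Dd (I : X → W → ℝ) (τ : X → X → W → W) (g : W → ℝ) (c d : X) : ℝ :=
  ∑ x, I c x * (1 - I d x) * (g x - g (τ c d x)) ^ 2

/-- Triples of distinct columns. -/
def Tri (c d e : X) : Prop := c ≠ d ∧ c ≠ e ∧ d ≠ e

instance (c d e : X) : Decidable (Tri c d e) := by
  unfold Tri
  infer_instance

/-- The real number of columns. -/
noncomputable def vv (X : Type*) [Fintype X] : ℝ := (Fintype.card X : ℝ)

theorem lagrange {X : Type*} (Y : Finset X) (y : X → ℝ) :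
    (Y.card : ℝ) * ∑ d ∈ Y, y d ^ 2 = (∑ d ∈ Y, y d) ^ 2 + (1 / 2) * ∑ d ∈ Y, ∑ e ∈ Y, (y d - y e) ^ 2 := by
  have h1 : ∑ d ∈ Y, ∑ e ∈ Y, (y d - y e) ^ 2
      = ∑ d ∈ Y, ∑ e ∈ Y, (y d ^ 2 + y e ^ 2 - 2 * (y d * y e)) := by
    apply Finset.sum_congr rfl
    intro d _
    apply Finset.sum_congr rfl
    intro e _
    ring
  have h2 : ∑ i ∈ Y, y i * ∑ d ∈ Y, y d = (∑ d ∈ Y, y d) ^ 2 := by
    rw [← Finset.sum_mul, sq]
  rw [h1]
  simp only [Finset.sum_sub_distrib, Finset.sum_add_distrib, Finset.sum_const, nsmul_eq_mul,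
    ← Finset.mul_sum]
  rw [h2]
  ring

section
variable {I : X → W → ℝ} {τ : X → X → W → W} {k : ℝ}

theorem JAx.sum_tau (H : JAx I τ k) (d e : X) (φ : W → ℝ) : ∑ x, φ (τ d e x) = ∑ x, φ x :=
  Equiv.sum_comp (H.invol d e).toPerm φ

theorem JAx.act_left (H : JAx I τ k) {d e : X} (h : d ≠ e) (x : W) : I d (τ d e x) = I e x := by
  rw [H.act d e d x h, Equiv.swap_apply_left]

theorem JAx.act_right (H : JAx I τ k) {d e : X} (h : d ≠ e) (x : W) : I e (τ d e x) = I d x := by
  rw [H.act d e e x h, Equiv.swap_apply_right]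

theorem JAx.act_other (H : JAx I τ k) {d e f : X} (h : d ≠ e) (h1 : f ≠ d) (h2 : f ≠ e) (x : W) :
    I f (τ d e x) = I f x := by
  rw [H.act d e f x h, Equiv.swap_apply_of_ne_of_ne h1 h2]

/-- The complementary system. -/
theorem JAx.compl (H : JAx I τ k) : JAx (fun c x => 1 - I c x) τ (vv X - k) where
  idem := by
    intro c x
    have := H.idem c x
    nlinarith
  sum := by
    intro x
    rw [Finset.sum_sub_distrib, H.sum x]
    simp [vv]
  invol := H.invol
  symm := H.symm
  act := by
    intro d e f x h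
    rw [H.act d e f x h]

theorem JAx.inner_sum (H : JAx I τ k) (c : X) (x : W) :
    ∑ d, (if d ≠ c then 1 - I d x else 0) = vv X - k - 1 + I c x := by
  have h1 : ∑ d, (if d ≠ c then 1 - I d x else 0) = ∑ d, (1 - I d x) - (1 - I c x) := by
    have := Finset.sum_erase_eq_sub (s := univ) (f := fun d => 1 - I d x) (mem_univ c)
    rw [← this]
    rw [Finset.sum_ite]
    simp only [Finset.sum_const_zero, add_zero]
    apply Finset.sum_congr
    · ext d
      simp
    · intros
      rfl
  rw [h1, Finset.sum_sub_distrib, H.sum x]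
  simp only [Finset.sum_const, Finset.card_univ, nsmul_eq_mul, mul_one, vv]
  ring

/-- Sum of the `be` over the second index. -/
theorem JAx.sum_be (H : JAx I τ k) (g : W → ℝ) (c : X) :
    ∑ d, (if d ≠ c then be I g c d else 0) = (vv X - k) * aa I g c := by
  unfold be aa
  have h1 : ∀ d, (if d ≠ c then ∑ x, I c x * (1 - I d x) * g x else 0)
      = ∑ x, I c x * g x * (if d ≠ c then 1 - I d x else 0) := by
    intro d
    by_cases h : d ≠ c
    · simp only [h, if_true, ne_eq, not_false_eq_true]
      apply Finset.sum_congr rfl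
      intro x _
      ring
    · simp [h]
  simp only [h1]
  rw [Finset.sum_comm, Finset.mul_sum]
  apply Finset.sum_congr rfl
  intro x _
  rw [← Finset.mul_sum, H.inner_sum c x]
  have := H.idem c x
  have e : I c x * g x * (vv X - k - 1 + I c x) = (vv X - k) * (I c x * g x)
      + (I c x * I c x - I c x) * g x := by
    ring
  rw [e, this]
  ring

/-- Difference of two `be` in the same first index. -/
theorem JAx.be_diff (H : JAx I τ k) (g : W → ℝ) {c d e : X} (h : Tri c d e) :
    be I g c d - be I g c e = ∑ x, I c x * I e x * (1 - I d x) * (g x - g (τ e d x)) := by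
  obtain ⟨h1, h2, h3⟩ := h
  have hs := H.sum_tau e d (fun x => I c x * I d x * (1 - I e x) * g x)
  simp only [H.act_left h3.symm, H.act_right h3.symm, H.act_other h3.symm h2 h1] at hs
  have : be I g c d - be I g c e = ∑ x, I c x * I e x * (1 - I d x) * g x
      - ∑ x, I c x * I d x * (1 - I e x) * g x := by
    unfold be
    rw [← Finset.sum_sub_distrib, ← Finset.sum_sub_distrib]
    apply Finset.sum_congr rfl
    intro x _
    ring
  rw [this, ← hs, ← Finset.sum_sub_distrib]
  apply Finset.sum_congr rfl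
  intro x _
  ring

/-- Count of points with `c`, `e` present, `d` absent. -/
def M1 (I : X → W → ℝ) (c e d : X) : ℝ := ∑ x, I c x * I e x * (1 - I d x)

/-- Energy restricted to `c` present. -/
def D1 (I : X → W → ℝ) (τ : X → X → W → W) (g : W → ℝ) (c e d : X) : ℝ :=
  ∑ x, I c x * I e x * (1 - I d x) * (g x - g (τ e d x)) ^ 2

theorem JAx.be_diff_sq (H : JAx I τ k) (g : W → ℝ) {c d e : X} (h : Tri c d e) :
    (be I g c d - be I g c e) ^ 2 ≤ M1 I c e d * D1 I τ g c e d := by
  rw [H.be_diff g h]
  have hw : ∀ x, I c x * I e x * (1 - I d x) * (I c x * I e x * (1 - I d x))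
      = I c x * I e x * (1 - I d x) := by
    intro x
    have h1 := H.idem c x
    have h2 := H.idem e x
    have h3 := H.idem d x
    have e1 : (1 - I d x) * (1 - I d x) = 1 - I d x := by nlinarith
    calc _ = (I c x * I c x) * (I e x * I e x) * ((1 - I d x) * (1 - I d x)) := by ring
      _ = _ := by rw [h1, h2, e1]
  have hcs := Finset.sum_mul_sq_le_sq_mul_sq univ (fun x => I c x * I e x * (1 - I d x))
    (fun x => I c x * I e x * (1 - I d x) * (g x - g (τ e d x)))
  have e2 : ∑ x, I c x * I e x * (1 - I d x) * (I c x * I e x * (1 - I d x) * (g x - g (τ e d x)))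
      = ∑ x, I c x * I e x * (1 - I d x) * (g x - g (τ e d x)) := by
    apply Finset.sum_congr rfl
    intro x _
    rw [← mul_assoc, hw]
  have e3 : ∑ x, (I c x * I e x * (1 - I d x)) ^ 2 = M1 I c e d := by
    unfold M1
    apply Finset.sum_congr rfl
    intro x _
    rw [sq, hw]
  have e4 : ∑ x, (I c x * I e x * (1 - I d x) * (g x - g (τ e d x))) ^ 2 = D1 I τ g c e d := by
    unfold D1
    apply Finset.sum_congr rfl
    intro x _
    calc _ = (I c x * I e x * (1 - I d x) * (I c x * I e x * (1 - I d x)))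
        * (g x - g (τ e d x)) ^ 2 := by ring
      _ = _ := by rw [hw]
  rw [e2, e3, e4] at hcs
  exact hcs

theorem JAx.inner_two (H : JAx I τ k) {d e : X} (hde : d ≠ e) (x : W) :
    ∑ c, (if c ≠ d ∧ c ≠ e then I c x else 0) = k - I d x - I e x := by
  have h0 : ∀ c, (if c ≠ d ∧ c ≠ e then I c x else 0)
      = I c x - (if c = d then I c x else 0) - (if c = e then I c x else 0) := by
    intro c
    by_cases h1 : c = d
    · subst h1
      simp [hde]
    · by_cases h2 : c = e
      · subst h2
        simp [h1]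
      · simp [h1, h2]
  simp only [h0]
  rw [Finset.sum_sub_distrib, Finset.sum_sub_distrib, H.sum x]
  simp

theorem JAx.weight (H : JAx I τ k) (d e : X) (x : W) :
    I e x * (1 - I d x) * (k - I d x - I e x) = (k - 1) * (I e x * (1 - I d x)) := by
  have h1 := H.idem e x
  have h2 := H.idem d x
  have e1 : I e x * (1 - I d x) * (k - I d x - I e x) = k * (I e x * (1 - I d x))
      - I e x * (I d x - I d x * I d x) - (I e x * I e x) * (1 - I d x) := by
    ring
  rw [e1, h1, h2]
  ring

/-- Sum over the third column of the restricted energy. -/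
theorem JAx.sum_D1 (H : JAx I τ k) (g : W → ℝ) {d e : X} (hde : d ≠ e) :
    ∑ c, (if c ≠ d ∧ c ≠ e then D1 I τ g c e d else 0) = (k - 1) * Dd I τ g e d := by
  unfold D1 Dd
  have h1 : ∀ c, (if c ≠ d ∧ c ≠ e then
        ∑ x, I c x * I e x * (1 - I d x) * (g x - g (τ e d x)) ^ 2 else 0)
      = ∑ x, (I e x * (1 - I d x) * (g x - g (τ e d x)) ^ 2) * (if c ≠ d ∧ c ≠ e then I c x else 0) := by
    intro c
    by_cases h : c ≠ d ∧ c ≠ e
    · rw [if_pos h]
      apply Finset.sum_congr rfl
      intro x _
      rw [if_pos h]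
      ring
    · simp [h]
  simp only [h1]
  rw [Finset.sum_comm, Finset.mul_sum]
  apply Finset.sum_congr rfl
  intro x _
  rw [← Finset.mul_sum, H.inner_two hde x]
  have := H.weight d e x
  calc _ = (I e x * (1 - I d x) * (k - I d x - I e x)) * (g x - g (τ e d x)) ^ 2 := by ring
    _ = _ := by rw [this]; ring

/-- Sum over the third column of the restricted count. -/
theorem JAx.sum_M1 (H : JAx I τ k) {d e : X} (hde : d ≠ e) :
    ∑ c, (if c ≠ d ∧ c ≠ e then M1 I c e d else 0) = (k - 1) * Mm I e d := by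
  unfold M1 Mm
  have h1 : ∀ c, (if c ≠ d ∧ c ≠ e then ∑ x, I c x * I e x * (1 - I d x) else 0)
      = ∑ x, (I e x * (1 - I d x)) * (if c ≠ d ∧ c ≠ e then I c x else 0) := by
    intro c
    by_cases h : c ≠ d ∧ c ≠ e
    · rw [if_pos h]
      apply Finset.sum_congr rfl
      intro x _
      rw [if_pos h]
      ring
    · simp [h]
  simp only [h1]
  rw [Finset.sum_comm, Finset.mul_sum]
  apply Finset.sum_congr rfl
  intro x _
  rw [← Finset.mul_sum, H.inner_two hde x, H.weight d e x]

/-- The restricted count does not depend on the third column. -/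
theorem JAx.M1_const (H : JAx I τ k) {c c' d e : X} (h1 : c ≠ d) (h2 : c ≠ e) (h3 : c' ≠ d)
    (h4 : c' ≠ e) : M1 I c e d = M1 I c' e d := by
  by_cases hcc : c = c'
  · rw [hcc]
  have hs := H.sum_tau c c' (fun x => I c x * I e x * (1 - I d x))
  simp only [H.act_left hcc, H.act_other hcc h2.symm h4.symm, H.act_other hcc h1.symm h3.symm] at hs
  exact hs.symm

theorem card_two_sub (d e : X) (hde : d ≠ e) :
    ∑ c : X, (if c ≠ d ∧ c ≠ e then (1 : ℝ) else 0) = vv X - 2 := by
  have h0 : ∀ c : X, (if c ≠ d ∧ c ≠ e then (1 : ℝ) else 0)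
      = 1 - (if c = d then 1 else 0) - (if c = e then 1 else 0) := by
    intro c
    by_cases h1 : c = d
    · subst h1
      simp [hde]
    · by_cases h2 : c = e
      · subst h2
        simp [h1]
      · simp [h1, h2]
  simp only [h0]
  rw [Finset.sum_sub_distrib, Finset.sum_sub_distrib]
  simp [vv]
  ring

/-- The relation between the restricted count and the count. -/
theorem JAx.M1_eq (H : JAx I τ k) {c d e : X} (h1 : c ≠ d) (h2 : c ≠ e) (hde : d ≠ e) :
    (vv X - 2) * M1 I c e d = (k - 1) * Mm I e d := by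
  rw [← H.sum_M1 hde, ← card_two_sub d e hde, Finset.sum_mul]
  apply Finset.sum_congr rfl
  intro c' _
  by_cases h : c' ≠ d ∧ c' ≠ e
  · rw [if_pos h, if_pos h, one_mul]
    exact H.M1_const h1 h2 h.1 h.2
  · rw [if_neg h, if_neg h, zero_mul]

/-- Sum of all restricted differences. -/
theorem JAx.tri_sum (H : JAx I τ k) (g : W → ℝ) {M : ℝ} (hM : ∀ c d, c ≠ d → Mm I c d = M)
    (hv : 0 ≤ vv X - 2) :
    (vv X - 2) * ∑ c, ∑ d, ∑ e, (if Tri c d e then (be I g c d - be I g c e) ^ 2 else 0)
      ≤ (k - 1) ^ 2 * M * ∑ e, ∑ d, (if e ≠ d then Dd I τ g e d else 0) := by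
  have h1 : ∀ c d e, (vv X - 2) * (if Tri c d e then (be I g c d - be I g c e) ^ 2 else 0)
      ≤ if Tri c d e then (k - 1) * M * D1 I τ g c e d else 0 := by
    intro c d e
    by_cases h : Tri c d e
    · rw [if_pos h, if_pos h]
      have h2 := mul_le_mul_of_nonneg_left (H.be_diff_sq g h) hv
      have h3 := H.M1_eq h.1 h.2.1 h.2.2
      rw [hM e d h.2.2.symm] at h3
      calc _ ≤ (vv X - 2) * (M1 I c e d * D1 I τ g c e d) := h2
        _ = ((vv X - 2) * M1 I c e d) * D1 I τ g c e d := by ring
        _ = _ := by rw [h3]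
    · simp [h]
  calc _ = ∑ c, ∑ d, ∑ e, (vv X - 2) * (if Tri c d e then (be I g c d - be I g c e) ^ 2 else 0) := by
        simp only [Finset.mul_sum]
    _ ≤ ∑ c, ∑ d, ∑ e, (if Tri c d e then (k - 1) * M * D1 I τ g c e d else 0) :=
        Finset.sum_le_sum (fun c _ => Finset.sum_le_sum (fun d _ => Finset.sum_le_sum
          (fun e _ => h1 c d e)))
    _ = ∑ d, ∑ e, ∑ c, (if Tri c d e then (k - 1) * M * D1 I τ g c e d else 0) := by
        rw [Finset.sum_comm]
        apply Finset.sum_congr rfl
        intro d _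
        rw [Finset.sum_comm]
    _ = ∑ d, ∑ e, (if e ≠ d then (k - 1) ^ 2 * M * Dd I τ g e d else 0) := by
        apply Finset.sum_congr rfl
        intro d _
        apply Finset.sum_congr rfl
        intro e _
        by_cases hde : e ≠ d
        · rw [if_pos hde]
          have h2 : ∀ c, (if Tri c d e then (k - 1) * M * D1 I τ g c e d else 0)
              = (k - 1) * M * (if c ≠ d ∧ c ≠ e then D1 I τ g c e d else 0) := by
            intro c
            by_cases h3 : c ≠ d ∧ c ≠ e
            · have h4 : Tri c d e := ⟨h3.1, h3.2, hde.symm⟩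
              rw [if_pos h4, if_pos h3]
            · have h4 : ¬ Tri c d e := fun h => h3 ⟨h.1, h.2.1⟩
              rw [if_neg h4, if_neg h3, mul_zero]
          simp only [h2]
          rw [← Finset.mul_sum, H.sum_D1 g hde.symm]
          ring
        · rw [if_neg hde]
          apply Finset.sum_eq_zero
          intro c _
          rw [if_neg]
          exact fun h => hde h.2.2.symm
    _ = _ := by
        rw [Finset.sum_comm, Finset.mul_sum]
        apply Finset.sum_congr rfl
        intro e _
        rw [Finset.mul_sum]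
        apply Finset.sum_congr rfl
        intro d _
        by_cases hde : e ≠ d
        · rw [if_pos hde, if_pos hde]
        · rw [if_neg hde, if_neg hde, mul_zero]

/-- The sum of squares of `be` at fixed first index. -/
theorem JAx.lag_be (H : JAx I τ k) (g : W → ℝ) (c : X) :
    (vv X - 1) * ∑ d, (if d ≠ c then be I g c d ^ 2 else 0)
      = ((vv X - k) * aa I g c) ^ 2
        + (1 / 2) * ∑ d, ∑ e, (if Tri c d e then (be I g c d - be I g c e) ^ 2 else 0) := by
  have hc : ((univ.erase c).card : ℝ) = vv X - 1 := by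
    rw [Finset.card_erase_of_mem (mem_univ c), Finset.card_univ]
    have : 1 ≤ Fintype.card X := Fintype.card_pos_iff.mpr ⟨c⟩
    push_cast [Nat.cast_sub this]
    rfl
  have h1 := lagrange (univ.erase c) (be I g c)
  rw [hc] at h1
  have e1 : ∑ d ∈ univ.erase c, be I g c d ^ 2 = ∑ d, (if d ≠ c then be I g c d ^ 2 else 0) := by
    rw [Finset.sum_ite]
    simp only [Finset.sum_const_zero, add_zero]
    apply Finset.sum_congr
    · ext d
      simp
    · intros
      rfl
  have e2 : ∑ d ∈ univ.erase c, be I g c d = (vv X - k) * aa I g c := by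
    rw [← H.sum_be g c, Finset.sum_ite]
    simp only [Finset.sum_const_zero, add_zero]
    apply Finset.sum_congr
    · ext d
      simp
    · intros
      rfl
  have e3 : ∑ d ∈ univ.erase c, ∑ e ∈ univ.erase c, (be I g c d - be I g c e) ^ 2
      = ∑ d, ∑ e, (if Tri c d e then (be I g c d - be I g c e) ^ 2 else 0) := by
    have h2 : ∀ d, ∑ e, (if Tri c d e then (be I g c d - be I g c e) ^ 2 else 0)
        = if d ≠ c then ∑ e ∈ univ.erase c, (be I g c d - be I g c e) ^ 2 else 0 := by
      intro d
      by_cases hd : d ≠ c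
      · rw [if_pos hd, ← Finset.sum_erase (a := c) univ]
        · apply Finset.sum_congr rfl
          intro e he
          have hec : e ≠ c := (Finset.mem_erase.mp he).1
          by_cases hde : d = e
          · subst hde
            have : ¬ Tri c d d := fun h => h.2.2 rfl
            rw [if_neg this]
            simp
          · have : Tri c d e := ⟨hd.symm, hec.symm, hde⟩
            rw [if_pos this]
        · have : ¬ Tri c d c := fun h => h.2.1 rfl
          rw [if_neg this]
      · rw [if_neg hd]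
        apply Finset.sum_eq_zero
        intro e _
        rw [if_neg]
        exact fun h => hd h.1.symm
    simp only [h2]
    rw [Finset.sum_ite]
    simp only [Finset.sum_const_zero, add_zero]
    apply Finset.sum_congr
    · ext d
      simp
    · intros
      rfl
  rw [e1, e2, e3] at h1
  exact h1

/-- The second level inequality. -/
theorem JAx.level2 (H : JAx I τ k) (g : W → ℝ) {M : ℝ} (hM : ∀ c d, c ≠ d → Mm I c d = M)
    (hv : 0 ≤ vv X - 2) :
    (vv X - 1) * (vv X - 2) * ∑ c, ∑ d, (if d ≠ c then be I g c d ^ 2 else 0)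
      ≤ (vv X - 2) * ((vv X - k) ^ 2 * ∑ c, aa I g c ^ 2)
        + (1 / 2) * ((k - 1) ^ 2 * M * ∑ e, ∑ d, (if e ≠ d then Dd I τ g e d else 0)) := by
  have h1 := H.tri_sum g hM hv
  have h2 : (vv X - 1) * ∑ c, ∑ d, (if d ≠ c then be I g c d ^ 2 else 0)
      = (vv X - k) ^ 2 * ∑ c, aa I g c ^ 2
        + (1 / 2) * ∑ c, ∑ d, ∑ e, (if Tri c d e then (be I g c d - be I g c e) ^ 2 else 0) := by
    rw [Finset.mul_sum, Finset.mul_sum, Finset.mul_sum, ← Finset.sum_add_distrib]
    apply Finset.sum_congr rfl
    intro c _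
    rw [H.lag_be g c]
    ring
  calc _ = (vv X - 2) * ((vv X - 1) * ∑ c, ∑ d, (if d ≠ c then be I g c d ^ 2 else 0)) := by ring
    _ = (vv X - 2) * ((vv X - k) ^ 2 * ∑ c, aa I g c ^ 2)
        + (1 / 2) * ((vv X - 2) * ∑ c, ∑ d, ∑ e, (if Tri c d e then (be I g c d - be I g c e) ^ 2 else 0)) := by
      rw [h2]
      ring
    _ ≤ _ := by
      have : 0 ≤ (1 / 2 : ℝ) := by norm_num
      have h3 := mul_le_mul_of_nonneg_left h1 this
      linarith

/-- The difference of the two `be` with exchanged indices. -/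
theorem be_sub_be (g : W → ℝ) (c d : X) : be I g c d - be I g d c = aa I g c - aa I g d := by
  unfold be aa
  rw [← Finset.sum_sub_distrib, ← Finset.sum_sub_distrib]
  apply Finset.sum_congr rfl
  intro x _
  ring

/-- The `aa` sum to `k` times the total. -/
theorem JAx.sum_aa (H : JAx I τ k) (g : W → ℝ) : ∑ c, aa I g c = k * ∑ x, g x := by
  unfold aa
  rw [Finset.sum_comm, Finset.mul_sum]
  apply Finset.sum_congr rfl
  intro x _
  rw [← Finset.sum_mul, H.sum x]

/-- The sum of squared differences of the `aa`. -/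
theorem sum_aa_diff (a : X → ℝ) (h : ∑ c, a c = 0) :
    ∑ c, ∑ d, (if d ≠ c then (a c - a d) ^ 2 else 0) = 2 * vv X * ∑ c, a c ^ 2 := by
  have h1 : ∀ c d, (if d ≠ c then (a c - a d) ^ 2 else 0) = (a c - a d) ^ 2 := by
    intro c d
    by_cases hd : d ≠ c
    · rw [if_pos hd]
    · rw [if_neg hd]
      have : d = c := by simpa using hd
      rw [this]
      simp
  simp only [h1]
  have h2 := lagrange (univ : Finset X) a
  rw [h] at h2
  rw [Finset.card_univ] at h2
  unfold vv
  linarith

/-- The complementary count. -/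
theorem JAx.Mm_compl (c d : X) : Mm (fun c x => 1 - I c x) c d = Mm I d c := by
  unfold Mm
  apply Finset.sum_congr rfl
  intro x _
  ring

theorem JAx.Dd_compl (H : JAx I τ k) (g : W → ℝ) (c d : X) :
    Dd (fun c x => 1 - I c x) τ g c d = Dd I τ g d c := by
  unfold Dd
  apply Finset.sum_congr rfl
  intro x _
  rw [H.symm c d]
  ring

theorem be_compl (g : W → ℝ) (c d : X) : be (fun c x => 1 - I c x) g c d = be I g d c := by
  unfold be
  apply Finset.sum_congr rfl
  intro x _
  ring

theorem aa_compl (g : W → ℝ) (hg : ∑ x, g x = 0) (c : X) :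
    aa (fun c x => 1 - I c x) g c = - aa I g c := by
  unfold aa
  have : ∑ x, (1 - I c x) * g x = ∑ x, g x - ∑ x, I c x * g x := by
    rw [← Finset.sum_sub_distrib]
    apply Finset.sum_congr rfl
    intro x _
    ring
  rw [this, hg]
  ring

theorem arith_main {v k S2 A2 MD : ℝ} (hv : 3 ≤ v) (hk1 : 1 ≤ k) (hk2 : k ≤ v - 1) (hA0 : 0 ≤ A2)
    (hMD : 0 ≤ MD)
    (L1 : (v - 1) * (v - 2) * S2 ≤ (v - 2) * ((v - k) ^ 2 * A2) + (1 / 2) * ((k - 1) ^ 2 * MD))
    (L2 : (v - 1) * (v - 2) * S2 ≤ (v - 2) * (k ^ 2 * A2) + (1 / 2) * ((v - k - 1) ^ 2 * MD)) :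
    4 * S2 - 2 * v * A2 ≤ MD := by
  have hp : 0 ≤ (k - 1) * (v - 1 - k) := mul_nonneg (by linarith) (by linarith)
  have hk3 : k ^ 2 + (v - k) ^ 2 ≤ v * (v - 1) := by nlinarith
  have hk4 : (k - 1) ^ 2 + (v - k - 1) ^ 2 ≤ (v - 2) ^ 2 := by nlinarith
  have hv2 : 0 ≤ v - 2 := by linarith
  have hv3 : 0 < v - 2 := by linarith
  have hv4 : 0 < v - 1 := by linarith
  have h1 : (v - 2) * (k ^ 2 + (v - k) ^ 2) * A2 ≤ (v - 2) * (v * (v - 1)) * A2 :=
    mul_le_mul_of_nonneg_right (mul_le_mul_of_nonneg_left hk3 hv2) hA0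
  have h2 : ((k - 1) ^ 2 + (v - k - 1) ^ 2) * MD ≤ (v - 2) ^ 2 * MD :=
    mul_le_mul_of_nonneg_right hk4 hMD
  have key : (v - 2) * ((v - 1) * (4 * S2 - 2 * v * A2)) ≤ (v - 2) * ((v - 2) * MD) := by
    linarith
  have key2 : (v - 1) * (4 * S2 - 2 * v * A2) ≤ (v - 2) * MD := le_of_mul_le_mul_left key hv3
  have key3 : (v - 1) * (4 * S2 - 2 * v * A2) ≤ (v - 1) * MD := by
    have : (v - 2) * MD ≤ (v - 1) * MD := mul_le_mul_of_nonneg_right (by linarith) hMD
    linarith
  exact le_of_mul_le_mul_left key3 hv4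

/-- The main inequality, in the range of parameters where the columns number at least three. -/
theorem JAx.main_aux (H : JAx I τ k) (g : W → ℝ) (hg : ∑ x, g x = 0) {M : ℝ} (hM0 : 0 ≤ M)
    (hM : ∀ c d, c ≠ d → Mm I c d = M) (hv : 3 ≤ vv X) (hk1 : 1 ≤ k) (hk2 : k ≤ vv X - 1)
    (hD : ∀ c d, 0 ≤ Dd I τ g c d) :
    ∑ c, ∑ d, (if d ≠ c then (be I g c d + be I g d c) ^ 2 else 0)
      ≤ M * ∑ c, ∑ d, (if c ≠ d then Dd I τ g c d else 0) := by
  set v := vv X with hvdef
  set DS := ∑ c, ∑ d, (if c ≠ d then Dd I τ g c d else 0) with hDS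
  set S2 := ∑ c, ∑ d, (if d ≠ c then be I g c d ^ 2 else 0) with hS2
  set A2 := ∑ c, aa I g c ^ 2 with hA2
  have hDS0 : 0 ≤ DS := by
    apply Finset.sum_nonneg
    intro c _
    apply Finset.sum_nonneg
    intro e _
    split_ifs
    · exact hD c e
    · exact le_rfl
  have hA0 : 0 ≤ A2 := Finset.sum_nonneg (fun _ _ => sq_nonneg _)
  have hv2 : 0 ≤ v - 2 := by linarith
  have L1 := H.level2 g hM hv2
  -- the complementary level two
  have hMc : ∀ c d, c ≠ d → Mm (fun c x => 1 - I c x) c d = M := by
    intro c d hcd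
    rw [JAx.Mm_compl, hM d c hcd.symm]
  have L2 := H.compl.level2 g hMc hv2
  have e1 : ∑ c, ∑ d, (if d ≠ c then be (fun c x => 1 - I c x) g c d ^ 2 else 0) = S2 := by
    rw [hS2, Finset.sum_comm]
    apply Finset.sum_congr rfl
    intro d _
    apply Finset.sum_congr rfl
    intro c _
    rw [be_compl]
    by_cases hcd : d = c
    · simp [hcd]
    · have h2 : c ≠ d := fun h => hcd h.symm
      simp [hcd, h2]
  have e2 : ∑ c, aa (fun c x => 1 - I c x) g c ^ 2 = A2 := by
    apply Finset.sum_congr rfl
    intro c _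
    rw [aa_compl g hg]
    ring
  have e3 : ∑ e, ∑ d, (if e ≠ d then Dd (fun c x => 1 - I c x) τ g e d else 0) = DS := by
    rw [hDS, Finset.sum_comm]
    apply Finset.sum_congr rfl
    intro c _
    apply Finset.sum_congr rfl
    intro e _
    rw [H.Dd_compl]
    by_cases hcd : c = e
    · simp [hcd]
    · have h2 : e ≠ c := fun h => hcd h.symm
      simp [hcd, h2]
  rw [e1, e2, e3] at L2
  have e4 : v - (v - k) = k := by ring
  have e5 : (v - k - 1) ^ 2 = (v - k - 1) ^ 2 := rfl
  rw [e4] at L2
  -- identity for the square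
  have hsq : ∑ c, ∑ d, (if d ≠ c then (be I g c d + be I g d c) ^ 2 else 0) = 4 * S2 - 2 * v * A2 := by
    have h1 : ∀ c d, (if d ≠ c then (be I g c d + be I g d c) ^ 2 else 0)
        = 2 * (if d ≠ c then be I g c d ^ 2 else 0) + 2 * (if d ≠ c then be I g d c ^ 2 else 0)
          - (if d ≠ c then (aa I g c - aa I g d) ^ 2 else 0) := by
      intro c d
      by_cases hd : d ≠ c
      · simp only [if_pos hd]
        rw [← be_sub_be]
        ring
      · simp only [if_neg hd]
        ring
    simp only [h1]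
    rw [Finset.sum_congr rfl (fun c _ => by
      rw [Finset.sum_sub_distrib, Finset.sum_add_distrib, ← Finset.mul_sum, ← Finset.mul_sum])]
    rw [Finset.sum_sub_distrib, Finset.sum_add_distrib, ← Finset.mul_sum, ← Finset.mul_sum]
    have h2 : ∑ c, ∑ d, (if d ≠ c then be I g d c ^ 2 else 0) = S2 := by
      rw [hS2, Finset.sum_comm]
      apply Finset.sum_congr rfl
      intro d _
      apply Finset.sum_congr rfl
      intro c _
      by_cases hcd : d = c
      · simp [hcd]
      · have h3 : c ≠ d := fun h => hcd h.symm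
        simp [hcd, h3]
    have h3 := sum_aa_diff (aa I g) (by rw [H.sum_aa g, hg, mul_zero])
    rw [h2, h3]
    ring
  rw [hsq]
  have L1' : (v - 1) * (v - 2) * S2 ≤ (v - 2) * ((v - k) ^ 2 * A2)
      + (1 / 2) * ((k - 1) ^ 2 * (M * DS)) := by
    have e : (k - 1) ^ 2 * (M * DS) = (k - 1) ^ 2 * M * DS := by ring
    rw [e]
    exact L1
  have L2' : (v - 1) * (v - 2) * S2 ≤ (v - 2) * (k ^ 2 * A2)
      + (1 / 2) * ((v - k - 1) ^ 2 * (M * DS)) := by
    have e : (v - k - 1) ^ 2 * (M * DS) = (v - k - 1) ^ 2 * M * DS := by ring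
    rw [e]
    exact L2
  exact arith_main hv hk1 hk2 hA0 (mul_nonneg hM0 hDS0) L1' L2'

theorem JAx.val01 (H : JAx I τ k) (c : X) (x : W) : I c x = 0 ∨ I c x = 1 := by
  have h := H.idem c x
  have : I c x * (I c x - 1) = 0 := by linarith
  rcases mul_eq_zero.mp this with h1 | h1
  · exact Or.inl h1
  · exact Or.inr (by linarith)

theorem JAx.le_k (H : JAx I τ k) (c : X) (x : W) : I c x ≤ k := by
  rw [← H.sum x]
  apply Finset.single_le_sum (f := fun c => I c x)
  · intro c' _
    rcases H.val01 c' x with h | h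
    · simp [h]
    · simp [h]
  · exact mem_univ c

theorem JAx.Mm_left (H : JAx I τ k) {c c' d : X} (h1 : c ≠ d) (h2 : c' ≠ d) :
    Mm I c d = Mm I c' d := by
  by_cases hcc : c = c'
  · rw [hcc]
  have hs := H.sum_tau c c' (fun x => I c x * (1 - I d x))
  simp only [H.act_left hcc, H.act_other hcc h1.symm h2.symm] at hs
  exact hs.symm

theorem JAx.Mm_right (H : JAx I τ k) {c d d' : X} (h1 : c ≠ d) (h2 : c ≠ d') :
    Mm I c d = Mm I c d' := by
  by_cases hdd : d = d'
  · rw [hdd]
  have hs := H.sum_tau d d' (fun x => I c x * (1 - I d x))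
  simp only [H.act_left hdd, H.act_other hdd h1 h2] at hs
  exact hs.symm

theorem JAx.Mm_swap (H : JAx I τ k) {c d : X} (h : c ≠ d) : Mm I c d = Mm I d c := by
  have hs := H.sum_tau c d (fun x => I c x * (1 - I d x))
  simp only [H.act_left h, H.act_right h] at hs
  exact hs.symm

theorem JAx.Mm_const (H : JAx I τ k) {c d c' d' : X} (h1 : c ≠ d) (h2 : c' ≠ d') :
    Mm I c d = Mm I c' d' := by
  by_cases h3 : c' = d
  · by_cases h4 : d' = c
    · subst h3 h4
      exact H.Mm_swap h1
    · rw [H.Mm_right h1 (Ne.symm h4)]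
      exact H.Mm_left (Ne.symm h4) h2
  · rw [H.Mm_left h1 h3]
    exact H.Mm_right h3 h2

theorem JAx.Mm_nonneg (H : JAx I τ k) (c d : X) : 0 ≤ Mm I c d := by
  apply Finset.sum_nonneg
  intro x _
  rcases H.val01 c x with h | h <;> rcases H.val01 d x with h' | h' <;> simp [h, h']

theorem JAx.Dd_nonneg (H : JAx I τ k) (g : W → ℝ) (c d : X) : 0 ≤ Dd I τ g c d := by
  apply Finset.sum_nonneg
  intro x _
  apply mul_nonneg _ (sq_nonneg _)
  rcases H.val01 c x with h | h <;> rcases H.val01 d x with h' | h' <;> simp [h, h']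

/-- The main inequality. -/
theorem JAx.main (H : JAx I τ k) (g : W → ℝ) (hg : ∑ x, g x = 0) {M : ℝ} (hM0 : 0 ≤ M)
    (hM : ∀ c d, c ≠ d → Mm I c d = M) :
    ∑ c, ∑ d, (if d ≠ c then (be I g c d + be I g d c) ^ 2 else 0)
      ≤ M * ∑ c, ∑ d, (if c ≠ d then Dd I τ g c d else 0) := by
  have hDS : 0 ≤ ∑ c, ∑ d, (if c ≠ d then Dd I τ g c d else 0) := by
    apply Finset.sum_nonneg
    intro c _
    apply Finset.sum_nonneg
    intro e _
    split_ifs
    · exact H.Dd_nonneg g c e
    · exact le_rfl
  have hRHS := mul_nonneg hM0 hDS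
  have zero_case : (∀ c d, d ≠ c → be I g c d + be I g d c = 0) →
      ∑ c, ∑ d, (if d ≠ c then (be I g c d + be I g d c) ^ 2 else 0)
        ≤ M * ∑ c, ∑ d, (if c ≠ d then Dd I τ g c d else 0) := by
    intro h
    have : ∑ c, ∑ d, (if d ≠ c then (be I g c d + be I g d c) ^ 2 else 0) = 0 := by
      apply Finset.sum_eq_zero
      intro c _
      apply Finset.sum_eq_zero
      intro e _
      by_cases he : e ≠ c
      · rw [if_pos he, h c e he]
        simp
      · rw [if_neg he]
    rw [this]
    exact hRHS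
  by_cases hk1 : k < 1
  · apply zero_case
    have h0 : ∀ c x, I c x = 0 := by
      intro c x
      rcases H.val01 c x with h | h
      · exact h
      · have := H.le_k c x
        linarith
    intro c e _
    simp [be, h0]
  push Not at hk1
  by_cases hk2 : vv X - k < 1
  · apply zero_case
    have h0 : ∀ c x, 1 - I c x = 0 := by
      intro c x
      rcases H.val01 c x with h | h
      · have := H.compl.le_k c x
        simp only [h] at this
        linarith
      · rw [h]
        norm_num
    intro c e _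
    simp [be, h0]
  push Not at hk2
  by_cases hv : 3 ≤ vv X
  · exact H.main_aux g hg hM0 hM hv hk1 (by linarith) (H.Dd_nonneg g)
  · push Not at hv
    -- two columns
    have hv2 : 2 ≤ vv X := by linarith
    have hcard : Fintype.card X = 2 := by
      have h1 : (2 : ℝ) ≤ (Fintype.card X : ℝ) := hv2
      have h2 : (Fintype.card X : ℝ) < 3 := hv
      have h3 : 2 ≤ Fintype.card X := by exact_mod_cast h1
      have h4 : Fintype.card X < 3 := by exact_mod_cast h2
      omega
    have hk : k = 1 := by
      have e1 : vv X = 2 := by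
        unfold vv
        rw [hcard]
        norm_num
      linarith
    apply zero_case
    intro c e hec
    have huniv : (univ : Finset X) = {c, e} := by
      apply Finset.eq_of_subset_of_card_le
      · intro y _
        by_contra hy
        have : ({y, c, e} : Finset X).card = 3 := by
          rw [Finset.card_eq_three]
          simp only [mem_insert, mem_singleton, not_or] at hy
          exact ⟨y, c, e, hy.1, hy.2, hec.symm, rfl⟩
        have h5 := Finset.card_le_univ ({y, c, e} : Finset X)
        omega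
      · rw [Finset.card_pair hec.symm, Finset.card_univ, hcard]
    have h1 : ∀ x, I c x + I e x = 1 := by
      intro x
      have := H.sum x
      rw [huniv, Finset.sum_pair hec.symm, hk] at this
      exact this
    unfold be
    rw [← Finset.sum_add_distrib, ← hg]
    apply Finset.sum_congr rfl
    intro x _
    have h2 := H.idem c x
    have h3 := h1 x
    have h4 : I e x = 1 - I c x := by linarith
    rw [h4]
    have h5 : I c x * (1 - (1 - I c x)) * g x + (1 - I c x) * (1 - I c x) * g x
        = (1 - 2 * I c x + 2 * (I c x * I c x)) * g x := by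
      ring
    rw [h5, h2]
    ring

theorem JAx.Dd_symm (H : JAx I τ k) (g : W → ℝ) {c d : X} (h : c ≠ d) :
    Dd I τ g c d = Dd I τ g d c := by
  unfold Dd
  have hs := H.sum_tau c d (fun x => I c x * (1 - I d x) * (g x - g (τ c d x)) ^ 2)
  simp only [H.act_left h, H.act_right h, H.invol c d _] at hs
  rw [← hs, H.symm d c]
  apply Finset.sum_congr rfl
  intro x _
  ring

/-- The form of an exchange dominates the sum of the two energies. -/
theorem JAx.Dd_add_le (H : JAx I τ k) (g : W → ℝ) (c d : X) :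
    Dd I τ g c d + Dd I τ g d c ≤ ∑ x, (g x - g (τ c d x)) ^ 2 := by
  unfold Dd
  rw [← Finset.sum_add_distrib]
  apply Finset.sum_le_sum
  intro x _
  rw [H.symm d c]
  have h : I c x * (1 - I d x) + I d x * (1 - I c x) ≤ 1 := by
    rcases H.val01 c x with h | h <;> rcases H.val01 d x with h' | h' <;> simp [h, h'] <;> norm_num
  nlinarith [sq_nonneg (g x - g (τ c d x))]

/-- The form in which the inequality is used. -/
theorem JAx.main2 (H : JAx I τ k) (f : W → ℝ) (mean : ℝ) (hmean : ∑ x, (f x - mean) = 0) :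
    ∑ c, ∑ d, (if d ≠ c then (be I (fun x => f x - mean) c d + be I (fun x => f x - mean) d c) ^ 2
        / (2 * Mm I c d) else 0)
      ≤ ∑ c, ∑ d, (if d ≠ c then (1 / 4) * ∑ x, (f x - f (τ c d x)) ^ 2 else 0) := by
  set g : W → ℝ := fun x => f x - mean with hg
  have hdiff : ∀ c d x, f x - f (τ c d x) = g x - g (τ c d x) := by
    intro c d x
    simp only [hg]
    ring
  -- the common value of the counts
  by_cases hex : ∃ c d : X, c ≠ d
  · obtain ⟨c₀, d₀, hcd₀⟩ := hex
    set M := Mm I c₀ d₀ with hMdef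
    have hM : ∀ c d, c ≠ d → Mm I c d = M := fun c d h => H.Mm_const h hcd₀
    have hM0 : 0 ≤ M := H.Mm_nonneg c₀ d₀
    have hmain := H.main g hmean hM0 hM
    have hR : (1 / 2) * ∑ c, ∑ d, (if c ≠ d then Dd I τ g c d else 0)
        ≤ ∑ c, ∑ d, (if d ≠ c then (1 / 4) * ∑ x, (f x - f (τ c d x)) ^ 2 else 0) := by
      rw [Finset.mul_sum]
      apply Finset.sum_le_sum
      intro c _
      rw [Finset.mul_sum]
      apply Finset.sum_le_sum
      intro e _
      by_cases he : e ≠ c
      · rw [if_pos he, if_pos he.symm]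
        have h1 := H.Dd_add_le g c e
        rw [← H.Dd_symm g he.symm] at h1
        simp only [hdiff]
        linarith
      · rw [if_neg he, if_neg (fun h => he h.symm)]
        simp
    refine le_trans ?_ hR
    by_cases hM1 : M = 0
    · have : ∑ c, ∑ d, (if d ≠ c then (be I g c d + be I g d c) ^ 2 / (2 * Mm I c d) else 0) = 0 := by
        apply Finset.sum_eq_zero
        intro c _
        apply Finset.sum_eq_zero
        intro e _
        by_cases he : e ≠ c
        · rw [if_pos he, hM c e he.symm, hM1]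
          simp
        · rw [if_neg he]
      rw [this]
      apply mul_nonneg (by norm_num)
      apply Finset.sum_nonneg
      intro c _
      apply Finset.sum_nonneg
      intro e _
      split_ifs
      · exact H.Dd_nonneg g c e
      · exact le_rfl
    · have hMp : 0 < M := lt_of_le_of_ne hM0 (Ne.symm hM1)
      have e1 : ∑ c, ∑ d, (if d ≠ c then (be I g c d + be I g d c) ^ 2 / (2 * Mm I c d) else 0)
          = (∑ c, ∑ d, (if d ≠ c then (be I g c d + be I g d c) ^ 2 else 0)) / (2 * M) := by
        rw [Finset.sum_div]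
        apply Finset.sum_congr rfl
        intro c _
        rw [Finset.sum_div]
        apply Finset.sum_congr rfl
        intro e _
        by_cases he : e ≠ c
        · rw [if_pos he, if_pos he, hM c e he.symm]
        · rw [if_neg he, if_neg he, zero_div]
      rw [e1, div_le_iff₀ (by positivity)]
      calc _ ≤ _ := hmain
        _ = _ := by ring
  · push Not at hex
    have h0 : ∑ c, ∑ d, (if d ≠ c then (be I g c d + be I g d c) ^ 2 / (2 * Mm I c d) else 0) = 0 := by
      apply Finset.sum_eq_zero
      intro c _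
      apply Finset.sum_eq_zero
      intro e _
      rw [if_neg]
      simp [hex e c]
    have h1 : ∑ c, ∑ d, (if d ≠ c then (1 / 4) * ∑ x, (f x - f (τ c d x)) ^ 2 else 0) = 0 := by
      apply Finset.sum_eq_zero
      intro c _
      apply Finset.sum_eq_zero
      intro e _
      rw [if_neg]
      simp [hex e c]
    rw [h0, h1]

end

end Vale.Agent.Lib.P335
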