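import Vale.Agent.Lib.P335.KFib
import Vale.Agent.Lib.P335.KJ
import Vale.Agent.Lib.P335.Glue

/-!
The abstract Johnson inequality transported to the classes of the relation of agreeing off a pair.
-/

namespace Vale.Agent.Lib.P335

open Finset Matrix

variable {n : ℕ} {d : Fin n → ℕ}

/-- The points of a class. -/
abbrev WW (a b : Fin n) (x₀ : Realizations d) := {y : Realizations d // rel {a, b} x₀ y}

/-- The columns of a class. -/
abbrev XX (a b : Fin n) (x₀ : Realizations d) := {c : Fin n // c ≠ a ∧ c ≠ b ∧ cntV x₀ c a b = 1}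

/-- The indicator of a column on a class. -/
noncomputable def II (a b : Fin n) (x₀ : Realizations d) (c : XX a b x₀) (y : WW a b x₀) : ℝ :=
  if ad y.1 a c.1 then 1 else 0

/-- The toggles of a class. -/
noncomputable def TT (a b : Fin n) (x₀ : Realizations d) (c e : XX a b x₀) (y : WW a b x₀) :
    WW a b x₀ :=
  ⟨tg a b c.1 e.1 y.1, (rel_equiv _).trans y.2 (rel_tg_left a b c.1 e.1 y.1)⟩

theorem cnt_eq_one_iff (y : Realizations d) (a b v : Fin n) :
    cntV y v a b = 1 ↔ (ad y a v ↔ ¬ ad y b v) := by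
  unfold cntV
  rw [ind_comm y v a, ind_comm y v b]
  unfold ind
  by_cases h1 : ad y a v <;> by_cases h2 : ad y b v <;> simp [h1, h2]

theorem col_alt {a b : Fin n} (hab : a ≠ b) {x₀ : Realizations d} (y : WW a b x₀)
    (c : XX a b x₀) : ad y.1 a c.1 ↔ ¬ ad y.1 b c.1 := by
  have h := cnt_fix hab y.2 c.2.1 c.2.2.1
  rw [c.2.2.2] at h
  exact (cnt_eq_one_iff y.1 a b c.1).mp h.symm

theorem dist_col {a b : Fin n} (hab : a ≠ b) {x₀ : Realizations d} {c e : XX a b x₀}
    (hce : c ≠ e) : Dist4 a b c.1 e.1 :=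
  ⟨hab, fun h => hce (Subtype.ext h), c.2.1.symm, e.2.1.symm, c.2.2.1.symm, e.2.2.1.symm⟩

theorem act_col {a b : Fin n} (hab : a ≠ b) {x₀ : Realizations d} (y : WW a b x₀)
    {c e : XX a b x₀} (hce : c ≠ e) :
    act y.1 a b c.1 e.1 ↔ (ad y.1 a c.1 ↔ ¬ ad y.1 a e.1) := by
  have hD := dist_col hab hce
  have hD' := dist4_swap hD
  have h1 := col_alt hab y c
  have h2 := col_alt hab y e
  unfold act altP
  simp only [hD, hD', true_and]
  tauto

theorem col_of_act {a b : Fin n} (hab : a ≠ b) {x₀ y : Realizations d} (hy : rel {a, b} x₀ y)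
    {c e : Fin n} (h : act y a b c e) :
    (c ≠ a ∧ c ≠ b ∧ cntV x₀ c a b = 1) ∧ (e ≠ a ∧ e ≠ b ∧ cntV x₀ e a b = 1) := by
  have hD := act_dist h
  obtain ⟨-, -, h3, h4, h5, h6⟩ := hD
  have e1 := cnt_fix hab hy h3.symm h5.symm
  have e2 := cnt_fix hab hy h4.symm h6.symm
  refine ⟨⟨h3.symm, h5.symm, ?_⟩, ⟨h4.symm, h6.symm, ?_⟩⟩
  · rw [e1, cnt_eq_one_iff]
    rcases h with ⟨-, p1, p2, p3, p4⟩ | ⟨-, p1, p2, p3, p4⟩ <;> tauto
  · rw [e2, cnt_eq_one_iff]
    rcases h with ⟨-, p1, p2, p3, p4⟩ | ⟨-, p1, p2, p3, p4⟩ <;> tauto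

theorem ind_off_col {a b : Fin n} (hab : a ≠ b) {x₀ y : Realizations d} (hy : rel {a, b} x₀ y)
    {u : Fin n} (hu : ¬ (u ≠ a ∧ u ≠ b ∧ cntV x₀ u a b = 1)) : ind y a u = ind x₀ a u := by
  by_cases h1 : u = a
  · subst h1
    rw [ind_self, ind_self]
  · by_cases h2 : u = b
    · subst h2
      exact (ab_fix hab hy).symm
    · have h3 : cntV x₀ u a b ≠ 1 := fun h => hu ⟨h1, h2, h⟩
      have h4 := cnt_fix hab hy h1 h2
      rw [h4] at h3
      rw [← h4] at h3
      have h5 := h4
      unfold cntV at h3 h5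
      rw [ind_comm y a u, ind_comm x₀ a u]
      unfold ind at h3 h5 ⊢
      by_cases p1 : ad x₀ u a <;> by_cases p2 : ad x₀ u b <;> by_cases p3 : ad y u a <;>
        by_cases p4 : ad y u b <;> simp_all

theorem sum_col_const {a b : Fin n} (hab : a ≠ b) {x₀ y : Realizations d} (hy : rel {a, b} x₀ y) :
    ∑ c : XX a b x₀, ind y a c.1 = ∑ c : XX a b x₀, ind x₀ a c.1 := by
  have h1 := sum_ind y a
  have h2 := sum_ind x₀ a
  rw [← Finset.sum_filter_add_sum_filter_not univ (fun c => c ≠ a ∧ c ≠ b ∧ cntV x₀ c a b = 1)]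
    at h1 h2
  have e3 : ∑ u ∈ univ.filter (fun c => ¬ (c ≠ a ∧ c ≠ b ∧ cntV x₀ c a b = 1)), ind y a u
      = ∑ u ∈ univ.filter (fun c => ¬ (c ≠ a ∧ c ≠ b ∧ cntV x₀ c a b = 1)), ind x₀ a u := by
    apply Finset.sum_congr rfl
    intro u hu
    simp only [mem_filter, mem_univ, true_and] at hu
    exact ind_off_col hab hy hu
  have e1 : ∀ z : Realizations d, ∑ u ∈ univ.filter (fun c => c ≠ a ∧ c ≠ b ∧ cntV x₀ c a b = 1), ind z a u
      = ∑ c : XX a b x₀, ind z a c.1 := by
    intro z
    exact Finset.sum_subtype _ (fun u => by simp) _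
  rw [e1] at h1 h2
  omega

theorem II_eq_ind {a b : Fin n} {x₀ : Realizations d} (c : XX a b x₀) (y : WW a b x₀) :
    II a b x₀ c y = (ind y.1 a c.1 : ℝ) := by
  unfold II ind
  split_ifs <;> simp

/-- A class is an abstract Johnson system. -/
theorem jax_class {a b : Fin n} (hab : a ≠ b) (x₀ : Realizations d) :
    JAx (II a b x₀) (TT a b x₀) (∑ c : XX a b x₀, II a b x₀ c ⟨x₀, (rel_equiv _).refl x₀⟩) where
  idem := by
    intro c x
    unfold II
    split_ifs <;> simp
  sum := by
    intro y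
    simp only [II_eq_ind]
    have := sum_col_const hab y.2
    exact_mod_cast this
  invol := by
    intro c e y
    apply Subtype.ext
    exact tg_invol _ _ _ _ _
  symm := by
    intro c e
    funext y
    apply Subtype.ext
    exact tg_symm2 _ _ _ _ _
  act := by
    intro c e f y hce
    unfold II
    have key : ad (TT a b x₀ c e y).1 a f.1 ↔ ad y.1 a (Equiv.swap c e f).1 := by
      unfold TT
      simp only
      rw [ad_tg]
      have hc : onC a b c.1 e.1 a c.1 := onC_self.1
      have he : onC a b c.1 e.1 a e.1 := onC_self.2.1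
      by_cases hact : act y.1 a b c.1 e.1
      · have h0 := (act_col hab y hce).mp hact
        by_cases h1 : f = c
        · subst h1
          rw [Equiv.swap_apply_left]
          simp only [hact, hc, and_self, if_true]
          tauto
        · by_cases h2 : f = e
          · subst h2
            rw [Equiv.swap_apply_right]
            simp only [hact, he, and_self, if_true]
            tauto
          · rw [Equiv.swap_apply_of_ne_of_ne h1 h2]
            have h3 : ¬ onC a b c.1 e.1 a f.1 := by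
              unfold onC
              simp only [true_or, true_and, not_or, not_and]
              refine ⟨⟨fun h => h1 (Subtype.ext h), fun h => h2 (Subtype.ext h)⟩, ?_⟩
              intro h
              rcases h with h | h
              · exact absurd h.symm c.2.1
              · exact absurd h.symm e.2.1
            simp [h3]
      · have h0 : ad y.1 a c.1 ↔ ad y.1 a e.1 := by
          have := (act_col hab y hce).not.mp hact
          tauto
        simp only [hact, false_and, if_false]
        by_cases h1 : f = c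
        · subst h1
          rw [Equiv.swap_apply_left]
          exact h0
        · by_cases h2 : f = e
          · subst h2
            rw [Equiv.swap_apply_right]
            exact h0.symm
          · rw [Equiv.swap_apply_of_ne_of_ne h1 h2]
    simp only [key]


theorem cntV_eq_one_iff (z : Realizations d) (a c e : Fin n) :
    cntV z a c e = 1 ↔ (ad z a c ↔ ¬ ad z a e) := by
  unfold cntV ind
  by_cases h1 : ad z a c <;> by_cases h2 : ad z a e <;> simp [h1, h2]

theorem filter_relV {a b : Fin n} (hab : a ≠ b) {x₀ y : Realizations d} (hy : rel {a, b} x₀ y)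
    {c e : XX a b x₀} (hce : c ≠ e) (hact : act y a b c.1 e.1) :
    univ.filter (relV a b c.1 e.1 y) = univ.filter (fun z => rel {a, b} x₀ z ∧ act z a b c.1 e.1) := by
  have hy1 : cntV y a c.1 e.1 = 1 := (cntV_eq_one_iff y a c.1 e.1).mpr
    ((act_col hab ⟨y, hy⟩ hce).mp hact)
  ext z
  simp only [mem_filter, mem_univ, true_and]
  unfold relV
  rw [hy1]
  constructor
  · rintro ⟨h1, h2⟩
    have h3 : rel {a, b} x₀ z := (rel_equiv _).trans hy h1
    refine ⟨h3, (act_col hab ⟨z, h3⟩ hce).mpr ((cntV_eq_one_iff z a c.1 e.1).mp h2.symm)⟩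
  · rintro ⟨h1, h2⟩
    refine ⟨(rel_equiv _).trans ((rel_equiv _).symm hy) h1, ?_⟩
    exact ((cntV_eq_one_iff z a c.1 e.1).mpr ((act_col hab ⟨z, h1⟩ hce).mp h2)).symm

/-- The indicator of activity on a class. -/
noncomputable def AA (a b : Fin n) (x₀ : Realizations d) (c e : XX a b x₀) (y : WW a b x₀) : ℝ :=
  II a b x₀ c y * (1 - II a b x₀ e y) + II a b x₀ e y * (1 - II a b x₀ c y)

theorem AA_eq {a b : Fin n} (hab : a ≠ b) {x₀ : Realizations d} {c e : XX a b x₀} (hce : c ≠ e)
    (y : WW a b x₀) : AA a b x₀ c e y = if act y.1 a b c.1 e.1 then 1 else 0 := by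
  have h := act_col hab y hce
  unfold AA II
  by_cases h1 : ad y.1 a c.1 <;> by_cases h2 : ad y.1 a e.1 <;> simp [h, h1, h2]

theorem sum_filter_act {a b : Fin n} (hab : a ≠ b) {x₀ : Realizations d} {c e : XX a b x₀}
    (hce : c ≠ e) (φ : Realizations d → ℝ) :
    ∑ z ∈ univ.filter (fun z => rel {a, b} x₀ z ∧ act z a b c.1 e.1), φ z
      = ∑ z : WW a b x₀, AA a b x₀ c e z * φ z.1 := by
  rw [← Finset.filter_filter, Finset.sum_filter,
    Finset.sum_subtype (univ.filter (fun z => rel {a, b} x₀ z)) (p := fun z => rel {a, b} x₀ z)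
      (fun u => by simp)]
  apply Finset.sum_congr rfl
  intro z _
  rw [AA_eq hab hce]
  split_ifs <;> simp

theorem sum_AA {a b : Fin n} (hab : a ≠ b) {x₀ : Realizations d} {c e : XX a b x₀} (hce : c ≠ e) :
    ∑ z : WW a b x₀, AA a b x₀ c e z = 2 * Mm (II a b x₀) c e := by
  have h := (jax_class hab x₀).Mm_swap hce
  unfold AA
  rw [Finset.sum_add_distrib]
  have e1 : ∑ x, II a b x₀ e x * (1 - II a b x₀ c x) = Mm (II a b x₀) e c := rfl
  have e2 : ∑ x, II a b x₀ c x * (1 - II a b x₀ e x) = Mm (II a b x₀) c e := rfl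
  rw [e1, e2, ← h]
  ring

/-- The mean on a class. -/
noncomputable def mm (a b : Fin n) (x₀ : Realizations d) (f : Realizations d → ℝ) : ℝ :=
  avg (rel {a, b}) f x₀

/-- The function on a class, with mean removed. -/
noncomputable def gg (a b : Fin n) (x₀ : Realizations d) (f : Realizations d → ℝ)
    (y : WW a b x₀) : ℝ := f y.1 - mm a b x₀ f

theorem sum_gg {a b : Fin n} (x₀ : Realizations d) (f : Realizations d → ℝ) :
    ∑ y : WW a b x₀, (f y.1 - mm a b x₀ f) = 0 := by
  have h0 : (0 : ℝ) < ((univ.filter (rel {a, b} x₀)).card : ℝ) :=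
    card_class_pos (rel_equiv _) x₀
  have e1 : ∑ y : WW a b x₀, (f y.1 - mm a b x₀ f)
      = ∑ y ∈ univ.filter (rel {a, b} x₀), (f y - mm a b x₀ f) :=
    (Finset.sum_subtype (univ.filter (rel {a, b} x₀)) (p := fun z => rel {a, b} x₀ z)
      (fun u => by simp) (fun y => f y - mm a b x₀ f)).symm
  rw [e1, Finset.sum_sub_distrib, Finset.sum_const, nsmul_eq_mul]
  unfold mm avg
  field_simp
  ring

/-- Active points of a class see the same average. -/
theorem active_avg {a b : Fin n} (hab : a ≠ b) {x₀ : Realizations d} (f : Realizations d → ℝ)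
    {c e : XX a b x₀} (hce : c ≠ e) (y : WW a b x₀) (hact : act y.1 a b c.1 e.1) :
    avg (relV a b c.1 e.1) f y.1 - avg (rel {a, b}) f y.1
      = (be (II a b x₀) (gg a b x₀ f) c e + be (II a b x₀) (gg a b x₀ f) e c)
        / (2 * Mm (II a b x₀) c e) := by
  have h0 : avg (rel {a, b}) f y.1 = mm a b x₀ f := (avg_meas (rel_equiv _) f _ _ y.2).symm
  rw [h0]
  set M := Mm (II a b x₀) c e with hM
  have hcard : ((univ.filter (relV a b c.1 e.1 y.1)).card : ℝ) = 2 * M := by
    have h1 := sum_filter_act hab hce (fun _ => (1 : ℝ))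
    rw [filter_relV hab y.2 hce hact, Finset.card_eq_sum_ones]
    push_cast
    rw [h1]
    simp only [mul_one]
    exact sum_AA hab hce
  have hpos : 0 < 2 * M := by
    rw [← hcard]
    exact card_class_pos (relV_equiv _ _ _ _) y.1
  have hsum : ∑ z ∈ univ.filter (relV a b c.1 e.1 y.1), f z
      = be (II a b x₀) (gg a b x₀ f) c e + be (II a b x₀) (gg a b x₀ f) e c
        + mm a b x₀ f * (2 * M) := by
    rw [filter_relV hab y.2 hce hact, sum_filter_act hab hce f]
    rw [← sum_AA hab hce, Finset.mul_sum]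
    unfold be
    rw [← Finset.sum_add_distrib, ← Finset.sum_add_distrib]
    apply Finset.sum_congr rfl
    intro z _
    unfold AA gg
    ring
  have hM0 : M ≠ 0 := by
    intro h
    rw [h] at hpos
    simp at hpos
  unfold avg
  rw [hcard, hsum]
  field_simp
  ring

/-- The sum on active points of a class. -/
theorem active_sum {a b : Fin n} (hab : a ≠ b) {x₀ : Realizations d} (f : Realizations d → ℝ)
    {c e : XX a b x₀} (hce : c ≠ e) :
    ∑ y : WW a b x₀, (if act y.1 a b c.1 e.1 then
        (avg (relV a b c.1 e.1) f y.1 - avg (rel {a, b}) f y.1) ^ 2 else 0)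
      = (be (II a b x₀) (gg a b x₀ f) c e + be (II a b x₀) (gg a b x₀ f) e c) ^ 2
        / (2 * Mm (II a b x₀) c e) := by
  set B := be (II a b x₀) (gg a b x₀ f) c e + be (II a b x₀) (gg a b x₀ f) e c with hB
  set M := Mm (II a b x₀) c e with hM
  have e1 : ∀ y : WW a b x₀, (if act y.1 a b c.1 e.1 then
        (avg (relV a b c.1 e.1) f y.1 - avg (rel {a, b}) f y.1) ^ 2 else 0)
      = AA a b x₀ c e y * (B / (2 * M)) ^ 2 := by
    intro y
    rw [AA_eq hab hce]
    by_cases h : act y.1 a b c.1 e.1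
    · rw [if_pos h, if_pos h, active_avg hab f hce y h, one_mul]
    · rw [if_neg h, if_neg h, zero_mul]
  have e2 : ∑ z : WW a b x₀, AA a b x₀ c e z = 2 * M := sum_AA hab hce
  rw [Finset.sum_congr rfl (fun y _ => e1 y), ← Finset.sum_mul, e2]
  by_cases hM0 : M = 0
  · simp [hM0]
  · field_simp

/-- Sums over all pairs of vertices whose terms vanish off the columns. -/
theorem sum2_subtype (p : Fin n → Prop) [DecidablePred p] (G : Fin n → Fin n → ℝ)
    (h : ∀ c e, ¬ (p c ∧ p e) → G c e = 0) :
    ∑ c, ∑ e, G c e = ∑ c : {c // p c}, ∑ e : {e // p e}, G c.1 e.1 := by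
  have e1 : ∀ c, p c → ∑ e, G c e = ∑ e : {e // p e}, G c e.1 := by
    intro c hc
    rw [← Finset.sum_filter_of_ne (s := univ) (p := p) (f := G c)]
    · exact Finset.sum_subtype _ (fun u => by simp) _
    · intro e _ he
      by_contra hcon
      exact he (h c e (fun hh => hcon hh.2))
  rw [← Finset.sum_filter_of_ne (s := univ) (p := p) (f := fun c => ∑ e, G c e)]
  · rw [Finset.sum_subtype (univ.filter p) (p := p) (fun u => by simp)]
    apply Finset.sum_congr rfl
    intro c _
    exact e1 c.1 c.2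
  · intro c _ hc
    by_contra hcon
    apply hc
    apply Finset.sum_eq_zero
    intro e _
    exact h c e (fun hh => hcon hh.1)

/-- The Johnson inequality on one class. -/
theorem johnson_class {a b : Fin n} (hab : a ≠ b) (x₀ : Realizations d) (f : Realizations d → ℝ) :
    ∑ c, ∑ e, (if Dist4 a b c e then ∑ y : WW a b x₀, (if act y.1 a b c e then
        (avg (relV a b c e) f y.1 - avg (rel {a, b}) f y.1) ^ 2 else 0) else 0)
      ≤ ∑ c, ∑ e, (if Dist4 a b c e then
          (1 / 4) * ∑ y : WW a b x₀, (f y.1 - f (tg a b c e y.1)) ^ 2 else 0) := by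
  have hL : ∑ c, ∑ e, (if Dist4 a b c e then ∑ y : WW a b x₀, (if act y.1 a b c e then
        (avg (relV a b c e) f y.1 - avg (rel {a, b}) f y.1) ^ 2 else 0) else 0)
      = ∑ c : XX a b x₀, ∑ e : XX a b x₀, (if e ≠ c then
          (be (II a b x₀) (gg a b x₀ f) c e + be (II a b x₀) (gg a b x₀ f) e c) ^ 2
            / (2 * Mm (II a b x₀) c e) else 0) := by
    rw [sum2_subtype (fun c => c ≠ a ∧ c ≠ b ∧ cntV x₀ c a b = 1)]
    · apply Finset.sum_congr rfl
      intro c _
      apply Finset.sum_congr rfl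
      intro e _
      by_cases hce : e ≠ c
      · rw [if_pos hce, if_pos (dist_col hab hce.symm)]
        exact active_sum hab f hce.symm
      · rw [if_neg hce, if_neg]
        intro hD
        apply hce
        intro h
        rw [h] at hD
        exact hD.2.1 rfl
    · intro c e hce
      by_cases hD : Dist4 a b c e
      · rw [if_pos hD]
        apply Finset.sum_eq_zero
        intro y _
        rw [if_neg]
        intro hact
        exact hce (col_of_act hab y.2 hact)
      · rw [if_neg hD]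
  have hR : ∑ c : XX a b x₀, ∑ e : XX a b x₀, (if e ≠ c then
        (1 / 4) * ∑ y : WW a b x₀, (f y.1 - f (TT a b x₀ c e y).1) ^ 2 else 0)
      ≤ ∑ c, ∑ e, (if Dist4 a b c e then
          (1 / 4) * ∑ y : WW a b x₀, (f y.1 - f (tg a b c e y.1)) ^ 2 else 0) := by
    set G : Fin n → Fin n → ℝ := fun c e => if (c ≠ a ∧ c ≠ b ∧ cntV x₀ c a b = 1)
        ∧ (e ≠ a ∧ e ≠ b ∧ cntV x₀ e a b = 1) then (if Dist4 a b c e then
          (1 / 4) * ∑ y : WW a b x₀, (f y.1 - f (tg a b c e y.1)) ^ 2 else 0) else 0 with hG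
    have h1 : ∑ c, ∑ e, G c e ≤ ∑ c, ∑ e, (if Dist4 a b c e then
          (1 / 4) * ∑ y : WW a b x₀, (f y.1 - f (tg a b c e y.1)) ^ 2 else 0) := by
      apply Finset.sum_le_sum
      intro c _
      apply Finset.sum_le_sum
      intro e _
      simp only [hG]
      split_ifs
      · exact le_rfl
      · exact le_rfl
      · apply mul_nonneg (by norm_num)
        exact Finset.sum_nonneg (fun _ _ => sq_nonneg _)
      · exact le_rfl
    refine le_trans (le_of_eq ?_) h1
    rw [sum2_subtype (fun c => c ≠ a ∧ c ≠ b ∧ cntV x₀ c a b = 1) G]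
    · apply Finset.sum_congr rfl
      intro c _
      apply Finset.sum_congr rfl
      intro e _
      have hp : (c.1 ≠ a ∧ c.1 ≠ b ∧ cntV x₀ c.1 a b = 1)
          ∧ (e.1 ≠ a ∧ e.1 ≠ b ∧ cntV x₀ e.1 a b = 1) := ⟨c.2, e.2⟩
      simp only [hG]
      rw [if_pos hp]
      by_cases hce : e ≠ c
      · rw [if_pos hce, if_pos (dist_col hab hce.symm)]
        rfl
      · rw [if_neg hce, if_neg]
        intro hD
        apply hce
        intro h
        rw [h] at hD
        exact hD.2.1 rfl
    · intro c e hce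
      simp only [hG]
      rw [if_neg hce]
  rw [hL]
  refine le_trans ?_ hR
  have hmain := (jax_class hab x₀).main2 (fun y => f y.1) (mm a b x₀ f) (sum_gg x₀ f)
  exact hmain

/-- Splitting a restricted sum of differences. -/
theorem sum_dist_split {Ω : Type*} (S : Finset Ω) (D : Fin n → Fin n → Prop)
    [∀ c e, Decidable (D c e)] (A B : Fin n → Fin n → Ω → ℝ) :
    ∑ y ∈ S, ∑ c, ∑ e, (if D c e then A c e y - B c e y else 0)
      = ∑ c, ∑ e, (if D c e then ∑ y ∈ S, A c e y else 0)
        - ∑ c, ∑ e, (if D c e then ∑ y ∈ S, B c e y else 0) := by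
  rw [Finset.sum_comm, ← Finset.sum_sub_distrib]
  apply Finset.sum_congr rfl
  intro c _
  rw [Finset.sum_comm, ← Finset.sum_sub_distrib]
  apply Finset.sum_congr rfl
  intro e _
  by_cases h : D c e
  · simp only [h, if_true, Finset.sum_sub_distrib]
  · simp [h]

/-- The Johnson inequality on the whole space. -/
theorem johnson_global {a b : Fin n} (hab : a ≠ b) (f : Realizations d → ℝ) :
    ∑ c, ∑ e, (if Dist4 a b c e then ∑ x, (if act x a b c e then
        (avg (relV a b c e) f x - avg (rel {a, b}) f x) ^ 2 else 0) else 0)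
      ≤ ∑ c, ∑ e, (if Dist4 a b c e then (1 / 4) * ∑ x, (f x - f (tg a b c e x)) ^ 2 else 0) := by
  set A : Fin n → Fin n → Realizations d → ℝ := fun c e x => (1 / 4) * (f x - f (tg a b c e x)) ^ 2
    with hA
  set B : Fin n → Fin n → Realizations d → ℝ := fun c e x => if act x a b c e then
        (avg (relV a b c e) f x - avg (rel {a, b}) f x) ^ 2 else 0 with hB
  have h1 := sum_dist_split univ (fun c e => Dist4 a b c e) A B
  have h2 : 0 ≤ ∑ x, ∑ c, ∑ e, (if Dist4 a b c e then A c e x - B c e x else 0) := by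
    apply sum_nonneg_of_classes (rel_equiv {a, b})
    intro x₀
    rw [sum_dist_split]
    have h3 := johnson_class hab x₀ f
    have e1 : ∀ φ : Realizations d → ℝ, ∑ y ∈ univ.filter (rel {a, b} x₀), φ y
        = ∑ y : WW a b x₀, φ y.1 := fun φ => Finset.sum_subtype _ (fun u => by simp) _
    simp only [e1, hA, hB, ← Finset.mul_sum]
    linarith
  have e2 : ∀ c e, ∑ x, A c e x = (1 / 4) * ∑ x, (f x - f (tg a b c e x)) ^ 2 := by
    intro c e
    simp only [hA, Finset.mul_sum]
  simp only [e2] at h1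
  rw [h1] at h2
  linarith

end Vale.Agent.Lib.P335
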