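import Vale.Agent.Lib.P335.KFinal2
import Vale.Agent.Lib.P335.KFib

/-!
The total of the cross terms of disjoint pairs, from the lower bound for one disjoint pair and
the inequality on each fibre of a pair.
-/

namespace Vale.Agent.Lib.P335

open Finset Matrix

variable {n : ℕ} {d : Fin n → ℕ}

theorem dist4_symm3 {a b c e : Fin n} : Dist4 c e a b ↔ Dist4 a b c e := by
  unfold Dist4
  constructor
  · rintro ⟨h1, h2, h3, h4, h5, h6⟩
    exact ⟨h2, h1, h3.symm, h5.symm, h4.symm, h6.symm⟩
  · rintro ⟨h1, h2, h3, h4, h5, h6⟩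
    exact ⟨h2, h1, h3.symm, h5.symm, h4.symm, h6.symm⟩

/-- The energy of a toggle. -/
noncomputable def enT (f : Realizations d → ℝ) (a b c e : Fin n) : ℝ :=
  (1 / 4) * ∑ x, (f x - f (tg a b c e x)) ^ 2

/-- The central part of the count projection. -/
noncomputable def jT (f : Realizations d → ℝ) (a b c e : Fin n) : ℝ :=
  ∑ x, if act x a b c e then (avg (relV a b c e) f x - avg (rel {a, b}) f x) ^ 2 else 0

/-- The total of the disjoint cross terms is nonnegative. -/
theorem key_of_parts (f : Realizations d → ℝ)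
    (hP : ∀ a b c e : Fin n, Dist4 a b c e →
      (1 / 4) * ∑ x, (f x - f (tg a b c e x)) ^ 2
        - (1 / 2) * (∑ x, if act x a b c e then
            (avg (relV a b c e) f x - avg (rel {a, b}) f x) ^ 2 else 0)
        - (1 / 2) * (∑ x, if act x a b c e then
            (avg (relV c e a b) f x - avg (rel {c, e}) f x) ^ 2 else 0)
        ≤ (f - avg (rel {a, b}) f) ⬝ᵥ (f - avg (rel {c, e}) f))
    (hJ : ∀ a b : Fin n, a ≠ b →
      ∑ c, ∑ e, (if Dist4 a b c e then
          ∑ x, (if act x a b c e then (avg (relV a b c e) f x - avg (rel {a, b}) f x) ^ 2 else 0)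
        else 0)
      ≤ ∑ c, ∑ e, (if Dist4 a b c e then (1 / 4) * ∑ x, (f x - f (tg a b c e x)) ^ 2 else 0)) :
    KeyDisjoint f := by
  -- the three sums
  let S1 : ℝ := ∑ a, ∑ b, ∑ c, ∑ e, if Dist4 a b c e then enT f a b c e else 0
  let S2 : ℝ := ∑ a, ∑ b, ∑ c, ∑ e, if Dist4 a b c e then jT f a b c e else 0
  let S3 : ℝ := ∑ a, ∑ b, ∑ c, ∑ e, if Dist4 a b c e then jT f c e a b else 0
  have h23 : S3 = S2 := by
    have e1 : S3 = ∑ c, ∑ e, ∑ a, ∑ b, if Dist4 c e a b then jT f c e a b else 0 := by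
      have e0 : S3 = ∑ a, ∑ b, ∑ c, ∑ e, if Dist4 c e a b then jT f c e a b else 0 := by
        apply Finset.sum_congr rfl; intro a _
        apply Finset.sum_congr rfl; intro b _
        apply Finset.sum_congr rfl; intro c _
        apply Finset.sum_congr rfl; intro e _
        by_cases h : Dist4 a b c e
        · rw [if_pos h, if_pos (dist4_symm3.mpr h)]
        · rw [if_neg h, if_neg (fun h' => h (dist4_symm3.mp h'))]
      rw [e0]
      calc ∑ a, ∑ b, ∑ c, ∑ e, (if Dist4 c e a b then jT f c e a b else 0)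
          = ∑ a, ∑ c, ∑ b, ∑ e, (if Dist4 c e a b then jT f c e a b else 0) := by
            apply Finset.sum_congr rfl; intro a _
            exact Finset.sum_comm
        _ = ∑ c, ∑ a, ∑ b, ∑ e, (if Dist4 c e a b then jT f c e a b else 0) := Finset.sum_comm
        _ = ∑ c, ∑ a, ∑ e, ∑ b, (if Dist4 c e a b then jT f c e a b else 0) := by
            apply Finset.sum_congr rfl; intro c _
            apply Finset.sum_congr rfl; intro a _
            exact Finset.sum_comm
        _ = ∑ c, ∑ e, ∑ a, ∑ b, (if Dist4 c e a b then jT f c e a b else 0) := by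
            apply Finset.sum_congr rfl; intro c _
            exact Finset.sum_comm
    rw [e1]
  have h12 : S2 ≤ S1 := by
    apply Finset.sum_le_sum; intro a _
    apply Finset.sum_le_sum; intro b _
    by_cases hab : a = b
    · subst hab
      apply le_of_eq
      apply Finset.sum_congr rfl; intro c _
      apply Finset.sum_congr rfl; intro e _
      have : ¬ Dist4 a a c e := fun h => h.1 rfl
      rw [if_neg this, if_neg this]
    · exact hJ a b hab
  have hterm : ∀ a b c e : Fin n,
      (if Dist4 a b c e then enT f a b c e else 0)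
        - (1 / 2) * (if Dist4 a b c e then jT f a b c e else 0)
        - (1 / 2) * (if Dist4 a b c e then jT f c e a b else 0)
      ≤ if a ≠ b ∧ c ≠ e ∧ a ≠ c ∧ a ≠ e ∧ b ≠ c ∧ b ≠ e then
          (f - avg (rel {a, b}) f) ⬝ᵥ (f - avg (rel {c, e}) f) else 0 := by
    intro a b c e
    by_cases h : Dist4 a b c e
    · have h' : a ≠ b ∧ c ≠ e ∧ a ≠ c ∧ a ≠ e ∧ b ≠ c ∧ b ≠ e := h
      rw [if_pos h, if_pos h, if_pos h, if_pos h']
      have h1 := hP a b c e h
      have e3 : jT f c e a b = ∑ x, if act x a b c e then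
          (avg (relV c e a b) f x - avg (rel {c, e}) f x) ^ 2 else 0 := by
        unfold jT
        apply Finset.sum_congr rfl
        intro x _
        by_cases h2 : act x a b c e
        · rw [if_pos h2, if_pos ((act_symm3 x a b c e).mpr h2)]
        · rw [if_neg h2, if_neg (fun h3 => h2 ((act_symm3 x a b c e).mp h3))]
      rw [e3]
      exact h1
    · have h' : ¬ (a ≠ b ∧ c ≠ e ∧ a ≠ c ∧ a ≠ e ∧ b ≠ c ∧ b ≠ e) := h
      rw [if_neg h, if_neg h, if_neg h, if_neg h']
      simp
  have hsum : S1 - (1 / 2) * S2 - (1 / 2) * S3 ≤ ∑ a, ∑ b, ∑ c, ∑ e,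
      if a ≠ b ∧ c ≠ e ∧ a ≠ c ∧ a ≠ e ∧ b ≠ c ∧ b ≠ e then
        (f - avg (rel {a, b}) f) ⬝ᵥ (f - avg (rel {c, e}) f) else 0 := by
    have : S1 - (1 / 2) * S2 - (1 / 2) * S3 = ∑ a, ∑ b, ∑ c, ∑ e,
        ((if Dist4 a b c e then enT f a b c e else 0)
        - (1 / 2) * (if Dist4 a b c e then jT f a b c e else 0)
        - (1 / 2) * (if Dist4 a b c e then jT f c e a b else 0)) := by
      simp only [S1, S2, S3, Finset.mul_sum, Finset.sum_sub_distrib]
    rw [this]
    apply Finset.sum_le_sum; intro a _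
    apply Finset.sum_le_sum; intro b _
    apply Finset.sum_le_sum; intro c _
    apply Finset.sum_le_sum; intro e _
    exact hterm a b c e
  unfold KeyDisjoint
  rw [h23] at hsum
  linarith

end Vale.Agent.Lib.P335
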