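import Vale.Agent.Lib.P335.Interchange

/-!
Commuting averages: a criterion by moves, and the inequality for a pair of relations.
-/

namespace Vale.Agent.Lib.P335

open Finset Matrix

variable {Ω : Type*} [Fintype Ω]

section
variable {r s : Ω → Ω → Prop} [DecidableRel r] [DecidableRel s]

/-- If averaging for `s` preserves the functions measurable for `r`, the two averages commute. -/
theorem comm_of_invariant (hr : Equivalence r) (hs : Equivalence s)
    (h : ∀ g, Meas r g → Meas r (avg s g)) (f : Ω → ℝ) :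
    avg r (avg s f) = avg s (avg r f) := by
  have key : ∀ k : Ω → ℝ, avg r (avg s f) ⬝ᵥ k = avg s (avg r f) ⬝ᵥ k := by
    intro k
    have e1 : avg r (avg s (avg r k)) = avg s (avg r k) :=
      avg_of_meas hr (h _ (avg_meas hr k))
    have e2 : avg r (avg s (avg r f)) = avg s (avg r f) :=
      avg_of_meas hr (h _ (avg_meas hr f))
    calc avg r (avg s f) ⬝ᵥ k = f ⬝ᵥ avg s (avg r k) := by rw [avg_dot hr, avg_dot hs]
      _ = f ⬝ᵥ avg r (avg s (avg r k)) := by rw [e1]
      _ = avg r (avg s (avg r f)) ⬝ᵥ k := by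
          rw [avg_dot hr, avg_dot hs, avg_dot hr]
      _ = _ := by rw [e2]
  have h2 := key (avg r (avg s f) - avg s (avg r f))
  have h3 : (avg r (avg s f) - avg s (avg r f)) ⬝ᵥ (avg r (avg s f) - avg s (avg r f)) = 0 := by
    rw [sub_dotProduct, h2, sub_self]
  exact sub_eq_zero.mp (dot_self_eq_zero h3)

/-- The criterion by moves. -/
theorem comm_of_moves (hr : Equivalence r) (hs : Equivalence s) (Mv : (Ω → Ω) → Prop)
    (h1 : ∀ m, Mv m → Function.Involutive m) (h2 : ∀ m, Mv m → ∀ x, r x (m x))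
    (h3 : ∀ m, Mv m → ∀ x y, s x y → s (m x) (m y))
    (hconn : ∀ φ : Ω → ℝ, (∀ m, Mv m → ∀ x, φ (m x) = φ x) → Meas r φ) (f : Ω → ℝ) :
    avg r (avg s f) = avg s (avg r f) := by
  apply comm_of_invariant hr hs
  intro g hg
  apply hconn
  intro m hm x
  have hinv := h1 m hm
  let σ : Equiv.Perm Ω := hinv.toPerm
  have hσ : ∀ x y, s (σ x) (σ y) ↔ s x y := by
    intro x y
    constructor
    · intro hxy
      have := h3 m hm _ _ hxy
      simpa [σ, hinv x, hinv y] using this
    · exact h3 m hm x y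
  have e := avg_comp_perm σ hσ g
  have e2 : g ∘ σ = g := by
    funext y
    exact (hg y (m y) (h2 m hm y)).symm
  rw [e2] at e
  have e3 := congrFun e x
  exact e3.symm

/-- Equality behind nonnegativity for commuting symmetric idempotents, at one function. -/
theorem dot_eq_of_comm_at (A B : (Ω → ℝ) → (Ω → ℝ))
    (hA : ∀ f g, A f ⬝ᵥ g = f ⬝ᵥ A g) (hB : ∀ f g, B f ⬝ᵥ g = f ⬝ᵥ B g)
    (hAA : ∀ f, A (A f) = A f) (hBB : ∀ f, B (B f) = B f) (f : Ω → ℝ)
    (hc : A (B f) = B (A f)) : A f ⬝ᵥ B f = A (B f) ⬝ᵥ A (B f) := by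
  calc A f ⬝ᵥ B f = f ⬝ᵥ A (B f) := hA f (B f)
    _ = f ⬝ᵥ B (A f) := by rw [hc]
    _ = f ⬝ᵥ B (B (A f)) := by rw [hBB]
    _ = B f ⬝ᵥ B (A f) := (hB f _).symm
    _ = B f ⬝ᵥ A (B f) := by rw [hc]
    _ = B f ⬝ᵥ A (A (B f)) := by rw [hAA]
    _ = A (B f) ⬝ᵥ A (B f) := (hA _ _).symm

end

section
variable {r q : Ω → Ω → Prop} [DecidableRel r] [DecidableRel q]

/-- The difference of two nested averages is symmetric. -/
theorem diff_symm (hr : Equivalence r) (hq : Equivalence q) (f g : Ω → ℝ) :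
    (avg r f - avg q f) ⬝ᵥ g = f ⬝ᵥ (avg r g - avg q g) := by
  rw [sub_dotProduct, dotProduct_sub, avg_dot hr, avg_dot hq]

/-- The difference of two nested averages is idempotent. -/
theorem diff_idem (hr : Equivalence r) (hq : Equivalence q) (hrq : ∀ x y, r x y → q x y)
    (f : Ω → ℝ) : avg r (avg r f - avg q f) - avg q (avg r f - avg q f) = avg r f - avg q f := by
  rw [avg_sub, avg_sub, avg_avg hr, avg_avg hq, avg_of_coarser hr hq hrq, avg_tower hr hq hrq]
  abel

/-- Complement of an average is symmetric. -/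
theorem compl_symm (hr : Equivalence r) (f g : Ω → ℝ) :
    (f - avg r f) ⬝ᵥ g = f ⬝ᵥ (g - avg r g) := by
  rw [sub_dotProduct, dotProduct_sub, avg_dot hr]

theorem compl_idem (hr : Equivalence r) (f : Ω → ℝ) :
    (f - avg r f) - avg r (f - avg r f) = f - avg r f := by
  rw [avg_sub, avg_avg hr]
  abel

end

/-- The inequality for a pair of nested relations. -/
theorem pair_ineq {rp rpc rq rqc : Ω → Ω → Prop} [DecidableRel rp] [DecidableRel rpc]
    [DecidableRel rq] [DecidableRel rqc]
    (hrp : Equivalence rp) (hrpc : Equivalence rpc) (hrq : Equivalence rq) (hrqc : Equivalence rqc)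
    (hpc : ∀ x y, rpc x y → rp x y) (hqc : ∀ x y, rqc x y → rq x y)
    (T : Ω → Ω) (hT : Function.Involutive T) (hT1 : ∀ x, rpc x (T x)) (hT2 : ∀ x, rqc x (T x))
    (c1 : ∀ f, avg rpc (avg rq f) = avg rq (avg rpc f))
    (c2 : ∀ f, avg rqc (avg rp f) = avg rp (avg rqc f))
    (c3 : ∀ f, avg rpc (avg rqc f) = avg rqc (avg rpc f)) (f : Ω → ℝ) :
    (1 / 4) * ∑ x, (f x - f (T x)) ^ 2 + (avg rpc f - avg rp f) ⬝ᵥ (avg rqc f - avg rq f)
      ≤ (f - avg rp f) ⬝ᵥ (f - avg rq f) := by
  set Cp := avg rpc f - avg rp f with hCp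
  set Cq := avg rqc f - avg rq f with hCq
  have e1 : f - avg rp f = (f - avg rpc f) + Cp := by rw [hCp]; abel
  have e2 : f - avg rq f = (f - avg rqc f) + Cq := by rw [hCq]; abel
  have hA : 0 ≤ Cp ⬝ᵥ (f - avg rqc f) := by
    have := dot_eq_of_comm_at (fun g => avg rpc g - avg rp g) (fun g => g - avg rqc g)
      (fun g k => diff_symm hrpc hrp g k) (fun g k => compl_symm hrqc g k)
      (fun g => diff_idem hrpc hrp hpc g) (fun g => compl_idem hrqc g) f
      (by
        simp only [avg_sub]
        rw [c3 f, ← c2 f]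
        abel)
    beta_reduce at this
    rw [← hCp] at this
    rw [this]
    exact dot_self_nonneg _
  have hB : (1 / 4) * ∑ x, (f x - f (T x)) ^ 2 ≤ (f - avg rpc f) ⬝ᵥ (f - avg rq f) := by
    have h1 := dot_eq_of_comm_at (fun g => g - avg rpc g) (fun g => g - avg rq g)
      (fun g k => compl_symm hrpc g k) (fun g k => compl_symm hrq g k)
      (fun g => compl_idem hrpc g) (fun g => compl_idem hrq g) f
      (by
        simp only [avg_sub]
        rw [c1 f]
        abel)
    beta_reduce at h1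
    rw [h1]
    set z := (f - avg rq f) - avg rpc (f - avg rq f) with hz
    have hzT : ∀ x, z x - z (T x) = f x - f (T x) := by
      intro x
      have m1 : avg rq f x = avg rq f (T x) :=
        avg_meas hrq f x (T x) (hqc _ _ (hT2 x))
      have m2 : avg rpc (f - avg rq f) x = avg rpc (f - avg rq f) (T x) :=
        avg_meas hrpc _ x (T x) (hT1 x)
      simp only [hz, Pi.sub_apply]
      rw [m1, m2]
      ring
    have h2 : ∑ x, (z x - z (T x)) ^ 2 ≤ 4 * (z ⬝ᵥ z) := by
      have h3 : ∑ x, z (T x) * z (T x) = ∑ x, z x * z x :=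
        Equiv.sum_comp hT.toPerm (fun x => z x * z x)
      have h4 : ∑ x, (z x - z (T x)) ^ 2
          ≤ ∑ x, (2 * (z x * z x) + 2 * (z (T x) * z (T x))) := by
        apply Finset.sum_le_sum
        intro x _
        nlinarith [sq_nonneg (z x + z (T x))]
      rw [Finset.sum_add_distrib, ← Finset.mul_sum, ← Finset.mul_sum, h3] at h4
      unfold dotProduct
      linarith
    simp only [hzT] at h2
    linarith
  have e3 : Cp ⬝ᵥ (f - avg rq f) = Cp ⬝ᵥ (f - avg rqc f) + Cp ⬝ᵥ Cq := by
    rw [e2, dotProduct_add]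
  rw [e1, add_dotProduct, e3]
  linarith

section res
variable {r : Ω → Ω → Prop} [DecidableRel r] {O : Ω → Prop} [DecidablePred O]

/-- The relation `r` on the part `O`, equality elsewhere. -/
def resO (O : Ω → Prop) (r : Ω → Ω → Prop) (x y : Ω) : Prop := (r x y ∧ O x) ∨ x = y

open Classical in
noncomputable instance : DecidableRel (resO O r) := fun _ _ => Classical.propDecidable _

theorem resO_equiv (hr : Equivalence r) (hO : ∀ x y, r x y → (O x ↔ O y)) :
    Equivalence (resO O r) := by
  refine ⟨fun x => Or.inr rfl, ?_, ?_⟩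
  · rintro x y (⟨h1, h2⟩ | rfl)
    · exact Or.inl ⟨hr.symm h1, (hO x y h1).mp h2⟩
    · exact Or.inr rfl
  · rintro x y z (⟨h1, h2⟩ | rfl) (⟨h3, h4⟩ | rfl)
    · exact Or.inl ⟨hr.trans h1 h3, h2⟩
    · exact Or.inl ⟨h1, h2⟩
    · exact Or.inl ⟨h3, h4⟩
    · exact Or.inr rfl

theorem avg_supp (hr : Equivalence r) (hO : ∀ x y, r x y → (O x ↔ O y)) {f : Ω → ℝ}
    (hf : ∀ x, ¬ O x → f x = 0) {x : Ω} (hx : ¬ O x) : avg r f x = 0 := by
  unfold avg
  have : ∑ y ∈ univ.filter (r x), f y = 0 := by
    apply Finset.sum_eq_zero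
    intro y hy
    have h1 : r x y := by simpa using hy
    exact hf y (fun h2 => hx ((hO x y h1).mpr h2))
  rw [this, zero_div]

theorem avg_resO_of_supp (hr : Equivalence r) (hO : ∀ x y, r x y → (O x ↔ O y)) {f : Ω → ℝ}
    (hf : ∀ x, ¬ O x → f x = 0) : avg (resO O r) f = avg r f := by
  funext x
  by_cases hx : O x
  · have : univ.filter (resO O r x) = univ.filter (r x) := by
      ext y
      simp only [mem_filter, mem_univ, true_and, resO]
      constructor
      · rintro (⟨h1, -⟩ | rfl)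
        · exact h1
        · exact hr.refl x
      · intro h1
        exact Or.inl ⟨h1, hx⟩
    unfold avg
    rw [this]
  · rw [avg_supp hr hO hf hx]
    have : univ.filter (resO O r x) = {x} := by
      ext y
      simp only [mem_filter, mem_univ, true_and, resO, mem_singleton]
      constructor
      · rintro (⟨-, h2⟩ | h1)
        · exact absurd h2 hx
        · exact h1.symm
      · intro h1
        exact Or.inr h1.symm
    unfold avg
    rw [this]
    simp [hf x hx]

/-- Restriction of a function to a part. -/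
def restr (O : Ω → Prop) [DecidablePred O] (f : Ω → ℝ) : Ω → ℝ := fun x => if O x then f x else 0

theorem restr_supp (f : Ω → ℝ) (x : Ω) (hx : ¬ O x) : restr O f x = 0 := by
  simp [restr, hx]

theorem avg_restr (hr : Equivalence r) (hO : ∀ x y, r x y → (O x ↔ O y)) (f : Ω → ℝ) (x : Ω) :
    avg r (restr O f) x = if O x then avg r f x else 0 := by
  by_cases hx : O x
  · rw [if_pos hx]
    unfold avg
    congr 1
    apply Finset.sum_congr rfl
    intro y hy
    have h1 : r x y := by simpa using hy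
    simp [restr, (hO x y h1).mp hx]
  · rw [if_neg hx]
    exact avg_supp hr hO (restr_supp f) hx

/-- Commutation on functions supported on the part. -/
theorem comm_supp {s : Ω → Ω → Prop} [DecidableRel s] (hr : Equivalence r) (hs : Equivalence s)
    (hOr : ∀ x y, r x y → (O x ↔ O y)) (hOs : ∀ x y, s x y → (O x ↔ O y))
    (hc : ∀ f, avg (resO O r) (avg (resO O s) f) = avg (resO O s) (avg (resO O r) f))
    {f : Ω → ℝ} (hf : ∀ x, ¬ O x → f x = 0) : avg r (avg s f) = avg s (avg r f) := by
  have h1 : ∀ x, ¬ O x → avg s f x = 0 := fun x hx => avg_supp hs hOs hf hx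
  have h2 : ∀ x, ¬ O x → avg r f x = 0 := fun x hx => avg_supp hr hOr hf hx
  rw [← avg_resO_of_supp hr hOr h1, ← avg_resO_of_supp hs hOs h2, ← avg_resO_of_supp hs hOs hf,
    ← avg_resO_of_supp hr hOr hf]
  exact hc f

end res

end Vale.Agent.Lib.P335
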