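import Vale.Agent.Lib.P335.KFib
import Vale.Agent.Lib.P335.KProj

/-!
Two disjoint pairs of vertices: the commutation of averages, and the lower bound on the pairing.
-/

namespace Vale.Agent.Lib.P335

open Finset Matrix

variable {n : ℕ} {d : Fin n → ℕ}

theorem ind_le (x : Realizations d) (u v : Fin n) : ind x u v ≤ 1 := by
  unfold ind
  split_ifs <;> simp

theorem ind_one {x : Realizations d} {u v : Fin n} (h : ad x u v) : ind x u v = 1 := by
  simp [ind, h]

theorem ind_zero {x : Realizations d} {u v : Fin n} (h : ¬ ad x u v) : ind x u v = 0 := by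
  simp [ind, h]

theorem ad_of_ind_one {x : Realizations d} {u v : Fin n} (h : ind x u v = 1) : ad x u v := by
  by_contra h1
  rw [ind_zero h1] at h
  omega

theorem not_ad_of_ind_zero {x : Realizations d} {u v : Fin n} (h : ind x u v = 0) : ¬ ad x u v := by
  intro h1
  rw [ind_one h1] at h
  omega

/-- A toggle exchanging two other columns keeps the entries of row `a` in column `c`. -/
theorem ad_tg_other {x : Realizations d} {a b c v w : Fin n} (h1 : c ≠ a) (h2 : c ≠ b) (h3 : c ≠ v)
    (h4 : c ≠ w) (u : Fin n) (hu : u = a ∨ u = b) : ad (tg a b v w x) u c ↔ ad x u c := by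
  rw [ad_tg]
  have : ¬ onC a b v w u c := by
    unfold onC
    rcases hu with rfl | rfl <;> simp [h1, h2, h3, h4]
  simp [this]

theorem cntV_tg_other {x : Realizations d} {a b c e v w : Fin n} (h1 : c ≠ a) (h2 : c ≠ b) (h3 : c ≠ v)
    (h4 : c ≠ w) (h5 : e ≠ a) (h6 : e ≠ b) (h7 : e ≠ v) (h8 : e ≠ w) (u : Fin n)
    (hu : u = a ∨ u = b) : cntV (tg a b v w x) u c e = cntV x u c e := by
  unfold cntV
  rw [ind_congr (ad_tg_other h1 h2 h3 h4 u hu), ind_congr (ad_tg_other h5 h6 h7 h8 u hu)]

/-- The row of `a` on `c`, `e` is kept by the toggle on `c`, `e`. -/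
theorem relV_tg_self {a b c e : Fin n} (hD : Dist4 a b c e) (x : Realizations d) :
    relV a b c e x (tg a b c e x) := by
  obtain ⟨h1, h2, h3, h4, h5, h6⟩ := hD
  exact ⟨rel_tg_left a b c e x, cnt_fix h2 (rel_tg_right a b c e x) h3 h4⟩

theorem relV_tg_other {a b c e v w : Fin n} (hD : Dist4 a b c e) (h1 : v ≠ c) (h2 : v ≠ e) (h3 : w ≠ c)
    (h4 : w ≠ e) (x : Realizations d) : relV a b c e x (tg a b v w x) := by
  obtain ⟨d1, d2, d3, d4, d5, d6⟩ := hD
  exact ⟨rel_tg_left a b v w x, (cntV_tg_other d3.symm d5.symm h1.symm h3.symm d4.symm d6.symm h2.symm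
    h4.symm a (Or.inl rfl)).symm⟩

/-- The row induction for `relV`. -/
theorem relV_conn {a b c e : Fin n} (hD : Dist4 a b c e) (φ : Realizations d → ℝ)
    (h1 : ∀ v w x, v ≠ c → v ≠ e → w ≠ c → w ≠ e → φ (tg a b v w x) = φ x)
    (h2 : ∀ x, φ (tg a b c e x) = φ x) : Meas (relV a b c e) φ := by
  have hab : a ≠ b := hD.1
  have hE := relV_equiv (d := d) a b c e
  apply row_induct hab (relV a b c e) φ (fun x y h => h.1)
  intro x y hxy hne
  obtain ⟨v, hv1, hv2⟩ := mu_pos_of_ne hab hxy.1 hne
  have hcnt := hxy.2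
  unfold cntV at hcnt
  have hc1 := ind_le x a c
  have hc2 := ind_le x a e
  have hc3 := ind_le y a c
  have hc4 := ind_le y a e
  by_cases hvc : v = c
  · subst hvc
    rw [ind_one hv1, ind_zero hv2] at hcnt
    have h3 : ind x a e = 0 := by omega
    have h4 : ind y a e = 1 := by omega
    exact ⟨tg a b v e x, hE.trans (hE.symm (relV_tg_self hD x)) hxy, h2 x,
      mu_tg_lt hab hxy.1 hv1 hv2 (not_ad_of_ind_zero h3) (ad_of_ind_one h4)⟩
  by_cases hve : v = e
  · subst hve
    rw [ind_one hv1, ind_zero hv2] at hcnt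
    have h3 : ind x a c = 0 := by omega
    have h4 : ind y a c = 1 := by omega
    refine ⟨tg a b c v x, hE.trans (hE.symm (relV_tg_self hD x)) hxy, h2 x, ?_⟩
    have := mu_tg_lt hab hxy.1 hv1 hv2 (not_ad_of_ind_zero h3) (ad_of_ind_one h4)
    rwa [tg_symm2] at this
  -- a column outside the pair
  have hex : ∃ w, w ≠ c ∧ w ≠ e ∧ ¬ ad x a w ∧ ad y a w := by
    by_contra hcon
    push Not at hcon
    have hs1 := sum_ind x a
    have hs2 := sum_ind y a
    rw [sum_split_pair _ hD.2.1] at hs1 hs2
    have hlt : ∑ u, (if u ≠ c ∧ u ≠ e then ind y a u else 0)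
        < ∑ u, (if u ≠ c ∧ u ≠ e then ind x a u else 0) := by
      apply Finset.sum_lt_sum
      · intro u _
        by_cases hu : u ≠ c ∧ u ≠ e
        · rw [if_pos hu, if_pos hu]
          by_cases h5 : ad y a u
          · by_cases h6 : ad x a u
            · rw [ind_one h5, ind_one h6]
            · exact absurd h5 (hcon u hu.1 hu.2 h6)
          · rw [ind_zero h5]
            omega
        · rw [if_neg hu, if_neg hu]
      · refine ⟨v, mem_univ v, ?_⟩
        rw [if_pos ⟨hvc, hve⟩, if_pos ⟨hvc, hve⟩, ind_one hv1, ind_zero hv2]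
        omega
    omega
  obtain ⟨w, hw1, hw2, hw3, hw4⟩ := hex
  exact ⟨tg a b v w x, hE.trans (hE.symm (relV_tg_other hD hvc hve hw1 hw2 x)) hxy,
    h1 v w x hvc hve hw1 hw2, mu_tg_lt hab hxy.1 hv1 hv2 hw3 hw4⟩

/-- Averaging for `relV` commutes with averaging for a relation compatible with the moves. -/
theorem comm_relV {a b c e : Fin n} (hD : Dist4 a b c e) {s : Realizations d → Realizations d → Prop}
    [DecidableRel s] (hs : Equivalence s)
    (h1 : ∀ v w x y, v ≠ c → v ≠ e → w ≠ c → w ≠ e → s x y → s (tg a b v w x) (tg a b v w y))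
    (h2 : ∀ x, s x (tg a b c e x)) (f : Realizations d → ℝ) :
    avg (relV a b c e) (avg s f) = avg s (avg (relV a b c e) f) := by
  apply comm_of_moves (relV_equiv a b c e) hs
    (fun m => (∃ v w, v ≠ c ∧ v ≠ e ∧ w ≠ c ∧ w ≠ e ∧ m = tg a b v w) ∨ m = tg a b c e)
  · rintro m (⟨v, w, -, -, -, -, rfl⟩ | rfl)
    · exact tg_invol a b v w
    · exact tg_invol a b c e
  · rintro m (⟨v, w, h3, h4, h5, h6, rfl⟩ | rfl)
    · exact fun x => relV_tg_other hD h3 h4 h5 h6 x
    · exact fun x => relV_tg_self hD x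
  · rintro m (⟨v, w, h3, h4, h5, h6, rfl⟩ | rfl)
    · exact fun x y hxy => h1 v w x y h3 h4 h5 h6 hxy
    · exact fun x y hxy => hs.trans (hs.symm (h2 x)) (hs.trans hxy (h2 y))
  · intro φ hφ
    apply relV_conn hD φ
    · intro v w x h3 h4 h5 h6
      exact hφ _ (Or.inl ⟨v, w, h3, h4, h5, h6, rfl⟩) x
    · intro x
      exact hφ _ (Or.inr rfl) x

theorem dist4_rot {a b c e : Fin n} (h : Dist4 a b c e) : Dist4 c e a b := by
  obtain ⟨h1, h2, h3, h4, h5, h6⟩ := h
  exact ⟨h2, h1, h3.symm, h5.symm, h4.symm, h6.symm⟩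

/-- First commutation: the relation `relV` on `{a, b}` and agreement off `{c, e}`. -/
theorem comm1 {a b c e : Fin n} (hD : Dist4 a b c e) (f : Realizations d → ℝ) :
    avg (relV a b c e) (avg (rel {c, e}) f) = avg (rel {c, e}) (avg (relV a b c e) f) := by
  obtain ⟨h1, h2, h3, h4, h5, h6⟩ := hD
  apply comm_relV ⟨h1, h2, h3, h4, h5, h6⟩ (rel_equiv _)
  · intro v w x y hv1 hv2 hw1 hw2 hxy
    apply rel_tg_congr _ _ _ _ hxy <;> simp [*]
  · exact rel_tg_right a b c e

/-- Second commutation. -/
theorem comm3 {a b c e : Fin n} (hD : Dist4 a b c e) (f : Realizations d → ℝ) :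
    avg (relV a b c e) (avg (relV c e a b) f) = avg (relV c e a b) (avg (relV a b c e) f) := by
  obtain ⟨h1, h2, h3, h4, h5, h6⟩ := hD
  apply comm_relV ⟨h1, h2, h3, h4, h5, h6⟩ (relV_equiv _ _ _ _)
  · intro v w x y hv1 hv2 hw1 hw2 hxy
    refine ⟨?_, ?_⟩
    · apply rel_tg_congr _ _ _ _ hxy.1 <;> simp [*]
    · exact (cnt_fix h1 (rel_tg_left a b v w x) h3.symm h5.symm).symm.trans
        (hxy.2.trans (cnt_fix h1 (rel_tg_left a b v w y) h3.symm h5.symm))
  · intro x
    have := relV_tg_self (dist4_rot ⟨h1, h2, h3, h4, h5, h6⟩) x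
    rwa [tg_symm3] at this

/-- Total of the four cells. -/
def szz (x : Realizations d) (a b c e : Fin n) : ℕ := cntV x a c e + cntV x b c e

theorem szz_rot (x : Realizations d) (a b c e : Fin n) : szz x c e a b = szz x a b c e := by
  unfold szz cntV
  rw [ind_comm x c a, ind_comm x c b, ind_comm x e a, ind_comm x e b]
  omega

theorem szz_rel_right {a b c e : Fin n} (hD : Dist4 a b c e) {x y : Realizations d}
    (h : rel {c, e} x y) : szz x a b c e = szz y a b c e := by
  obtain ⟨h1, h2, h3, h4, h5, h6⟩ := hD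
  unfold szz
  rw [cnt_fix h2 h h3 h4, cnt_fix h2 h h5 h6]

theorem szz_rel_left {a b c e : Fin n} (hD : Dist4 a b c e) {x y : Realizations d}
    (h : rel {a, b} x y) : szz x a b c e = szz y a b c e := by
  rw [← szz_rot, ← szz_rot y]
  exact szz_rel_right (dist4_rot hD) h

/-- The column of the pair `c`, `e` with total one. -/
def cstar (a b c e : Fin n) (x : Realizations d) : Fin n := if cntV x c a b = 1 then c else e

/-- The odd part. -/
def OddP (a b c e : Fin n) (x : Realizations d) : Prop := szz x a b c e % 2 = 1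

instance (a b c e : Fin n) : DecidablePred (OddP (d := d) a b c e) := fun x => by
  unfold OddP
  infer_instance

theorem cstar_rel {a b c e : Fin n} (hab : a ≠ b) (hc1 : c ≠ a) (hc2 : c ≠ b) {x y : Realizations d}
    (h : rel {a, b} x y) : cstar a b c e x = cstar a b c e y := by
  unfold cstar
  rw [cnt_fix hab h hc1 hc2]

theorem cstar_mem (a b c e : Fin n) (x : Realizations d) : cstar a b c e x = c ∨ cstar a b c e x = e := by
  unfold cstar
  split_ifs <;> simp

/-- Counts on the four cells, in the rows. -/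
theorem cstar_bool {z1 z2 z3 z4 y1 y2 y3 y4 : ℕ} (h1 : z1 ≤ 1) (h2 : z2 ≤ 1) (h3 : z3 ≤ 1) (h4 : z4 ≤ 1)
    (h5 : y1 ≤ 1) (h6 : y2 ≤ 1) (h7 : y3 ≤ 1) (h8 : y4 ≤ 1) (h9 : z1 + z2 = y1 + y2)
    (h10 : z3 + z4 = y3 + y4) (h11 : (z1 + z2 + z3 + z4) % 2 = 1) :
    (if z1 + z3 = 1 then z1 else z2) = (if y1 + y3 = 1 then y1 else y2) ∧
      (if z1 + z3 = 1 then z3 else z4) = (if y1 + y3 = 1 then y3 else y4) := by
  split_ifs <;> omega

/-- The cells of the column `cstar` agree for two realizations agreeing off `c`, `e` in the odd part. -/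
theorem cstar_cells {a b c e : Fin n} (hD : Dist4 a b c e) {x y : Realizations d} (h : rel {c, e} x y)
    (hO : OddP a b c e x) :
    (ad x a (cstar a b c e x) ↔ ad y a (cstar a b c e y)) ∧
      (ad x b (cstar a b c e x) ↔ ad y b (cstar a b c e y)) := by
  obtain ⟨d1, d2, d3, d4, d5, d6⟩ := hD
  have h9 : ind x a c + ind x a e = ind y a c + ind y a e := cnt_fix d2 h d3 d4
  have h10 : ind x b c + ind x b e = ind y b c + ind y b e := cnt_fix d2 h d5 d6
  have h11 : (ind x a c + ind x a e + ind x b c + ind x b e) % 2 = 1 := by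
    unfold OddP szz cntV at hO
    rwa [← add_assoc] at hO
  have key := cstar_bool (ind_le x a c) (ind_le x a e) (ind_le x b c) (ind_le x b e) (ind_le y a c)
    (ind_le y a e) (ind_le y b c) (ind_le y b e) h9 h10 h11
  have ex : ∀ z : Realizations d, (cntV z c a b = 1) ↔ ind z a c + ind z b c = 1 := by
    intro z
    unfold cntV
    rw [ind_comm z c a, ind_comm z c b]
  unfold cstar
  simp only [ex]
  by_cases hx : ind x a c + ind x b c = 1 <;> by_cases hy : ind y a c + ind y b c = 1 <;>
    simp only [hx, hy, if_true, if_false] at key ⊢ <;>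
    exact ⟨ad_of_ind key.1, ad_of_ind key.2⟩

/-- The move with the column `cstar`. -/
noncomputable def mO (a b c e v : Fin n) (x : Realizations d) : Realizations d :=
  if OddP a b c e x then tg a b v (cstar a b c e x) x else x

/-- The plain move on the odd part. -/
noncomputable def pO (a b c e v w : Fin n) (x : Realizations d) : Realizations d :=
  if OddP a b c e x then tg a b v w x else x

theorem oddP_tg {a b c e : Fin n} (hD : Dist4 a b c e) (v w : Fin n) (x : Realizations d) :
    OddP a b c e (tg a b v w x) ↔ OddP a b c e x := by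
  unfold OddP
  rw [szz_rel_left hD (rel_tg_left a b v w x)]

theorem pO_invol {a b c e : Fin n} (hD : Dist4 a b c e) (v w : Fin n) :
    Function.Involutive (pO (d := d) a b c e v w) := by
  intro x
  unfold pO
  by_cases h : OddP a b c e x
  · rw [if_pos h, if_pos ((oddP_tg hD v w x).mpr h), tg_invol]
  · rw [if_neg h, if_neg h]

theorem mO_invol {a b c e : Fin n} (hD : Dist4 a b c e) (v : Fin n) :
    Function.Involutive (mO (d := d) a b c e v) := by
  intro x
  unfold mO
  by_cases h : OddP a b c e x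
  · rw [if_pos h, if_pos ((oddP_tg hD v _ x).mpr h),
      ← cstar_rel hD.1 hD.2.2.1.symm hD.2.2.2.2.1.symm (rel_tg_left a b v (cstar a b c e x) x), tg_invol]
  · rw [if_neg h, if_neg h]

theorem oddP_rel_left {a b c e : Fin n} (hD : Dist4 a b c e) (x y : Realizations d)
    (h : rel {a, b} x y) : OddP a b c e x ↔ OddP a b c e y := by
  unfold OddP
  rw [szz_rel_left hD h]

theorem oddP_rel_right {a b c e : Fin n} (hD : Dist4 a b c e) (x y : Realizations d)
    (h : rel {c, e} x y) : OddP a b c e x ↔ OddP a b c e y := by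
  unfold OddP
  rw [szz_rel_right hD h]

/-- Compatibility of the move with the column `cstar`. -/
theorem rel_mO {a b c e v : Fin n} (hD : Dist4 a b c e) (hv1 : v ≠ c) (hv2 : v ≠ e) {x y : Realizations d}
    (h : rel {c, e} x y) (hO : OddP a b c e x) :
    rel {c, e} (tg a b v (cstar a b c e x) x) (tg a b v (cstar a b c e y) y) := by
  obtain ⟨d1, d2, d3, d4, d5, d6⟩ := hD
  have hnot : ∀ u, u = a ∨ u = b ∨ u = v → u ∉ ({c, e} : Finset (Fin n)) := by
    rintro u (rfl | rfl | rfl) <;> simp [*]
  obtain ⟨k1, k2⟩ := cstar_cells ⟨d1, d2, d3, d4, d5, d6⟩ h hO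
  have hav := h a v (hnot a (Or.inl rfl)) (hnot v (Or.inr (Or.inr rfl)))
  have hbv := h b v (hnot b (Or.inr (Or.inl rfl))) (hnot v (Or.inr (Or.inr rfl)))
  have hne : ∀ t, t = c ∨ t = e → (Dist4 a b v t ↔ (a ≠ v ∧ b ≠ v)) := by
    rintro t (rfl | rfl)
    · unfold Dist4
      simp [d1, d3, d5, hv1]
    · unfold Dist4
      simp [d1, d4, d6, hv2]
  have hact : act x a b v (cstar a b c e x) ↔ act y a b v (cstar a b c e y) := by
    unfold act altP
    have hD1 := hne _ (cstar_mem a b c e x)
    have hD2 := hne _ (cstar_mem a b c e y)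
    have hD3 : Dist4 a b (cstar a b c e x) v ↔ (a ≠ v ∧ b ≠ v) := by
      rw [← hD1]
      exact ⟨dist4_swap, dist4_swap⟩
    have hD4 : Dist4 a b (cstar a b c e y) v ↔ (a ≠ v ∧ b ≠ v) := by
      rw [← hD2]
      exact ⟨dist4_swap, dist4_swap⟩
    rw [hD1, hD2, hD3, hD4, hav, hbv, k1, k2]
  intro u w hu hw
  have hu' : u ≠ c ∧ u ≠ e := by simpa using hu
  have hw' : w ≠ c ∧ w ≠ e := by simpa using hw
  have honC : ∀ t, t = c ∨ t = e → (onC a b v t u w ↔
      ((u = a ∨ u = b) ∧ w = v) ∨ (u = v ∧ (w = a ∨ w = b))) := by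
    rintro t (rfl | rfl) <;> unfold onC <;> simp [hu'.1, hu'.2, hw'.1, hw'.2]
  simp only [ad_tg, honC _ (cstar_mem a b c e x), honC _ (cstar_mem a b c e y), hact, h u w hu hw]

/-- In the odd part, a column of the pair `c`, `e` with both row entries different is `cstar`. -/
theorem cstar_eq {a b c e : Fin n} (hD : Dist4 a b c e) {x : Realizations d} (hO : OddP a b c e x)
    {t : Fin n} (ht : t = c ∨ t = e) (h1 : cntV x t a b = 1) : cstar a b c e x = t := by
  unfold cstar
  rcases ht with rfl | rfl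
  · rw [if_pos h1]
  · rw [if_neg]
    intro h2
    unfold OddP at hO
    rw [← szz_rot] at hO
    unfold szz at hO
    omega

theorem cnt_one_of_row {a b t : Fin n} {x : Realizations d} (h1 : ad x a t) (h2 : ¬ ad x b t) :
    cntV x t a b = 1 := by
  unfold cntV
  rw [ind_comm x t a, ind_comm x t b, ind_one h1, ind_zero h2]

theorem cnt_one_of_row' {a b t : Fin n} {x : Realizations d} (h1 : ¬ ad x a t) (h2 : ad x b t) :
    cntV x t a b = 1 := by
  unfold cntV
  rw [ind_comm x t a, ind_comm x t b, ind_zero h1, ind_one h2]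

/-- Commutation in the odd part. -/
theorem comm4 {a b c e : Fin n} (hD : Dist4 a b c e) (f : Realizations d → ℝ) :
    avg (resO (OddP a b c e) (rel {a, b})) (avg (resO (OddP a b c e) (rel {c, e})) f)
      = avg (resO (OddP a b c e) (rel {c, e})) (avg (resO (OddP a b c e) (rel {a, b})) f) := by
  have hab := hD.1
  have hE1 := resO_equiv (O := OddP a b c e) (rel_equiv (d := d) {a, b}) (oddP_rel_left hD)
  have hE2 := resO_equiv (O := OddP a b c e) (rel_equiv (d := d) {c, e}) (oddP_rel_right hD)
  apply comm_of_moves hE1 hE2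
    (fun m => (∃ v w, v ≠ c ∧ v ≠ e ∧ w ≠ c ∧ w ≠ e ∧ m = pO a b c e v w) ∨
      (∃ v, v ≠ c ∧ v ≠ e ∧ m = mO a b c e v))
  · rintro m (⟨v, w, -, -, -, -, rfl⟩ | ⟨v, -, -, rfl⟩)
    · exact pO_invol hD v w
    · exact mO_invol hD v
  · rintro m (⟨v, w, -, -, -, -, rfl⟩ | ⟨v, -, -, rfl⟩) x
    · unfold pO
      by_cases h : OddP a b c e x
      · rw [if_pos h]
        exact Or.inl ⟨rel_tg_left a b v w x, h⟩
      · rw [if_neg h]
        exact Or.inr rfl
    · unfold mO
      by_cases h : OddP a b c e x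
      · rw [if_pos h]
        exact Or.inl ⟨rel_tg_left a b v _ x, h⟩
      · rw [if_neg h]
        exact Or.inr rfl
  · rintro m (⟨v, w, h1, h2, h3, h4, rfl⟩ | ⟨v, h1, h2, rfl⟩) x y hxy
    · rcases hxy with ⟨h5, h6⟩ | rfl
      · have h7 := (oddP_rel_right hD x y h5).mp h6
        unfold pO
        rw [if_pos h6, if_pos h7]
        refine Or.inl ⟨?_, (oddP_tg hD v w x).mpr h6⟩
        obtain ⟨d1, d2, d3, d4, d5, d6⟩ := hD
        apply rel_tg_congr _ _ _ _ h5 <;> simp [*]
      · exact Or.inr rfl
    · rcases hxy with ⟨h5, h6⟩ | rfl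
      · have h7 := (oddP_rel_right hD x y h5).mp h6
        unfold mO
        rw [if_pos h6, if_pos h7]
        exact Or.inl ⟨rel_mO hD h1 h2 h5 h6, (oddP_tg hD v _ x).mpr h6⟩
      · exact Or.inr rfl
  · intro φ hφ
    rintro x y (⟨hxy, hO⟩ | rfl)
    · have hφ1 : ∀ v w x, v ≠ c → v ≠ e → w ≠ c → w ≠ e → OddP a b c e x → φ (tg a b v w x) = φ x := by
        intro v w x h1 h2 h3 h4 h5
        have := hφ _ (Or.inl ⟨v, w, h1, h2, h3, h4, rfl⟩) x
        unfold pO at this
        rwa [if_pos h5] at this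
      have hφ2 : ∀ v x, v ≠ c → v ≠ e → OddP a b c e x → φ (tg a b v (cstar a b c e x) x) = φ x := by
        intro v x h1 h2 h5
        have := hφ _ (Or.inr ⟨v, h1, h2, rfl⟩) x
        unfold mO at this
        rwa [if_pos h5] at this
      refine row_induct hab (fun x y => rel {a, b} x y ∧ OddP a b c e x) φ (fun x y h => h.1) ?_ x y
        ⟨hxy, hO⟩
      rintro x y ⟨hxy, hO⟩ hne
      obtain ⟨v, hv1, hv2⟩ := mu_pos_of_ne hab hxy hne
      have hw : ∃ w, ad y a w ∧ ¬ ad x a w := by
        by_contra hcon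
        push Not at hcon
        have h0 : 0 < mu a x y := Finset.card_pos.mpr ⟨v, by simp [hv1, hv2]⟩
        rw [mu_symm] at h0
        obtain ⟨w, hw⟩ := Finset.card_pos.mp h0
        simp only [mem_filter, mem_univ, true_and] at hw
        exact hw.2 (hcon w hw.1)
      obtain ⟨w, hw1, hw2⟩ := hw
      have hlt := mu_tg_lt hab hxy hv1 hv2 hw2 hw1
      have hrel : rel {a, b} (tg a b v w x) y := (rel_equiv _).trans ((rel_equiv _).symm (rel_tg_left a b v w x)) hxy
      have hOdd : OddP a b c e (tg a b v w x) := (oddP_tg hD v w x).mpr hO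
      have hrv := row_change hab hxy hv1 hv2
      have hrw := row_change hab ((rel_equiv _).symm hxy) hw1 hw2
      refine ⟨tg a b v w x, ⟨hrel, hOdd⟩, ?_, hlt⟩
      by_cases hq1 : v = c ∨ v = e
      · have hv3 := cstar_eq hD hO hq1 (cnt_one_of_row hv1 hrv.2.2.1)
        by_cases hq2 : w = c ∨ w = e
        · exfalso
          have hw3 := cstar_eq hD hO hq2 (cnt_one_of_row' hw2 hrw.2.2.2)
          have hvw : v = w := hv3.symm.trans hw3
          subst hvw
          exact hw2 hv1
        · rw [tg_symm2, ← hv3]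
          push Not at hq2
          exact hφ2 w x hq2.1 hq2.2 hO
      · by_cases hq2 : w = c ∨ w = e
        · have hw3 := cstar_eq hD hO hq2 (cnt_one_of_row' hw2 hrw.2.2.2)
          rw [← hw3]
          push Not at hq1
          exact hφ2 v x hq1.1 hq1.2 hO
        · push Not at hq1 hq2
          exact hφ1 v w x hq1.1 hq1.2 hq2.1 hq2.2 hO
    · rfl

/-- Commutation on functions on the odd part. -/
theorem comm4' {a b c e : Fin n} (hD : Dist4 a b c e) {f : Realizations d → ℝ}
    (hf : ∀ x, ¬ OddP a b c e x → f x = 0) :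
    avg (rel {a, b}) (avg (rel {c, e}) f) = avg (rel {c, e}) (avg (rel {a, b}) f) :=
  comm_supp (rel_equiv _) (rel_equiv _) (oddP_rel_left hD) (oddP_rel_right hD) (comm4 hD) hf

/-- If the count cannot change in the class, the average for `relV` is the average for `rel`. -/
theorem avg_relV_eq {a b c e : Fin n} {x : Realizations d}
    (h : ∀ y, rel {a, b} x y → cntV x a c e = cntV y a c e) (f : Realizations d → ℝ) :
    avg (relV a b c e) f x = avg (rel {a, b}) f x := by
  unfold avg
  have : univ.filter (relV a b c e x) = univ.filter (rel {a, b} x) := by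
    ext y
    simp only [mem_filter, mem_univ, true_and]
    exact ⟨fun h1 => h1.1, fun h1 => ⟨h1, h y h1⟩⟩
  rw [this]

/-- If the column totals are not one in the even part, the average for `relV` is the average for
`rel`. -/
theorem Cp_zero {a b c e : Fin n} (hD : Dist4 a b c e) {x : Realizations d} (hO : ¬ OddP a b c e x)
    (hU : cntV x c a b ≠ 1) (f : Realizations d → ℝ) :
    avg (relV a b c e) f x = avg (rel {a, b}) f x := by
  apply avg_relV_eq
  intro y hy
  obtain ⟨d1, d2, d3, d4, d5, d6⟩ := hD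
  have h1 := cnt_fix d1 hy d3.symm d5.symm
  have h2 := cnt_fix d1 hy d4.symm d6.symm
  unfold OddP at hO
  rw [← szz_rot] at hO
  unfold szz at hO
  unfold cntV at h1 h2 hU hO ⊢
  rw [ind_comm x c a, ind_comm x c b, ind_comm y c a, ind_comm y c b] at h1
  rw [ind_comm x e a, ind_comm x e b, ind_comm y e a, ind_comm y e b] at h2
  rw [ind_comm x c a, ind_comm x c b] at hU
  rw [ind_comm x c a, ind_comm x c b, ind_comm x e a, ind_comm x e b] at hO
  have b1 := ind_le x a c
  have b2 := ind_le x a e
  have b3 := ind_le x b c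
  have b4 := ind_le x b e
  have b5 := ind_le y a c
  have b6 := ind_le y a e
  have b7 := ind_le y b c
  have b8 := ind_le y b e
  omega

/-- In the even part, total one in the column and in the row gives the alternating pattern. -/
theorem act_of_even {a b c e : Fin n} (hD : Dist4 a b c e) {x : Realizations d}
    (hO : ¬ OddP a b c e x) (hU : cntV x c a b = 1) (hV : cntV x a c e = 1) : act x a b c e := by
  unfold OddP szz at hO
  unfold cntV at hO hU hV
  rw [ind_comm x c a, ind_comm x c b] at hU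
  have b1 := ind_le x a c
  have b2 := ind_le x a e
  have b3 := ind_le x b c
  have b4 := ind_le x b e
  have hzero : ∀ {u v : Fin n}, ind x u v ≤ 1 → ind x u v ≠ 1 → ¬ ad x u v := by
    intro u v h1 h2 h3
    exact h2 (ind_one h3)
  by_cases h : ind x a c = 1
  · left
    refine ⟨hD, ad_of_ind_one h, ad_of_ind_one (by omega), hzero b2 (by omega), hzero b3 (by omega)⟩
  · right
    refine ⟨dist4_swap hD, ad_of_ind_one (by omega), ad_of_ind_one (by omega), hzero b1 h, hzero b4 (by omega)⟩

/-- The lower bound for a pair of disjoint pairs. -/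
theorem pair_lower {a b c e : Fin n} (hD : Dist4 a b c e) (f : Realizations d → ℝ) :
    (1 / 4) * ∑ x, (f x - f (tg a b c e x)) ^ 2
        - (1 / 2) * ∑ x, (if act x a b c e then
            (avg (relV a b c e) f x - avg (rel {a, b}) f x) ^ 2 else 0)
        - (1 / 2) * ∑ x, (if act x a b c e then
            (avg (relV c e a b) f x - avg (rel {c, e}) f x) ^ 2 else 0)
      ≤ (f - avg (rel {a, b}) f) ⬝ᵥ (f - avg (rel {c, e}) f) := by
  have hD' := dist4_rot hD
  have hab := hD.1
  have hce := hD.2.1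
  have hEp := rel_equiv (d := d) {a, b}
  have hEq := rel_equiv (d := d) {c, e}
  have hEpc := relV_equiv (d := d) a b c e
  have hEqc := relV_equiv (d := d) c e a b
  have hT1 : ∀ x : Realizations d, relV a b c e x (tg a b c e x) := fun x => relV_tg_self hD x
  have hT2 : ∀ x : Realizations d, relV c e a b x (tg a b c e x) := by
    intro x
    have := relV_tg_self hD' x
    rwa [tg_symm3] at this
  have hmain := pair_ineq hEp hEpc hEq hEqc (fun x y h => h.1) (fun x y h => h.1)
    (tg a b c e) (tg_invol a b c e) hT1 hT2 (fun f => comm1 hD f) (fun f => comm1 hD' f)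
    (fun f => comm3 hD f) f
  set Cp := avg (relV a b c e) f - avg (rel {a, b}) f with hCp
  set Cq := avg (relV c e a b) f - avg (rel {c, e}) f with hCq
  -- the odd part
  set O := OddP (d := d) a b c e with hOdef
  set g := restr O f with hg
  have hgs : ∀ x, ¬ O x → g x = 0 := restr_supp f
  have hOp : ∀ x y, rel {a, b} x y → (O x ↔ O y) := oddP_rel_left hD
  have hOq : ∀ x y, rel {c, e} x y → (O x ↔ O y) := oddP_rel_right hD
  have hOpc : ∀ x y, relV a b c e x y → (O x ↔ O y) := fun x y h => hOp x y h.1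
  have hOqc : ∀ x y, relV c e a b x y → (O x ↔ O y) := fun x y h => hOq x y h.1
  have hodd : 0 ≤ ∑ x, (if O x then Cp x * Cq x else 0) := by
    have h1 := dot_eq_of_comm_at (fun k => avg (relV a b c e) k - avg (rel {a, b}) k)
      (fun k => avg (relV c e a b) k - avg (rel {c, e}) k)
      (fun k l => diff_symm hEpc hEp k l) (fun k l => diff_symm hEqc hEq k l)
      (fun k => diff_idem hEpc hEp (fun x y h => h.1) k)
      (fun k => diff_idem hEqc hEq (fun x y h => h.1) k) g
      (by
        simp only [avg_sub]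
        rw [comm3 hD g, comm1 hD g, comm1 hD' g, comm4' hD hgs]
        abel)
    beta_reduce at h1
    have h2 : ∑ x, (if O x then Cp x * Cq x else 0)
        = (avg (relV a b c e) g - avg (rel {a, b}) g) ⬝ᵥ (avg (relV c e a b) g - avg (rel {c, e}) g) := by
      unfold dotProduct
      apply Finset.sum_congr rfl
      intro x _
      simp only [Pi.sub_apply, hg, avg_restr hEpc hOpc, avg_restr hEp hOp, avg_restr hEqc hOqc,
        avg_restr hEq hOq, hCp, hCq]
      by_cases hx : O x <;> simp [hx]
    rw [h2, h1]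
    exact dot_self_nonneg _
  -- the even part, pointwise
  have heven : ∀ x, (if O x then Cp x * Cq x else 0)
      ≤ Cp x * Cq x + (1 / 2) * (if act x a b c e then Cp x ^ 2 else 0)
        + (1 / 2) * (if act x a b c e then Cq x ^ 2 else 0) := by
    intro x
    by_cases hx : O x
    · rw [if_pos hx]
      have h1 : 0 ≤ (1 / 2 : ℝ) * (if act x a b c e then Cp x ^ 2 else 0) := by
        split_ifs <;> positivity
      have h2 : 0 ≤ (1 / 2 : ℝ) * (if act x a b c e then Cq x ^ 2 else 0) := by
        split_ifs <;> positivity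
      linarith
    · rw [if_neg hx]
      by_cases hA : act x a b c e
      · simp only [if_pos hA]
        nlinarith [sq_nonneg (Cp x + Cq x)]
      · simp only [if_neg hA, mul_zero, add_zero]
        by_cases hU : cntV x c a b = 1
        · by_cases hV : cntV x a c e = 1
          · exact absurd (act_of_even hD hx hU hV) hA
          · have h3 : Cq x = 0 := by
              simp only [hCq, Pi.sub_apply]
              rw [Cp_zero hD' (by
                unfold OddP
                rw [szz_rot]
                exact hx) hV f, sub_self]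
            rw [h3, mul_zero]
        · have h3 : Cp x = 0 := by
            simp only [hCp, Pi.sub_apply]
            rw [Cp_zero hD hx hU f, sub_self]
          rw [h3, zero_mul]
  have hsum := Finset.sum_le_sum (fun x (_ : x ∈ univ) => heven x)
  rw [Finset.sum_add_distrib, Finset.sum_add_distrib, ← Finset.mul_sum, ← Finset.mul_sum] at hsum
  have e1 : ∑ x, Cp x * Cq x = Cp ⬝ᵥ Cq := rfl
  rw [e1] at hsum
  have e2 : ∀ x, (avg (relV a b c e) f x - avg (rel {a, b}) f x) = Cp x := fun x => rfl
  have e3 : ∀ x, (avg (relV c e a b) f x - avg (rel {c, e}) f x) = Cq x := fun x => rfl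
  simp only [e2, e3]
  linarith

end Vale.Agent.Lib.P335
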