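import Vale.Agent.Lib.P335.KKey
import Vale.Agent.Lib.P335.KPair
import Vale.Agent.Lib.P335.KJT

/-!
The switch chain mixes in polynomial time for all degree vectors.
-/

namespace Vale.Agent.Lib.P335

variable {n : ℕ} {d : Fin n → ℕ}

/-- The switch chain mixes in polynomial time for all degree vectors. -/
theorem mixing_all (hn : 4 ≤ n) (hne : Nonempty (Realizations d)) :
    ∃ t, t ≤ 5400 * n ^ 6 ∧ MixedBy d t :=
  mixing_of_key hn hne (fun f => key_of_parts f (fun _ _ _ _ h => pair_lower h f)
    (fun _ _ h => johnson_global h f))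

end Vale.Agent.Lib.P335
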