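import Vale.Agent.Lib.P335.Conn
import Vale.Agent.Lib.P335.GapB

/-!
Three vertices: given the edges not touching a triple of vertices, the realizations are binary
matrices with three rows.  The inner edges are encoded by one extra column: row `e` contains the
extra column exactly when the edge opposite to `e` is absent.
-/

namespace Vale.Agent.Lib.P335

open Finset Matrix

variable {n : ℕ} {d : Fin n → ℕ}

/-- Two realizations agree on all pairs not touching `T`. -/
def relOff (T : Finset (Fin n)) (G G' : Realizations d) : Prop :=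
  ∀ x y, x ∉ T → y ∉ T → (s(x, y) ∈ G.1 ↔ s(x, y) ∈ G'.1)

instance (T : Finset (Fin n)) : DecidableRel (relOff (d := d) T) := fun G G' => by
  unfold relOff
  infer_instance

theorem relOff_equiv (T : Finset (Fin n)) : Equivalence (relOff (d := d) T) :=
  ⟨fun _ _ _ _ _ => Iff.rfl, fun h x y hx hy => (h x y hx hy).symm,
    fun h k x y hx hy => (h x y hx hy).trans (k x y hx hy)⟩

theorem relOff_mono {T T' : Finset (Fin n)} (h : T ⊆ T') {G G' : Realizations d}
    (hG : relOff T G G') : relOff T' G G' :=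
  fun x y hx hy => hG x y (fun hh => hx (h hh)) (fun hh => hy (h hh))

section fin3

theorem fin3_add_one_add_one (e : Fin 3) : e + 1 + 1 = e + 2 := by
  revert e; decide

theorem fin3_add_two_add_one (e : Fin 3) : e + 2 + 1 = e := by
  revert e; decide

theorem fin3_add_one_add_two (e : Fin 3) : e + 1 + 2 = e := by
  revert e; decide

theorem fin3_add_two_add_two (e : Fin 3) : e + 2 + 2 = e + 1 := by
  revert e; decide

theorem fin3_ne_one (e : Fin 3) : e + 1 ≠ e := by
  revert e; decide

theorem fin3_ne_two (e : Fin 3) : e + 2 ≠ e := by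
  revert e; decide

theorem fin3_one_ne_two (e : Fin 3) : e + 1 ≠ e + 2 := by
  revert e; decide

theorem fin3_cases (e e' : Fin 3) : e' = e ∨ e' = e + 1 ∨ e' = e + 2 := by
  revert e e'; decide

theorem sum_fin3 (g : Fin 3 → ℕ) (e : Fin 3) : ∑ e', g e' = g e + g (e + 1) + g (e + 2) := by
  rw [Fin.sum_univ_three]
  revert e
  intro e
  fin_cases e
  · rfl
  · show g 0 + g 1 + g 2 = g 1 + g 2 + g 0
    omega
  · show g 0 + g 1 + g 2 = g 2 + g 0 + g 1
    omega

theorem third_of_ne {e e' : Fin 3} (h : e ≠ e') :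
    ∃ e'', (e'' + 1 = e ∧ e'' + 2 = e') ∨ (e'' + 1 = e' ∧ e'' + 2 = e) := by
  revert e e'; decide

end fin3

section triple

variable (idx : Fin 3 → Fin n)

/-- The triple of vertices. -/
def tri : Finset (Fin n) := univ.image idx

/-- The pair of the two vertices other than `idx e`. -/
def prr (e : Fin 3) : Finset (Fin n) := {idx (e + 1), idx (e + 2)}

/-- The edge opposite to `idx e`. -/
def opp (e : Fin 3) : Sym2 (Fin n) := s(idx (e + 1), idx (e + 2))

variable {idx}

theorem mem_tri {v : Fin n} : v ∈ tri idx ↔ ∃ e, idx e = v := by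
  simp [tri]

theorem idx_mem_tri (e : Fin 3) : idx e ∈ tri idx := mem_tri.mpr ⟨e, rfl⟩

theorem prr_subset (e : Fin 3) : prr idx e ⊆ tri idx := by
  intro v hv
  simp only [prr, mem_insert, mem_singleton] at hv
  rcases hv with rfl | rfl <;> exact idx_mem_tri _

/-- Row `e` of a graph, with the extra column `idx 0`. -/
def rowOf (idx : Fin 3 → Fin n) (G : Finset (Sym2 (Fin n))) (e : Fin 3) : Finset (Fin n) :=
  univ.filter (fun v => (v ∉ tri idx ∧ s(idx e, v) ∈ G) ∨ (v = idx 0 ∧ opp idx e ∉ G))

theorem mem_rowOf {G : Finset (Sym2 (Fin n))} {e : Fin 3} {v : Fin n} :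
    v ∈ rowOf idx G e ↔ (v ∉ tri idx ∧ s(idx e, v) ∈ G) ∨ (v = idx 0 ∧ opp idx e ∉ G) := by
  simp [rowOf]

theorem mem_rowOf_out {G : Finset (Sym2 (Fin n))} {e : Fin 3} {v : Fin n} (hv : v ∉ tri idx) :
    v ∈ rowOf idx G e ↔ s(idx e, v) ∈ G := by
  rw [mem_rowOf]
  have : v ≠ idx 0 := fun h => hv (h ▸ idx_mem_tri 0)
  simp [hv, this]

theorem mem_rowOf_w {G : Finset (Sym2 (Fin n))} {e : Fin 3} :
    idx 0 ∈ rowOf idx G e ↔ opp idx e ∉ G := by
  rw [mem_rowOf]
  simp [idx_mem_tri]

theorem not_mem_rowOf_dead {G : Finset (Sym2 (Fin n))} {e : Fin 3} {v : Fin n} (hv : v ∈ tri idx)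
    (hw : v ≠ idx 0) : v ∉ rowOf idx G e := by
  rw [mem_rowOf]
  simp [hv, hw]

/-- Indicator of the edge opposite to `e`. -/
def aI (idx : Fin 3 → Fin n) (G : Finset (Sym2 (Fin n))) (e : Fin 3) : ℕ :=
  if opp idx e ∈ G then 1 else 0

theorem aI_le (G : Finset (Sym2 (Fin n))) (e : Fin 3) : aI idx G e ≤ 1 := by
  unfold aI
  split_ifs <;> omega

/-- Number of vertices of the triple adjacent to `v`. -/
def colC (idx : Fin 3 → Fin n) (G : Finset (Sym2 (Fin n))) (v : Fin n) : ℕ :=
  (univ.filter (fun e => s(idx e, v) ∈ G)).card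

theorem vdeg_split_out (G : Finset (Sym2 (Fin n))) (T : Finset (Fin n)) (x : Fin n) :
    vdeg G x = outDeg G T x + (T.filter (fun y => s(x, y) ∈ G)).card := by
  rw [vdeg_eq_card_nbrs]
  unfold outDeg nbrs
  rw [add_comm, ← Finset.card_union_of_disjoint]
  · congr 1
    ext y
    simp only [mem_union, mem_filter, mem_compl, mem_univ, true_and]
    tauto
  · rw [Finset.disjoint_left]
    intro y hy hy'
    exact (Finset.mem_compl.mp (Finset.mem_filter.mp hy').1) (Finset.mem_filter.mp hy).1

section inj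
variable (hidx : Function.Injective idx)
include hidx

theorem inner_out (G : Finset (Sym2 (Fin n))) (v : Fin n) :
    ((tri idx).filter (fun y => s(v, y) ∈ G)).card = colC idx G v := by
  have : (tri idx).filter (fun y => s(v, y) ∈ G) =
      (univ.filter (fun e => s(idx e, v) ∈ G)).image idx := by
    ext y
    simp only [mem_filter, mem_image, mem_univ, true_and, mem_tri]
    constructor
    · rintro ⟨⟨e, rfl⟩, h⟩
      refine ⟨e, ?_, rfl⟩
      rw [Sym2.eq_swap]
      exact h
    · rintro ⟨e, h, rfl⟩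
      refine ⟨⟨e, rfl⟩, ?_⟩
      rw [Sym2.eq_swap]
      exact h
  rw [this, Finset.card_image_of_injective _ hidx]
  rfl

omit hidx in
theorem inner_in {G : Finset (Sym2 (Fin n))} (e : Fin 3) (hl : s(idx e, idx e) ∉ G) :
    colC idx G (idx e) = aI idx G (e + 1) + aI idx G (e + 2) := by
  unfold colC
  rw [Finset.card_filter, sum_fin3 _ e]
  simp only [hl, if_false, zero_add]
  have e1 : s(idx (e + 1), idx e) = opp idx (e + 2) := by
    unfold opp
    rw [fin3_add_two_add_one, fin3_add_two_add_two]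
    exact Sym2.eq_swap
  have e2 : s(idx (e + 2), idx e) = opp idx (e + 1) := by
    unfold opp
    rw [fin3_add_one_add_one, fin3_add_one_add_two]
  rw [e1, e2]
  unfold aI
  omega

theorem vdeg_idx {G : Finset (Sym2 (Fin n))} (e : Fin 3) (hl : s(idx e, idx e) ∉ G) :
    vdeg G (idx e) = outDeg G (tri idx) (idx e) + aI idx G (e + 1) + aI idx G (e + 2) := by
  rw [vdeg_split_out G (tri idx), inner_out hidx, inner_in e hl]
  omega

theorem vdeg_out (G : Finset (Sym2 (Fin n))) (v : Fin n) :
    vdeg G v = outDeg G (tri idx) v + colC idx G v := by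
  rw [vdeg_split_out G (tri idx), inner_out hidx]

end inj

theorem card_rowOf (G : Finset (Sym2 (Fin n))) (e : Fin 3) :
    (rowOf idx G e).card + aI idx G e = outDeg G (tri idx) (idx e) + 1 := by
  unfold aI outDeg
  by_cases h : opp idx e ∈ G
  · have : rowOf idx G e = (tri idx)ᶜ.filter (fun y => s(idx e, y) ∈ G) := by
      ext v
      simp only [mem_rowOf, mem_filter, mem_compl, h, not_true_eq_false, and_false, or_false]
    rw [this, if_pos h]
  · have : rowOf idx G e = insert (idx 0) ((tri idx)ᶜ.filter (fun y => s(idx e, y) ∈ G)) := by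
      ext v
      simp only [mem_rowOf, mem_filter, mem_compl, h, not_false_eq_true, and_true, mem_insert]
      tauto
    rw [this, if_neg h, Finset.card_insert_of_notMem]
    simp [idx_mem_tri]

theorem cnt_rowOf_out (G : Finset (Sym2 (Fin n))) {v : Fin n} (hv : v ∉ tri idx) :
    cnt (rowOf idx G) v = colC idx G v := by
  rw [cnt_eq_card_filter]
  unfold colC
  congr 1
  ext e
  simp only [mem_filter, mem_univ, true_and]
  exact mem_rowOf_out hv

theorem cnt_rowOf_w (G : Finset (Sym2 (Fin n))) :
    cnt (rowOf idx G) (idx 0) + ∑ e, aI idx G e = 3 := by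
  unfold cnt aI
  rw [← Finset.sum_add_distrib]
  have : ∀ e : Fin 3, ((if idx 0 ∈ rowOf idx G e then 1 else 0) + if opp idx e ∈ G then 1 else 0) = 1 := by
    intro e
    by_cases h : opp idx e ∈ G
    · rw [if_pos h, if_neg (fun h' => (mem_rowOf_w.mp h') h)]
    · rw [if_neg h, if_pos (mem_rowOf_w.mpr h)]
  simp [this]

theorem cnt_rowOf_dead (G : Finset (Sym2 (Fin n))) {v : Fin n} (hv : v ∈ tri idx)
    (hw : v ≠ idx 0) : cnt (rowOf idx G) v = 0 := by
  unfold cnt
  apply Finset.sum_eq_zero
  intro e _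
  rw [if_neg (not_mem_rowOf_dead hv hw)]

/-- Double counting of the edges between the triple and its complement. -/
theorem sum_out_eq (G : Finset (Sym2 (Fin n))) :
    ∑ e, outDeg G (tri idx) (idx e) = ∑ v ∈ (tri idx)ᶜ, colC idx G v := by
  unfold outDeg colC
  simp only [Finset.card_filter]
  rw [Finset.sum_comm]

theorem outDeg_congr {T : Finset (Fin n)} {G G' : Realizations d} (h : relOff T G G') {v : Fin n}
    (hv : v ∉ T) : outDeg G.1 T v = outDeg G'.1 T v := by
  unfold outDeg
  congr 1
  apply Finset.filter_congr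
  intro y hy
  exact h v y hv (Finset.mem_compl.mp hy)

section inj
variable (hidx : Function.Injective idx)
include hidx

theorem colC_congr {G G' : Realizations d} (h : relOff (tri idx) G G') {v : Fin n}
    (hv : v ∉ tri idx) : colC idx G.1 v = colC idx G'.1 v := by
  have h1 := vdeg_out hidx G.1 v
  have h2 := vdeg_out hidx G'.1 v
  rw [G.2.2 v] at h1
  rw [G'.2.2 v] at h2
  rw [outDeg_congr h hv] at h1
  omega

theorem sum_aI_congr {G G' : Realizations d} (h : relOff (tri idx) G G') :
    ∑ e, aI idx G.1 e = ∑ e, aI idx G'.1 e := by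
  have key : ∀ H : Realizations d, ∑ e, d (idx e)
      = ∑ e, outDeg H.1 (tri idx) (idx e) + 2 * ∑ e, aI idx H.1 e := by
    intro H
    have h1 : ∀ e, d (idx e) = outDeg H.1 (tri idx) (idx e) + aI idx H.1 (e + 1)
        + aI idx H.1 (e + 2) := by
      intro e
      rw [← H.2.2 (idx e)]
      exact vdeg_idx hidx e (no_loop H _)
    simp only [h1]
    rw [Finset.sum_add_distrib, Finset.sum_add_distrib]
    have h2 : ∑ e, aI idx H.1 (e + 1) = ∑ e, aI idx H.1 e :=
      Equiv.sum_comp (Equiv.addRight (1 : Fin 3)) (aI idx H.1)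
    have h3 : ∑ e, aI idx H.1 (e + 2) = ∑ e, aI idx H.1 e :=
      Equiv.sum_comp (Equiv.addRight (2 : Fin 3)) (aI idx H.1)
    rw [h2, h3]
    ring
  have k1 := key G
  have k2 := key G'
  have k3 : ∑ e, outDeg G.1 (tri idx) (idx e) = ∑ e, outDeg G'.1 (tri idx) (idx e) := by
    rw [sum_out_eq, sum_out_eq]
    apply Finset.sum_congr rfl
    intro v hv
    exact colC_congr hidx h (Finset.mem_compl.mp hv)
  omega

/-- The rows of a realization in the class have the margins of the base point. -/
theorem isBip_rowOf {x₀ G : Realizations d} (h : relOff (tri idx) x₀ G) :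
    IsBip (fun e => (rowOf idx x₀.1 e).card) (cnt (rowOf idx x₀.1)) (rowOf idx G.1) := by
  constructor
  · intro e
    show (rowOf idx G.1 e).card = (rowOf idx x₀.1 e).card
    have hs := sum_aI_congr hidx h
    rw [sum_fin3 _ e, sum_fin3 (aI idx G.1) e] at hs
    have h1 := card_rowOf (idx := idx) x₀.1 e
    have h2 := card_rowOf (idx := idx) G.1 e
    have h3 := vdeg_idx hidx (G := x₀.1) e (no_loop x₀ _)
    have h4 := vdeg_idx hidx (G := G.1) e (no_loop G _)
    rw [x₀.2.2] at h3
    rw [G.2.2] at h4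
    omega
  · intro v
    by_cases hv : v ∈ tri idx
    · by_cases hw : v = idx 0
      · subst hw
        have h1 := cnt_rowOf_w (idx := idx) x₀.1
        have h2 := cnt_rowOf_w (idx := idx) G.1
        have hs := sum_aI_congr hidx h
        omega
      · rw [cnt_rowOf_dead _ hv hw, cnt_rowOf_dead _ hv hw]
    · rw [cnt_rowOf_out _ hv, cnt_rowOf_out _ hv]
      exact (colC_congr hidx h hv).symm

end inj

/-- The graph with outer part from `x₀` and the rows `x`. -/
def graphOf (idx : Fin 3 → Fin n) (x₀ : Finset (Sym2 (Fin n))) (x : Fin 3 → Finset (Fin n)) :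
    Finset (Sym2 (Fin n)) :=
  x₀.filter (fun e => ∀ v ∈ e, v ∉ tri idx) ∪
    (univ.biUnion fun e => ((x e).filter (fun v => v ∉ tri idx)).image (fun v => s(idx e, v))) ∪
    (univ.filter (fun e => idx 0 ∉ x e)).image (opp idx)

theorem mem_graphOf {x₀ : Finset (Sym2 (Fin n))} {x : Fin 3 → Finset (Fin n)} {z : Sym2 (Fin n)} :
    z ∈ graphOf idx x₀ x ↔ (z ∈ x₀ ∧ ∀ v ∈ z, v ∉ tri idx) ∨
      (∃ e v, v ∈ x e ∧ v ∉ tri idx ∧ s(idx e, v) = z) ∨ (∃ e, idx 0 ∉ x e ∧ opp idx e = z) := by
  unfold graphOf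
  simp only [mem_union, mem_filter, mem_biUnion, mem_image, mem_univ, true_and, or_assoc, and_assoc]

section inj
variable (hidx : Function.Injective idx)
include hidx

theorem opp_inj {e e' : Fin 3} (h : opp idx e' = opp idx e) : e' = e := by
  unfold opp at h
  rw [Sym2.eq_iff] at h
  rcases h with ⟨h1, -⟩ | ⟨h1, h2⟩
  · have := hidx h1
    simpa using this
  · have h3 := hidx h1
    have h4 := hidx h2
    have key : ∀ e e' : Fin 3, e' + 1 = e + 2 → e' + 2 = e + 1 → e' = e := by decide
    exact key e e' h3 h4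

omit hidx in
theorem adj_out {x₀ : Finset (Sym2 (Fin n))} {x : Fin 3 → Finset (Fin n)} {u v : Fin n}
    (hu : u ∉ tri idx) (hv : v ∉ tri idx) : s(u, v) ∈ graphOf idx x₀ x ↔ s(u, v) ∈ x₀ := by
  rw [mem_graphOf]
  constructor
  · rintro (⟨h, -⟩ | ⟨e, w, -, -, h⟩ | ⟨e, -, h⟩)
    · exact h
    · exfalso
      have : idx e ∈ s(u, v) := by
        rw [← h]
        exact Sym2.mem_mk_left _ _
      rcases Sym2.mem_iff.mp this with h2 | h2
      · exact hu (h2 ▸ idx_mem_tri e)
      · exact hv (h2 ▸ idx_mem_tri e)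
    · exfalso
      unfold opp at h
      have : idx (e + 1) ∈ s(u, v) := by
        rw [← h]
        exact Sym2.mem_mk_left _ _
      rcases Sym2.mem_iff.mp this with h2 | h2
      · exact hu (h2 ▸ idx_mem_tri _)
      · exact hv (h2 ▸ idx_mem_tri _)
  · intro h
    refine Or.inl ⟨h, ?_⟩
    intro w hw
    rcases Sym2.mem_iff.mp hw with rfl | rfl
    · exact hu
    · exact hv

theorem adj_mid {x₀ : Finset (Sym2 (Fin n))} {x : Fin 3 → Finset (Fin n)} {v : Fin n}
    (hv : v ∉ tri idx) (e : Fin 3) : s(idx e, v) ∈ graphOf idx x₀ x ↔ v ∈ x e := by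
  rw [mem_graphOf]
  constructor
  · rintro (⟨-, h⟩ | ⟨e', w, hw, hw2, h⟩ | ⟨e', -, h⟩)
    · exact absurd (idx_mem_tri e) (h _ (Sym2.mem_mk_left _ _))
    · rw [Sym2.eq_iff] at h
      rcases h with ⟨h1, rfl⟩ | ⟨h1, -⟩
      · rw [← hidx h1]
        exact hw
      · exact absurd (h1 ▸ idx_mem_tri e') hv
    · exfalso
      unfold opp at h
      rw [Sym2.eq_iff] at h
      rcases h with ⟨-, h2⟩ | ⟨h2, -⟩
      · exact hv (h2 ▸ idx_mem_tri _)
      · exact hv (h2 ▸ idx_mem_tri _)
  · intro h
    exact Or.inr (Or.inl ⟨e, v, h, hv, rfl⟩)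

theorem adj_opp {x₀ : Finset (Sym2 (Fin n))} {x : Fin 3 → Finset (Fin n)} (e : Fin 3) :
    opp idx e ∈ graphOf idx x₀ x ↔ idx 0 ∉ x e := by
  rw [mem_graphOf]
  constructor
  · rintro (⟨-, h⟩ | ⟨e', w, hw, hw2, h⟩ | ⟨e', hw, h⟩)
    · unfold opp at h
      exact absurd (idx_mem_tri _) (h _ (Sym2.mem_mk_left _ _))
    · exfalso
      unfold opp at h
      rw [Sym2.eq_iff] at h
      rcases h with ⟨-, h2⟩ | ⟨-, h2⟩
      · exact hw2 (h2 ▸ idx_mem_tri _)
      · exact hw2 (h2 ▸ idx_mem_tri _)
    · rw [← opp_inj hidx h]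
      exact hw
  · intro h
    exact Or.inr (Or.inr ⟨e, h, rfl⟩)

theorem adj_loop {x₀ : Finset (Sym2 (Fin n))} {x : Fin 3 → Finset (Fin n)} (e : Fin 3) :
    s(idx e, idx e) ∉ graphOf idx x₀ x := by
  rw [mem_graphOf]
  rintro (⟨-, h⟩ | ⟨e', w, hw, hw2, h⟩ | ⟨e', -, h⟩)
  · exact absurd (idx_mem_tri e) (h _ (Sym2.mem_mk_left _ _))
  · rw [Sym2.eq_iff] at h
    rcases h with ⟨-, h2⟩ | ⟨-, h2⟩
    · exact hw2 (h2 ▸ idx_mem_tri _)
    · exact hw2 (h2 ▸ idx_mem_tri _)
  · unfold opp at h
    rw [Sym2.eq_iff] at h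
    have : e' + 1 = e' + 2 := by
      rcases h with ⟨h1, h2⟩ | ⟨h1, h2⟩
      · exact hidx (h1.trans h2.symm)
      · exact hidx (h1.trans h2.symm)
    exact fin3_one_ne_two e' this

omit hidx in
/-- Two graphs without loops are equal if they have the same outer part, rows and inner edges. -/
theorem graph_ext {G G' : Finset (Sym2 (Fin n))}
    (hl : ∀ z ∈ G, ¬ z.IsDiag) (hl' : ∀ z ∈ G', ¬ z.IsDiag)
    (h1 : ∀ u v, u ∉ tri idx → v ∉ tri idx → (s(u, v) ∈ G ↔ s(u, v) ∈ G'))
    (h2 : ∀ e v, v ∉ tri idx → (s(idx e, v) ∈ G ↔ s(idx e, v) ∈ G'))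
    (h3 : ∀ e, opp idx e ∈ G ↔ opp idx e ∈ G') : G = G' := by
  ext z
  induction z using Sym2.ind with
  | _ u v =>
    by_cases hu : u ∈ tri idx
    · obtain ⟨e, rfl⟩ := mem_tri.mp hu
      by_cases hv : v ∈ tri idx
      · obtain ⟨e', rfl⟩ := mem_tri.mp hv
        by_cases hee : e = e'
        · subst hee
          constructor
          · intro h
            exact absurd (Sym2.mk_isDiag_iff.mpr rfl) (hl _ h)
          · intro h
            exact absurd (Sym2.mk_isDiag_iff.mpr rfl) (hl' _ h)
        · obtain ⟨e'', h4 | h4⟩ := third_of_ne hee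
          · have : s(idx e, idx e') = opp idx e'' := by
              unfold opp
              rw [h4.1, h4.2]
            rw [this]
            exact h3 e''
          · have : s(idx e, idx e') = opp idx e'' := by
              unfold opp
              rw [h4.1, h4.2]
              exact Sym2.eq_swap
            rw [this]
            exact h3 e''
      · exact h2 e v hv
    · by_cases hv : v ∈ tri idx
      · obtain ⟨e', rfl⟩ := mem_tri.mp hv
        rw [Sym2.eq_swap]
        exact h2 e' u hu
      · exact h1 u v hu hv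

end inj

section glue
variable (hidx : Function.Injective idx) (x₀ : Realizations d)

/-- The margins of the base point. -/
abbrev rM (idx : Fin 3 → Fin n) (x₀ : Realizations d) : Fin 3 → ℕ := fun e => (rowOf idx x₀.1 e).card

/-- The column margins of the base point. -/
abbrev cM (idx : Fin 3 → Fin n) (x₀ : Realizations d) : Fin n → ℕ := cnt (rowOf idx x₀.1)

include hidx

theorem rowOf_graphOf (x : Bip (rM idx x₀) (cM idx x₀)) :
    rowOf idx (graphOf idx x₀.1 x.1) = x.1 := by
  funext e
  ext v
  by_cases hv : v ∈ tri idx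
  · by_cases hw : v = idx 0
    · subst hw
      rw [mem_rowOf_w, adj_opp hidx]
      tauto
    · have h0 : cnt x.1 v = 0 := by
        rw [x.2.2 v]
        exact cnt_rowOf_dead _ hv hw
      have h1 : v ∉ x.1 e := by
        intro h
        unfold cnt at h0
        have := (Finset.sum_eq_zero_iff.mp h0) e (Finset.mem_univ _)
        rw [if_pos h] at this
        omega
      simp only [not_mem_rowOf_dead hv hw, h1]
  · rw [mem_rowOf_out hv, adj_mid hidx hv]

theorem graphOf_realization (x : Bip (rM idx x₀) (cM idx x₀)) :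
    IsRealization d (graphOf idx x₀.1 x.1) := by
  set G := graphOf idx x₀.1 x.1 with hG
  have hrow := rowOf_graphOf hidx x₀ x
  have hsame : ∀ v, v ∉ tri idx → outDeg G (tri idx) v = outDeg x₀.1 (tri idx) v := by
    intro v hv
    unfold outDeg
    congr 1
    apply Finset.filter_congr
    intro y hy
    exact adj_out hv (Finset.mem_compl.mp hy)
  constructor
  · intro z
    induction z using Sym2.ind with
    | _ u v =>
      intro hz hd
      have huv : u = v := Sym2.mk_isDiag_iff.mp hd
      subst huv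
      by_cases hu : u ∈ tri idx
      · obtain ⟨e, rfl⟩ := mem_tri.mp hu
        exact adj_loop hidx e hz
      · exact no_loop x₀ u ((adj_out hu hu).mp hz)
  · intro v
    by_cases hv : v ∈ tri idx
    · obtain ⟨e, rfl⟩ := mem_tri.mp hv
      have h1 := vdeg_idx hidx (G := G) e (adj_loop hidx e)
      have h2 := vdeg_idx hidx (G := x₀.1) e (no_loop x₀ _)
      rw [x₀.2.2] at h2
      have h3 : (rowOf idx x₀.1 e).card + aI idx G e = outDeg G (tri idx) (idx e) + 1 := by
        have h30 := card_rowOf (idx := idx) G e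
        rw [hrow, x.2.1 e] at h30
        exact h30
      have h4 := card_rowOf (idx := idx) x₀.1 e
      have h5 : cnt (rowOf idx x₀.1) (idx 0) + ∑ e, aI idx G e = 3 := by
        have h50 := cnt_rowOf_w (idx := idx) G
        rw [hrow, x.2.2] at h50
        exact h50
      have h6 := cnt_rowOf_w (idx := idx) x₀.1
      rw [sum_fin3 _ e] at h5 h6
      rw [h1]
      omega
    · have h1 := vdeg_out hidx G v
      have h2 := vdeg_out hidx x₀.1 v
      rw [x₀.2.2] at h2
      have h3 : cnt (rowOf idx x₀.1) v = colC idx G v := by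
        have h30 := cnt_rowOf_out (idx := idx) G hv
        rw [hrow, x.2.2] at h30
        exact h30
      have h4 := cnt_rowOf_out (idx := idx) x₀.1 hv
      rw [h1, hsame v hv]
      omega

/-- The fibre map. -/
def gl (x : Bip (rM idx x₀) (cM idx x₀)) : Realizations d := ⟨_, graphOf_realization hidx x₀ x⟩

theorem gl_val (x : Bip (rM idx x₀) (cM idx x₀)) : (gl hidx x₀ x).1 = graphOf idx x₀.1 x.1 := rfl

theorem gl_row (x : Bip (rM idx x₀) (cM idx x₀)) : rowOf idx (gl hidx x₀ x).1 = x.1 :=
  rowOf_graphOf hidx x₀ x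

theorem gl_inj : Function.Injective (gl hidx x₀) := by
  intro x y h
  apply Subtype.ext
  rw [← gl_row hidx x₀ x, ← gl_row hidx x₀ y, h]

theorem rel_gl (x : Bip (rM idx x₀) (cM idx x₀)) : relOff (tri idx) x₀ (gl hidx x₀ x) := by
  intro u v hu hv
  exact (adj_out hu hv).symm

theorem gl_surj {y : Realizations d} (h : relOff (tri idx) x₀ y) :
    ∃ x, gl hidx x₀ x = y := by
  refine ⟨⟨rowOf idx y.1, isBip_rowOf hidx h⟩, ?_⟩
  apply Subtype.ext
  apply graph_ext (gl hidx x₀ _).2.1 y.2.1
  · intro u v hu hv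
    rw [gl_val, adj_out hu hv]
    exact h u v hu hv
  · intro e v hv
    rw [gl_val, adj_mid hidx hv]
    exact mem_rowOf_out hv
  · intro e
    rw [gl_val, adj_opp hidx]
    simp only [mem_rowOf_w, not_not]

/-- Sum over a class as a sum over the fibre space. -/
theorem sum_class_gl (F : Realizations d → ℝ) :
    ∑ y ∈ univ.filter (relOff (tri idx) x₀), F y = ∑ w, F (gl hidx x₀ w) := by
  have : univ.filter (relOff (tri idx) x₀) = univ.map ⟨gl hidx x₀, gl_inj hidx x₀⟩ := by
    ext y
    simp only [mem_filter, mem_univ, true_and, mem_map, Function.Embedding.coeFn_mk]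
    constructor
    · intro hy
      exact gl_surj hidx x₀ hy
    · rintro ⟨w, rfl⟩
      exact rel_gl hidx x₀ w
  rw [this, Finset.sum_map]
  rfl

theorem avg_gl_top (f : Realizations d → ℝ) (w : Bip (rM idx x₀) (cM idx x₀)) :
    avg (relOff (tri idx)) f (gl hidx x₀ w) = avg relTop (f ∘ gl hidx x₀) w := by
  apply avg_glue (gl hidx x₀) (gl_inj hidx x₀)
  · intro w w'
    simp only [relTop, iff_true]
    exact (relOff_equiv _).trans ((relOff_equiv _).symm (rel_gl hidx x₀ w)) (rel_gl hidx x₀ w')
  · intro w y hy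
    exact gl_surj hidx x₀ ((relOff_equiv _).trans (rel_gl hidx x₀ w) hy)

theorem rel_iff_row (e : Fin 3) (w w' : Bip (rM idx x₀) (cM idx x₀)) :
    relOff (prr idx e) (gl hidx x₀ w) (gl hidx x₀ w') ↔ w.1 e = w'.1 e := by
  constructor
  · intro h
    -- the rows agree off the extra column, and they have the same size
    have hsub : ∀ v, v ∉ tri idx → (v ∈ w.1 e ↔ v ∈ w'.1 e) := by
      intro v hv
      rw [← adj_mid hidx (x₀ := x₀.1) hv e, ← adj_mid hidx (x₀ := x₀.1) hv e]
      apply h
      · simp only [prr, mem_insert, mem_singleton, not_or]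
        exact ⟨fun h2 => fin3_ne_one e (hidx h2).symm, fun h2 => fin3_ne_two e (hidx h2).symm⟩
      · intro h2
        exact hv (prr_subset e h2)
    have hdead : ∀ (u : Bip (rM idx x₀) (cM idx x₀)) (v : Fin n), v ∈ tri idx → v ≠ idx 0 →
        v ∉ u.1 e := by
      intro u v hv hw
      rw [← congrFun (gl_row hidx x₀ u) e]
      exact not_mem_rowOf_dead hv hw
    have hcard : (w.1 e).card = (w'.1 e).card := by
      rw [w.2.1 e, w'.2.1 e]
    have hw0 : idx 0 ∈ w.1 e ↔ idx 0 ∈ w'.1 e := by
      by_contra hne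
      have hsub1 : ∀ (A B : Finset (Fin n)), (∀ v, v ≠ idx 0 → (v ∈ A ↔ v ∈ B)) → idx 0 ∉ A →
          idx 0 ∈ B → A.card < B.card := by
        intro A B hAB h1 h2
        apply Finset.card_lt_card
        rw [Finset.ssubset_iff_of_subset]
        · exact ⟨idx 0, h2, h1⟩
        · intro v hv
          have : v ≠ idx 0 := fun h3 => h1 (h3 ▸ hv)
          exact (hAB v this).mp hv
      have hoff : ∀ v, v ≠ idx 0 → (v ∈ w.1 e ↔ v ∈ w'.1 e) := by
        intro v hv
        by_cases hT : v ∈ tri idx
        · simp only [hdead w v hT hv, hdead w' v hT hv]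
        · exact hsub v hT
      by_cases h3 : idx 0 ∈ w.1 e
      · have h4 : idx 0 ∉ w'.1 e := fun h4 => hne ⟨fun _ => h4, fun _ => h3⟩
        have := hsub1 _ _ (fun v hv => (hoff v hv).symm) h4 h3
        omega
      · have h4 : idx 0 ∈ w'.1 e := by
          by_contra h4
          exact hne ⟨fun h5 => absurd h5 h3, fun h5 => absurd h5 h4⟩
        have := hsub1 _ _ hoff h3 h4
        omega
    ext v
    by_cases hw : v = idx 0
    · subst hw
      exact hw0
    · by_cases hT : v ∈ tri idx
      · simp only [hdead w v hT hw, hdead w' v hT hw]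
      · exact hsub v hT
  · intro h u v hu hv
    by_cases huT : u ∈ tri idx
    · have hue : u = idx e := by
        obtain ⟨e1, rfl⟩ := mem_tri.mp huT
        rcases fin3_cases e e1 with rfl | rfl | rfl
        · rfl
        · exact absurd (by simp [prr]) hu
        · exact absurd (by simp [prr]) hu
      subst hue
      by_cases hvT : v ∈ tri idx
      · have hve : v = idx e := by
          obtain ⟨e1, rfl⟩ := mem_tri.mp hvT
          rcases fin3_cases e e1 with rfl | rfl | rfl
          · rfl
          · exact absurd (by simp [prr]) hv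
          · exact absurd (by simp [prr]) hv
        subst hve
        constructor
        · intro h2
          exact absurd h2 (no_loop _ _)
        · intro h2
          exact absurd h2 (no_loop _ _)
      · rw [gl_val, gl_val, adj_mid hidx hvT, adj_mid hidx hvT, h]
    · by_cases hvT : v ∈ tri idx
      · have hve : v = idx e := by
          obtain ⟨e1, rfl⟩ := mem_tri.mp hvT
          rcases fin3_cases e e1 with rfl | rfl | rfl
          · rfl
          · exact absurd (by simp [prr]) hv
          · exact absurd (by simp [prr]) hv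
        subst hve
        rw [Sym2.eq_swap, gl_val, gl_val, adj_mid hidx huT, adj_mid hidx huT, h]
      · rw [gl_val, gl_val, adj_out huT hvT, adj_out huT hvT]

theorem avg_gl_row (e : Fin 3) (f : Realizations d → ℝ) (w : Bip (rM idx x₀) (cM idx x₀)) :
    avg (relOff (prr idx e)) f (gl hidx x₀ w) = avg (rRow e) (f ∘ gl hidx x₀) w := by
  apply avg_glue (gl hidx x₀) (gl_inj hidx x₀)
  · exact rel_iff_row hidx x₀ e
  · intro w y hy
    have h1 : relOff (tri idx) (gl hidx x₀ w) y := relOff_mono (prr_subset e) hy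
    exact gl_surj hidx x₀ ((relOff_equiv _).trans (rel_gl hidx x₀ w) h1)

end glue

/-- The bound for three vertices, in the whole space. -/
theorem K3_graph (hidx : Function.Injective idx) (f : Realizations d → ℝ) :
    ∑ e, avg (relOff (prr idx e)) f ⬝ᵥ avg (relOff (prr idx e)) f
      ≤ 2 * (f ⬝ᵥ f) + avg (relOff (tri idx)) f ⬝ᵥ avg (relOff (tri idx)) f := by
  let F : Realizations d → ℝ := fun x => 2 * (f x * f x)
    + avg (relOff (tri idx)) f x * avg (relOff (tri idx)) f x
    - ∑ e, avg (relOff (prr idx e)) f x * avg (relOff (prr idx e)) f x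
  have hF : 0 ≤ ∑ x, F x := by
    apply sum_nonneg_of_classes (relOff_equiv (tri idx))
    intro x₀
    rw [sum_class_gl hidx x₀ F]
    set h := f ∘ gl hidx x₀ with hh
    have hb := three_row_bound h
    have e3 : ∑ w, F (gl hidx x₀ w) = 2 * (h ⬝ᵥ h) + avg relTop h ⬝ᵥ avg relTop h
        - ∑ e, avg (rRow e) h ⬝ᵥ avg (rRow e) h := by
      simp only [F, avg_gl_top hidx x₀, avg_gl_row hidx x₀]
      unfold dotProduct
      rw [Finset.sum_sub_distrib, Finset.sum_add_distrib, ← Finset.mul_sum, Finset.sum_comm]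
      rfl
    rw [e3]
    linarith
  have e4 : ∑ x, F x = 2 * (f ⬝ᵥ f) + avg (relOff (tri idx)) f ⬝ᵥ avg (relOff (tri idx)) f
      - ∑ e, avg (relOff (prr idx e)) f ⬝ᵥ avg (relOff (prr idx e)) f := by
    simp only [F]
    unfold dotProduct
    rw [Finset.sum_sub_distrib, Finset.sum_add_distrib, ← Finset.mul_sum, Finset.sum_comm]
  rw [e4] at hF
  linarith

/-- The cross terms of a triple are nonnegative. -/
theorem triple_cross_idx (hidx : Function.Injective idx) (f : Realizations d → ℝ) :
    0 ≤ (f - avg (relOff (prr idx 0)) f) ⬝ᵥ (f - avg (relOff (prr idx 1)) f)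
      + (f - avg (relOff (prr idx 0)) f) ⬝ᵥ (f - avg (relOff (prr idx 2)) f)
      + (f - avg (relOff (prr idx 1)) f) ⬝ᵥ (f - avg (relOff (prr idx 2)) f) := by
  apply cross_of_K3 (relOff_equiv _) (relOff_equiv _) (relOff_equiv _) (relOff_equiv (tri idx))
  · exact fun x y h => relOff_mono (prr_subset 0) h
  · exact fun x y h => relOff_mono (prr_subset 1) h
  · exact fun x y h => relOff_mono (prr_subset 2) h
  · intro g
    have := K3_graph hidx g
    rw [Fin.sum_univ_three] at this
    exact this

end triple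

/-- The cross terms of three distinct vertices are nonnegative. -/
theorem triple_cross' {a b c : Fin n} (hab : a ≠ b) (hac : a ≠ c) (hbc : b ≠ c)
    (f : Realizations d → ℝ) :
    0 ≤ (f - avg (relOff {b, c}) f) ⬝ᵥ (f - avg (relOff {c, a}) f)
      + (f - avg (relOff {b, c}) f) ⬝ᵥ (f - avg (relOff {a, b}) f)
      + (f - avg (relOff {c, a}) f) ⬝ᵥ (f - avg (relOff {a, b}) f) := by
  let idx : Fin 3 → Fin n := ![a, b, c]
  have hidx : Function.Injective idx := by
    intro i j h
    fin_cases i <;> fin_cases j <;> simp_all [idx]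
  have h0 : prr idx 0 = {b, c} := rfl
  have h1 : prr idx 1 = {c, a} := rfl
  have h2 : prr idx 2 = {a, b} := rfl
  have := triple_cross_idx hidx f
  rw [h0, h1, h2] at this
  exact this

end Vale.Agent.Lib.P335
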