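import Vale.Agent.Lib.P335.KBase
import Vale.Agent.Lib.P335.Triple

/-!
The cross terms of a triple, in terms of the relations of the shared base file.
-/

namespace Vale.Agent.Lib.P335

open Finset Matrix

variable {n : ℕ} {d : Fin n → ℕ}

theorem avg_congr_rel {Ω : Type*} [Fintype Ω] {r r' : Ω → Ω → Prop} [DecidableRel r]
    [DecidableRel r'] (h : ∀ x y, r x y ↔ r' x y) (f : Ω → ℝ) : avg r f = avg r' f := by
  funext x
  unfold avg
  have : univ.filter (r x) = univ.filter (r' x) := by
    ext y
    simp only [mem_filter, mem_univ, true_and, h]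
  rw [this]

theorem avg_rel_eq (P : Finset (Fin n)) (f : Realizations d → ℝ) :
    avg (rel P) f = avg (relOff P) f :=
  avg_congr_rel (fun _ _ => Iff.rfl) f

/-- The cross terms of three distinct vertices are nonnegative. -/
theorem triple_cross {k l m : Fin n} (h1 : k ≠ l) (h2 : k ≠ m) (h3 : l ≠ m)
    (f : Realizations d → ℝ) :
    0 ≤ (f - avg (rel {k, l}) f) ⬝ᵥ (f - avg (rel {k, m}) f)
      + (f - avg (rel {k, l}) f) ⬝ᵥ (f - avg (rel {l, m}) f)
      + (f - avg (rel {k, m}) f) ⬝ᵥ (f - avg (rel {l, m}) f) := by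
  have h := triple_cross' h1 h2 h3 f
  rw [Finset.pair_comm m k] at h
  simp only [avg_rel_eq]
  rw [dotProduct_comm (f - avg (relOff {l, m}) f) (f - avg (relOff {k, m}) f),
    dotProduct_comm (f - avg (relOff {l, m}) f) (f - avg (relOff {k, l}) f),
    dotProduct_comm (f - avg (relOff {k, m}) f) (f - avg (relOff {k, l}) f)] at h
  linarith

end Vale.Agent.Lib.P335
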