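import Vale.Agent.Lib.P335.Avg

/-!
Finite dimensional spectral facts, stated for the Euclidean pairing on functions.
-/

namespace Vale.Agent.Lib.P335

open Finset Matrix

variable {Ω : Type*} [Fintype Ω]

/-- If all eigenvalues of a symmetric operator are at least `c`, then so is its form. -/
theorem form_ge_of_eigen (T : (Ω → ℝ) →ₗ[ℝ] (Ω → ℝ))
    (hs : ∀ f g, T f ⬝ᵥ g = f ⬝ᵥ T g) (c : ℝ)
    (h : ∀ (v : Ω → ℝ) (μ : ℝ), v ≠ 0 → T v = μ • v → c ≤ μ) (f : Ω → ℝ) :
    c * (f ⬝ᵥ f) ≤ f ⬝ᵥ T f := by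
  classical
  set T' : (Ω → ℝ) →ₗ[ℝ] (Ω → ℝ) := T - c • LinearMap.id with hT'
  have hT'app : ∀ v, T' v = T v - c • v := fun v => by simp [hT']
  set M : Matrix Ω Ω ℝ := LinearMap.toMatrix' T' with hM
  have hmul : ∀ v, M *ᵥ v = T' v := fun v => by simp [hM, LinearMap.toMatrix'_mulVec]
  have hs' : ∀ f g, T' f ⬝ᵥ g = f ⬝ᵥ T' g := by
    intro f g
    rw [hT'app, hT'app, sub_dotProduct, dotProduct_sub, smul_dotProduct, dotProduct_smul, hs]
  have herm : M.IsHermitian := by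
    apply Matrix.IsHermitian.ext
    intro i j
    have e1 : ∀ a b : Ω, M a b = Pi.single a (1 : ℝ) ⬝ᵥ T' (Pi.single b 1) := by
      intro a b
      rw [← hmul]
      simp [dotProduct, Pi.single_apply, Matrix.mulVec]
    simp only [star_trivial]
    rw [e1, e1, ← hs', dotProduct_comm]
  have hpsd : M.PosSemidef := by
    rw [herm.posSemidef_iff_eigenvalues_nonneg]
    intro j
    set b : Ω → ℝ := ⇑(herm.eigenvectorBasis j) with hb
    have hb0 : b ≠ 0 := by
      intro h0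
      have h1 : ‖herm.eigenvectorBasis j‖ = 1 := herm.eigenvectorBasis.orthonormal.1 j
      have h2 : herm.eigenvectorBasis j = 0 := by
        ext x
        have := congrFun h0 x
        simpa [hb] using this
      rw [h2] at h1
      simp at h1
    have hev : T' b = herm.eigenvalues j • b := by
      rw [← hmul]
      exact herm.mulVec_eigenvectorBasis j
    have hTb : T b = (herm.eigenvalues j + c) • b := by
      have := hT'app b
      rw [hev] at this
      rw [add_smul]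
      rw [eq_sub_iff_add_eq] at this
      exact this.symm
    have := h b _ hb0 hTb
    simp only [Pi.zero_apply]
    linarith
  have h1 := hpsd.dotProduct_mulVec_nonneg f
  simp only [star_trivial] at h1
  rw [hmul, hT'app, dotProduct_sub, dotProduct_smul, smul_eq_mul] at h1
  linarith

/-- Gap from a square inequality. -/
theorem gap_of_square (A P : (Ω → ℝ) →ₗ[ℝ] (Ω → ℝ))
    (hA : ∀ f g, A f ⬝ᵥ g = f ⬝ᵥ A g) (hP : ∀ f g, P f ⬝ᵥ g = f ⬝ᵥ P g)
    (hPP : ∀ f, P (P f) = P f) (hAP : ∀ f, A (P f) = 0)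
    (hpos : ∀ f, 0 ≤ f ⬝ᵥ A f) (hsq : ∀ f, f ⬝ᵥ A f ≤ A f ⬝ᵥ A f)
    (hker : ∀ f, A f = 0 → P f = f) (f : Ω → ℝ) :
    f ⬝ᵥ f - P f ⬝ᵥ P f ≤ f ⬝ᵥ A f := by
  have hPA : ∀ g, P (A g) = 0 := by
    intro g
    apply dot_self_eq_zero
    rw [hP, hA, hPP, hAP]
    simp
  have hT : ∀ g h, (A + P) g ⬝ᵥ h = g ⬝ᵥ (A + P) h := by
    intro g h
    simp only [LinearMap.add_apply, add_dotProduct, dotProduct_add, hA, hP]
  have key := form_ge_of_eigen (A + P) hT 1 (by
    intro v μ hv hev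
    simp only [LinearMap.add_apply] at hev
    have h1 : P v = μ • P v := by
      have := congrArg P hev
      rw [map_add, hPA, hPP, map_smul, zero_add] at this
      exact this
    by_cases hPv : P v = 0
    · have hAv : A v = μ • v := by simpa [hPv] using hev
      have hvv : 0 < v ⬝ᵥ v := by
        have h0 := dot_self_nonneg v
        rcases h0.lt_or_eq with h2 | h2
        · exact h2
        · exact absurd (dot_self_eq_zero h2.symm) hv
      have h2 := hsq v
      have h3 := hpos v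
      rw [hAv, smul_dotProduct, dotProduct_smul, smul_eq_mul, smul_eq_mul] at h2
      rw [hAv, dotProduct_smul, smul_eq_mul] at h3
      have hμ0 : 0 ≤ μ := by
        by_contra hneg
        rw [not_le] at hneg
        nlinarith
      rcases hμ0.lt_or_eq with hμ | hμ
      · have : μ * (v ⬝ᵥ v) ≤ μ * (μ * (v ⬝ᵥ v)) := by
          simpa [dotProduct_smul, mul_comm, mul_left_comm, mul_assoc] using h2
        have h4 : (v ⬝ᵥ v) ≤ μ * (v ⬝ᵥ v) := le_of_mul_le_mul_left this hμ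
        have h5 : (1 : ℝ) * (v ⬝ᵥ v) ≤ μ * (v ⬝ᵥ v) := by simpa using h4
        exact le_of_mul_le_mul_right h5 hvv
      · exfalso
        have hA0 : A v = 0 := by rw [hAv, ← hμ]; simp
        have := hker v hA0
        rw [hPv] at this
        exact hv this.symm
    · have h2 : (1 - μ) • P v = 0 := by
        rw [sub_smul, one_smul, sub_eq_zero]
        exact h1
      rcases smul_eq_zero.mp h2 with h3 | h3
      · linarith
      · exact absurd h3 hPv) f
  simp only [LinearMap.add_apply, dotProduct_add, one_mul] at key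
  have h1 : f ⬝ᵥ P f = P f ⬝ᵥ P f := by
    rw [hP f (P f), hPP]
  linarith

/-- Nonnegativity for commuting symmetric idempotents. -/
theorem dot_nonneg_of_comm (A B : (Ω → ℝ) → (Ω → ℝ))
    (hA : ∀ f g, A f ⬝ᵥ g = f ⬝ᵥ A g) (hB : ∀ f g, B f ⬝ᵥ g = f ⬝ᵥ B g)
    (hAA : ∀ f, A (A f) = A f) (hBB : ∀ f, B (B f) = B f)
    (hc : ∀ f, A (B f) = B (A f)) (f : Ω → ℝ) : 0 ≤ A f ⬝ᵥ B f := by
  have h1 : A f ⬝ᵥ B f = A (B f) ⬝ᵥ A (B f) := by
    calc A f ⬝ᵥ B f = f ⬝ᵥ A (B f) := hA f (B f)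
      _ = f ⬝ᵥ B (A f) := by rw [hc]
      _ = f ⬝ᵥ B (B (A f)) := by rw [hBB]
      _ = B f ⬝ᵥ B (A f) := (hB f _).symm
      _ = B f ⬝ᵥ A (B f) := by rw [hc]
      _ = B f ⬝ᵥ A (A (B f)) := by rw [hAA]
      _ = A (B f) ⬝ᵥ A (B f) := (hA _ _).symm
  rw [h1]
  exact dot_self_nonneg _

end Vale.Agent.Lib.P335

namespace Vale.Agent.Lib.P335

open Finset Matrix

variable {Ω : Type*} [Fintype Ω]

section Knabe

variable {ι : Type*} [Fintype ι] [DecidableEq ι]

/-- Pick out two distinct points from a finite sum. -/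
theorem sum_split_two (g : ι → ℝ) {k l : ι} (hkl : k ≠ l) :
    ∑ m, g m = g k + g l + ∑ m, (if m ≠ k ∧ m ≠ l then g m else 0) := by
  classical
  have h1 : ∑ m, g m = ∑ m, ((if m = k then g m else 0) + (if m = l then g m else 0)
      + (if m ≠ k ∧ m ≠ l then g m else 0)) := by
    apply Finset.sum_congr rfl
    intro m _
    by_cases h1 : m = k
    · subst h1
      simp [hkl]
    · by_cases h2 : m = l
      · subst h2
        simp [h1]
      · simp [h1, h2]
  rw [h1, Finset.sum_add_distrib, Finset.sum_add_distrib]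
  simp

/-- The algebra behind the Knabe type bound. -/
theorem knabe_sum (R : ι → ι → Ω → ℝ)
    (hsymm : ∀ k l, R k l = R l k) (hdiag : ∀ k, R k k = 0)
    (H1 : ∀ k l m n, k ≠ l → m ≠ n → k ≠ m → k ≠ n → l ≠ m → l ≠ n → 0 ≤ R k l ⬝ᵥ R m n)
    (H2 : ∀ k l x, k ≠ l → k ≠ x → l ≠ x →
      0 ≤ R k l ⬝ᵥ R k x + R k l ⬝ᵥ R l x + R k x ⬝ᵥ R l x) :
    2 * ∑ k, ∑ l, R k l ⬝ᵥ R k l ≤ (∑ k, ∑ l, R k l) ⬝ᵥ (∑ m, ∑ n, R m n) := by
  classical
  -- the triple sums
  let D : ι → ι → ι → Prop := fun k l x => k ≠ l ∧ k ≠ x ∧ l ≠ x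
  let a : ι → ι → ι → ℝ := fun k l x => R k l ⬝ᵥ R k x
  let A : ℝ := ∑ k, ∑ l, ∑ x, if D k l x then a k l x else 0
  have hB : (∑ k, ∑ l, ∑ x, if D k l x then R k l ⬝ᵥ R l x else 0) = A := by
    have : (∑ k, ∑ l, ∑ x, if D k l x then R k l ⬝ᵥ R l x else 0)
        = ∑ k, ∑ l, ∑ x, if D l k x then a l k x else 0 := by
      apply Finset.sum_congr rfl; intro k _
      apply Finset.sum_congr rfl; intro l _
      apply Finset.sum_congr rfl; intro x _
      by_cases h : D k l x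
      · have h' : D l k x := ⟨h.1.symm, h.2.2, h.2.1⟩
        simp only [if_pos h, if_pos h', a]
        rw [hsymm k l]
      · have h' : ¬ D l k x := fun h' => h ⟨h'.1.symm, h'.2.2, h'.2.1⟩
        simp only [if_neg h, if_neg h']
    rw [this, Finset.sum_comm]
  have hE : (∑ k, ∑ l, ∑ x, if D k l x then R k x ⬝ᵥ R l x else 0) = A := by
    have : (∑ k, ∑ l, ∑ x, if D k l x then R k x ⬝ᵥ R l x else 0)
        = ∑ k, ∑ l, ∑ x, if D x k l then a x k l else 0 := by
      apply Finset.sum_congr rfl; intro k _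
      apply Finset.sum_congr rfl; intro l _
      apply Finset.sum_congr rfl; intro x _
      by_cases h : D k l x
      · have h' : D x k l := ⟨h.2.1.symm, h.2.2.symm, h.1⟩
        simp only [if_pos h, if_pos h', a]
        rw [hsymm k x, hsymm l x]
      · have h' : ¬ D x k l := fun h' => h ⟨h'.2.2, h'.1.symm, h'.2.1.symm⟩
        simp only [if_neg h, if_neg h']
    rw [this]
    -- reorder the sum
    calc ∑ k, ∑ l, ∑ x, (if D x k l then a x k l else 0)
        = ∑ k, ∑ x, ∑ l, (if D x k l then a x k l else 0) := by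
          apply Finset.sum_congr rfl; intro k _
          exact Finset.sum_comm
      _ = ∑ x, ∑ k, ∑ l, (if D x k l then a x k l else 0) := Finset.sum_comm
  have h3A : 0 ≤ 3 * A := by
    have h : 0 ≤ ∑ k, ∑ l, ∑ x, (if D k l x then
        (R k l ⬝ᵥ R k x + R k l ⬝ᵥ R l x + R k x ⬝ᵥ R l x) else 0) := by
      apply Finset.sum_nonneg; intro k _
      apply Finset.sum_nonneg; intro l _
      apply Finset.sum_nonneg; intro x _
      by_cases hD : D k l x
      · rw [if_pos hD]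
        exact H2 k l x hD.1 hD.2.1 hD.2.2
      · rw [if_neg hD]
    have h2 : (∑ k, ∑ l, ∑ x, (if D k l x then
        (R k l ⬝ᵥ R k x + R k l ⬝ᵥ R l x + R k x ⬝ᵥ R l x) else 0))
        = A + (∑ k, ∑ l, ∑ x, if D k l x then R k l ⬝ᵥ R l x else 0)
          + (∑ k, ∑ l, ∑ x, if D k l x then R k x ⬝ᵥ R l x else 0) := by
      simp only [← Finset.sum_add_distrib, A]
      apply Finset.sum_congr rfl; intro k _
      apply Finset.sum_congr rfl; intro l _
      apply Finset.sum_congr rfl; intro x _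
      by_cases hD : D k l x
      · simp only [if_pos hD, a]
      · simp only [if_neg hD]
        ring
    rw [h2, hB, hE] at h
    linarith
  have hA0 : 0 ≤ A := by linarith
  -- the fixed pair estimate
  have hpair : ∀ k l, 2 * (R k l ⬝ᵥ R k l)
      + 2 * (∑ x, ((if D k l x then a k l x else 0)
        + (if D k l x then R k l ⬝ᵥ R l x else 0)))
      ≤ ∑ m, ∑ n, R k l ⬝ᵥ R m n := by
    intro k l
    by_cases hkl : k = l
    · subst hkl
      have h0 : ∀ x, ¬ D k k x := fun x h => h.1 rfl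
      simp [h0, hdiag]
    · have hsplit1 := sum_split_two (fun m => ∑ n, R k l ⬝ᵥ R m n) hkl
      rw [hsplit1]
      have hsplitk : ∑ n, R k l ⬝ᵥ R k n = R k l ⬝ᵥ R k k + R k l ⬝ᵥ R k l
          + ∑ n, (if n ≠ k ∧ n ≠ l then R k l ⬝ᵥ R k n else 0) :=
        sum_split_two (fun n => R k l ⬝ᵥ R k n) hkl
      have hsplitl : ∑ n, R k l ⬝ᵥ R l n = R k l ⬝ᵥ R l k + R k l ⬝ᵥ R l l
          + ∑ n, (if n ≠ k ∧ n ≠ l then R k l ⬝ᵥ R l n else 0) :=
        sum_split_two (fun n => R k l ⬝ᵥ R l n) hkl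
      rw [hsplitk, hsplitl]
      simp only [hdiag, dotProduct_zero]
      have hll : R k l ⬝ᵥ R l k = R k l ⬝ᵥ R k l := by rw [hsymm l k]
      rw [hll]
      -- the rest
      have hrest : ∀ m, (if m ≠ k ∧ m ≠ l then ∑ n, R k l ⬝ᵥ R m n else 0)
          ≥ (if m ≠ k ∧ m ≠ l then R k l ⬝ᵥ R k m + R k l ⬝ᵥ R l m else 0) := by
        intro m
        by_cases hm : m ≠ k ∧ m ≠ l
        · rw [if_pos hm, if_pos hm]
          have hs : ∑ n, R k l ⬝ᵥ R m n = R k l ⬝ᵥ R m k + R k l ⬝ᵥ R m l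
              + ∑ n, (if n ≠ k ∧ n ≠ l then R k l ⬝ᵥ R m n else 0) :=
            sum_split_two (fun n => R k l ⬝ᵥ R m n) hkl
          rw [hs, hsymm m k, hsymm m l]
          have : 0 ≤ ∑ n, (if n ≠ k ∧ n ≠ l then R k l ⬝ᵥ R m n else 0) := by
            apply Finset.sum_nonneg
            intro n _
            by_cases hn : n ≠ k ∧ n ≠ l
            · rw [if_pos hn]
              by_cases hmn : m = n
              · subst hmn
                simp [hdiag]
              · exact H1 k l m n hkl hmn (Ne.symm hm.1) (Ne.symm hn.1) (Ne.symm hm.2) (Ne.symm hn.2)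
            · rw [if_neg hn]
          have hkm : R l k ⬝ᵥ R k m = R k l ⬝ᵥ R k m := by rw [hsymm l k]
          linarith
        · rw [if_neg hm, if_neg hm]
      have hsumrest := Finset.sum_le_sum (fun m (_ : m ∈ univ) => hrest m)
      have hconv1 : (∑ x, ((if D k l x then a k l x else 0)
          + (if D k l x then R k l ⬝ᵥ R l x else 0)))
          = ∑ x, (if x ≠ k ∧ x ≠ l then R k l ⬝ᵥ R k x + R k l ⬝ᵥ R l x else 0) := by
        apply Finset.sum_congr rfl
        intro x _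
        by_cases hx : x ≠ k ∧ x ≠ l
        · have hD : D k l x := ⟨hkl, hx.1.symm, hx.2.symm⟩
          rw [if_pos hD, if_pos hD, if_pos hx]
        · have hD : ¬ D k l x := fun h => hx ⟨h.2.1.symm, h.2.2.symm⟩
          rw [if_neg hD, if_neg hD, if_neg hx]
          simp
      have hconv2 : (∑ m, (if m ≠ k ∧ m ≠ l then R k l ⬝ᵥ R k m + R k l ⬝ᵥ R l m else 0))
          = (∑ m, (if m ≠ k ∧ m ≠ l then R k l ⬝ᵥ R k m else 0))
            + ∑ m, (if m ≠ k ∧ m ≠ l then R k l ⬝ᵥ R l m else 0) := by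
        rw [← Finset.sum_add_distrib]
        apply Finset.sum_congr rfl
        intro m _
        by_cases hm : m ≠ k ∧ m ≠ l
        · simp only [if_pos hm]
        · simp only [if_neg hm]
          simp
      rw [hconv1]
      rw [hconv2] at hsumrest ⊢
      have hmm : R k l ⬝ᵥ R k l + R k l ⬝ᵥ R k l = 2 * (R k l ⬝ᵥ R k l) := by ring
      linarith
  -- sum over all pairs
  have hexp : (∑ k, ∑ l, R k l) ⬝ᵥ (∑ m, ∑ n, R m n) = ∑ k, ∑ l, ∑ m, ∑ n, R k l ⬝ᵥ R m n := by
    rw [sum_dotProduct]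
    apply Finset.sum_congr rfl; intro k _
    rw [sum_dotProduct]
    apply Finset.sum_congr rfl; intro l _
    rw [dotProduct_sum]
    apply Finset.sum_congr rfl; intro m _
    rw [dotProduct_sum]
  rw [hexp]
  have htot : (∑ k, ∑ l, (2 * (R k l ⬝ᵥ R k l)
      + 2 * (∑ x, ((if D k l x then a k l x else 0)
        + (if D k l x then R k l ⬝ᵥ R l x else 0)))))
      ≤ ∑ k, ∑ l, ∑ m, ∑ n, R k l ⬝ᵥ R m n := by
    apply Finset.sum_le_sum; intro k _
    apply Finset.sum_le_sum; intro l _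
    exact hpair k l
  have hval : (∑ k, ∑ l, (2 * (R k l ⬝ᵥ R k l)
      + 2 * (∑ x, ((if D k l x then a k l x else 0)
        + (if D k l x then R k l ⬝ᵥ R l x else 0)))))
      = 2 * (∑ k, ∑ l, R k l ⬝ᵥ R k l) + 2 * (A + A) := by
    have h1 : (∑ k, ∑ l, ∑ x, ((if D k l x then a k l x else 0)
        + (if D k l x then R k l ⬝ᵥ R l x else 0))) = A + A := by
      nth_rewrite 2 [← hB]
      simp only [A, ← Finset.sum_add_distrib]
    rw [← h1]
    simp only [Finset.mul_sum, ← Finset.sum_add_distrib]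
  rw [hval] at htot
  linarith

end Knabe

end Vale.Agent.Lib.P335

namespace Vale.Agent.Lib.P335

open Finset Matrix

variable {Ω : Type*} [Fintype Ω]

/-- Abstract form of the Knabe type gap estimate. -/
theorem abstract_gap {ι : Type*} [Fintype ι] [DecidableEq ι]
    (Q : ι → ι → (Ω → ℝ) →ₗ[ℝ] (Ω → ℝ)) (P : (Ω → ℝ) →ₗ[ℝ] (Ω → ℝ))
    (hQs : ∀ k l f g, Q k l f ⬝ᵥ g = f ⬝ᵥ Q k l g)
    (hQi : ∀ k l f, Q k l (Q k l f) = Q k l f)
    (hsymm : ∀ k l, Q k l = Q l k) (hdiag : ∀ k, Q k k = 0)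
    (hcomm : ∀ k l m n, k ≠ l → m ≠ n → k ≠ m → k ≠ n → l ≠ m → l ≠ n →
      ∀ f, Q k l (Q m n f) = Q m n (Q k l f))
    (htriple : ∀ k l x, k ≠ l → k ≠ x → l ≠ x → ∀ f,
      0 ≤ Q k l f ⬝ᵥ Q k x f + Q k l f ⬝ᵥ Q l x f + Q k x f ⬝ᵥ Q l x f)
    (hP : ∀ f g, P f ⬝ᵥ g = f ⬝ᵥ P g) (hPP : ∀ f, P (P f) = P f)
    (hQP : ∀ k l f, Q k l (P f) = 0)
    (hker : ∀ f, (∀ k l, Q k l f = 0) → P f = f) (f : Ω → ℝ) :
    f ⬝ᵥ f - P f ⬝ᵥ P f ≤ (1 / 2) * ∑ k, ∑ l, Q k l f ⬝ᵥ Q k l f := by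
  let A : (Ω → ℝ) →ₗ[ℝ] (Ω → ℝ) := (1 / 2 : ℝ) • ∑ k, ∑ l, Q k l
  have hAapp : ∀ g, A g = (1 / 2 : ℝ) • ∑ k, ∑ l, Q k l g := by
    intro g
    simp [A, LinearMap.sum_apply]
  have hQq : ∀ k l g, g ⬝ᵥ Q k l g = Q k l g ⬝ᵥ Q k l g := by
    intro k l g
    rw [hQs k l g (Q k l g), hQi]
  have hform : ∀ g, g ⬝ᵥ A g = (1 / 2) * ∑ k, ∑ l, Q k l g ⬝ᵥ Q k l g := by
    intro g
    rw [hAapp, dotProduct_smul, smul_eq_mul, dotProduct_sum]
    congr 1
    apply Finset.sum_congr rfl; intro k _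
    rw [dotProduct_sum]
    apply Finset.sum_congr rfl; intro l _
    exact hQq k l g
  have hknabe : ∀ g, 2 * ∑ k, ∑ l, Q k l g ⬝ᵥ Q k l g
      ≤ (∑ k, ∑ l, Q k l g) ⬝ᵥ (∑ m, ∑ n, Q m n g) := by
    intro g
    apply knabe_sum (fun k l => Q k l g)
    · intro k l
      simp only [hsymm k l]
    · intro k
      simp only [hdiag k]
      rfl
    · intro k l m n h1 h2 h3 h4 h5 h6
      exact dot_nonneg_of_comm (fun h => Q k l h) (fun h => Q m n h) (hQs k l) (hQs m n)
        (hQi k l) (hQi m n) (hcomm k l m n h1 h2 h3 h4 h5 h6) g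
    · intro k l x h1 h2 h3
      exact htriple k l x h1 h2 h3 g
  have hkey := gap_of_square A P
    (by
      intro g h
      rw [hAapp, hAapp, smul_dotProduct, dotProduct_smul]
      congr 1
      rw [sum_dotProduct, dotProduct_sum]
      apply Finset.sum_congr rfl; intro k _
      rw [sum_dotProduct, dotProduct_sum]
      apply Finset.sum_congr rfl; intro l _
      exact hQs k l g h)
    hP hPP
    (by
      intro g
      rw [hAapp]
      simp [hQP])
    (by
      intro g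
      rw [hform]
      have : 0 ≤ ∑ k, ∑ l, Q k l g ⬝ᵥ Q k l g :=
        Finset.sum_nonneg (fun k _ => Finset.sum_nonneg (fun l _ => dot_self_nonneg _))
      linarith)
    (by
      intro g
      rw [hform]
      have h1 := hknabe g
      rw [hAapp, smul_dotProduct, dotProduct_smul, smul_eq_mul, smul_eq_mul]
      linarith)
    (by
      intro g hg
      apply hker
      have h1 : g ⬝ᵥ A g = 0 := by rw [hg]; simp
      rw [hform] at h1
      have h2 : ∑ k, ∑ l, Q k l g ⬝ᵥ Q k l g = 0 := by linarith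
      intro k l
      have h3 := (Finset.sum_eq_zero_iff_of_nonneg (fun k _ =>
        Finset.sum_nonneg (fun l _ => dot_self_nonneg (Q k l g)))).mp h2 k (Finset.mem_univ k)
      have h4 := (Finset.sum_eq_zero_iff_of_nonneg (fun l _ =>
        dot_self_nonneg (Q k l g))).mp h3 l (Finset.mem_univ l)
      exact dot_self_eq_zero h4) f
  rw [hform] at hkey
  exact hkey

end Vale.Agent.Lib.P335
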