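import Vale.Agent.Lib.P335.Chain
import Vale.Agent.Lib.P335.GapB

/-!
Split degree vectors: graphs with such a degree vector are binary matrices.
-/

namespace Vale.Agent.Lib.P335

open Finset Matrix

variable {n : ℕ}

/-- Indicator of adjacency. -/
def adjN (G : Finset (Sym2 (Fin n))) (u v : Fin n) : ℕ := if s(u, v) ∈ G then 1 else 0

theorem adjN_symm (G : Finset (Sym2 (Fin n))) (u v : Fin n) : adjN G u v = adjN G v u := by
  unfold adjN
  rw [Sym2.eq_swap]

theorem vdeg_eq_adj (G : Finset (Sym2 (Fin n))) (v : Fin n) : vdeg G v = ∑ u, adjN G v u := by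
  unfold vdeg adjN
  have : G.filter (fun e => v ∈ e) = (univ.filter (fun u => s(v, u) ∈ G)).image (fun u => s(v, u)) := by
    ext e
    simp only [mem_filter, mem_image, mem_univ, true_and]
    constructor
    · rintro ⟨he, hv⟩
      obtain ⟨u, rfl⟩ := hv
      exact ⟨u, he, rfl⟩
    · rintro ⟨u, hu, rfl⟩
      exact ⟨hu, Sym2.mem_mk_left _ _⟩
  rw [this, Finset.card_image_of_injective _ (fun a b h => Sym2.congr_right.mp h), Finset.card_filter]

theorem vdeg_split (A : Finset (Fin n)) (G : Finset (Sym2 (Fin n))) (v : Fin n) :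
    vdeg G v = ∑ u ∈ A, adjN G v u + ∑ u ∈ Aᶜ, adjN G v u := by
  rw [vdeg_eq_adj, Finset.sum_add_sum_compl]

theorem adjN_self {d : Fin n → ℕ} {G : Finset (Sym2 (Fin n))} (hG : IsRealization d G) (v : Fin n) :
    adjN G v v = 0 := by
  unfold adjN
  rw [if_neg]
  intro h
  exact hG.1 _ h (Sym2.mk_isDiag_iff.mpr rfl)

theorem adjN_le_one (G : Finset (Sym2 (Fin n))) (u v : Fin n) : adjN G u v ≤ 1 := by
  unfold adjN
  split_ifs <;> omega

section forced
variable {d : Fin n → ℕ} {A : Finset (Fin n)}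
  (hA : ∑ v ∈ A, d v = A.card * (A.card - 1) + ∑ v ∈ Aᶜ, d v)
  {G : Finset (Sym2 (Fin n))} (hG : IsRealization d G)
include hA hG

/-- The double count. -/
theorem forced_aux : (∑ v ∈ Aᶜ, ∑ u ∈ Aᶜ, adjN G v u = 0) ∧
    (∑ v ∈ A, ∑ u ∈ A.erase v, (1 - adjN G v u) = 0) := by
  have h1 : ∑ v ∈ A, d v = ∑ v ∈ A, ∑ u ∈ A, adjN G v u + ∑ v ∈ A, ∑ u ∈ Aᶜ, adjN G v u := by
    rw [← Finset.sum_add_distrib]
    apply Finset.sum_congr rfl
    intro v _
    rw [← hG.2 v, vdeg_split A]
  have h2 : ∑ v ∈ Aᶜ, d v = ∑ v ∈ Aᶜ, ∑ u ∈ A, adjN G v u + ∑ v ∈ Aᶜ, ∑ u ∈ Aᶜ, adjN G v u := by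
    rw [← Finset.sum_add_distrib]
    apply Finset.sum_congr rfl
    intro v _
    rw [← hG.2 v, vdeg_split A]
  have h3 : ∑ v ∈ Aᶜ, ∑ u ∈ A, adjN G v u = ∑ v ∈ A, ∑ u ∈ Aᶜ, adjN G v u := by
    rw [Finset.sum_comm]
    apply Finset.sum_congr rfl
    intro v _
    apply Finset.sum_congr rfl
    intro u _
    exact adjN_symm _ _ _
  have h4 : ∑ v ∈ A, ∑ u ∈ A, adjN G v u + ∑ v ∈ A, ∑ u ∈ A.erase v, (1 - adjN G v u)
      = A.card * (A.card - 1) := by
    rw [← Finset.sum_add_distrib]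
    have : ∀ v ∈ A, ∑ u ∈ A, adjN G v u + ∑ u ∈ A.erase v, (1 - adjN G v u) = A.card - 1 := by
      intro v hv
      have e1 : ∑ u ∈ A, adjN G v u = ∑ u ∈ A.erase v, adjN G v u := by
        rw [← Finset.add_sum_erase A _ hv, adjN_self hG, zero_add]
      rw [e1, ← Finset.sum_add_distrib]
      have e2 : ∀ u ∈ A.erase v, adjN G v u + (1 - adjN G v u) = 1 := by
        intro u _
        have := adjN_le_one G v u
        omega
      rw [Finset.sum_congr rfl e2, Finset.sum_const, Finset.card_erase_of_mem hv]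
      simp
    rw [Finset.sum_congr rfl this, Finset.sum_const]
    simp
  constructor <;> omega

theorem forced_indep {u v : Fin n} (hu : u ∉ A) (hv : v ∉ A) : s(u, v) ∉ G := by
  have h := (forced_aux hA hG).1
  have h1 := (Finset.sum_eq_zero_iff.mp h) u (by simpa using hu)
  have h2 := (Finset.sum_eq_zero_iff.mp h1) v (by simpa using hv)
  intro hm
  simp [adjN, hm] at h2

theorem forced_clique {u v : Fin n} (hu : u ∈ A) (hv : v ∈ A) (huv : u ≠ v) : s(u, v) ∈ G := by
  have h := (forced_aux hA hG).2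
  have h1 := (Finset.sum_eq_zero_iff.mp h) u hu
  have h2 := (Finset.sum_eq_zero_iff.mp h1) v (Finset.mem_erase.mpr ⟨huv.symm, hv⟩)
  by_contra hm
  simp [adjN, hm] at h2

theorem row_adj {k : Fin n} (hk : k ∈ A) : ∑ u ∈ A, adjN G k u = A.card - 1 := by
  rw [← Finset.add_sum_erase A _ hk, adjN_self hG, zero_add]
  have : ∀ u ∈ A.erase k, adjN G k u = 1 := by
    intro u hu
    obtain ⟨h1, h2⟩ := Finset.mem_erase.mp hu
    unfold adjN
    rw [if_pos (forced_clique hA hG hk h2 h1.symm)]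
  rw [Finset.sum_congr rfl this, Finset.sum_const, Finset.card_erase_of_mem hk]
  simp

end forced

/-- Neighbors of a vertex of `A` outside `A`. -/
def rowVal (A : Finset (Fin n)) (G : Finset (Sym2 (Fin n))) (k : ↥A) : Finset ↥(Aᶜ) :=
  univ.filter (fun j => s(k.1, j.1) ∈ G)

/-- Row sums of the matrices. -/
def rS (d : Fin n → ℕ) (A : Finset (Fin n)) (k : ↥A) : ℕ := d k.1 - (A.card - 1)

/-- Column sums of the matrices. -/
def cS (d : Fin n → ℕ) (A : Finset (Fin n)) (j : ↥(Aᶜ)) : ℕ := d j.1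

theorem card_rowVal (A : Finset (Fin n)) (G : Finset (Sym2 (Fin n))) (k : ↥A) :
    (rowVal A G k).card = ∑ u ∈ Aᶜ, adjN G k.1 u := by
  unfold rowVal adjN
  rw [Finset.card_filter]
  exact Finset.sum_coe_sort (Aᶜ) (fun u => if s(k.1, u) ∈ G then 1 else 0)

theorem cnt_rowVal (A : Finset (Fin n)) (G : Finset (Sym2 (Fin n))) (j : ↥(Aᶜ)) :
    cnt (rowVal A G) j = ∑ u ∈ A, adjN G j.1 u := by
  unfold cnt rowVal
  have := Finset.sum_coe_sort A (fun u => adjN G j.1 u)
  rw [← this]
  apply Finset.sum_congr rfl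
  intro k _
  rw [adjN_symm]
  simp [adjN]

theorem isBip_rowVal {d : Fin n → ℕ} {A : Finset (Fin n)}
    (hA : ∑ v ∈ A, d v = A.card * (A.card - 1) + ∑ v ∈ Aᶜ, d v)
    {G : Finset (Sym2 (Fin n))} (hG : IsRealization d G) :
    IsBip (rS d A) (cS d A) (rowVal A G) := by
  constructor
  · intro k
    have h := vdeg_split A G k.1
    rw [hG.2, row_adj hA hG k.2, ← card_rowVal] at h
    unfold rS
    omega
  · intro j
    have h := vdeg_split A G j.1
    rw [hG.2] at h
    have h0 : ∑ u ∈ Aᶜ, adjN G j.1 u = 0 := by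
      apply Finset.sum_eq_zero
      intro u hu
      unfold adjN
      rw [if_neg]
      apply forced_indep hA hG
      · exact Finset.mem_compl.mp j.2
      · simpa using hu
    rw [cnt_rowVal]
    unfold cS
    omega

/-- The graph of a matrix. -/
def edgesOf (A : Finset (Fin n)) (x : ↥A → Finset ↥(Aᶜ)) : Finset (Sym2 (Fin n)) :=
  (A.sym2.filter (fun e => ¬ e.IsDiag)) ∪
    (univ : Finset ↥A).biUnion (fun k => (x k).image (fun j => s(k.1, j.1)))

theorem mem_edges_clique {A : Finset (Fin n)} (x : ↥A → Finset ↥(Aᶜ)) {u v : Fin n}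
    (hu : u ∈ A) (hv : v ∈ A) : s(u, v) ∈ edgesOf A x ↔ u ≠ v := by
  unfold edgesOf
  simp only [mem_union, mem_filter, Finset.mk_mem_sym2_iff, Sym2.mk_isDiag_iff, mem_biUnion,
    mem_univ, true_and, mem_image]
  constructor
  · rintro (⟨-, h⟩ | ⟨k, j, -, h⟩)
    · exact h
    · exfalso
      have hj : j.1 ∉ A := Finset.mem_compl.mp j.2
      rw [Sym2.eq_iff] at h
      rcases h with ⟨-, h⟩ | ⟨-, h⟩
      · exact hj (h ▸ hv)
      · exact hj (h ▸ hu)
  · intro h
    exact Or.inl ⟨⟨hu, hv⟩, h⟩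

theorem mem_edges_cross {A : Finset (Fin n)} (x : ↥A → Finset ↥(Aᶜ)) (k : ↥A) (j : ↥(Aᶜ)) :
    s(k.1, j.1) ∈ edgesOf A x ↔ j ∈ x k := by
  have hj : j.1 ∉ A := Finset.mem_compl.mp j.2
  unfold edgesOf
  simp only [mem_union, mem_filter, Finset.mk_mem_sym2_iff, Sym2.mk_isDiag_iff, mem_biUnion,
    mem_univ, true_and, mem_image]
  constructor
  · rintro (⟨⟨-, h⟩, -⟩ | ⟨k', j', h1, h⟩)
    · exact absurd h hj
    · rw [Sym2.eq_iff] at h
      rcases h with ⟨h2, h3⟩ | ⟨h2, -⟩
      · have e1 : k' = k := Subtype.ext h2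
        have e2 : j' = j := Subtype.ext h3
        rw [← e1, ← e2]
        exact h1
      · exact absurd (h2 ▸ k'.2) hj
  · intro h
    exact Or.inr ⟨k, j, h, rfl⟩

theorem not_mem_edges_indep {A : Finset (Fin n)} (x : ↥A → Finset ↥(Aᶜ)) {u v : Fin n}
    (hu : u ∉ A) (hv : v ∉ A) : s(u, v) ∉ edgesOf A x := by
  unfold edgesOf
  simp only [mem_union, mem_filter, Finset.mk_mem_sym2_iff, mem_biUnion,
    mem_univ, true_and, mem_image, not_or]
  constructor
  · rintro ⟨⟨h, -⟩, -⟩
    exact hu h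
  · rintro ⟨k, j, -, h⟩
    rw [Sym2.eq_iff] at h
    rcases h with ⟨h, -⟩ | ⟨h, -⟩
    · exact hu (h ▸ k.2)
    · exact hv (h ▸ k.2)

theorem edgesOf_no_loop {A : Finset (Fin n)} (x : ↥A → Finset ↥(Aᶜ)) :
    ∀ e ∈ edgesOf A x, ¬ e.IsDiag := by
  intro e
  induction e using Sym2.ind with
  | _ u v =>
    intro he hd
    have huv : u = v := Sym2.mk_isDiag_iff.mp hd
    subst huv
    by_cases hu : u ∈ A
    · exact ((mem_edges_clique x hu hu).mp he) rfl
    · exact not_mem_edges_indep x hu hu he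

theorem realization_edgesOf {d : Fin n → ℕ} {A : Finset (Fin n)}
    (hd : ∀ k ∈ A, A.card - 1 ≤ d k) (x : Bip (rS d A) (cS d A)) :
    IsRealization d (edgesOf A x.1) := by
  refine ⟨edgesOf_no_loop x.1, ?_⟩
  intro v
  rw [vdeg_split A]
  by_cases hv : v ∈ A
  · let k : ↥A := ⟨v, hv⟩
    have h1 : ∑ u ∈ A, adjN (edgesOf A x.1) v u = A.card - 1 := by
      have h3 : adjN (edgesOf A x.1) v v = 0 := by
        unfold adjN
        rw [if_neg]
        rw [mem_edges_clique x.1 hv hv]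
        simp
      rw [← Finset.add_sum_erase A _ hv, h3, zero_add]
      have : ∀ u ∈ A.erase v, adjN (edgesOf A x.1) v u = 1 := by
        intro u hu
        obtain ⟨h1, h2⟩ := Finset.mem_erase.mp hu
        unfold adjN
        rw [if_pos ((mem_edges_clique x.1 hv h2).mpr h1.symm)]
      rw [Finset.sum_congr rfl this, Finset.sum_const, Finset.card_erase_of_mem hv]
      simp
    have h2 : ∑ u ∈ Aᶜ, adjN (edgesOf A x.1) v u = (x.1 k).card := by
      rw [← card_rowVal A _ k]
      congr 1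
      ext j
      unfold rowVal
      simp only [mem_filter, mem_univ, true_and]
      exact mem_edges_cross x.1 k j
    rw [h1, h2, x.2.1 k]
    have := hd v hv
    show A.card - 1 + (d v - (A.card - 1)) = d v
    omega
  · let j : ↥(Aᶜ) := ⟨v, by simpa using hv⟩
    have h1 : ∑ u ∈ Aᶜ, adjN (edgesOf A x.1) v u = 0 := by
      apply Finset.sum_eq_zero
      intro u hu
      unfold adjN
      rw [if_neg]
      exact not_mem_edges_indep x.1 hv (by simpa using hu)
    have h2 : ∑ u ∈ A, adjN (edgesOf A x.1) v u = cnt x.1 j := by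
      rw [← Finset.sum_coe_sort A]
      unfold cnt
      apply Finset.sum_congr rfl
      intro k _
      rw [adjN_symm]
      unfold adjN
      have := mem_edges_cross x.1 k j
      by_cases h3 : j ∈ x.1 k
      · rw [if_pos h3, if_pos (this.mpr h3)]
      · rw [if_neg h3, if_neg (fun h4 => h3 (this.mp h4))]
    rw [h1, h2, x.2.2 j]
    rfl

theorem edges_rowVal {d : Fin n → ℕ} {A : Finset (Fin n)}
    (hA : ∑ v ∈ A, d v = A.card * (A.card - 1) + ∑ v ∈ Aᶜ, d v)
    {G : Finset (Sym2 (Fin n))} (hG : IsRealization d G) : edgesOf A (rowVal A G) = G := by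
  ext e
  induction e using Sym2.ind with
  | _ u v =>
    by_cases hu : u ∈ A
    · by_cases hv : v ∈ A
      · rw [mem_edges_clique _ hu hv]
        constructor
        · intro huv
          exact forced_clique hA hG hu hv huv
        · intro h huv
          subst huv
          exact hG.1 _ h (Sym2.mk_isDiag_iff.mpr rfl)
      · have := mem_edges_cross (rowVal A G) ⟨u, hu⟩ ⟨v, by simpa using hv⟩
        rw [this]
        simp [rowVal]
    · by_cases hv : v ∈ A
      · have := mem_edges_cross (rowVal A G) ⟨v, hv⟩ ⟨u, by simpa using hu⟩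
        rw [Sym2.eq_swap]
        rw [this]
        simp [rowVal]
      · constructor
        · intro h
          exact absurd h (not_mem_edges_indep _ hu hv)
        · intro h
          exact absurd h (forced_indep hA hG hu hv)

theorem rowVal_edges {A : Finset (Fin n)} (x : ↥A → Finset ↥(Aᶜ)) :
    rowVal A (edgesOf A x) = x := by
  funext k
  ext j
  unfold rowVal
  simp only [mem_filter, mem_univ, true_and]
  exact mem_edges_cross x k j

/-- The identification of graphs and matrices. -/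
noncomputable def splitEquiv {d : Fin n → ℕ} {A : Finset (Fin n)}
    (hA : ∑ v ∈ A, d v = A.card * (A.card - 1) + ∑ v ∈ Aᶜ, d v)
    (hd : ∀ k ∈ A, A.card - 1 ≤ d k) : Realizations d ≃ Bip (rS d A) (cS d A) where
  toFun G := ⟨rowVal A G.1, isBip_rowVal hA G.2⟩
  invFun x := ⟨edgesOf A x.1, realization_edgesOf hd x⟩
  left_inv G := Subtype.ext (edges_rowVal hA G.2)
  right_inv x := Subtype.ext (rowVal_edges x.1)

end Vale.Agent.Lib.P335
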