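import Vale.Agent.Lib.P335.Col

/-!
Three rows: the bound `∑ ‖E_e f‖² ≤ 2 ‖f‖² + ‖mean f‖²`, where `E_e` is the average
given row `e`.
-/

namespace Vale.Agent.Lib.P335

open Finset Matrix

variable {κ : Type*} [Fintype κ] [DecidableEq κ] {r : Fin 3 → ℕ} {t : κ → ℕ}

/-- Number of columns of total one in row `e`. -/
def aStat (t : κ → ℕ) (e : Fin 3) (x : Bip r t) : ℕ := ((x.1 e).filter (fun j => t j = 1)).card

/-- Number of columns of total two in row `e`. -/
def bStat (t : κ → ℕ) (e : Fin 3) (x : Bip r t) : ℕ := ((x.1 e).filter (fun j => t j = 2)).card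

/-- Number of columns of total two missed by row `e`. -/
def zStat (t : κ → ℕ) (e : Fin 3) (x : Bip r t) : ℕ :=
  (univ.filter (fun j => t j = 2 ∧ j ∉ x.1 e)).card

/-- Number of columns of a given total. -/
def cT (t : κ → ℕ) (n : ℕ) : ℕ := (univ.filter (fun j => t j = n)).card

theorem t_le_three (x : Bip r t) (j : κ) : t j ≤ 3 := by
  rw [← card_col x j]
  simpa using Finset.card_le_univ (col x.1 j)

theorem mem_of_t_three (x : Bip r t) {j : κ} (h : t j = 3) (e : Fin 3) : j ∈ x.1 e := by
  have h1 : (col x.1 j).card = 3 := by rw [card_col, h]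
  have h2 : col x.1 j = univ := by
    apply Finset.eq_univ_of_card
    simpa using h1
  have h3 : e ∈ col x.1 j := by rw [h2]; exact Finset.mem_univ e
  simpa using h3

theorem t_pos_of_mem (x : Bip r t) {j : κ} {e : Fin 3} (h : j ∈ x.1 e) : 1 ≤ t j := by
  rw [← card_col x j]
  exact Finset.card_pos.mpr ⟨e, by simpa using h⟩

theorem not_mem_of_owner (x : Bip r t) {j : κ} (h : t j = 1) {m e : Fin 3} (hm : j ∈ x.1 m)
    (he : e ≠ m) : j ∉ x.1 e := by
  intro hje
  have h1 : (col x.1 j).card = 1 := by rw [card_col, h]
  obtain ⟨a, ha⟩ := Finset.card_eq_one.mp h1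
  have h2 : m ∈ col x.1 j := by simpa using hm
  have h3 : e ∈ col x.1 j := by simpa using hje
  rw [ha] at h2 h3
  simp only [mem_singleton] at h2 h3
  exact he (h3.trans h2.symm)

theorem mem_of_hole (x : Bip r t) {j : κ} (h : t j = 2) {m e : Fin 3} (hm : j ∉ x.1 m)
    (he : e ≠ m) : j ∈ x.1 e := by
  by_contra hje
  have h1 : (col x.1 j).card = 2 := by rw [card_col, h]
  have hsub : col x.1 j ⊆ (univ.erase m).erase e := by
    intro a ha
    have ha' : j ∈ x.1 a := by simpa using ha
    simp only [mem_erase, mem_univ, and_true]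
    constructor
    · rintro rfl; exact hje ha'
    · rintro rfl; exact hm ha'
  have h2 := Finset.card_le_card hsub
  rw [Finset.card_erase_of_mem (by simp [he]), Finset.card_erase_of_mem (by simp)] at h2
  simp at h2
  omega

/-- Size of a row through the column classes. -/
theorem row_size (x : Bip r t) (e : Fin 3) : r e = aStat t e x + bStat t e x + cT t 3 := by
  rw [← x.2.1 e]
  have h3 : (x.1 e).filter (fun j => t j = 3) = univ.filter (fun j => t j = 3) := by
    ext j
    simp only [mem_filter, mem_univ, true_and]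
    exact ⟨fun h => h.2, fun h => ⟨mem_of_t_three x h e, h⟩⟩
  have hsum : (x.1 e) = ((x.1 e).filter (fun j => t j = 1))
      ∪ ((x.1 e).filter (fun j => t j = 2)) ∪ ((x.1 e).filter (fun j => t j = 3)) := by
    ext j
    simp only [mem_union, mem_filter]
    constructor
    · intro hj
      have h1 := t_pos_of_mem x hj
      have h2 := t_le_three x j
      have : t j = 1 ∨ t j = 2 ∨ t j = 3 := by omega
      tauto
    · tauto
  have hd1 : Disjoint ((x.1 e).filter (fun j => t j = 1)) ((x.1 e).filter (fun j => t j = 2)) := by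
    rw [Finset.disjoint_left]
    intro j h1 h2
    simp only [mem_filter] at h1 h2
    omega
  have hd2 : Disjoint (((x.1 e).filter (fun j => t j = 1)) ∪ ((x.1 e).filter (fun j => t j = 2)))
      ((x.1 e).filter (fun j => t j = 3)) := by
    rw [Finset.disjoint_left]
    intro j h1 h2
    simp only [mem_union, mem_filter] at h1 h2
    omega
  conv_lhs => rw [hsum]
  rw [Finset.card_union_of_disjoint hd2, Finset.card_union_of_disjoint hd1, h3]
  rfl

theorem z_add_b (x : Bip r t) (e : Fin 3) : zStat t e x + bStat t e x = cT t 2 := by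
  unfold zStat bStat cT
  rw [← Finset.card_union_of_disjoint]
  · congr 1
    ext j
    simp only [mem_union, mem_filter, mem_univ, true_and]
    tauto
  · rw [Finset.disjoint_left]
    intro j h1 h2
    simp only [mem_filter, mem_univ, true_and] at h1 h2
    exact h1.2 h2.1

/-- The relation between the numbers of holes and of owned columns. -/
theorem z_add_r (x : Bip r t) (e : Fin 3) :
    zStat t e x + r e = aStat t e x + cT t 2 + cT t 3 := by
  have h1 := row_size x e
  have h2 := z_add_b x e
  omega

/-- Each column of total one has one owner. -/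
theorem sum_a (x : Bip r t) : ∑ e, aStat t e x = cT t 1 := by
  have h1 : ∀ e, aStat t e x = ∑ j ∈ univ.filter (fun j => t j = 1), if j ∈ x.1 e then 1 else 0 := by
    intro e
    unfold aStat
    rw [← Finset.card_filter]
    congr 1
    ext j
    simp only [mem_filter, mem_univ, true_and]
    tauto
  simp only [h1]
  rw [Finset.sum_comm]
  have h2 : ∀ j ∈ univ.filter (fun j => t j = 1), (∑ e, if j ∈ x.1 e then 1 else 0) = 1 := by
    intro j hj
    have hj' : t j = 1 := by simpa using hj
    have := x.2.2 j
    unfold cnt at this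
    rw [this, hj']
  rw [Finset.sum_congr rfl h2]
  simp [cT]

theorem aStat_eq_nC (x : Bip r t) (e : Fin 3) : aStat t e x = nC x.1 {e} := by
  unfold aStat nC
  congr 1
  ext j
  simp only [mem_filter, mem_univ, true_and]
  constructor
  · rintro ⟨h1, h2⟩
    have h3 : (col x.1 j).card = 1 := by rw [card_col, h2]
    obtain ⟨a, ha⟩ := Finset.card_eq_one.mp h3
    have h4 : e ∈ col x.1 j := by simpa using h1
    rw [ha] at h4 ⊢
    simp only [mem_singleton] at h4
    rw [h4]
  · intro h
    have h1 : e ∈ col x.1 j := by rw [h]; simp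
    refine ⟨by simpa using h1, ?_⟩
    rw [← card_col x j, h]
    simp

theorem aStat_of_relA {x y : Bip r t} (h : relA x y) (e : Fin 3) :
    aStat t e x = aStat t e y := by
  rw [aStat_eq_nC, aStat_eq_nC, h]

/-- Same row and same column statistics. -/
def rR (e : Fin 3) (x y : Bip r t) : Prop := x.1 e = y.1 e ∧ relA x y

instance (e : Fin 3) : DecidableRel (rR (r := r) (t := t) e) := fun x y => by
  unfold rR
  infer_instance

theorem rR_equiv (e : Fin 3) : Equivalence (rR (r := r) (t := t) e) :=
  ⟨fun _ => ⟨rfl, relA_equiv.refl _⟩, fun h => ⟨h.1.symm, relA_equiv.symm h.2⟩,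
    fun h k => ⟨h.1.trans k.1, relA_equiv.trans h.2 k.2⟩⟩

/-- Same row. -/
def rRow (e : Fin 3) (x y : Bip r t) : Prop := x.1 e = y.1 e

instance (e : Fin 3) : DecidableRel (rRow (r := r) (t := t) e) := fun x y => by
  unfold rRow
  infer_instance

theorem rRow_equiv (e : Fin 3) : Equivalence (rRow (r := r) (t := t) e) :=
  ⟨fun _ => rfl, fun h => h.symm, fun h k => h.trans k⟩

/-- In three rows an exchange of two columns of equal total leaves some row unchanged. -/
theorem exists_fixed_row (x : Bip r t) {j j' : κ} (h : t j = t j') :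
    ∃ e, (mv univ j j' x).1 e = x.1 e := by
  have hex : ∃ e, (j ∈ x.1 e ↔ j' ∈ x.1 e) := by
    by_contra hne
    push Not at hne
    have h1 := x.2.2 j
    have h2 := x.2.2 j'
    unfold cnt at h1 h2
    rw [Fin.sum_univ_three] at h1 h2
    have h0 := hne 0
    have h3 := hne 1
    have h4 := hne 2
    by_cases a0 : j ∈ x.1 0 <;> by_cases b0 : j' ∈ x.1 0 <;>
    by_cases a1 : j ∈ x.1 1 <;> by_cases b1 : j' ∈ x.1 1 <;>
    by_cases a2 : j ∈ x.1 2 <;> by_cases b2 : j' ∈ x.1 2 <;>
    simp only [a0, b0, a1, b1, a2, b2, if_true, if_false] at h1 h2 <;>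
    simp_all <;> omega
  obtain ⟨e, he⟩ := hex
  exact ⟨e, by rw [mvU_row h, swapSet_eq_self he]⟩

/-- The interchange bound for three rows. -/
theorem three_interchange (f : Bip r t → ℝ) (hf : avg relA f = 0) :
    ∑ e, avg (rR e) f ⬝ᵥ avg (rR e) f ≤ 2 * (f ⬝ᵥ f) := by
  apply interchange_bound (r := rR) (r₀ := relA)
    (τ := fun p : {p : κ × κ // t p.1 = t p.2} => mvPerm univ p.1.1 p.1.2)
    rR_equiv relA_equiv (fun _ _ _ h => h.2)
  · intro e p x y
    simp only [mvPerm_apply, rR]
    rw [mvU_row p.2, mvU_row p.2, swapSet_inj]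
    apply and_congr_right
    intro _
    constructor
    · intro h C
      rw [← nC_mvU p.2 x C, ← nC_mvU p.2 y C]
      exact h C
    · intro h C
      rw [nC_mvU p.2 x C, nC_mvU p.2 y C]
      exact h C
  · intro p x
    obtain ⟨e, he⟩ := exists_fixed_row x p.2
    exact ⟨e, he, relA_mvU p.2 x⟩
  · intro g hg x y hxy
    exact conn_of_relA g (fun j j' h x => hg ⟨(j, j'), h⟩ x) x y hxy
  · exact hf

/-- Functions of a row invariant under exchanges depend only on the statistic of the row. -/
theorem row_conn (e : Fin 3) (g : Bip r t → ℝ) (hg : ∀ x y : Bip r t, x.1 e = y.1 e → g x = g y)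
    (hinv : ∀ j j', t j = t j' → ∀ x : Bip r t, g (mv univ j j' x) = g x) :
    ∀ x y : Bip r t, aStat t e x = aStat t e y → g x = g y := by
  intro x y
  induction hd : ((x.1 e) \ (y.1 e)).card using Nat.strong_induction_on generalizing x with
  | _ d ih =>
    intro ha
    by_cases hne : ∃ j, j ∈ x.1 e ∧ j ∉ y.1 e
    · obtain ⟨j, hjx, hjy⟩ := hne
      have hb : bStat t e x = bStat t e y := by
        have h1 := row_size x e
        have h2 := row_size y e
        omega
      have ht1 := t_pos_of_mem x hjx
      have ht2 := t_le_three x j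
      have ht3 : t j ≠ 3 := fun h => hjy (mem_of_t_three y h e)
      have hcard : ((x.1 e).filter (fun k => t k = t j)).card
          = ((y.1 e).filter (fun k => t k = t j)).card := by
        have : t j = 1 ∨ t j = 2 := by omega
        rcases this with h | h
        · rw [h]; exact ha
        · rw [h]; exact hb
      obtain ⟨j', hj'1, hj'2⟩ := exists_mem_sdiff_of_card_eq hcard (j := j)
        (by simp [hjx]) (by simp [hjy])
      have hj'y : j' ∈ y.1 e := (Finset.mem_filter.mp hj'1).1
      have htj' : t j' = t j := (Finset.mem_filter.mp hj'1).2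
      have hj'x : j' ∉ x.1 e := fun h => hj'2 (by simp [h, htj'])
      have ht : t j = t j' := htj'.symm
      set x' := mv univ j j' x with hx'
      have hg' : g x' = g x := hinv j j' ht x
      have ha' : aStat t e x' = aStat t e y := by
        rw [← ha, aStat_eq_nC, aStat_eq_nC, hx', nC_mvU ht]
      have hrow : x'.1 e = swapSet j j' (x.1 e) := mvU_row ht x e
      have hsub : (x'.1 e) \ (y.1 e) ⊆ ((x.1 e) \ (y.1 e)).erase j := by
        intro k hk
        simp only [mem_sdiff] at hk
        have hk1 := hk.1
        rw [hrow, mem_swapSet] at hk1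
        simp only [mem_erase, mem_sdiff]
        by_cases hkj : k = j
        · subst hkj
          rw [Equiv.swap_apply_left] at hk1
          exact absurd hk1 hj'x
        · by_cases hkj' : k = j'
          · subst hkj'
            exact absurd hj'y hk.2
          · rw [Equiv.swap_apply_of_ne_of_ne hkj hkj'] at hk1
            exact ⟨hkj, hk1, hk.2⟩
      have hlt : ((x'.1 e) \ (y.1 e)).card < d := by
        rw [← hd]
        calc _ ≤ (((x.1 e) \ (y.1 e)).erase j).card := Finset.card_le_card hsub
          _ < _ := Finset.card_erase_lt_of_mem (by simp [hjx, hjy])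
      rw [← hg']
      exact ih _ hlt x' rfl ha'
    · push Not at hne
      have hsub : x.1 e ⊆ y.1 e := hne
      have hc : (y.1 e).card ≤ (x.1 e).card := by rw [x.2.1 e, y.2.1 e]
      exact hg x y (Finset.eq_of_subset_of_card_le hsub hc)

/-- Conditional independence: a function of a row, averaged given the column statistics,
depends only on the statistic of the row. -/
theorem avg_relA_of_row (e : Fin 3) (φ : Bip r t → ℝ) (hφ : Meas (rRow e) φ) :
    avg relA φ = avg (sameVal (aStat t e)) φ := by
  set ψ := avg (sameVal (aStat t e)) φ with hψ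
  have hψm : Meas relA ψ := by
    intro x y hxy
    exact avg_meas (sameVal_equiv _) φ x y (aStat_of_relA hxy e)
  have hrrow : ∀ x y : Bip r t, rRow e x y → sameVal (aStat t e) x y := by
    intro x y h
    have h' : x.1 e = y.1 e := h
    unfold sameVal aStat
    rw [h']
  -- orthogonality to relA measurable functions
  have horth : ∀ h : Bip r t → ℝ, Meas relA h → φ ⬝ᵥ h = ψ ⬝ᵥ h := by
    intro h hh
    have hh' := avg_meas (rRow_equiv e) h
    have hinv : ∀ j j', t j = t j' → ∀ x : Bip r t,
        avg (rRow e) h (mv univ j j' x) = avg (rRow e) h x := by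
      intro j j' hjj x
      have hcomp : h ∘ (mvPerm univ j j' : Equiv.Perm (Bip r t)) = h := by
        funext y
        exact hh _ _ (relA_mvU hjj y)
      have hc := avg_comp_perm (s := rRow e) (mvPerm univ j j' : Equiv.Perm (Bip r t)) (by
        intro a b
        simp only [rRow, mvPerm_apply]
        rw [mvU_row hjj, mvU_row hjj, swapSet_inj]) h
      rw [hcomp] at hc
      have := congrFun hc x
      simp only [Function.comp] at this
      exact this.symm
    have hmeas : Meas (sameVal (aStat t e)) (avg (rRow e) h) := by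
      intro x y hxy
      exact row_conn e _ (fun a b hab => hh' a b hab) hinv x y hxy
    have h1 : φ ⬝ᵥ h = φ ⬝ᵥ avg (rRow e) h := by
      rw [← avg_dot (rRow_equiv e), avg_of_meas (rRow_equiv e) hφ]
    have h2 : avg (rRow e) h = avg (sameVal (aStat t e)) h := by
      conv_lhs => rw [← avg_of_meas (sameVal_equiv _) hmeas]
      exact avg_tower (rRow_equiv e) (sameVal_equiv _) hrrow h
    rw [h1, h2, ← avg_dot (sameVal_equiv _)]
  have h0 : avg relA (φ - ψ) = 0 := by
    apply dot_self_eq_zero
    rw [avg_dot_avg relA_equiv, sub_dotProduct, horth _ (avg_meas relA_equiv _)]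
    simp
  rw [avg_sub, avg_of_meas relA_equiv hψm, sub_eq_zero] at h0
  exact h0

end Vale.Agent.Lib.P335
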