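import Vale.Agent.Lib.P335.ThreeRow

/-!
Three rows: the radial hypotheses and the final bound.
-/

namespace Vale.Agent.Lib.P335

open Finset Matrix

variable {κ : Type*} [Fintype κ] [DecidableEq κ] {r : Fin 3 → ℕ} {t : κ → ℕ}

/-- Data of a transfer of one column of total one and one column of total two. -/
structure IsTransfer (i m : Fin 3) (x : Bip r t) (j j' : κ) : Prop where
  t1 : t j = 1
  t2 : t j' = 2
  mem : j ∈ x.1 m
  nmem : j' ∉ x.1 m

theorem transfer_cond {i m : Fin 3} (him : i ≠ m) {x : Bip r t} {j j' : κ}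
    (h : IsTransfer i m x j j') : cntIn {i, m} x.1 j = cntIn {i, m} x.1 j' := by
  have h1 : j ∉ x.1 i := not_mem_of_owner x h.t1 h.mem him
  have h2 : j' ∈ x.1 i := mem_of_hole x h.t2 h.nmem him
  unfold cntIn
  rw [Finset.sum_pair him, Finset.sum_pair him]
  simp [h1, h2, h.mem, h.nmem]

theorem ne_of_transfer {i m : Fin 3} {x : Bip r t} {j j' : κ} (h : IsTransfer i m x j j') :
    j ≠ j' := by
  intro e
  subst e
  have h1 := h.t1
  have h2 := h.t2
  omega

theorem transfer_row_i {i m : Fin 3} (him : i ≠ m) {x : Bip r t} {j j' : κ}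
    (h : IsTransfer i m x j j') : (mv {i, m} j j' x).1 i = swapSet j j' (x.1 i) := by
  rw [mv_val_of (transfer_cond him h)]
  simp [rowSwap]

theorem transfer_row_m {i m : Fin 3} (him : i ≠ m) {x : Bip r t} {j j' : κ}
    (h : IsTransfer i m x j j') : (mv {i, m} j j' x).1 m = swapSet j j' (x.1 m) := by
  rw [mv_val_of (transfer_cond him h)]
  simp [rowSwap]

theorem transfer_row_l {i m l : Fin 3} (him : i ≠ m) (hli : l ≠ i) (hlm : l ≠ m) {x : Bip r t}
    {j j' : κ} (h : IsTransfer i m x j j') : (mv {i, m} j j' x).1 l = x.1 l := by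
  rw [mv_val_of (transfer_cond him h)]
  simp [rowSwap, hli, hlm]

/-- The transfer raises the statistic of `i` by one. -/
theorem aStat_transfer {i m : Fin 3} (him : i ≠ m) {x : Bip r t} {j j' : κ}
    (h : IsTransfer i m x j j') : aStat t i (mv {i, m} j j' x) = aStat t i x + 1 := by
  have h1 : j ∉ x.1 i := not_mem_of_owner x h.t1 h.mem him
  have h2 : j' ∈ x.1 i := mem_of_hole x h.t2 h.nmem him
  have hne := ne_of_transfer h
  unfold aStat
  rw [transfer_row_i him h]
  have hset : (swapSet j j' (x.1 i)).filter (fun k => t k = 1)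
      = insert j ((x.1 i).filter (fun k => t k = 1)) := by
    ext k
    simp only [mem_filter, mem_swapSet, mem_insert]
    by_cases hkj : k = j
    · subst hkj
      simp [h2, h.t1]
    · by_cases hkj' : k = j'
      · subst hkj'
        have : t k ≠ 1 := by rw [h.t2]; omega
        simp [this, hkj]
      · rw [Equiv.swap_apply_of_ne_of_ne hkj hkj']
        simp [hkj]
  rw [hset, Finset.card_insert_of_notMem]
  simp [h1]

/-- The reverse data after a transfer. -/
theorem transfer_reverse {i m : Fin 3} (him : i ≠ m) {x : Bip r t} {j j' : κ}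
    (h : IsTransfer i m x j j') : IsTransfer m i (mv {i, m} j j' x) j j' := by
  have h1 : j ∉ x.1 i := not_mem_of_owner x h.t1 h.mem him
  have h2 : j' ∈ x.1 i := mem_of_hole x h.t2 h.nmem him
  refine ⟨h.t1, h.t2, ?_, ?_⟩
  · rw [transfer_row_i him h, mem_swapSet, Equiv.swap_apply_left]
    exact h2
  · rw [transfer_row_i him h, mem_swapSet, Equiv.swap_apply_right]
    exact h1

theorem pair_comm (i m : Fin 3) : ({i, m} : Finset (Fin 3)) = {m, i} := Finset.pair_comm i m

/-- Double counting of transfers. -/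
theorem transfer_count {i l m : Fin 3} (him : i ≠ m) (hli : l ≠ i) (hlm : l ≠ m) (y v : ℕ) :
    ∑ x ∈ (univ.filter (fun x : Bip r t => y = aStat t i x)).filter (fun x => aStat t l x = v),
        aStat t m x * zStat t m x
      = ∑ x ∈ (univ.filter (fun x : Bip r t => y + 1 = aStat t i x)).filter
          (fun x => aStat t l x = v), aStat t i x * zStat t i x := by
  classical
  set A0 := (univ.filter (fun x : Bip r t => y = aStat t i x)).filter (fun x => aStat t l x = v)
  set A1 := (univ.filter (fun x : Bip r t => y + 1 = aStat t i x)).filter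
    (fun x => aStat t l x = v)
  let J : Fin 3 → Bip r t → Finset (κ × κ) := fun e x =>
    ((x.1 e).filter (fun j => t j = 1)) ×ˢ (univ.filter (fun j => t j = 2 ∧ j ∉ x.1 e))
  have hJ : ∀ e x, (J e x).card = aStat t e x * zStat t e x := by
    intro e x
    simp [J, aStat, zStat, Finset.card_product]
  have hS0 : ∑ x ∈ A0, aStat t m x * zStat t m x = (A0.sigma (J m)).card := by
    rw [Finset.card_sigma]
    exact Finset.sum_congr rfl (fun x _ => (hJ m x).symm)
  have hS1 : ∑ x ∈ A1, aStat t i x * zStat t i x = (A1.sigma (J i)).card := by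
    rw [Finset.card_sigma]
    exact Finset.sum_congr rfl (fun x _ => (hJ i x).symm)
  rw [hS0, hS1]
  have hmemJ : ∀ e x p, p ∈ J e x ↔ (p.1 ∈ x.1 e ∧ t p.1 = 1) ∧ (t p.2 = 2 ∧ p.2 ∉ x.1 e) := by
    intro e x p
    simp [J, Finset.mem_product]
  apply Finset.card_nbij'
    (fun s => ⟨mv {i, m} s.2.1 s.2.2 s.1, s.2⟩)
    (fun s => ⟨mv {i, m} s.2.1 s.2.2 s.1, s.2⟩)
  · -- maps forward
    rintro ⟨x, p⟩ hs
    simp only [Finset.coe_sigma, Set.mem_sigma_iff, Finset.mem_coe] at hs ⊢
    obtain ⟨hx, hp⟩ := hs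
    rw [hmemJ] at hp
    have hT : IsTransfer i m x p.1 p.2 := ⟨hp.1.2, hp.2.1, hp.1.1, hp.2.2⟩
    have hR := transfer_reverse him hT
    have hx' : y = aStat t i x ∧ aStat t l x = v := by
      simpa [A0] using hx
    constructor
    · simp only [A1, mem_filter, mem_univ, true_and]
      constructor
      · rw [aStat_transfer him hT, ← hx'.1]
      · unfold aStat at hx' ⊢
        rw [transfer_row_l him hli hlm hT]
        exact hx'.2
    · rw [hmemJ]
      exact ⟨⟨hR.mem, hR.t1⟩, hR.t2, hR.nmem⟩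
  · -- maps backward
    rintro ⟨x, p⟩ hs
    simp only [Finset.coe_sigma, Set.mem_sigma_iff, Finset.mem_coe] at hs ⊢
    obtain ⟨hx, hp⟩ := hs
    rw [hmemJ] at hp
    have hT : IsTransfer m i x p.1 p.2 := ⟨hp.1.2, hp.2.1, hp.1.1, hp.2.2⟩
    have hx' : y + 1 = aStat t i x ∧ aStat t l x = v := by
      simpa [A1] using hx
    have hpc : ({i, m} : Finset (Fin 3)) = {m, i} := Finset.pair_comm i m
    rw [hpc]
    have hR := transfer_reverse him.symm hT
    have hback := aStat_transfer him (x := mv {m, i} p.1 p.2 x) (j := p.1) (j' := p.2) hR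
    have hinv : mv {i, m} p.1 p.2 (mv {m, i} p.1 p.2 x) = x := by
      rw [hpc]
      exact mv_invol _ _ _ x
    rw [hinv] at hback
    constructor
    · simp only [A0, mem_filter, mem_univ, true_and]
      constructor
      · omega
      · unfold aStat at hx' ⊢
        rw [transfer_row_l him.symm hlm hli hT]
        exact hx'.2
    · rw [hmemJ]
      exact ⟨⟨hR.mem, hR.t1⟩, hR.t2, hR.nmem⟩
  · rintro ⟨x, p⟩ _
    simp only [Sigma.mk.injEq, heq_eq_eq, and_true]
    exact mv_invol _ _ _ x
  · rintro ⟨x, p⟩ _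
    simp only [Sigma.mk.injEq, heq_eq_eq, and_true]
    exact mv_invol _ _ _ x

/-- There are no holes in the values of the statistic. -/
theorem aStat_interval (i : Fin 3) (x w : Bip r t) (h : aStat t i x < aStat t i w) :
    ∃ x₁ : Bip r t, aStat t i x₁ = aStat t i x + 1 := by
  have hs1 := sum_a x
  have hs2 := sum_a w
  -- find the row
  have hex : ∃ m, m ≠ i ∧ aStat t m w < aStat t m x := by
    by_contra hne
    push Not at hne
    rw [Fin.sum_univ_three] at hs1 hs2
    have h0 := hne 0
    have h1 := hne 1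
    have h2 := hne 2
    fin_cases i
    · simp only [Fin.zero_eta] at h
      have h3 := h1 (by decide)
      have h4 := h2 (by decide)
      omega
    · simp only [Fin.mk_one] at h
      have h3 := h0 (by decide)
      have h4 := h2 (by decide)
      omega
    · simp only [Fin.reduceFinMk] at h
      have h3 := h0 (by decide)
      have h4 := h1 (by decide)
      omega
  obtain ⟨m, hmi, hm⟩ := hex
  have hzx := z_add_r x m
  have hzw := z_add_r w m
  have hz : 0 < zStat t m x := by omega
  have ha : 0 < aStat t m x := by omega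
  obtain ⟨j, hj⟩ := Finset.card_pos.mp ha
  obtain ⟨j', hj'⟩ := Finset.card_pos.mp hz
  simp only [mem_filter, mem_univ, true_and] at hj hj'
  have hT : IsTransfer i m x j j' := ⟨hj.2, hj'.1, hj.1, hj'.2⟩
  exact ⟨_, aStat_transfer hmi.symm hT⟩

theorem exists_third : ∀ i l : Fin 3, ∃ m : Fin 3, m ≠ i ∧ m ≠ l := by decide

theorem univ_three : ∀ i l m : Fin 3, i ≠ l → m ≠ i → m ≠ l →
    (univ : Finset (Fin 3)) = {i, l, m} := by decide

/-- The statistics are stochastically antimonotone. -/
theorem aStat_antimono (i l : Fin 3) (hil : i ≠ l) (y : ℕ)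
    (hy : ∃ x : Bip r t, aStat t i x = y) (hy1 : ∃ x : Bip r t, aStat t i x = y + 1)
    (u : ℕ → ℝ) (hu : Monotone u) :
    lev (aStat (r := r) t i) (u ∘ aStat t l) (y + 1) ≤ lev (aStat (r := r) t i) (u ∘ aStat t l) y := by
  classical
  -- the third index
  obtain ⟨m, hmi, hml⟩ : ∃ m : Fin 3, m ≠ i ∧ m ≠ l := exists_third i l
  have huniv : (univ : Finset (Fin 3)) = {i, l, m} := univ_three i l m hil hmi hml
  set X0 := univ.filter (fun x : Bip r t => y = aStat t i x) with hX0
  set X1 := univ.filter (fun x : Bip r t => y + 1 = aStat t i x) with hX1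
  let A0 : ℕ → ℕ := fun v => (X0.filter (fun x => aStat t l x = v)).card
  let A1 : ℕ → ℕ := fun v => (X1.filter (fun x => aStat t l x = v)).card
  let K : ℕ := cT t 2 + cT t 3
  let ζ : ℕ := y + 1 + K - r i
  let pm : ℕ → ℕ := fun v => cT t 1 - y - v
  let zm : ℕ → ℕ := fun v => pm v + K - r m
  obtain ⟨x₀, hx₀⟩ := hy
  obtain ⟨x₁, hx₁⟩ := hy1
  have hζ : 0 < ζ := by
    have := z_add_r x₀ i
    simp only [ζ, K]
    omega
  have hsum3 : ∀ x : Bip r t, aStat t i x + aStat t l x + aStat t m x = cT t 1 := by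
    intro x
    have := sum_a x
    rw [huniv, Finset.sum_insert (by simp [hil, hmi.symm]), Finset.sum_pair hml.symm] at this
    omega
  have hcount : ∀ v, A1 v * ((y + 1) * ζ) = A0 v * (pm v * zm v) := by
    intro v
    have h1 := transfer_count (t := t) (r := r) hmi.symm hil.symm hml.symm y v
    have h2 : ∑ x ∈ X1.filter (fun x => aStat t l x = v), aStat t i x * zStat t i x
        = A1 v * ((y + 1) * ζ) := by
      rw [Finset.sum_congr rfl (g := fun _ => (y + 1) * ζ)]
      · simp [A1]
      · intro x hx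
        simp only [hX1, mem_filter, mem_univ, true_and] at hx
        have h3 := z_add_r x i
        have h4 : zStat t i x = ζ := by
          simp only [ζ, K]
          omega
        rw [h4, ← hx.1]
    have h3 : ∑ x ∈ X0.filter (fun x => aStat t l x = v), aStat t m x * zStat t m x
        = A0 v * (pm v * zm v) := by
      rw [Finset.sum_congr rfl (g := fun _ => pm v * zm v)]
      · simp [A0]
      · intro x hx
        simp only [hX0, mem_filter, mem_univ, true_and] at hx
        have h4 := hsum3 x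
        have h5 := z_add_r x m
        have h6 : aStat t m x = pm v := by
          simp only [pm]
          omega
        have h7 : zStat t m x = zm v := by
          simp only [zm, K]
          omega
        rw [h6, h7]
    rw [← h2, ← h3]
    exact h1.symm ▸ rfl
  have hpm : ∀ v w, v < w → pm w * zm w ≤ pm v * zm v := by
    intro v w hvw
    apply Nat.mul_le_mul
    · simp only [pm]; omega
    · simp only [zm, pm]; omega
  have hRR : ∀ v w, v < w → A1 w * A0 v ≤ A1 v * A0 w := by
    intro v w hvw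
    have hc : 0 < (y + 1) * ζ := by positivity
    apply Nat.le_of_mul_le_mul_left _ hc
    calc (y + 1) * ζ * (A1 w * A0 v) = (A1 w * ((y + 1) * ζ)) * A0 v := by ring
      _ = (A0 w * (pm w * zm w)) * A0 v := by rw [hcount]
      _ ≤ (A0 w * (pm v * zm v)) * A0 v := by
          apply Nat.mul_le_mul_right
          apply Nat.mul_le_mul_left
          exact hpm v w hvw
      _ = (A0 v * (pm v * zm v)) * A0 w := by ring
      _ = (A1 v * ((y + 1) * ζ)) * A0 w := by rw [hcount]
      _ = (y + 1) * ζ * (A1 v * A0 w) := by ring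
  -- pass to sums
  let V : Finset ℕ := univ.image (aStat (r := r) t l)
  have hV : ∀ x : Bip r t, aStat t l x ∈ V := fun x => by simp [V]
  have hS : ∀ (X : Finset (Bip r t)), ∑ x ∈ X, u (aStat t l x)
      = ∑ v ∈ V, ((X.filter (fun x => aStat t l x = v)).card : ℝ) * u v := by
    intro X
    rw [← Finset.sum_fiberwise_of_maps_to (fun x _ => hV x)]
    apply Finset.sum_congr rfl
    intro v _
    rw [Finset.sum_congr rfl (g := fun _ => u v)]
    · simp
    · intro x hx
      simp only [mem_filter] at hx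
      rw [hx.2]
  have hC : ∀ (X : Finset (Bip r t)), (X.card : ℝ)
      = ∑ v ∈ V, ((X.filter (fun x => aStat t l x = v)).card : ℝ) := by
    intro X
    rw [Finset.card_eq_sum_card_fiberwise (fun x _ => hV x)]
    push_cast
    rfl
  have hmlr := mlr_sum V (fun v => (A1 v : ℝ)) (fun v => (A0 v : ℝ)) u hu (by
    intro v _ w _ hvw
    have := hRR v w hvw
    exact_mod_cast this)
  have hC0 : (0 : ℝ) < (X0.card : ℝ) := by
    have : 0 < X0.card := Finset.card_pos.mpr ⟨x₀, by simp [hX0, hx₀]⟩
    exact_mod_cast this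
  have hC1 : (0 : ℝ) < (X1.card : ℝ) := by
    have : 0 < X1.card := Finset.card_pos.mpr ⟨x₁, by simp [hX1, hx₁]⟩
    exact_mod_cast this
  unfold lev
  simp only [Function.comp]
  change (∑ x ∈ X1, u (aStat t l x)) / (X1.card : ℝ) ≤ (∑ x ∈ X0, u (aStat t l x)) / (X0.card : ℝ)
  rw [div_le_div_iff₀ hC1 hC0]
  have e1 := hS X1
  have e0 := hS X0
  have c1 := hC X1
  have c0 := hC X0
  rw [e1, e0, c0, c1]
  exact hmlr

/-- Pythagoras for an average. -/
theorem pyth_avg {Ω : Type*} [Fintype Ω] {s : Ω → Ω → Prop} [DecidableRel s]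
    (hs : Equivalence s) (g : Ω → ℝ) :
    g ⬝ᵥ g = avg s g ⬝ᵥ avg s g + (g - avg s g) ⬝ᵥ (g - avg s g) := by
  have h := avg_dot_avg hs g
  simp only [sub_dotProduct, dotProduct_sub]
  rw [dotProduct_comm (avg s g) g]
  rw [h]
  have h2 := dotProduct_comm g (avg s g)
  linarith

/-- The main bound for three rows. -/
theorem three_row_bound (f : Bip r t → ℝ) :
    ∑ e, avg (rRow e) f ⬝ᵥ avg (rRow e) f ≤ 2 * (f ⬝ᵥ f) + avg relTop f ⬝ᵥ avg relTop f := by
  classical
  set f₀ := f - avg relTop f with hf₀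
  let φ : Fin 3 → Bip r t → ℝ := fun e => avg (rRow e) f₀
  have hm0 : avg relTop f₀ = 0 := by
    rw [hf₀, avg_sub, avg_avg relTop_equiv, sub_self]
  have hφm : ∀ e, Meas (rRow e) (φ e) := fun e => avg_meas (rRow_equiv e) _
  have hφ0 : ∀ e, avg relTop (φ e) = 0 := by
    intro e
    simp only [φ]
    rw [avg_tower (rRow_equiv e) relTop_equiv (fun _ _ _ => trivial), hm0]
  -- radial part
  let φb : Fin 3 → Bip r t → ℝ := fun e => avg relA (φ e)
  let φt : Fin 3 → Bip r t → ℝ := fun e => φ e - φb e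
  have hφb : ∀ e, φb e = avg (sameVal (aStat t e)) (φ e) := fun e =>
    avg_relA_of_row e (φ e) (hφm e)
  have hφb0 : ∀ e, avg relTop (φb e) = 0 := by
    intro e
    simp only [φb]
    rw [avg_tower relA_equiv relTop_equiv (fun _ _ _ => trivial), hφ0]
  have hφbm : ∀ e, Meas (sameVal (aStat t e)) (φb e) := by
    intro e
    rw [hφb]
    exact avg_meas (sameVal_equiv _) _
  have hrad : (∑ e, φb e) ⬝ᵥ (∑ e, φb e) ≤ 2 * ∑ e, φb e ⬝ᵥ φb e := by
    apply sform_of_kform (fun e => sameVal (aStat (r := r) t e)) (fun _ => sameVal_equiv _) φb hφbm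
    apply radial_bound (fun e => aStat (r := r) t e)
    · intro i x w h
      exact aStat_interval i x w h
    · intro i l hil y hy hy1 u hu
      exact aStat_antimono i l hil y hy hy1 u hu
    · rw [avg_sum]
      simp [hφb0]
  -- fibre part
  have hφt0 : ∀ e, avg relA (φt e) = 0 := by
    intro e
    simp only [φt, φb]
    rw [avg_sub, avg_avg relA_equiv, sub_self]
  have hφtm : ∀ e, Meas (rR e) (φt e) := by
    intro e x y hxy
    have h1 := hφm e x y hxy.1
    have h2 := avg_meas relA_equiv (φ e) x y hxy.2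
    simp only [φt, φb, Pi.sub_apply, h1, h2]
  have hfib : (∑ e, φt e) ⬝ᵥ (∑ e, φt e) ≤ 2 * ∑ e, φt e ⬝ᵥ φt e := by
    apply sform_of_kform rR rR_equiv φt hφtm
    apply three_interchange
    rw [avg_sum]
    simp [hφt0]
  -- pythagoras
  set v := ∑ e, φ e with hv
  have hvb : avg relA v = ∑ e, φb e := by
    rw [hv, avg_sum]
  have hvt : v - avg relA v = ∑ e, φt e := by
    rw [hvb, hv, ← Finset.sum_sub_distrib]
  have hpv := pyth_avg relA_equiv v
  rw [hvb, ← hvb, hvt, hvb] at hpv
  have hpe : ∀ e, φ e ⬝ᵥ φ e = φb e ⬝ᵥ φb e + φt e ⬝ᵥ φt e := fun e => pyth_avg relA_equiv (φ e)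
  have hS : v ⬝ᵥ v ≤ 2 * ∑ e, φ e ⬝ᵥ φ e := by
    rw [hpv]
    simp only [hpe]
    rw [Finset.sum_add_distrib]
    linarith
  -- sum of squares bound
  have hdot : ∑ e, φ e ⬝ᵥ φ e = v ⬝ᵥ f₀ := by
    rw [hv, sum_dotProduct]
    apply Finset.sum_congr rfl
    intro e _
    change avg (rRow e) f₀ ⬝ᵥ avg (rRow e) f₀ = avg (rRow e) f₀ ⬝ᵥ f₀
    rw [avg_dot_avg (rRow_equiv e), dotProduct_comm]
  have hq := dot_le_quarter v f₀
  have hK : ∑ e, φ e ⬝ᵥ φ e ≤ 2 * (f₀ ⬝ᵥ f₀) := by
    rw [← hdot] at hq
    linarith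
  -- back to f
  have hfdec : f = f₀ + avg relTop f := by rw [hf₀]; abel
  have hpf := pyth_avg relTop_equiv f
  rw [← hf₀] at hpf
  have hE : ∀ e, avg (rRow e) f = φ e + avg relTop f := by
    intro e
    conv_lhs => rw [hfdec]
    rw [avg_add]
    congr 1
    exact avg_of_coarser (rRow_equiv e) relTop_equiv (fun _ _ _ => trivial) f
  have hcross : ∀ e, φ e ⬝ᵥ avg relTop f = 0 := by
    intro e
    have h1 : φ e ⬝ᵥ avg relTop f = avg relTop (φ e) ⬝ᵥ f := by
      rw [avg_dot relTop_equiv]
    rw [h1, hφ0]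
    simp
  have hsq : ∀ e, avg (rRow e) f ⬝ᵥ avg (rRow e) f
      = φ e ⬝ᵥ φ e + avg relTop f ⬝ᵥ avg relTop f := by
    intro e
    rw [hE e, add_dotProduct, dotProduct_add, dotProduct_add, hcross e,
      dotProduct_comm (avg relTop f) (φ e), hcross e]
    ring
  simp only [hsq]
  rw [Finset.sum_add_distrib]
  simp only [Finset.sum_const, Finset.card_univ, Fintype.card_fin, nsmul_eq_mul]
  push_cast
  linarith

end Vale.Agent.Lib.P335
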